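import Vale.Agent.H15.F.Defs

/-!
P143: internal definitions shared by all modules.
-/

open MeasureTheory Filter Topology
open scoped ENNReal

namespace Vale.Agent.H15.F

/-- square-summable functions on darts (ordered pairs of vertices) -/
abbrev Hs := lp (fun _ : ℕ × ℕ => ℝ) 2

/-- the unit vector at a dart -/
noncomputable def dl (d : ℕ × ℕ) : Hs := lp.single 2 d 1

/-- action of the permutations of the vertex set -/
class PermAct (Ω : Type*) where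
  /-- the action -/
  act : Equiv.Perm ℕ → Ω → Ω

export PermAct (act)

instance instActSet : PermAct (Set (Sym2 ℕ)) := ⟨fun σ s => Sym2.map σ '' s⟩

instance instActFun {M : Type*} : PermAct (Sym2 ℕ → M) :=
  ⟨fun σ ξ e => ξ (Sym2.map σ.symm e)⟩

instance instActProd {Ω Ω' : Type*} [PermAct Ω] [PermAct Ω'] : PermAct (Ω × Ω') :=
  ⟨fun σ p => (act σ p.1, act σ p.2)⟩

/-- action on darts -/
def pd (σ : Equiv.Perm ℕ) (d : ℕ × ℕ) : ℕ × ℕ := (σ d.1, σ d.2)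

/-- mass transport principle for a law of a configuration with a root -/
def MTP {Ω : Type*} [MeasurableSpace Ω] [PermAct Ω] (m : Measure (Ω × ℕ)) : Prop :=
  ∀ f : Ω → ℕ → ℕ → ℝ≥0∞, (∀ x y, Measurable fun ω => f ω x y) →
    (∀ (σ : Equiv.Perm ℕ) (ω : Ω) (x y : ℕ), f (act σ ω) (σ x) (σ y) = f ω x y) →
    ∫⁻ p, ∑' y, f p.1 p.2 y ∂m = ∫⁻ p, ∑' y, f p.1 y p.2 ∂m

/-- the cylinder event -/
def cyl (A B : Finset (Sym2 ℕ)) : Set (Set (Sym2 ℕ)) :=
  {F | (A : Set (Sym2 ℕ)) ⊆ F ∧ Disjoint (B : Set (Sym2 ℕ)) F}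

/-- finite-energy functions on darts, vanishing off `s \ A`, that are gradients on every
finite piece of `s` -/
def Hsp (s A : Set (Sym2 ℕ)) : Submodule ℝ Hs where
  carrier := {h | (∀ W : Finset ℕ, ∃ u : ℕ → ℝ, ∀ x ∈ W, ∀ y ∈ W, s(x, y) ∈ s →
      h (x, y) = u y - u x) ∧ ∀ x y : ℕ, (s(x, y) ∉ s ∨ s(x, y) ∈ A) → h (x, y) = 0}
  add_mem' := by
    rintro h k ⟨h1, h2⟩ ⟨k1, k2⟩
    refine ⟨fun W => ?_, fun x y hxy => ?_⟩
    · obtain ⟨u, hu⟩ := h1 W
      obtain ⟨v, hv⟩ := k1 W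
      refine ⟨fun z => u z + v z, fun x hx y hy hs => ?_⟩
      rw [lp.coeFn_add, Pi.add_apply, hu x hx y hy hs, hv x hx y hy hs]
      ring
    · rw [lp.coeFn_add, Pi.add_apply, h2 x y hxy, k2 x y hxy, add_zero]
  zero_mem' := ⟨fun W => ⟨fun _ => 0, fun x _ y _ _ => by simp⟩, fun x y _ => by simp⟩
  smul_mem' := by
    rintro c h ⟨h1, h2⟩
    refine ⟨fun W => ?_, fun x y hxy => ?_⟩
    · obtain ⟨u, hu⟩ := h1 W
      refine ⟨fun z => c * u z, fun x hx y hy hs => ?_⟩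
      rw [lp.coeFn_smul, Pi.smul_apply, hu x hx y hy hs, smul_eq_mul]
      ring
    · rw [lp.coeFn_smul, Pi.smul_apply, h2 x y hxy, smul_zero]

/-- functions on darts supported on the darts of `S` -/
def Csp (S : Set (Sym2 ℕ)) : Submodule ℝ Hs where
  carrier := {h | ∀ x y : ℕ, s(x, y) ∉ S → h (x, y) = 0}
  add_mem' := by
    intro h k h1 k1 x y hxy
    rw [lp.coeFn_add, Pi.add_apply, h1 x y hxy, k1 x y hxy, add_zero]
  zero_mem' := fun x y _ => by simp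
  smul_mem' := by
    intro c h h1 x y hxy
    rw [lp.coeFn_smul, Pi.smul_apply, h1 x y hxy, smul_zero]

/-- antisymmetric functions on darts supported on the darts of `S` -/
def Asp (S : Set (Sym2 ℕ)) : Submodule ℝ Hs where
  carrier := {h | (∀ x y : ℕ, s(x, y) ∉ S → h (x, y) = 0) ∧ ∀ x y : ℕ, h (x, y) = - h (y, x)}
  add_mem' := by
    rintro h k ⟨h1, h2⟩ ⟨k1, k2⟩
    refine ⟨fun x y hxy => ?_, fun x y => ?_⟩
    · rw [lp.coeFn_add, Pi.add_apply, h1 x y hxy, k1 x y hxy, add_zero]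
    · rw [lp.coeFn_add, Pi.add_apply, Pi.add_apply, h2 x y, k2 x y]; ring
  zero_mem' := ⟨fun x y _ => by simp, fun x y => by simp⟩
  smul_mem' := by
    rintro c h ⟨h1, h2⟩
    refine ⟨fun x y hxy => ?_, fun x y => ?_⟩
    · rw [lp.coeFn_smul, Pi.smul_apply, h1 x y hxy, smul_zero]
    · rw [lp.coeFn_smul, Pi.smul_apply, Pi.smul_apply, h2 x y, smul_neg]

/-- orthogonal projection onto the closure of a subspace -/
noncomputable def prj (N : Submodule ℝ Hs) : Hs →L[ℝ] Hs := N.topologicalClosure.starProjection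

/-- `X(s,A,S)`: restriction off `S` of the space `Hsp s A` (take closure via `prj`) -/
noncomputable def Xsp (s A S : Set (Sym2 ℕ)) : Submodule ℝ Hs :=
  (Hsp s A).map (prj (Csp Sᶜ)).toLinearMap

/-- the conditional probability of an edge given that the forest meets `S` in `A` -/
noncomputable def xval (s A S : Set (Sym2 ℕ)) : Sym2 ℕ → ℝ :=
  Sym2.lift ⟨fun x y => ‖prj (Xsp s A S) (dl (x, y))‖ ^ 2 + ‖prj (Xsp s A S) (dl (y, x))‖ ^ 2,
    fun _ _ => add_comm _ _⟩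

open Classical in
/-- energy of `h` off `S` -/
noncomputable def en (S : Set (Sym2 ℕ)) (h : Hs) : ℝ :=
  (1 / 2) * ∑' d : ℕ × ℕ, if s(d.1, d.2) ∈ S then 0 else (h d) ^ 2

/-- matrix entries are measurable -/
def MeasOp {Ω : Type*} [MeasurableSpace Ω] (T : Ω → Hs →L[ℝ] Hs) : Prop :=
  ∀ d d' : ℕ × ℕ, Measurable fun ω => T ω (dl d) d'

/-- matrix entries are invariant -/
def EquivOp {Ω : Type*} [PermAct Ω] (T : Ω → Hs →L[ℝ] Hs) : Prop :=
  ∀ (σ : Equiv.Perm ℕ) (ω : Ω) (d d' : ℕ × ℕ),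
    T (act σ ω) (dl (pd σ d)) (pd σ d') = T ω (dl d) d'

/-- uniform law on `[0,1]`, as a measure on the reals -/
noncomputable def lam : Measure ℝ := volume.restrict (Set.Icc 0 1)

/-- law of i.i.d. uniform edge labels -/
noncomputable def lamE : Measure (Sym2 ℕ → ℝ) := Measure.infinitePi fun _ => lam

/-- law of i.i.d. exponential edge clocks -/
noncomputable def expE : Measure (Sym2 ℕ → ℝ) :=
  Measure.infinitePi fun _ => ProbabilityTheory.expMeasure 1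

/-- The sampling identity: given `F ∩ S`, the edge `e` is in `F` with probability
`xval s (F ∩ S) S e`. -/
def IDp (μ : Measure (Set (Sym2 ℕ))) (s S : Set (Sym2 ℕ)) (e : Sym2 ℕ) : Prop :=
  ∀ C : Set (Set (Sym2 ℕ)), MeasurableSet C →
    ∫⁻ F in {F | F ∩ S ∈ C}, ENNReal.ofReal (xval s (F ∩ S) S e) ∂μ = μ {F | F ∩ S ∈ C ∧ e ∈ F}

/-- product of increments along an edge -/
def dd {V : Type*} (u u' : V → ℝ) : Sym2 V → ℝ :=
  Sym2.lift ⟨fun x y => (u y - u x) * (u' y - u' x), fun x y => by ring⟩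

/-- edges of `s` before `e` -/
def past (s : Set (Sym2 ℕ)) (τ : Sym2 ℕ → ℝ≥0∞) (e : Sym2 ℕ) : Set (Sym2 ℕ) :=
  {g | g ∈ s ∧ τ g < τ e}

open Classical in
/-- the label that makes `F` a function of the labels -/
noncomputable def Vlab (x : Sym2 ℕ → Set (Sym2 ℕ) → ℝ) (P : Sym2 ℕ → Set (Sym2 ℕ))
    (F : Set (Sym2 ℕ)) (W : Sym2 ℕ → ℝ) : Sym2 ℕ → ℝ := fun e =>
  if e ∈ F then W e * x e (F ∩ P e) else x e (F ∩ P e) + (1 - x e (F ∩ P e)) * W e

/-- degree -/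
noncomputable def dg (s : Set (Sym2 ℕ)) (x : ℕ) : ℝ≥0∞ := ∑' y, s.indicator 1 s(x, y)

/-- larger degree of the two end-points -/
noncomputable def De (s : Set (Sym2 ℕ)) : Sym2 ℕ → ℝ≥0∞ :=
  Sym2.lift ⟨fun x y => max (dg s x) (dg s y), fun _ _ => max_comm _ _⟩

/-- clock -/
noncomputable def clk (s : Set (Sym2 ℕ)) (u : Sym2 ℕ → ℝ) (e : Sym2 ℕ) : ℝ≥0∞ :=
  ENNReal.ofReal (u e) * De s e

/-- edges whose clock rang before `r` -/
def Sr (s : Set (Sym2 ℕ)) (u : Sym2 ℕ → ℝ) (r : ℝ≥0∞) : Set (Sym2 ℕ) := {g | g ∈ s ∧ clk s u g < r}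

/-- Picard iteration -/
noncomputable def Phi : ℕ → Set (Sym2 ℕ) → (Sym2 ℕ → ℝ) → (Sym2 ℕ → ℝ) → Set (Sym2 ℕ)
  | 0, _, _, _ => ∅
  | n + 1, s, u, v => {e | e ∈ s ∧
      v e < xval s (Phi n s u v ∩ past s (clk s u) e) (past s (clk s u) e) e}

/-- the coupled uniform labels -/
noncomputable def Vl (s : Set (Sym2 ℕ)) (u : Sym2 ℕ → ℝ) (F : Set (Sym2 ℕ)) (W : Sym2 ℕ → ℝ) :
    Sym2 ℕ → ℝ :=
  Vlab (fun e A => xval s A (past s (clk s u) e) e) (past s (clk s u)) F W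

end Vale.Agent.H15.F
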