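import Vale.Agent.H15.F.Core

open MeasureTheory Filter Topology
open scoped ENNReal

namespace Vale.Agent.H15.F

theorem coup_measurable_inter (P : Set (Sym2 ℕ)) :
    Measurable fun F : Set (Sym2 ℕ) => F ∩ P := by
  refine measurable_set_iff.2 fun a => ?_
  by_cases h : a ∈ P
  · simpa [h] using measurable_set_mem a
  · simp [h]

theorem coup_lam_prob : IsProbabilityMeasure lam := by
  constructor
  unfold lam
  simp

attribute [local instance] coup_lam_prob

theorem coup_lamE_prob : IsProbabilityMeasure lamE := by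
  unfold lamE
  infer_instance

attribute [local instance] coup_lamE_prob

theorem coup_measurable_update (e : Sym2 ℕ) :
    Measurable (fun p : (Sym2 ℕ → ℝ) × ℝ => Function.update p.1 e p.2) := by
  refine measurable_pi_lambda _ fun g => ?_
  by_cases h : g = e
  · subst h
    simpa using measurable_snd
  · simp only [Function.update_of_ne h]
    exact (measurable_pi_apply g).comp measurable_fst

theorem coup_resample_law (e : Sym2 ℕ) :
    (lamE.prod lam).map (fun p => Function.update p.1 e p.2) = lamE := by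
  classical
  refine Measure.eq_infinitePi _ fun s t ht => ?_
  rw [Measure.map_apply (coup_measurable_update e) (.pi s.countable_toSet fun _ _ => ht _)]
  by_cases he : e ∈ s
  · have h1 : ((fun p : (Sym2 ℕ → ℝ) × ℝ => Function.update p.1 e p.2) ⁻¹'
        (Set.pi (s : Set (Sym2 ℕ)) t)) = (Set.pi ((s.erase e : Finset (Sym2 ℕ)) : Set (Sym2 ℕ)) t) ×ˢ
          t e := by
      ext p
      simp only [Set.mem_preimage, Set.mem_pi, Finset.mem_coe, Set.mem_prod, Finset.mem_erase]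
      constructor
      · intro h
        refine ⟨fun g hg => ?_, ?_⟩
        · have := h g hg.2
          rwa [Function.update_of_ne hg.1] at this
        · have := h e he
          rwa [Function.update_self] at this
      · rintro ⟨h2, h3⟩ g hg
        by_cases hge : g = e
        · subst hge
          rwa [Function.update_self]
        · rw [Function.update_of_ne hge]
          exact h2 g ⟨hge, hg⟩
    rw [h1, Measure.prod_prod]
    unfold lamE
    rw [Measure.infinitePi_pi _ (fun i _ => ht _), mul_comm, Finset.mul_prod_erase s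
      (fun i => lam (t i)) he]
  · have h1 : ((fun p : (Sym2 ℕ → ℝ) × ℝ => Function.update p.1 e p.2) ⁻¹'
        (Set.pi (s : Set (Sym2 ℕ)) t)) = (Set.pi (s : Set (Sym2 ℕ)) t) ×ˢ Set.univ := by
      ext p
      simp only [Set.mem_preimage, Set.mem_pi, Finset.mem_coe, Set.mem_prod, Set.mem_univ,
        and_true]
      refine forall₂_congr fun g hg => ?_
      have hge : g ≠ e := by
        rintro rfl
        exact he hg
      rw [Function.update_of_ne hge]
    rw [h1, Measure.prod_prod]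
    unfold lamE
    rw [Measure.infinitePi_pi _ (fun i _ => ht _), measure_univ, mul_one]

theorem coup_resample {e : Sym2 ℕ} {H : (Sym2 ℕ → ℝ) → ℝ → ℝ≥0∞}
    (hH : Measurable fun q : (Sym2 ℕ → ℝ) × ℝ => H q.1 q.2)
    (hloc : ∀ W W', (∀ g, g ≠ e → W g = W' g) → H W = H W') :
    ∫⁻ W, H W (W e) ∂lamE = ∫⁻ W, ∫⁻ z, H W z ∂lam ∂lamE := by
  classical
  have hm : Measurable fun W : Sym2 ℕ → ℝ => H W (W e) :=
    hH.comp (measurable_id.prodMk (measurable_pi_apply e))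
  conv_lhs => rw [← coup_resample_law e]
  rw [lintegral_map hm (coup_measurable_update e), lintegral_prod _ (by
    exact (hm.comp (coup_measurable_update e)).aemeasurable)]
  refine lintegral_congr fun W => lintegral_congr fun z => ?_
  simp only [Function.update_self]
  rw [hloc (Function.update W e z) W fun g hg => Function.update_of_ne hg _ _]

theorem coup_cond {μ : Measure (Set (Sym2 ℕ))} [IsProbabilityMeasure μ] {P : Set (Sym2 ℕ)}
    {e : Sym2 ℕ} {x : Set (Sym2 ℕ) → ℝ} (hx : Measurable x) (h0 : ∀ A, 0 ≤ x A)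
    (h1 : ∀ A, x A ≤ 1)
    (hID : ∀ C : Set (Set (Sym2 ℕ)), MeasurableSet C →
      ∫⁻ F in {F | F ∩ P ∈ C}, ENNReal.ofReal (x (F ∩ P)) ∂μ = μ {F | F ∩ P ∈ C ∧ e ∈ F})
    {k1 k2 : Set (Sym2 ℕ) → ℝ≥0∞} (hk1 : Measurable k1) (hk2 : Measurable k2) :
    ∫⁻ F, (open Classical in if e ∈ F then k1 (F ∩ P) else k2 (F ∩ P)) ∂μ =
      ∫⁻ F, (ENNReal.ofReal (x (F ∩ P)) * k1 (F ∩ P) +
        ENNReal.ofReal (1 - x (F ∩ P)) * k2 (F ∩ P)) ∂μ := by
  classical
  have hι := coup_measurable_inter P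
  have hE : MeasurableSet {F : Set (Sym2 ℕ) | e ∈ F} := measurableSet_mem e
  have hxι : Measurable fun F : Set (Sym2 ℕ) => ENNReal.ofReal (x (F ∩ P)) :=
    (hx.comp hι).ennreal_ofReal
  have hxι' : Measurable fun F : Set (Sym2 ℕ) => ENNReal.ofReal (1 - x (F ∩ P)) :=
    (measurable_const.sub (hx.comp hι)).ennreal_ofReal
  have hy : Measurable fun A : Set (Sym2 ℕ) => ENNReal.ofReal (1 - x A) :=
    (measurable_const.sub hx).ennreal_ofReal
  have hh : Measurable fun F : Set (Sym2 ℕ) => ENNReal.ofReal (x (F ∩ P)) * k1 (F ∩ P) :=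
    hxι.mul (hk1.comp hι)
  have E1 : (μ.restrict {F | e ∈ F}).map (fun F => F ∩ P) =
      (μ.map (fun F => F ∩ P)).withDensity (fun A => ENNReal.ofReal (x A)) := by
    ext C hC
    rw [Measure.map_apply hι hC, Measure.restrict_apply (hι hC), withDensity_apply _ hC,
      setLIntegral_map hC hx.ennreal_ofReal hι]
    exact (hID C hC).symm
  have E2 : (μ.restrict {F | e ∈ F}ᶜ).map (fun F => F ∩ P) =
      (μ.map (fun F => F ∩ P)).withDensity (fun A => ENNReal.ofReal (1 - x A)) := by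
    ext C hC
    rw [Measure.map_apply hι hC, Measure.restrict_apply (hι hC), withDensity_apply _ hC,
      setLIntegral_map hC hy hι]
    have e1 : μ ((fun F => F ∩ P) ⁻¹' C ∩ {F | e ∈ F}) + μ ((fun F => F ∩ P) ⁻¹' C ∩ {F | e ∈ F}ᶜ) =
        μ ((fun F => F ∩ P) ⁻¹' C) := measure_inter_add_sdiff _ hE
    have e2 : ∫⁻ F in (fun F => F ∩ P) ⁻¹' C, ENNReal.ofReal (x (F ∩ P)) ∂μ +
        ∫⁻ F in (fun F => F ∩ P) ⁻¹' C, ENNReal.ofReal (1 - x (F ∩ P)) ∂μ =
        μ ((fun F => F ∩ P) ⁻¹' C) := by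
      rw [← lintegral_add_left hxι]
      have : ∀ F : Set (Sym2 ℕ), ENNReal.ofReal (x (F ∩ P)) + ENNReal.ofReal (1 - x (F ∩ P)) = 1 := by
        intro F
        rw [← ENNReal.ofReal_add (h0 _) (by linarith [h1 (F ∩ P)])]
        simp
      simp only [this]
      simp
    have e3 : ∫⁻ F in (fun F => F ∩ P) ⁻¹' C, ENNReal.ofReal (x (F ∩ P)) ∂μ =
        μ ((fun F => F ∩ P) ⁻¹' C ∩ {F | e ∈ F}) := hID C hC
    rw [e3, ← e1] at e2
    exact ((ENNReal.add_right_inj (measure_ne_top _ _)).1 e2).symm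
  have s1 : ∫⁻ F in {F | e ∈ F}, (if e ∈ F then k1 (F ∩ P) else k2 (F ∩ P)) ∂μ =
      ∫⁻ F, ENNReal.ofReal (x (F ∩ P)) * k1 (F ∩ P) ∂μ := by
    rw [setLIntegral_congr_fun hE (g := fun F => k1 (F ∩ P)) (fun F hF => by
      have : e ∈ F := hF
      simp [this])]
    rw [← lintegral_map (f := k1) hk1 hι, E1, lintegral_withDensity_eq_lintegral_mul _
      hx.ennreal_ofReal hk1, lintegral_map (hx.ennreal_ofReal.mul hk1) hι]
    rfl
  have s2 : ∫⁻ F in {F | e ∈ F}ᶜ, (if e ∈ F then k1 (F ∩ P) else k2 (F ∩ P)) ∂μ =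
      ∫⁻ F, ENNReal.ofReal (1 - x (F ∩ P)) * k2 (F ∩ P) ∂μ := by
    rw [setLIntegral_congr_fun hE.compl (g := fun F => k2 (F ∩ P)) (fun F hF => by
      have : e ∉ F := hF
      simp [this])]
    rw [← lintegral_map (f := k2) hk2 hι, E2, lintegral_withDensity_eq_lintegral_mul _
      hy hk2, lintegral_map (hy.mul hk2) hι]
    rfl
  rw [← lintegral_add_compl _ hE, s1, s2, ← lintegral_add_left hh]

open Classical in
theorem coup_GD {μ : Measure (Set (Sym2 ℕ))} [IsProbabilityMeasure μ] {P : Set (Sym2 ℕ)}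
    {e : Sym2 ℕ} {x : Set (Sym2 ℕ) → ℝ} (hx : Measurable x) (h0 : ∀ A, 0 ≤ x A)
    (h1 : ∀ A, x A ≤ 1)
    (hID : ∀ C : Set (Set (Sym2 ℕ)), MeasurableSet C →
      ∫⁻ F in {F | F ∩ P ∈ C}, ENNReal.ofReal (x (F ∩ P)) ∂μ = μ {F | F ∩ P ∈ C ∧ e ∈ F})
    {K1 K2 : Set (Sym2 ℕ) → (Sym2 ℕ → ℝ) → ℝ → ℝ≥0∞}
    (hK1 : Measurable fun q : Set (Sym2 ℕ) × (Sym2 ℕ → ℝ) × ℝ => K1 q.1 q.2.1 q.2.2)
    (hK2 : Measurable fun q : Set (Sym2 ℕ) × (Sym2 ℕ → ℝ) × ℝ => K2 q.1 q.2.1 q.2.2)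
    (hF1 : ∀ F W z, K1 (F ∩ P) W z = K1 F W z) (hF2 : ∀ F W z, K2 (F ∩ P) W z = K2 F W z)
    (hW1 : ∀ F W W', (∀ g, g ≠ e → W g = W' g) → K1 F W = K1 F W')
    (hW2 : ∀ F W W', (∀ g, g ≠ e → W g = W' g) → K2 F W = K2 F W') :
    ∫⁻ p : Set (Sym2 ℕ) × (Sym2 ℕ → ℝ),
        (if e ∈ p.1 then K1 p.1 p.2 (p.2 e) else K2 p.1 p.2 (p.2 e)) ∂(μ.prod lamE) =
      ∫⁻ p : Set (Sym2 ℕ) × (Sym2 ℕ → ℝ),
        (ENNReal.ofReal (x (p.1 ∩ P)) * ∫⁻ z, K1 p.1 p.2 z ∂lam +
          ENNReal.ofReal (1 - x (p.1 ∩ P)) * ∫⁻ z, K2 p.1 p.2 z ∂lam) ∂(μ.prod lamE) := by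
  have hι := coup_measurable_inter P
  have hE : MeasurableSet {p : Set (Sym2 ℕ) × (Sym2 ℕ → ℝ) | e ∈ p.1} :=
    (measurableSet_mem e).preimage measurable_fst
  have hk1 : Measurable fun p : Set (Sym2 ℕ) × (Sym2 ℕ → ℝ) => K1 p.1 p.2 (p.2 e) :=
    hK1.comp (measurable_fst.prodMk (measurable_snd.prodMk
      ((measurable_pi_apply e).comp measurable_snd)))
  have hk2 : Measurable fun p : Set (Sym2 ℕ) × (Sym2 ℕ → ℝ) => K2 p.1 p.2 (p.2 e) :=
    hK2.comp (measurable_fst.prodMk (measurable_snd.prodMk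
      ((measurable_pi_apply e).comp measurable_snd)))
  have hxa : Measurable fun F : Set (Sym2 ℕ) => ENNReal.ofReal (x (F ∩ P)) :=
    (hx.comp hι).ennreal_ofReal
  have hxb : Measurable fun F : Set (Sym2 ℕ) => ENNReal.ofReal (1 - x (F ∩ P)) :=
    (measurable_const.sub (hx.comp hι)).ennreal_ofReal
  have M1 : Measurable fun p : Set (Sym2 ℕ) × (Sym2 ℕ → ℝ) =>
      (if e ∈ p.1 then K1 p.1 p.2 (p.2 e) else K2 p.1 p.2 (p.2 e)) := Measurable.ite hE hk1 hk2
  have M2 : Measurable fun p : Set (Sym2 ℕ) × (Sym2 ℕ → ℝ) =>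
      (ENNReal.ofReal (x (p.1 ∩ P)) * K1 p.1 p.2 (p.2 e) +
          ENNReal.ofReal (1 - x (p.1 ∩ P)) * K2 p.1 p.2 (p.2 e)) :=
    ((hxa.comp measurable_fst).mul hk1).add ((hxb.comp measurable_fst).mul hk2)
  have hI1 : Measurable fun p : Set (Sym2 ℕ) × (Sym2 ℕ → ℝ) => ∫⁻ z, K1 p.1 p.2 z ∂lam := by
    refine Measurable.lintegral_prod_right' (f := fun q : (Set (Sym2 ℕ) × (Sym2 ℕ → ℝ)) × ℝ =>
      K1 q.1.1 q.1.2 q.2) ?_
    exact hK1.comp ((measurable_fst.comp measurable_fst).prodMk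
      ((measurable_snd.comp measurable_fst).prodMk measurable_snd))
  have hI2 : Measurable fun p : Set (Sym2 ℕ) × (Sym2 ℕ → ℝ) => ∫⁻ z, K2 p.1 p.2 z ∂lam := by
    refine Measurable.lintegral_prod_right' (f := fun q : (Set (Sym2 ℕ) × (Sym2 ℕ → ℝ)) × ℝ =>
      K2 q.1.1 q.1.2 q.2) ?_
    exact hK2.comp ((measurable_fst.comp measurable_fst).prodMk
      ((measurable_snd.comp measurable_fst).prodMk measurable_snd))
  have M3 : Measurable fun p : Set (Sym2 ℕ) × (Sym2 ℕ → ℝ) =>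
      (ENNReal.ofReal (x (p.1 ∩ P)) * ∫⁻ z, K1 p.1 p.2 z ∂lam +
          ENNReal.ofReal (1 - x (p.1 ∩ P)) * ∫⁻ z, K2 p.1 p.2 z ∂lam) :=
    ((hxa.comp measurable_fst).mul hI1).add ((hxb.comp measurable_fst).mul hI2)
  rw [lintegral_prod_symm _ M1.aemeasurable, lintegral_prod _ M3.aemeasurable]
  have e1 : ∀ W : Sym2 ℕ → ℝ, ∫⁻ F, (if e ∈ F then K1 F W (W e) else K2 F W (W e)) ∂μ =
      ∫⁻ F, (ENNReal.ofReal (x (F ∩ P)) * K1 F W (W e) +
          ENNReal.ofReal (1 - x (F ∩ P)) * K2 F W (W e)) ∂μ := by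
    intro W
    have hk1W : Measurable fun A : Set (Sym2 ℕ) => K1 A W (W e) :=
      hK1.comp (measurable_id.prodMk (measurable_const (a := (W, W e))))
    have hk2W : Measurable fun A : Set (Sym2 ℕ) => K2 A W (W e) :=
      hK2.comp (measurable_id.prodMk (measurable_const (a := (W, W e))))
    have := coup_cond hx h0 h1 hID hk1W hk2W
    simpa only [hF1, hF2] using this
  rw [lintegral_congr e1, ← lintegral_prod_symm _ M2.aemeasurable,
    lintegral_prod _ M2.aemeasurable]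
  refine lintegral_congr fun F => ?_
  have hK1F : Measurable fun q : (Sym2 ℕ → ℝ) × ℝ => K1 F q.1 q.2 :=
    hK1.comp (measurable_const.prodMk (measurable_fst.prodMk measurable_snd))
  have hK2F : Measurable fun q : (Sym2 ℕ → ℝ) × ℝ => K2 F q.1 q.2 :=
    hK2.comp (measurable_const.prodMk (measurable_fst.prodMk measurable_snd))
  have e2 := coup_resample (e := e) (H := fun W z => ENNReal.ofReal (x (F ∩ P)) * K1 F W z +
          ENNReal.ofReal (1 - x (F ∩ P)) * K2 F W z)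
    ((hK1F.const_mul _).add (hK2F.const_mul _)) (by
      intro W W' h
      simp only [hW1 F W W' h, hW2 F W W' h])
  simp only at e2 ⊢
  rw [e2]
  refine lintegral_congr fun W => ?_
  have hK1W : Measurable fun z : ℝ => K1 F W z := hK1F.comp (measurable_const.prodMk measurable_id)
  have hK2W : Measurable fun z : ℝ => K2 F W z := hK2F.comp (measurable_const.prodMk measurable_id)
  rw [lintegral_add_left (hK1W.const_mul _), lintegral_const_mul _ hK1W,
    lintegral_const_mul _ hK2W]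

/-- affine change of variables -/
theorem coup_aff (g : ℝ → ℝ≥0∞) {c : ℝ} (hc : 0 ≤ c) (d : ℝ) :
    ENNReal.ofReal c * ∫⁻ z, g (d + c * z) ∂lam = ∫⁻ y in Set.Icc d (d + c), g y := by
  unfold lam
  rcases hc.eq_or_lt with rfl | hc
  · simp
  · have himg : (fun z : ℝ => d + c * z) '' Set.Icc 0 1 = Set.Icc d (d + c) := by
      have := Set.image_affine_Icc' hc d 0 1
      simp only [mul_zero, zero_add, mul_one] at this
      have h2 : (fun z : ℝ => d + c * z) = fun x => c * x + d := by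
        funext z
        ring
      rw [h2, this, add_comm c d]
    have hinj : Set.InjOn (fun z : ℝ => d + c * z) (Set.Icc 0 1) := by
      intro a _ b _ hab
      simp only [add_right_inj] at hab
      exact mul_left_cancel₀ hc.ne' hab
    have h := lintegral_image_eq_lintegral_abs_deriv_mul (s := Set.Icc (0 : ℝ) 1)
      (f := fun z : ℝ => d + c * z) (f' := fun _ => c) measurableSet_Icc (fun z _ => by
        have : HasDerivAt (fun z : ℝ => d + c * z) c z := by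
          simpa using ((hasDerivAt_id z).const_mul c).const_add d
        exact this.hasDerivWithinAt) hinj g
    rw [himg] at h
    rw [h, abs_of_pos hc, lintegral_const_mul']
    exact ENNReal.ofReal_ne_top

theorem coup_unif {g : ℝ → ℝ≥0∞} {x : ℝ} (h0 : 0 ≤ x) (h1 : x ≤ 1) :
    ENNReal.ofReal x * ∫⁻ z, g (z * x) ∂lam +
      ENNReal.ofReal (1 - x) * ∫⁻ z, g (x + (1 - x) * z) ∂lam = ∫⁻ z, g z ∂lam := by
  have e1 := coup_aff g h0 0
  have e2 := coup_aff g (sub_nonneg.2 h1) x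
  simp only [zero_add] at e1
  rw [add_sub_cancel] at e2
  have e3 : ∀ z : ℝ, g (z * x) = g (x * z) := fun z => by rw [mul_comm]
  simp only [e3]
  rw [e1, e2]
  have e4 : ∫⁻ y in Set.Icc x 1, g y = ∫⁻ y in Set.Ioc x 1, g y :=
    setLIntegral_congr Ioc_ae_eq_Icc.symm
  have hd : Disjoint (Set.Icc 0 x) (Set.Ioc x 1) := by
    rw [Set.disjoint_left]
    intro a ha hb
    exact absurd hb.1 (not_lt.2 ha.2)
  rw [e4, ← lintegral_union measurableSet_Ioc hd, Set.Icc_union_Ioc_eq_Icc h0 h1]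
  rfl

theorem coup_inter_inter (F P : Set (Sym2 ℕ)) : F ∩ P ∩ P = F ∩ P := by
  rw [Set.inter_assoc, Set.inter_self]

open Classical in
/-- one step: integrate out the label of `e` -/
theorem coup_step {μ : Measure (Set (Sym2 ℕ))} [IsProbabilityMeasure μ] {P : Set (Sym2 ℕ)}
    {e : Sym2 ℕ} {x : Set (Sym2 ℕ) → ℝ} (hx : Measurable x) (h0 : ∀ A, 0 ≤ x A)
    (h1 : ∀ A, x A ≤ 1)
    (hID : ∀ C : Set (Set (Sym2 ℕ)), MeasurableSet C →
      ∫⁻ F in {F | F ∩ P ∈ C}, ENNReal.ofReal (x (F ∩ P)) ∂μ = μ {F | F ∩ P ∈ C ∧ e ∈ F})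
    {ψ : Set (Sym2 ℕ) × (Sym2 ℕ → ℝ) → ℝ≥0∞} (hψ : Measurable ψ)
    (hF : ∀ F W, ψ (F ∩ P, W) = ψ (F, W))
    (hW : ∀ F W W', (∀ g, g ≠ e → W g = W' g) → ψ (F, W) = ψ (F, W'))
    {g : ℝ → ℝ≥0∞} (hg : Measurable g) :
    ∫⁻ p, ψ p * g (if e ∈ p.1 then p.2 e * x (p.1 ∩ P) else
        x (p.1 ∩ P) + (1 - x (p.1 ∩ P)) * p.2 e) ∂(μ.prod lamE) =
      (∫⁻ p, ψ p ∂(μ.prod lamE)) * ∫⁻ z, g z ∂lam := by
  have hι := coup_measurable_inter P
  have hψ' : Measurable fun q : Set (Sym2 ℕ) × (Sym2 ℕ → ℝ) × ℝ => ψ (q.1, q.2.1) :=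
    hψ.comp (measurable_fst.prodMk (measurable_fst.comp measurable_snd))
  have hxm : Measurable fun q : Set (Sym2 ℕ) × (Sym2 ℕ → ℝ) × ℝ => x (q.1 ∩ P) :=
    (hx.comp hι).comp measurable_fst
  have hz : Measurable fun q : Set (Sym2 ℕ) × (Sym2 ℕ → ℝ) × ℝ => q.2.2 :=
    measurable_snd.comp measurable_snd
  have h := coup_GD (μ := μ) (P := P) (e := e) hx h0 h1 hID
    (K1 := fun F W z => ψ (F, W) * g (z * x (F ∩ P)))
    (K2 := fun F W z => ψ (F, W) * g (x (F ∩ P) + (1 - x (F ∩ P)) * z))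
    (hψ'.mul (hg.comp (hz.mul hxm)))
    (hψ'.mul (hg.comp (hxm.add ((measurable_const.sub hxm).mul hz))))
    (fun F W z => by simp only [hF, coup_inter_inter])
    (fun F W z => by simp only [hF, coup_inter_inter])
    (fun F W W' hw => by simp only [hW F W W' hw])
    (fun F W W' hw => by simp only [hW F W W' hw])
  have e1 : ∀ p : Set (Sym2 ℕ) × (Sym2 ℕ → ℝ), ψ p * g (if e ∈ p.1 then p.2 e * x (p.1 ∩ P) else
        x (p.1 ∩ P) + (1 - x (p.1 ∩ P)) * p.2 e) =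
      (if e ∈ p.1 then ψ (p.1, p.2) * g (p.2 e * x (p.1 ∩ P)) else
        ψ (p.1, p.2) * g (x (p.1 ∩ P) + (1 - x (p.1 ∩ P)) * p.2 e)) := by
    intro p
    split_ifs <;> rfl
  rw [lintegral_congr e1, h, ← lintegral_mul_const _ hψ]
  refine lintegral_congr fun p => ?_
  have m1 : Measurable fun z : ℝ => g (z * x (p.1 ∩ P)) :=
    hg.comp (measurable_id.mul_const _)
  have m2 : Measurable fun z : ℝ => g (x (p.1 ∩ P) + (1 - x (p.1 ∩ P)) * z) :=
    hg.comp ((measurable_id.const_mul _).const_add _)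
  rw [lintegral_const_mul _ m1, lintegral_const_mul _ m2,
    ← coup_unif (g := g) (h0 (p.1 ∩ P)) (h1 (p.1 ∩ P)), mul_add]
  ring

theorem coup_measurable_Vlab {P : Sym2 ℕ → Set (Sym2 ℕ)} {x : Sym2 ℕ → Set (Sym2 ℕ) → ℝ}
    (hx : ∀ e, Measurable (x e)) (i : Sym2 ℕ) :
    Measurable fun p : Set (Sym2 ℕ) × (Sym2 ℕ → ℝ) => Vlab x P p.1 p.2 i := by
  unfold Vlab
  have hE : MeasurableSet {p : Set (Sym2 ℕ) × (Sym2 ℕ → ℝ) | i ∈ p.1} :=
    (measurableSet_mem i).preimage measurable_fst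
  have hw : Measurable fun p : Set (Sym2 ℕ) × (Sym2 ℕ → ℝ) => p.2 i :=
    (measurable_pi_apply i).comp measurable_snd
  have hxm : Measurable fun p : Set (Sym2 ℕ) × (Sym2 ℕ → ℝ) => x i (p.1 ∩ P i) :=
    ((hx i).comp (coup_measurable_inter (P i))).comp measurable_fst
  exact Measurable.ite hE (hw.mul hxm) (hxm.add ((measurable_const.sub hxm).mul hw))

theorem coup_prod (s : Set (Sym2 ℕ)) (τ : Sym2 ℕ → ℝ≥0∞) (hτ : Set.InjOn τ s)
    (μ : Measure (Set (Sym2 ℕ))) [IsProbabilityMeasure μ] (hF : ∀ᵐ F ∂μ, F ⊆ s)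
    (x : Sym2 ℕ → Set (Sym2 ℕ) → ℝ) (hx : ∀ e, Measurable (x e))
    (h0 : ∀ e A, 0 ≤ x e A) (h1 : ∀ e A, x e A ≤ 1) (hs : ∀ e ∉ s, ∀ A, x e A = 0)
    (hID : ∀ e ∈ s, ∀ C : Set (Set (Sym2 ℕ)), MeasurableSet C →
      ∫⁻ F in {F | F ∩ past s τ e ∈ C}, ENNReal.ofReal (x e (F ∩ past s τ e)) ∂μ =
        μ {F | F ∩ past s τ e ∈ C ∧ e ∈ F})
    (g : Sym2 ℕ → ℝ → ℝ≥0∞) (hg : ∀ i, Measurable (g i)) :
    ∀ (n : ℕ) (I : Finset (Sym2 ℕ)), I.card = n →
      ∫⁻ p, ∏ i ∈ I, g i (Vlab x (past s τ) p.1 p.2 i) ∂(μ.prod lamE) =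
        ∏ i ∈ I, ∫⁻ z, g i z ∂lam := by
  classical
  have hmV := fun i => coup_measurable_Vlab (P := past s τ) hx i
  intro n
  induction n with
  | zero =>
    intro I hI
    rw [Finset.card_eq_zero.1 hI]
    simp
  | succ n ih =>
    intro I hI
    have hψm : ∀ J : Finset (Sym2 ℕ), Measurable fun p : Set (Sym2 ℕ) × (Sym2 ℕ → ℝ) =>
        ∏ i ∈ J, g i (Vlab x (past s τ) p.1 p.2 i) := fun J =>
      Finset.measurable_fun_prod J fun i _ => (hg i).comp (hmV i)
    by_cases hout : ∃ i ∈ I, i ∉ s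
    · obtain ⟨i, hiI, his⟩ := hout
      have hcard : (I.erase i).card = n := by rw [Finset.card_erase_of_mem hiI, hI]; rfl
      rw [← Finset.mul_prod_erase I (fun i => ∫⁻ z, g i z ∂lam) hiI, ← ih _ hcard]
      have hae : ∀ᵐ p ∂(μ.prod lamE), p.1 ⊆ s := Measure.quasiMeasurePreserving_fst.ae hF
      have e1 : ∫⁻ p, ∏ i ∈ I, g i (Vlab x (past s τ) p.1 p.2 i) ∂(μ.prod lamE) =
          ∫⁻ p, (∏ j ∈ I.erase i, g j (Vlab x (past s τ) p.1 p.2 j)) * g i (p.2 i)
            ∂(μ.prod lamE) := by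
        refine lintegral_congr_ae ?_
        filter_upwards [hae] with p hp
        rw [← Finset.mul_prod_erase I _ hiI, mul_comm]
        congr 2
        have hi : i ∉ p.1 := fun h => his (hp h)
        unfold Vlab
        simp [hi, hs i his]
      have hm2 : Measurable fun p : Set (Sym2 ℕ) × (Sym2 ℕ → ℝ) =>
          (∏ j ∈ I.erase i, g j (Vlab x (past s τ) p.1 p.2 j)) * g i (p.2 i) :=
        (hψm _).mul ((hg i).comp ((measurable_pi_apply i).comp measurable_snd))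
      rw [e1, lintegral_prod _ hm2.aemeasurable, lintegral_prod _ (hψm _).aemeasurable, mul_comm,
        ← lintegral_mul_const _ (Measurable.lintegral_prod_right' (hψm _))]
      refine lintegral_congr fun F => ?_
      have hmF : Measurable fun W : Sym2 ℕ → ℝ =>
          ∏ j ∈ I.erase i, g j (Vlab x (past s τ) F W j) :=
        (hψm (I.erase i)).comp (measurable_const.prodMk measurable_id)
      have e2 := coup_resample (e := i)
        (H := fun W z => (∏ j ∈ I.erase i, g j (Vlab x (past s τ) F W j)) * g i z)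
        ((hmF.comp measurable_fst).mul ((hg i).comp measurable_snd)) (by
          intro W W' h
          funext z
          congr 1
          refine Finset.prod_congr rfl fun j hj => ?_
          unfold Vlab
          rw [h j (Finset.mem_erase.1 hj).1])
      simp only at e2 ⊢
      rw [e2, ← lintegral_mul_const _ hmF]
      refine lintegral_congr fun W => ?_
      rw [lintegral_const_mul _ (hg i)]
    · push Not at hout
      have hne : I.Nonempty := by
        rw [← Finset.card_pos, hI]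
        exact Nat.succ_pos n
      obtain ⟨e, heI, hmax⟩ := Finset.exists_max_image I τ hne
      have hcard : (I.erase e).card = n := by rw [Finset.card_erase_of_mem heI, hI]; rfl
      have hlt : ∀ j ∈ I.erase e, j ∈ past s τ e := by
        intro j hj
        obtain ⟨hje, hjI⟩ := Finset.mem_erase.1 hj
        refine ⟨hout j hjI, lt_of_le_of_ne (hmax j hjI) fun h => hje ?_⟩
        exact hτ (hout j hjI) (hout e heI) h
      have hsub : ∀ j ∈ I.erase e, past s τ j ⊆ past s τ e := by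
        intro j hj f hf
        exact ⟨hf.1, hf.2.trans (hlt j hj).2⟩
      have hstep := coup_step (μ := μ) (P := past s τ e) (e := e) (hx e) (h0 e) (h1 e)
        (hID e (hout e heI)) (hψm (I.erase e)) (by
          intro F W
          refine Finset.prod_congr rfl fun j hj => ?_
          congr 1
          unfold Vlab
          have h2 : F ∩ past s τ e ∩ past s τ j = F ∩ past s τ j := by
            rw [Set.inter_assoc, Set.inter_eq_self_of_subset_right (hsub j hj)]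
          have h3 : j ∈ F ∩ past s τ e ↔ j ∈ F := ⟨fun h => h.1, fun h => ⟨h, hlt j hj⟩⟩
          simp only [h2, h3]) (by
          intro F W W' h
          refine Finset.prod_congr rfl fun j hj => ?_
          unfold Vlab
          simp only
          rw [h j (Finset.mem_erase.1 hj).1]) (hg e)
      rw [← Finset.mul_prod_erase I (fun i => ∫⁻ z, g i z ∂lam) heI, ← ih _ hcard, mul_comm,
        ← hstep]
      refine lintegral_congr fun p => ?_
      rw [← Finset.mul_prod_erase I _ heI, mul_comm]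
      rfl

theorem coupling_law (s : Set (Sym2 ℕ)) (τ : Sym2 ℕ → ℝ≥0∞) (hτ : Set.InjOn τ s)
    (μ : Measure (Set (Sym2 ℕ))) [IsProbabilityMeasure μ] (hF : ∀ᵐ F ∂μ, F ⊆ s)
    (x : Sym2 ℕ → Set (Sym2 ℕ) → ℝ) (hx : ∀ e, Measurable (x e))
    (h0 : ∀ e A, 0 ≤ x e A) (h1 : ∀ e A, x e A ≤ 1) (hs : ∀ e ∉ s, ∀ A, x e A = 0)
    (hID : ∀ e ∈ s, ∀ C : Set (Set (Sym2 ℕ)), MeasurableSet C →
      ∫⁻ F in {F | F ∩ past s τ e ∈ C}, ENNReal.ofReal (x e (F ∩ past s τ e)) ∂μ =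
        μ {F | F ∩ past s τ e ∈ C ∧ e ∈ F}) :
    (μ.prod lamE).map (fun p => Vlab x (past s τ) p.1 p.2) = lamE := by
  classical
  have hmV := fun i => coup_measurable_Vlab (P := past s τ) hx i
  have hm : Measurable fun p : Set (Sym2 ℕ) × (Sym2 ℕ → ℝ) => Vlab x (past s τ) p.1 p.2 :=
    measurable_pi_lambda _ hmV
  refine Measure.eq_infinitePi _ fun I t ht => ?_
  have hI : MeasurableSet (Set.pi (I : Set (Sym2 ℕ)) t) := .pi I.countable_toSet fun _ _ => ht _
  rw [Measure.map_apply hm hI, ← lintegral_indicator_one (hm hI)]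
  have h := coup_prod s τ hτ μ hF x hx h0 h1 hs hID (fun i => (t i).indicator 1)
    (fun i => measurable_one.indicator (ht i)) _ I rfl
  have e1 : ∀ p : Set (Sym2 ℕ) × (Sym2 ℕ → ℝ),
      ((fun p : Set (Sym2 ℕ) × (Sym2 ℕ → ℝ) => Vlab x (past s τ) p.1 p.2) ⁻¹'
        (Set.pi (I : Set (Sym2 ℕ)) t)).indicator (1 : Set (Sym2 ℕ) × (Sym2 ℕ → ℝ) → ℝ≥0∞) p =
      ∏ i ∈ I, (t i).indicator (1 : ℝ → ℝ≥0∞) (Vlab x (past s τ) p.1 p.2 i) := by
    intro p
    by_cases hp : ∀ i ∈ I, Vlab x (past s τ) p.1 p.2 i ∈ t i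
    · rw [Set.indicator_of_mem (by simpa [Set.mem_pi] using hp)]
      rw [Finset.prod_eq_one fun i hi => by rw [Set.indicator_of_mem (hp i hi)]; rfl]
      rfl
    · rw [Set.indicator_of_notMem (by simpa [Set.mem_pi] using hp)]
      push Not at hp
      obtain ⟨i, hi, hit⟩ := hp
      exact (Finset.prod_eq_zero hi (Set.indicator_of_notMem hit _)).symm
  rw [lintegral_congr e1, h]
  refine Finset.prod_congr rfl fun i _ => ?_
  rw [lintegral_indicator_one (ht i)]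

open Classical in
theorem coupling_mismatch (s : Set (Sym2 ℕ)) (τ : Sym2 ℕ → ℝ≥0∞)
    (μ : Measure (Set (Sym2 ℕ))) [IsProbabilityMeasure μ]
    (x : Sym2 ℕ → Set (Sym2 ℕ) → ℝ) (hx : ∀ e, Measurable (x e))
    (h0 : ∀ e A, 0 ≤ x e A) (h1 : ∀ e A, x e A ≤ 1) (e : Sym2 ℕ) (he : e ∈ s)
    (hID : ∀ C : Set (Set (Sym2 ℕ)), MeasurableSet C →
      ∫⁻ F in {F | F ∩ past s τ e ∈ C}, ENNReal.ofReal (x e (F ∩ past s τ e)) ∂μ =
        μ {F | F ∩ past s τ e ∈ C ∧ e ∈ F})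
    (a : Set (Sym2 ℕ) × (Sym2 ℕ → ℝ) → ℝ) (ha : Measurable a) (a0 : ∀ p, 0 ≤ a p)
    (a1 : ∀ p, a p ≤ 1)
    (hloc : ∀ F F' W W', F ∩ past s τ e = F' ∩ past s τ e → (∀ g ∈ past s τ e, W g = W' g) →
      a (F, W) = a (F', W')) :
    (μ.prod lamE) {p | ¬ (e ∈ p.1 ↔ Vlab x (past s τ) p.1 p.2 e < a p)} =
      ∫⁻ p, ENNReal.ofReal |a p - x e (p.1 ∩ past s τ e)| ∂(μ.prod lamE) := by
  obtain ⟨P, hP⟩ : ∃ P, P = past s τ e := ⟨_, rfl⟩
  have heP : e ∉ P := by
    rw [hP]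
    exact fun h => lt_irrefl _ h.2
  have hι := coup_measurable_inter P
  have ha' : Measurable fun q : Set (Sym2 ℕ) × (Sym2 ℕ → ℝ) × ℝ => a (q.1, q.2.1) :=
    ha.comp (measurable_fst.prodMk (measurable_fst.comp measurable_snd))
  have hxm : Measurable fun q : Set (Sym2 ℕ) × (Sym2 ℕ → ℝ) × ℝ => x e (q.1 ∩ P) :=
    ((hx e).comp hι).comp measurable_fst
  have hz : Measurable fun q : Set (Sym2 ℕ) × (Sym2 ℕ → ℝ) × ℝ => q.2.2 :=
    measurable_snd.comp measurable_snd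
  rw [← hP] at hID hloc ⊢
  have haF : ∀ F W, a (F ∩ P, W) = a (F, W) := fun F W =>
    hloc _ _ _ _ (coup_inter_inter F P) fun _ _ => rfl
  have haW : ∀ F W W', (∀ g, g ≠ e → W g = W' g) → a (F, W) = a (F, W') := fun F W W' h =>
    hloc _ _ _ _ rfl fun g hg => h g fun hge => heP (hge ▸ hg)
  have h := coup_GD (μ := μ) (P := P) (e := e) (hx e) (h0 e) (h1 e) hID
    (K1 := fun F W z => if a (F, W) ≤ z * x e (F ∩ P) then 1 else 0)
    (K2 := fun F W z => if x e (F ∩ P) + (1 - x e (F ∩ P)) * z < a (F, W) then 1 else 0)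
    (Measurable.ite (measurableSet_le ha' (hz.mul hxm)) measurable_const measurable_const)
    (Measurable.ite (measurableSet_lt (hxm.add ((measurable_const.sub hxm).mul hz)) ha')
      measurable_const measurable_const)
    (fun F W z => by simp only [haF, coup_inter_inter])
    (fun F W z => by simp only [haF, coup_inter_inter])
    (fun F W W' hw => by simp only [haW F W W' hw])
    (fun F W W' hw => by simp only [haW F W W' hw])
  have hS : MeasurableSet {p : Set (Sym2 ℕ) × (Sym2 ℕ → ℝ) |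
      ¬ (e ∈ p.1 ↔ Vlab x (past s τ) p.1 p.2 e < a p)} := by
    have hA : MeasurableSet {p : Set (Sym2 ℕ) × (Sym2 ℕ → ℝ) | e ∈ p.1} :=
      (measurableSet_mem e).preimage measurable_fst
    have hB : MeasurableSet {p : Set (Sym2 ℕ) × (Sym2 ℕ → ℝ) |
      Vlab x (past s τ) p.1 p.2 e < a p} := measurableSet_lt (coup_measurable_Vlab hx e) ha
    have : {p : Set (Sym2 ℕ) × (Sym2 ℕ → ℝ) |
        ¬ (e ∈ p.1 ↔ Vlab x (past s τ) p.1 p.2 e < a p)} =
        ({p : Set (Sym2 ℕ) × (Sym2 ℕ → ℝ) | e ∈ p.1} ∩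
          {p : Set (Sym2 ℕ) × (Sym2 ℕ → ℝ) | Vlab x (past s τ) p.1 p.2 e < a p}ᶜ) ∪
        ({p : Set (Sym2 ℕ) × (Sym2 ℕ → ℝ) | e ∈ p.1}ᶜ ∩
          {p : Set (Sym2 ℕ) × (Sym2 ℕ → ℝ) | Vlab x (past s τ) p.1 p.2 e < a p}) := by
      ext p
      simp only [Set.mem_ofPred_eq, Set.mem_union, Set.mem_inter_iff, Set.mem_compl_iff]
      tauto
    rw [this]
    exact (hA.inter hB.compl).union (hA.compl.inter hB)
  rw [← lintegral_indicator_one hS]
  have e1 : ∀ p : Set (Sym2 ℕ) × (Sym2 ℕ → ℝ),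
      {p : Set (Sym2 ℕ) × (Sym2 ℕ → ℝ) |
        ¬ (e ∈ p.1 ↔ Vlab x (past s τ) p.1 p.2 e < a p)}.indicator (1 : Set (Sym2 ℕ) × (Sym2 ℕ → ℝ) → ℝ≥0∞) p =
      (if e ∈ p.1 then (if a (p.1, p.2) ≤ p.2 e * x e (p.1 ∩ P) then (1 : ℝ≥0∞) else 0) else
        (if x e (p.1 ∩ P) + (1 - x e (p.1 ∩ P)) * p.2 e < a (p.1, p.2) then 1 else 0)) := by
    intro p
    rw [Set.indicator_apply]
    simp only [Set.mem_ofPred_eq, Pi.one_apply]
    unfold Vlab
    rw [← hP]
    by_cases hep : e ∈ p.1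
    · simp only [hep, if_true, true_iff, not_lt]
    · simp only [hep, if_false, false_iff, not_not]
  rw [lintegral_congr e1, h]
  refine lintegral_congr fun p => ?_
  obtain ⟨y, hy⟩ : ∃ y, y = x e (p.1 ∩ P) := ⟨_, rfl⟩
  obtain ⟨b, hb⟩ : ∃ b, b = a (p.1, p.2) := ⟨_, rfl⟩
  have hy0 : 0 ≤ y := hy ▸ h0 e _
  have hy1 : y ≤ 1 := hy ▸ h1 e _
  have hb0 : 0 ≤ b := hb ▸ a0 _
  have hb1 : b ≤ 1 := hb ▸ a1 _
  have hap : a p = b := hb.symm
  rw [hap, ← hy]
  have f1 := coup_aff (fun w => if b ≤ w then 1 else 0) hy0 0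
  have f2 := coup_aff (fun w => if w < b then 1 else 0) (sub_nonneg.2 hy1) y
  have f3 : ∀ z : ℝ, (if b ≤ z * y then (1 : ℝ≥0∞) else 0) = if b ≤ 0 + y * z then 1 else 0 := by
    intro z
    rw [zero_add, mul_comm]
  simp only [f3]
  rw [f1, f2, zero_add, add_sub_cancel]
  have g1 : ∫⁻ w in Set.Icc 0 y, (if b ≤ w then (1 : ℝ≥0∞) else 0) = ENNReal.ofReal (y - b) := by
    have : ∀ w : ℝ, (if b ≤ w then (1 : ℝ≥0∞) else 0) = (Set.Ici b).indicator 1 w := by
      intro w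
      simp [Set.indicator_apply]
    simp only [this]
    rw [lintegral_indicator_one measurableSet_Ici, Measure.restrict_apply measurableSet_Ici]
    have h3 : Set.Ici b ∩ Set.Icc 0 y = Set.Icc b y := by
      ext w
      simp only [Set.mem_inter_iff, Set.mem_Ici, Set.mem_Icc]
      constructor
      · rintro ⟨h4, h5, h6⟩
        exact ⟨h4, h6⟩
      · rintro ⟨h4, h6⟩
        exact ⟨h4, hb0.trans h4, h6⟩
    rw [h3, Real.volume_Icc]
  have g2 : ∫⁻ w in Set.Icc y 1, (if w < b then (1 : ℝ≥0∞) else 0) = ENNReal.ofReal (b - y) := by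
    have : ∀ w : ℝ, (if w < b then (1 : ℝ≥0∞) else 0) = (Set.Iio b).indicator 1 w := by
      intro w
      simp [Set.indicator_apply]
    simp only [this]
    rw [lintegral_indicator_one measurableSet_Iio, Measure.restrict_apply measurableSet_Iio]
    have h3 : Set.Iio b ∩ Set.Icc y 1 = Set.Ico y b := by
      ext w
      simp only [Set.mem_inter_iff, Set.mem_Iio, Set.mem_Icc, Set.mem_Ico]
      constructor
      · rintro ⟨h4, h5, h6⟩
        exact ⟨h5, h4⟩
      · rintro ⟨h4, h6⟩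
        exact ⟨h6, h4, (h6.le).trans hb1⟩
    rw [h3, Real.volume_Ico]
  rw [g1, g2]
  rcases le_total y b with hyb | hyb
  · rw [ENNReal.ofReal_of_nonpos (by linarith : y - b ≤ 0), zero_add,
      abs_of_nonneg (by linarith : 0 ≤ b - y)]
  · rw [ENNReal.ofReal_of_nonpos (by linarith : b - y ≤ 0), add_zero,
      abs_of_nonpos (by linarith : b - y ≤ 0), neg_sub]

end Vale.Agent.H15.F
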