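import Vale.Agent.H15.F.Core

open MeasureTheory Filter Topology
open scoped ENNReal

namespace Vale.Agent.H15.F

theorem cyl_inter (A B A' B' : Finset (Sym2 ℕ)) :
    cyl A B ∩ cyl A' B' = cyl (A ∪ A') (B ∪ B') := by
  ext F
  simp only [cyl, Set.mem_inter_iff, Set.mem_ofPred_eq, Finset.coe_union, Set.union_subset_iff,
    Set.disjoint_union_left]
  tauto

theorem cyl_empty : cyl ∅ ∅ = Set.univ := by
  ext F; simp [cyl]

theorem measurableSet_cyl (A B : Finset (Sym2 ℕ)) : MeasurableSet (cyl A B) := by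
  have : cyl A B = (⋂ e ∈ A, {F : Set (Sym2 ℕ) | e ∈ F}) ∩ ⋂ e ∈ B, {F : Set (Sym2 ℕ) | e ∉ F} := by
    ext F
    simp only [cyl, Set.mem_ofPred_eq, Set.mem_inter_iff, Set.mem_iInter, Set.subset_def,
      Set.disjoint_left, Finset.mem_coe]
  rw [this]
  exact (Finset.measurableSet_biInter _ fun e _ => measurableSet_mem e).inter
    (Finset.measurableSet_biInter _ fun e _ => measurableSet_notMem e)

theorem isPiSystem_cyl : IsPiSystem {C : Set (Set (Sym2 ℕ)) | ∃ A B, C = cyl A B} := by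
  rintro _ ⟨A, B, rfl⟩ _ ⟨A', B', rfl⟩ _
  exact ⟨A ∪ A', B ∪ B', cyl_inter A B A' B'⟩

theorem generateFrom_cyl : (Set.instMeasurableSpace : MeasurableSpace (Set (Sym2 ℕ))) =
    MeasurableSpace.generateFrom {C : Set (Set (Sym2 ℕ)) | ∃ A B, C = cyl A B} := by
  refine le_antisymm ?_ ?_
  · have h : @Measurable _ _ (MeasurableSpace.generateFrom {C : Set (Set (Sym2 ℕ)) |
        ∃ A B, C = cyl A B}) Set.instMeasurableSpace (id : Set (Sym2 ℕ) → Set (Sym2 ℕ)) := by
      refine (@measurable_set_iff _ _ (MeasurableSpace.generateFrom {C : Set (Set (Sym2 ℕ)) |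
        ∃ A B, C = cyl A B}) id).mpr fun e => ?_
      refine (@measurableSet_setOfPred _ (MeasurableSpace.generateFrom {C : Set (Set (Sym2 ℕ)) |
        ∃ A B, C = cyl A B}) _).mp ?_
      refine MeasurableSpace.measurableSet_generateFrom ⟨{e}, ∅, ?_⟩
      ext F; simp [cyl]
    intro C hC
    exact h hC
  · refine MeasurableSpace.generateFrom_le ?_
    rintro _ ⟨A, B, rfl⟩
    exact measurableSet_cyl A B

/-- a finite measure on edge sets is determined by cylinder sets -/
theorem ext_of_cyl {μ ν : Measure (Set (Sym2 ℕ))} [IsFiniteMeasure μ]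
    (h : ∀ A B, μ (cyl A B) = ν (cyl A B)) : μ = ν := by
  refine ext_of_generate_finite _ generateFrom_cyl isPiSystem_cyl ?_ ?_
  · rintro _ ⟨A, B, rfl⟩; exact h A B
  · rw [← cyl_empty]; exact h ∅ ∅

end Vale.Agent.H15.F
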