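import Mathlib

/-!
P143: definitions used in the final statement (pure definitions).
-/

open MeasureTheory Filter Topology

namespace Vale.Agent.H15.F

/-- `T` is (the edge set of) a spanning tree of the finite graph with edge set `K`:
a subset of `K` without cycles that joins the two end-points of every edge of `K`. -/
def IsSpanTree {V : Type*} (K T : Finset (Sym2 V)) : Prop :=
  T ⊆ K ∧ (SimpleGraph.fromEdgeSet (T : Set (Sym2 V))).IsAcyclic ∧
    ∀ x y : V, s(x, y) ∈ K →
      (SimpleGraph.fromEdgeSet (T : Set (Sym2 V))).Reachable x y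

/-- the finite graph with edge set `K` (its vertices are the end-points of the edges)
is connected -/
def IsConn {V : Type*} (K : Finset (Sym2 V)) : Prop :=
  ∀ e ∈ K, ∀ f ∈ K, ∀ x ∈ e, ∀ y ∈ f,
    (SimpleGraph.fromEdgeSet (K : Set (Sym2 V))).Reachable x y

/-- the number of spanning trees `T` of `K` with `A ⊆ T` and `T ∩ B = ∅` -/
noncomputable def treeCount {V : Type*} (K A B : Finset (Sym2 V)) : ℕ :=
  Nat.card {T : Finset (Sym2 V) // IsSpanTree K T ∧ A ⊆ T ∧ Disjoint B T}

/-- the probability that the uniform spanning tree of `K` contains `A` and avoids `B` -/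
noncomputable def ustProb {V : Type*} (K A B : Finset (Sym2 V)) : ℝ :=
  (treeCount K A B : ℝ) / (treeCount K ∅ ∅ : ℝ)

/-- `K 0 ⊆ K 1 ⊆ ⋯` are finite connected subgraphs with union the graph with edge set `s` -/
def IsExhaustion {V : Type*} (s : Set (Sym2 V)) (K : ℕ → Finset (Sym2 V)) : Prop :=
  Monotone K ∧ (∀ n, IsConn (K n)) ∧ ⋃ n, (K n : Set (Sym2 V)) = s

/-- `μ` is the law of the free uniform spanning forest of the graph with edge set `s` -/
def IsFUSF {V : Type*} (s : Set (Sym2 V)) (μ : Measure (Set (Sym2 V))) : Prop :=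
  IsProbabilityMeasure μ ∧ ∀ K : ℕ → Finset (Sym2 V), IsExhaustion s K →
    ∀ A B : Finset (Sym2 V),
      Tendsto (fun n => ustProb (K n) A B) atTop
        (𝓝 (μ.real {F | (A : Set (Sym2 V)) ⊆ F ∧ Disjoint (B : Set (Sym2 V)) F}))

/-- `s` is the edge set of an infinite, connected, locally finite simple graph on `ℕ` -/
def IsGraph (s : Set (Sym2 ℕ)) : Prop :=
  (∀ e ∈ s, ¬ e.IsDiag) ∧ (SimpleGraph.fromEdgeSet s).Connected ∧
    ∀ x : ℕ, {y : ℕ | s(x, y) ∈ s}.Finite

/-- `ρ` is the law of a unimodular random graph `(G, o)`, realised on the vertex set `ℕ` -/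
def IsUnimodular (ρ : Measure (Set (Sym2 ℕ) × ℕ)) : Prop :=
  IsProbabilityMeasure ρ ∧ (∀ᵐ p ∂ρ, IsGraph p.1) ∧
    ∀ f : Set (Sym2 ℕ) → ℕ → ℕ → ENNReal,
      Measurable (fun q : Set (Sym2 ℕ) × ℕ × ℕ => f q.1 q.2.1 q.2.2) →
      (∀ (σ : Equiv.Perm ℕ) (s : Set (Sym2 ℕ)) (x y : ℕ),
        f (Sym2.map σ '' s) (σ x) (σ y) = f s x y) →
      ∫⁻ p, ∑' y, f p.1 p.2 y ∂ρ = ∫⁻ p, ∑' y, f p.1 y p.2 ∂ρ

/-- the law of i.i.d. uniform labels on a set -/
noncomputable def iidU (V : Type*) : Measure (V → unitInterval) :=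
  Measure.infinitePi fun _ : V => (volume : Measure unitInterval)

end Vale.Agent.H15.F
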