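import Vale.Agent.H15.F.Core

/-!
P143, task T4a: measurable and equivariant fields of operators.
-/

open MeasureTheory Filter Topology
open scoped ENNReal

namespace Vale.Agent.H15.F

/-! ### coordinates -/

theorem dl_apply (d d' : ℕ × ℕ) : (dl d) d' = if d' = d then 1 else 0 := by
  unfold dl
  by_cases h : d' = d
  · subst h
    rw [if_pos rfl]
    exact lp.single_apply_self 2 d' 1
  · rw [if_neg h]
    exact lp.single_apply_ne 2 d 1 h

theorem inner_dl_left (d : ℕ × ℕ) (h : Hs) : inner ℝ (dl d) h = h d := by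
  unfold dl
  rw [lp.inner_single_left]
  simp

theorem inner_dl_right (d : ℕ × ℕ) (h : Hs) : inner ℝ h (dl d) = h d := by
  rw [real_inner_comm, inner_dl_left]

theorem norm_dl (d : ℕ × ℕ) : ‖dl d‖ = 1 := by
  unfold dl
  rw [lp.norm_single (by norm_num)]
  simp

theorem hasSum_dl (h : Hs) : HasSum (fun d => h d • dl d) h := by
  have h1 := lp.hasSum_single (E := fun _ : ℕ × ℕ => ℝ) (p := 2) (by norm_num) h
  convert h1 using 2
  rename_i d
  unfold dl
  rw [← lp.single_smul]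
  simp

theorem clm_ext_dl {T U : Hs →L[ℝ] Hs} (h : ∀ d, T (dl d) = U (dl d)) : T = U := by
  ext x : 1
  have h1 := (hasSum_dl x).mapL T
  have h2 := (hasSum_dl x).mapL U
  simp only [map_smul, h] at h1 h2
  exact h1.unique h2

theorem hasSum_apply (T : Hs →L[ℝ] Hs) (h : Hs) (d' : ℕ × ℕ) :
    HasSum (fun d => h d * T (dl d) d') (T h d') := by
  have h1 := (hasSum_dl h).mapL T
  have h2 := h1.mapL (innerSL ℝ (dl d'))
  simp only [innerSL_apply_apply, inner_dl_left, map_smul, smul_eq_mul] at h2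
  exact h2

theorem measurable_of_hasSum {Ω : Type*} [MeasurableSpace Ω] {ι : Type*} [Countable ι]
    {f : ι → Ω → ℝ} {g : Ω → ℝ} (hf : ∀ k, Measurable (f k))
    (h : ∀ ω, HasSum (fun k => f k ω) (g ω)) : Measurable g := by
  refine measurable_of_tendsto_metrizable' (atTop : Filter (Finset ι))
    (f := fun s ω => ∑ k ∈ s, f k ω) (fun s => Finset.measurable_fun_sum s fun k _ => hf k) ?_
  rw [tendsto_pi_nhds]
  intro ω
  exact h ω

section
variable {Ω : Type*} [MeasurableSpace Ω]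

theorem MeasOp.add {T U : Ω → Hs →L[ℝ] Hs} (hT : MeasOp T) (hU : MeasOp U) :
    MeasOp fun ω => T ω + U ω := by
  intro d d'
  exact (hT d d').add (hU d d')

theorem MeasOp.sub {T U : Ω → Hs →L[ℝ] Hs} (hT : MeasOp T) (hU : MeasOp U) :
    MeasOp fun ω => T ω - U ω := by
  intro d d'
  exact (hT d d').sub (hU d d')

theorem MeasOp.const_smul {T : Ω → Hs →L[ℝ] Hs} (hT : MeasOp T) (c : ℝ) :
    MeasOp fun ω => c • T ω := by
  intro d d'
  exact (hT d d').const_mul c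

theorem MeasOp.comp {T U : Ω → Hs →L[ℝ] Hs} (hT : MeasOp T) (hU : MeasOp U) :
    MeasOp fun ω => (T ω).comp (U ω) := by
  intro d d'
  exact measurable_of_hasSum (fun k => (hU d k).mul (hT k d'))
    (fun ω => hasSum_apply (T ω) (U ω (dl d)) d')

theorem adjoint_entry (T : Hs →L[ℝ] Hs) (d d' : ℕ × ℕ) :
    ContinuousLinearMap.adjoint T (dl d) d' = T (dl d') d := by
  rw [← inner_dl_left, ContinuousLinearMap.adjoint_inner_right, inner_dl_right]

theorem MeasOp.adjoint {T : Ω → Hs →L[ℝ] Hs} (hT : MeasOp T) :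
    MeasOp fun ω => ContinuousLinearMap.adjoint (T ω) := by
  intro d d'
  simp only [adjoint_entry]
  exact hT d' d

theorem MeasOp.one : MeasOp fun _ : Ω => (1 : Hs →L[ℝ] Hs) := by
  intro d d'
  exact measurable_const

theorem MeasOp.zero : MeasOp fun _ : Ω => (0 : Hs →L[ℝ] Hs) := by
  intro d d'
  exact measurable_const

theorem MeasOp.pow {T : Ω → Hs →L[ℝ] Hs} (hT : MeasOp T) (n : ℕ) :
    MeasOp fun ω => (T ω) ^ n := by
  induction n with
  | zero => simpa using MeasOp.one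
  | succ n ih =>
    have h : (fun ω => T ω ^ (n + 1)) = fun ω => (T ω ^ n).comp (T ω) := by
      funext ω
      rw [pow_succ]; rfl
    rw [h]
    exact ih.comp hT

theorem MeasOp.sum {T : ℕ → Ω → Hs →L[ℝ] Hs} (s : Finset ℕ) (hT : ∀ k, MeasOp (T k)) :
    MeasOp fun ω => ∑ k ∈ s, T k ω := by
  induction s using Finset.induction_on with
  | empty => simpa using MeasOp.zero
  | insert k s hk ih =>
    simp only [Finset.sum_insert hk]
    exact (hT k).add ih

theorem MeasOp.of_tendsto {T : ℕ → Ω → Hs →L[ℝ] Hs} {U : Ω → Hs →L[ℝ] Hs}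
    (hT : ∀ k, MeasOp (T k))
    (h : ∀ ω d, Tendsto (fun k => T k ω (dl d)) atTop (𝓝 (U ω (dl d)))) : MeasOp U := by
  intro d d'
  refine measurable_of_tendsto_metrizable (f := fun k ω => T k ω (dl d) d')
    (fun k => hT k d d') ?_
  rw [tendsto_pi_nhds]
  intro ω
  have h1 := ((innerSL ℝ (dl d')).continuous.tendsto _).comp (h ω d)
  have h2 : ∀ x : Hs, innerSL ℝ (dl d') x = x d' := fun x => by
    rw [innerSL_apply_apply, inner_dl_left]
  simpa only [Function.comp_def, h2] using h1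

end

/-! ### projection onto a joint kernel -/

/-- the weighted sum of the `T_k^* T_k` -/
noncomputable def fieldS (T : ℕ → Hs →L[ℝ] Hs) : Hs →L[ℝ] Hs :=
  ∑' k, ((1 / 2 : ℝ) ^ (k + 1)) • (ContinuousLinearMap.adjoint (T k)).comp (T k)

theorem field_summable {T : ℕ → Hs →L[ℝ] Hs} (h1 : ∀ k, ‖T k‖ ≤ 1) :
    Summable fun k => ((1 / 2 : ℝ) ^ (k + 1)) • (ContinuousLinearMap.adjoint (T k)).comp (T k) := by
  refine Summable.of_norm_bounded (g := fun k => (1 / 2 : ℝ) ^ (k + 1)) ?_ ?_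
  · exact (summable_nat_add_iff 1).2 summable_geometric_two
  · intro k
    rw [norm_smul, Real.norm_of_nonneg (by positivity)]
    have h2 : ‖(ContinuousLinearMap.adjoint (T k)).comp (T k)‖ ≤ 1 := by
      refine (ContinuousLinearMap.opNorm_comp_le _ _).trans ?_
      rw [LinearIsometryEquiv.norm_map]
      exact mul_le_one₀ (h1 k) (norm_nonneg _) (h1 k)
    nlinarith [pow_pos (show (0 : ℝ) < 1 / 2 by norm_num) (k + 1)]

theorem field_hasSum_inner {T : ℕ → Hs →L[ℝ] Hs} (h1 : ∀ k, ‖T k‖ ≤ 1) (x : Hs) :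
    HasSum (fun k => (1 / 2 : ℝ) ^ (k + 1) * ‖T k x‖ ^ 2) (inner ℝ (fieldS T x) x) := by
  have h := (field_summable h1).hasSum
  have h2 := h.mapL ((ContinuousLinearMap.apply ℝ Hs x))
  have h3 := h2.mapL (innerSL ℝ x)
  have h4 : ∀ k, innerSL ℝ x ((ContinuousLinearMap.apply ℝ Hs x)
      (((1 / 2 : ℝ) ^ (k + 1)) • (ContinuousLinearMap.adjoint (T k)).comp (T k)))
      = (1 / 2 : ℝ) ^ (k + 1) * ‖T k x‖ ^ 2 := by
    intro k
    simp only [ContinuousLinearMap.apply_apply, smul_apply,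
      ContinuousLinearMap.comp_apply, innerSL_apply_apply, inner_smul_right]
    rw [ContinuousLinearMap.adjoint_inner_right, real_inner_self_eq_norm_sq]
  simp only [h4] at h3
  rw [real_inner_comm]
  exact h3

theorem field_hasSum_apply {T : ℕ → Hs →L[ℝ] Hs} (h1 : ∀ k, ‖T k‖ ≤ 1) (x : Hs) :
    HasSum (fun k => (1 / 2 : ℝ) ^ (k + 1) • (ContinuousLinearMap.adjoint (T k)) (T k x))
      (fieldS T x) := by
  have h := (field_summable h1).hasSum
  exact h.mapL ((ContinuousLinearMap.apply ℝ Hs x))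

theorem field_norm_sq_le {T : ℕ → Hs →L[ℝ] Hs} (h1 : ∀ k, ‖T k‖ ≤ 1) (x : Hs) :
    ‖fieldS T x‖ ^ 2 ≤ inner ℝ (fieldS T x) x := by
  -- `‖S x‖ ≤ ∑ a_k ‖T_k x‖` and Cauchy-Schwarz on partial sums
  have hS := (field_hasSum_apply h1 x).tendsto_sum_nat
  have hI := (field_hasSum_inner h1 x).tendsto_sum_nat
  have hlim : Tendsto (fun n => ‖∑ k ∈ Finset.range n,
      (1 / 2 : ℝ) ^ (k + 1) • (ContinuousLinearMap.adjoint (T k)) (T k x)‖ ^ 2) atTop
      (𝓝 (‖fieldS T x‖ ^ 2)) := (hS.norm).pow 2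
  refine le_of_tendsto_of_tendsto' hlim hI fun n => ?_
  have e1 : ‖∑ k ∈ Finset.range n,
      (1 / 2 : ℝ) ^ (k + 1) • (ContinuousLinearMap.adjoint (T k)) (T k x)‖
      ≤ ∑ k ∈ Finset.range n, (1 / 2 : ℝ) ^ (k + 1) * ‖T k x‖ := by
    refine (norm_sum_le _ _).trans (Finset.sum_le_sum fun k _ => ?_)
    rw [norm_smul, Real.norm_of_nonneg (by positivity)]
    refine mul_le_mul_of_nonneg_left ?_ (by positivity)
    refine (ContinuousLinearMap.le_opNorm _ _).trans ?_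
    rw [LinearIsometryEquiv.norm_map]
    calc ‖T k‖ * ‖T k x‖ ≤ 1 * ‖T k x‖ :=
          mul_le_mul_of_nonneg_right (h1 k) (norm_nonneg _)
      _ = ‖T k x‖ := one_mul _
  have e2 : (∑ k ∈ Finset.range n, (1 / 2 : ℝ) ^ (k + 1) * ‖T k x‖) ^ 2
      ≤ (∑ k ∈ Finset.range n, (1 / 2 : ℝ) ^ (k + 1)) *
        ∑ k ∈ Finset.range n, (1 / 2 : ℝ) ^ (k + 1) * ‖T k x‖ ^ 2 := by
    apply Finset.sum_sq_le_sum_mul_sum_of_sq_le_mul
    · intro k _; positivity
    · intro k _; positivity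
    · intro k _
      exact le_of_eq (by ring)
  have e3 : ∑ k ∈ Finset.range n, (1 / 2 : ℝ) ^ (k + 1) ≤ 1 := by
    have h2 : HasSum (fun k : ℕ => (1 / 2 : ℝ) ^ (k + 1)) 1 := by
      have := hasSum_geometric_two' 1
      convert this using 2
      rename_i k
      rw [pow_succ, one_div_pow]
      ring
    exact sum_le_hasSum _ (fun k _ => by positivity) h2
  have e4 : 0 ≤ ∑ k ∈ Finset.range n, (1 / 2 : ℝ) ^ (k + 1) * ‖T k x‖ ^ 2 :=
    Finset.sum_nonneg fun k _ => by positivity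
  calc _ ≤ (∑ k ∈ Finset.range n, (1 / 2 : ℝ) ^ (k + 1) * ‖T k x‖) ^ 2 :=
        pow_le_pow_left₀ (norm_nonneg _) e1 2
    _ ≤ _ := e2
    _ ≤ 1 * ∑ k ∈ Finset.range n, (1 / 2 : ℝ) ^ (k + 1) * ‖T k x‖ ^ 2 :=
        mul_le_mul_of_nonneg_right e3 e4
    _ = _ := one_mul _

theorem field_contraction {T : ℕ → Hs →L[ℝ] Hs} (h1 : ∀ k, ‖T k‖ ≤ 1) :
    ‖(1 : Hs →L[ℝ] Hs) - fieldS T‖ ≤ 1 := by
  refine ContinuousLinearMap.opNorm_le_bound _ zero_le_one fun x => ?_
  have h2 := field_norm_sq_le h1 x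
  have h3 : ‖((1 : Hs →L[ℝ] Hs) - fieldS T) x‖ ^ 2
      = ‖x‖ ^ 2 - 2 * inner ℝ (fieldS T x) x + ‖fieldS T x‖ ^ 2 := by
    have : ((1 : Hs →L[ℝ] Hs) - fieldS T) x = x - fieldS T x := rfl
    rw [this, norm_sub_sq_real, real_inner_comm]
  have h4 : 0 ≤ ‖fieldS T x‖ ^ 2 := by positivity
  rw [one_mul]
  nlinarith [norm_nonneg (((1 : Hs →L[ℝ] Hs) - fieldS T) x), norm_nonneg x,
    abs_le_of_sq_le_sq' (a := ‖((1 : Hs →L[ℝ] Hs) - fieldS T) x‖) (b := ‖x‖)
      (by nlinarith) (norm_nonneg x)]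

theorem field_ker {T : ℕ → Hs →L[ℝ] Hs} (h1 : ∀ k, ‖T k‖ ≤ 1) (x : Hs) :
    fieldS T x = 0 ↔ ∀ k, T k x = 0 := by
  constructor
  · intro h k
    have h2 := field_hasSum_inner h1 x
    rw [h, inner_zero_left] at h2
    have h3 := (hasSum_zero_iff_of_nonneg (fun k => by positivity)).1 h2
    have h4 := congrFun h3 k
    simp only [Pi.zero_apply] at h4
    have h5 : ‖T k x‖ ^ 2 = 0 := by
      rcases mul_eq_zero.1 h4 with h | h
      · exact absurd h (by positivity)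
      · exact h
    exact norm_eq_zero.1 (pow_eq_zero_iff two_ne_zero |>.1 h5)
  · intro h
    have h2 := field_hasSum_apply h1 x
    simp only [h, map_zero, smul_zero] at h2
    exact h2.unique hasSum_zero

/-- projection onto the joint kernel of countably many measurable fields of contractions -/
theorem MeasOp.prj_iInf_ker {Ω : Type*} [MeasurableSpace Ω] {T : ℕ → Ω → Hs →L[ℝ] Hs}
    (hT : ∀ k, MeasOp (T k)) (h1 : ∀ k ω, ‖T k ω‖ ≤ 1) :
    MeasOp fun ω => prj (⨅ k, LinearMap.ker (T k ω).toLinearMap) := by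
  -- the contraction `K`
  let K : Ω → Hs →L[ℝ] Hs := fun ω => 1 - fieldS (fun k => T k ω)
  have hS : MeasOp fun ω => fieldS (fun k => T k ω) := by
    refine MeasOp.of_tendsto (T := fun n ω => ∑ k ∈ Finset.range n, ((1 / 2 : ℝ) ^ (k + 1)) •
      (ContinuousLinearMap.adjoint (T k ω)).comp (T k ω)) (fun n => ?_) ?_
    · exact MeasOp.sum (Finset.range n)
        (fun k => ((hT k).adjoint.comp (hT k)).const_smul ((1 / 2 : ℝ) ^ (k + 1)))
    · intro ω d
      have h := (field_hasSum_apply (fun k => h1 k ω) (dl d)).tendsto_sum_nat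
      refine h.congr fun n => ?_
      rw [sum_apply]
      rfl
  have hK : MeasOp K := MeasOp.one.sub hS
  refine MeasOp.of_tendsto (T := fun n ω => ((n : ℝ)⁻¹) • ∑ k ∈ Finset.range n, (K ω) ^ k)
    (fun n => (MeasOp.sum (Finset.range n) (fun k => hK.pow k)).const_smul _) ?_
  intro ω d
  have hc : ‖K ω‖ ≤ 1 := field_contraction (fun k => h1 k ω)
  have h2 := (K ω).tendsto_birkhoffAverage_orthogonalProjection hc (dl d)
  have h3 : ∀ n : ℕ, birkhoffAverage ℝ (K ω) _root_.id n (dl d)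
      = (((n : ℝ)⁻¹) • ∑ k ∈ Finset.range n, (K ω) ^ k) (dl d) := by
    intro n
    rw [birkhoffAverage, birkhoffSum, smul_apply, sum_apply]
    congr 1
    refine Finset.sum_congr rfl fun k _ => ?_
    rw [id, FunLike.coe_pow_eq_iterate]
  have h4 : (((K ω).eqLocus (1 : Hs →L[ℝ] Hs)).orthogonalProjectionOnto (dl d) : Hs)
      = prj (⨅ k, LinearMap.ker (T k ω).toLinearMap) (dl d) := by
    have hmem : ∀ x : Hs, x ∈ (K ω).eqLocus (1 : Hs →L[ℝ] Hs) ↔
        x ∈ (⨅ k, LinearMap.ker (T k ω).toLinearMap) := by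
      intro x
      rw [Submodule.mem_iInf]
      simp only [LinearMap.mem_ker]
      have : x ∈ (K ω).eqLocus (1 : Hs →L[ℝ] Hs) ↔ fieldS (fun k => T k ω) x = 0 := by
        rw [LinearMap.mem_eqLocus]
        show x - fieldS (fun k => T k ω) x = x ↔ _
        exact sub_eq_self
      rw [this, field_ker (fun k => h1 k ω)]
      rfl
    symm
    apply Submodule.eq_starProjection_of_mem_of_inner_eq_zero
    · apply Submodule.le_topologicalClosure
      rw [← hmem]
      exact Subtype.mem _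
    · intro w hw
      have hcl : (⨅ k, LinearMap.ker (T k ω).toLinearMap).topologicalClosure
          = (⨅ k, LinearMap.ker (T k ω).toLinearMap) := by
        apply IsClosed.submodule_topologicalClosure_eq
        rw [Submodule.coe_iInf]
        exact isClosed_iInter fun k => (T k ω).isClosed_ker
      rw [hcl, ← hmem] at hw
      exact Submodule.starProjection_inner_eq_zero (K := (K ω).eqLocus (1 : Hs →L[ℝ] Hs))
        (dl d) w hw
  rw [h4] at h2
  exact h2.congr h3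

/-! ### the unitary action of permutations -/

/-- action on darts as an equivalence -/
def pdEquiv (σ : Equiv.Perm ℕ) : (ℕ × ℕ) ≃ (ℕ × ℕ) := σ.prodCongr σ

theorem pdEquiv_apply (σ : Equiv.Perm ℕ) (d : ℕ × ℕ) : pdEquiv σ d = pd σ d := rfl

theorem pdEquiv_symm_apply (σ : Equiv.Perm ℕ) (d : ℕ × ℕ) : (pdEquiv σ).symm d = pd σ⁻¹ d := rfl

theorem pd_inv_pd (σ : Equiv.Perm ℕ) (d : ℕ × ℕ) : pd σ⁻¹ (pd σ d) = d := by
  simp [pd]

theorem pd_pd_inv (σ : Equiv.Perm ℕ) (d : ℕ × ℕ) : pd σ (pd σ⁻¹ d) = d := by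
  simp [pd]

theorem memlp_comp (e : (ℕ × ℕ) ≃ (ℕ × ℕ)) (h : Hs) :
    Memℓp (fun d => h (e d) : ℕ × ℕ → ℝ) 2 := by
  have h1 := lp.memℓp h
  rw [memℓp_gen_iff (by norm_num)] at h1 ⊢
  exact (Equiv.summable_iff e).2 h1

/-- composition with an equivalence of the index set, as a linear isometry -/
noncomputable def compIso (e : (ℕ × ℕ) ≃ (ℕ × ℕ)) : Hs ≃ₗᵢ[ℝ] Hs where
  toFun h := ⟨fun d => h (e d), memlp_comp e h⟩
  invFun h := ⟨fun d => h (e.symm d), memlp_comp e.symm h⟩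
  map_add' _ _ := rfl
  map_smul' _ _ := rfl
  left_inv h := by
    apply lp.ext
    funext d
    show h (e (e.symm d)) = h d
    rw [Equiv.apply_symm_apply]
  right_inv h := by
    apply lp.ext
    funext d
    show h (e.symm (e d)) = h d
    rw [Equiv.symm_apply_apply]
  norm_map' h := by
    show ‖(⟨fun d => h (e d), memlp_comp e h⟩ : Hs)‖ = ‖h‖
    rw [lp.norm_eq_tsum_rpow (by norm_num), lp.norm_eq_tsum_rpow (by norm_num)]
    congr 1
    exact Equiv.tsum_eq e (fun d => ‖h d‖ ^ (2 : ℝ≥0∞).toReal)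

/-- the unitary of a permutation: `(Uact σ h) d = h (σ⁻¹ d)` -/
noncomputable def Uact (σ : Equiv.Perm ℕ) : Hs ≃ₗᵢ[ℝ] Hs := compIso (pdEquiv σ).symm

theorem Uact_apply (σ : Equiv.Perm ℕ) (h : Hs) (d : ℕ × ℕ) : Uact σ h d = h (pd σ⁻¹ d) := rfl

theorem Uact_apply_pd (σ : Equiv.Perm ℕ) (h : Hs) (d : ℕ × ℕ) : Uact σ h (pd σ d) = h d := by
  rw [Uact_apply, pd_inv_pd]

theorem Uact_dl (σ : Equiv.Perm ℕ) (d : ℕ × ℕ) : Uact σ (dl d) = dl (pd σ d) := by
  apply lp.ext
  funext d'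
  rw [Uact_apply, dl_apply, dl_apply]
  congr 1
  apply propext
  constructor
  · rintro h
    rw [← h, pd_pd_inv]
  · rintro rfl
    rw [pd_inv_pd]

section
variable {Ω : Type*} [PermAct Ω]

theorem equivOp_iff {T : Ω → Hs →L[ℝ] Hs} :
    EquivOp T ↔ ∀ (σ : Equiv.Perm ℕ) (ω : Ω) (h : Hs), T (act σ ω) (Uact σ h) = Uact σ (T ω h) := by
  constructor
  · intro hT σ ω h
    have key : (T (act σ ω)).comp (Uact σ).toContinuousLinearEquiv.toContinuousLinearMap
        = (Uact σ).toContinuousLinearEquiv.toContinuousLinearMap.comp (T ω) := by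
      apply clm_ext_dl
      intro d
      apply lp.ext
      funext d'
      show T (act σ ω) (Uact σ (dl d)) d' = Uact σ (T ω (dl d)) d'
      rw [Uact_dl, Uact_apply, ← hT σ ω d (pd σ⁻¹ d'), pd_pd_inv]
    have := congrArg (fun S : Hs →L[ℝ] Hs => S h) key
    exact this
  · intro h σ ω d d'
    rw [← Uact_dl, h, Uact_apply_pd]

theorem EquivOp.add {T U : Ω → Hs →L[ℝ] Hs} (hT : EquivOp T) (hU : EquivOp U) :
    EquivOp fun ω => T ω + U ω := by
  intro σ ω d d'
  have h1 := hT σ ω d d'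
  have h2 := hU σ ω d d'
  show (T (act σ ω) (dl (pd σ d)) + U (act σ ω) (dl (pd σ d)) : Hs) (pd σ d')
    = (T ω (dl d) + U ω (dl d) : Hs) d'
  rw [lp.coeFn_add, lp.coeFn_add, Pi.add_apply, Pi.add_apply, h1, h2]

theorem EquivOp.sub {T U : Ω → Hs →L[ℝ] Hs} (hT : EquivOp T) (hU : EquivOp U) :
    EquivOp fun ω => T ω - U ω := by
  intro σ ω d d'
  have h1 := hT σ ω d d'
  have h2 := hU σ ω d d'
  show (T (act σ ω) (dl (pd σ d)) - U (act σ ω) (dl (pd σ d)) : Hs) (pd σ d')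
    = (T ω (dl d) - U ω (dl d) : Hs) d'
  rw [lp.coeFn_sub, lp.coeFn_sub, Pi.sub_apply, Pi.sub_apply, h1, h2]

theorem EquivOp.comp {T U : Ω → Hs →L[ℝ] Hs} (hT : EquivOp T) (hU : EquivOp U) :
    EquivOp fun ω => (T ω).comp (U ω) := by
  rw [equivOp_iff] at hT hU ⊢
  intro σ ω h
  show T (act σ ω) (U (act σ ω) (Uact σ h)) = Uact σ (T ω (U ω h))
  rw [hU, hT]

theorem EquivOp.adjoint {T : Ω → Hs →L[ℝ] Hs} (hT : EquivOp T) :
    EquivOp fun ω => ContinuousLinearMap.adjoint (T ω) := by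
  intro σ ω d d'
  simp only [adjoint_entry]
  exact hT σ ω d' d

theorem EquivOp.one : EquivOp fun _ : Ω => (1 : Hs →L[ℝ] Hs) := by
  rw [equivOp_iff]
  intro σ ω h
  rfl

theorem EquivOp.pow {T : Ω → Hs →L[ℝ] Hs} (hT : EquivOp T) (n : ℕ) :
    EquivOp fun ω => (T ω) ^ n := by
  induction n with
  | zero => simpa using EquivOp.one
  | succ n ih =>
    have h : (fun ω => T ω ^ (n + 1)) = fun ω => (T ω ^ n).comp (T ω) := by
      funext ω
      rw [pow_succ]; rfl
    rw [h]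
    exact ih.comp hT

theorem EquivOp.const_smul {T : Ω → Hs →L[ℝ] Hs} (hT : EquivOp T) (c : ℝ) :
    EquivOp fun ω => c • T ω := by
  rw [equivOp_iff] at hT ⊢
  intro σ ω h
  show c • T (act σ ω) (Uact σ h) = Uact σ (c • T ω h)
  rw [hT, map_smul]

end

end Vale.Agent.H15.F
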