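import Vale.Agent.H15.F.Core
import Vale.Agent.H16.FIID.M9aLabels

/-!
P143, task T11: i.i.d. edge labels from i.i.d. vertex labels.
-/

open MeasureTheory Filter Topology
open scoped ENNReal

namespace Vale.Agent.H15.F

/-- index of the neighbour `y` of `x` -/
noncomputable def vlab_idx (s : Set (Sym2 ℕ)) (α : ℕ → unitInterval) (x y : ℕ) : ℕ :=
  Set.ncard {z | s(x, z) ∈ s ∧ α z < α y}

open Classical in
/-- label of the edge `x y`, stored at the end-point with smaller `α` -/
noncomputable def vlab_lab (b : ℕ) (s : Set (Sym2 ℕ)) (α : ℕ → unitInterval)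
    (R : ℕ × ℕ → unitInterval) (x y : ℕ) : unitInterval :=
  if α x < α y then R (x, 2 * vlab_idx s α x y + b)
  else if α y < α x then R (y, 2 * vlab_idx s α y x + b) else 0

theorem vlab_symm (b : ℕ) (s : Set (Sym2 ℕ)) (α : ℕ → unitInterval)
    (R : ℕ × ℕ → unitInterval) (x y : ℕ) : vlab_lab b s α R x y = vlab_lab b s α R y x := by
  unfold vlab_lab
  by_cases h1 : α x < α y
  · simp [h1, not_lt.2 h1.le]
  · by_cases h2 : α y < α x
    · simp [h1, h2]
    · simp [h1, h2]

/-- label of an edge -/
noncomputable def vlab_E (b : ℕ) (s : Set (Sym2 ℕ)) (α : ℕ → unitInterval)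
    (R : ℕ × ℕ → unitInterval) : Sym2 ℕ → unitInterval :=
  Sym2.lift ⟨fun x y => vlab_lab b s α R x y, fun x y => vlab_symm b s α R x y⟩

theorem vlab_measurable_idx (x y : ℕ) :
    Measurable fun q : Set (Sym2 ℕ) × (ℕ → unitInterval) => vlab_idx q.1 q.2 x y := by
  unfold vlab_idx
  refine measurable_ncard.comp (measurable_set_iff.2 fun z => ?_)
  have h1 : MeasurableSet {q : Set (Sym2 ℕ) × (ℕ → unitInterval) | s(x, z) ∈ q.1} :=
    (measurableSet_mem _).preimage measurable_fst
  have h2 : MeasurableSet {q : Set (Sym2 ℕ) × (ℕ → unitInterval) | q.2 z < q.2 y} :=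
    measurableSet_lt ((measurable_pi_apply z).comp measurable_snd)
      ((measurable_pi_apply y).comp measurable_snd)
  exact measurableSet_setOfPred.1 (h1.inter h2)

theorem vlab_measurable_read (x b : ℕ) :
    Measurable fun q : ℕ × (ℕ × ℕ → unitInterval) => q.2 (x, 2 * q.1 + b) := by
  refine measurable_from_prod_countable_right fun k => ?_
  exact measurable_pi_apply (x, 2 * k + b)

theorem vlab_measurable_lab (b x y : ℕ) :
    Measurable fun q : Set (Sym2 ℕ) × (ℕ → unitInterval) × (ℕ × ℕ → unitInterval) =>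
      vlab_lab b q.1 q.2.1 q.2.2 x y := by
  unfold vlab_lab
  have hα : ∀ z : ℕ, Measurable
      fun q : Set (Sym2 ℕ) × (ℕ → unitInterval) × (ℕ × ℕ → unitInterval) => q.2.1 z := fun z =>
    (measurable_pi_apply z).comp (measurable_fst.comp measurable_snd)
  have hi : ∀ x y : ℕ, Measurable
      fun q : Set (Sym2 ℕ) × (ℕ → unitInterval) × (ℕ × ℕ → unitInterval) =>
        q.2.2 (x, 2 * vlab_idx q.1 q.2.1 x y + b) := fun x y =>
    (vlab_measurable_read x b).comp (((vlab_measurable_idx x y).comp
      (measurable_fst.prodMk (measurable_fst.comp measurable_snd))).prodMk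
        (measurable_snd.comp measurable_snd))
  refine Measurable.ite (measurableSet_lt (hα x) (hα y)) (hi x y) ?_
  exact Measurable.ite (measurableSet_lt (hα y) (hα x)) (hi y x) measurable_const

theorem vlab_measurable_E (b : ℕ) :
    Measurable fun q : Set (Sym2 ℕ) × (ℕ → unitInterval) × (ℕ × ℕ → unitInterval) =>
      vlab_E b q.1 q.2.1 q.2.2 := by
  refine measurable_pi_lambda _ fun e => ?_
  induction e using Sym2.ind with
  | _ x y => exact vlab_measurable_lab b x y

theorem vlab_idx_act (σ : Equiv.Perm ℕ) (s : Set (Sym2 ℕ)) (α : ℕ → unitInterval) (x y : ℕ) :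
    vlab_idx (act σ s) (fun z => α (σ.symm z)) x y = vlab_idx s α (σ.symm x) (σ.symm y) := by
  unfold vlab_idx
  have h : {z | s(x, z) ∈ (act σ s : Set (Sym2 ℕ)) ∧ α (σ.symm z) < α (σ.symm y)} =
      σ '' {w | s(σ.symm x, w) ∈ s ∧ α w < α (σ.symm y)} := by
    ext z
    constructor
    · rintro ⟨⟨e, he, hez⟩, h2⟩
      refine ⟨σ.symm z, ⟨?_, h2⟩, by simp⟩
      have : e = s(σ.symm x, σ.symm z) := by
        have h3 : Sym2.map σ.symm (Sym2.map σ e) = Sym2.map σ.symm s(x, z) := by rw [hez]
        rw [Sym2.map_map] at h3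
        have h4 : (σ.symm ∘ σ : ℕ → ℕ) = id := by
          funext a
          simp
        rw [h4, Sym2.map_id] at h3
        simpa using h3
      rw [← this]
      exact he
    · rintro ⟨w, ⟨hw, h2⟩, rfl⟩
      refine ⟨⟨s(σ.symm x, w), hw, by simp⟩, ?_⟩
      simpa using h2
  rw [h, Set.ncard_image_of_injective _ σ.injective]

theorem vlab_E_act (b : ℕ) (σ : Equiv.Perm ℕ) (s : Set (Sym2 ℕ)) (α : ℕ → unitInterval)
    (R : ℕ × ℕ → unitInterval) :
    vlab_E b (act σ s) (fun z => α (σ.symm z)) (fun i => R (σ.symm i.1, i.2)) =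
      fun e => vlab_E b s α R (Sym2.map σ.symm e) := by
  funext e
  induction e using Sym2.ind with
  | _ x y =>
    rw [Sym2.map_mk]
    unfold vlab_E
    simp only [Sym2.lift_mk]
    unfold vlab_lab
    simp only [vlab_idx_act]

/-- for an injective `α` the labels of the edges of `s` are read at distinct places -/
theorem vlab_inj {s : Set (Sym2 ℕ)} (hs : IsGraph s) {α : ℕ → unitInterval}
    (hα : Function.Injective α) : ∃ ι : s ⊕ s → ℕ × ℕ, Function.Injective ι ∧
      ∀ R : ℕ × ℕ → unitInterval, (∀ e : s, vlab_E 0 s α R e = R (ι (Sum.inl e))) ∧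
        (∀ e : s, vlab_E 1 s α R e = R (ι (Sum.inr e))) := by
  have hex : ∀ e : s, ∃ x y : ℕ, (e : Sym2 ℕ) = s(x, y) ∧ α x < α y := by
    rintro ⟨e, he⟩
    induction e using Sym2.ind with
    | _ x y =>
      have hne : x ≠ y := fun h => hs.1 _ he (by simp [h])
      rcases lt_or_gt_of_ne (fun h => hne (hα h)) with h | h
      · exact ⟨x, y, rfl, h⟩
      · exact ⟨y, x, Sym2.eq_swap, h⟩
  choose X Y hXY hlt using hex
  have hkey : ∀ e e' : s, X e = X e' → vlab_idx s α (X e) (Y e) = vlab_idx s α (X e') (Y e') →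
      e = e' := by
    intro e e' hX hk
    have hfin : ∀ y, {z | s(X e', z) ∈ s ∧ α z < α y}.Finite := fun y =>
      (hs.2.2 (X e')).subset fun z hz => hz.1
    have hY : Y e = Y e' := by
      rw [hX] at hk
      unfold vlab_idx at hk
      by_contra hne
      have he : s(X e', Y e) ∈ s := by
        rw [← hX, ← hXY e]
        exact e.2
      have he' : s(X e', Y e') ∈ s := by
        rw [← hXY e']
        exact e'.2
      rcases lt_or_gt_of_ne (fun h => hne (hα h)) with h | h
      · have hss : {z | s(X e', z) ∈ s ∧ α z < α (Y e)} ⊂ {z | s(X e', z) ∈ s ∧ α z < α (Y e')} := by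
          refine ⟨fun z hz => ⟨hz.1, hz.2.trans h⟩, fun hcon => ?_⟩
          exact lt_irrefl _ (hcon (show Y e ∈ {z | s(X e', z) ∈ s ∧ α z < α (Y e')} from ⟨he, h⟩)).2
        have := Set.ncard_lt_ncard hss (hfin _)
        omega
      · have hss : {z | s(X e', z) ∈ s ∧ α z < α (Y e')} ⊂ {z | s(X e', z) ∈ s ∧ α z < α (Y e)} := by
          refine ⟨fun z hz => ⟨hz.1, hz.2.trans h⟩, fun hcon => ?_⟩
          exact lt_irrefl _ (hcon (show Y e' ∈ {z | s(X e', z) ∈ s ∧ α z < α (Y e)} from ⟨he', h⟩)).2
        have := Set.ncard_lt_ncard hss (hfin _)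
        omega
    apply Subtype.ext
    rw [hXY e, hXY e', hX, hY]
  refine ⟨fun i => match i with
    | Sum.inl e => (X e, 2 * vlab_idx s α (X e) (Y e) + 0)
    | Sum.inr e => (X e, 2 * vlab_idx s α (X e) (Y e) + 1), ?_, ?_⟩
  · rintro (e | e) (e' | e') h
    · simp only [Prod.mk.injEq] at h
      rw [hkey e e' h.1 (by omega)]
    · simp only [Prod.mk.injEq] at h
      omega
    · simp only [Prod.mk.injEq] at h
      omega
    · simp only [Prod.mk.injEq] at h
      rw [hkey e e' h.1 (by omega)]
  · intro R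
    refine ⟨fun e => ?_, fun e => ?_⟩
    · conv_lhs => rw [hXY e]
      unfold vlab_E
      simp only [Sym2.lift_mk]
      unfold vlab_lab
      simp [hlt e]
    · conv_lhs => rw [hXY e]
      unfold vlab_E
      simp only [Sym2.lift_mk]
      unfold vlab_lab
      simp [hlt e]

/-- splitting an i.i.d. family over a sum type -/
theorem vlab_sum {A B : Type*} (ν : Measure unitInterval) [IsProbabilityMeasure ν] :
    (Measure.infinitePi fun _ : A ⊕ B => ν).map (fun w => ((fun a => w (Sum.inl a)),
      (fun b => w (Sum.inr b)))) =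
      (Measure.infinitePi fun _ : A => ν).prod (Measure.infinitePi fun _ : B => ν) := by
  classical
  have hg : Measurable (fun p : (A → unitInterval) × (B → unitInterval) =>
      (Sum.elim p.1 p.2 : A ⊕ B → unitInterval)) := by
    refine measurable_pi_lambda _ fun i => ?_
    rcases i with a | b
    · exact (measurable_pi_apply a).comp measurable_fst
    · exact (measurable_pi_apply b).comp measurable_snd
  have hu : Measurable (fun w : A ⊕ B → unitInterval => ((fun a => w (Sum.inl a)),
      (fun b => w (Sum.inr b)))) :=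
    (measurable_pi_lambda _ fun a => measurable_pi_apply _).prodMk
      (measurable_pi_lambda _ fun b => measurable_pi_apply _)
  have h : ((Measure.infinitePi fun _ : A => ν).prod (Measure.infinitePi fun _ : B => ν)).map
      (fun p => (Sum.elim p.1 p.2 : A ⊕ B → unitInterval)) =
      Measure.infinitePi fun _ : A ⊕ B => ν := by
    refine Measure.eq_infinitePi _ fun s t ht => ?_
    rw [Measure.map_apply hg (.pi s.countable_toSet fun _ _ => ht _)]
    have h1 : ((fun p : (A → unitInterval) × (B → unitInterval) =>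
        (Sum.elim p.1 p.2 : A ⊕ B → unitInterval)) ⁻¹' (Set.pi (s : Set (A ⊕ B)) t)) =
        (Set.pi ((s.toLeft : Finset A) : Set A) fun a => t (Sum.inl a)) ×ˢ
        (Set.pi ((s.toRight : Finset B) : Set B) fun b => t (Sum.inr b)) := by
      ext p
      simp only [Set.mem_preimage, Set.mem_pi, Finset.mem_coe, Set.mem_prod, Finset.mem_toLeft,
        Finset.mem_toRight, Sum.forall, Sum.elim_inl, Sum.elim_inr]
    rw [h1, Measure.prod_prod, Measure.infinitePi_pi _ (fun i _ => ht _),
      Measure.infinitePi_pi _ (fun i _ => ht _)]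
    conv_rhs => rw [← Finset.toLeft_disjSum_toRight (u := s)]
    rw [Finset.prod_disjSum]
  conv_lhs => rw [← h]
  rw [Measure.map_map hu hg]
  have : ((fun w : A ⊕ B → unitInterval => ((fun a => w (Sum.inl a)), (fun b => w (Sum.inr b)))) ∘
      fun p : (A → unitInterval) × (B → unitInterval) => (Sum.elim p.1 p.2 : A ⊕ B → unitInterval)) =
      id := by
    funext p
    simp
  rw [this, Measure.map_id]

theorem vlab_lam : (volume : Measure unitInterval).map (Subtype.val : unitInterval → ℝ) = lam := by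
  unfold lam
  exact map_comap_subtype_coe measurableSet_Icc volume

theorem vertex_labels : ∃ L₁ L₂ : Set (Sym2 ℕ) → (ℕ → unitInterval) → Sym2 ℕ → ℝ,
    Measurable (fun q : Set (Sym2 ℕ) × (ℕ → unitInterval) => L₁ q.1 q.2) ∧
    Measurable (fun q : Set (Sym2 ℕ) × (ℕ → unitInterval) => L₂ q.1 q.2) ∧
    (∀ (σ : Equiv.Perm ℕ) (s : Set (Sym2 ℕ)) (ξ : ℕ → unitInterval),
      L₁ (act σ s) (fun x => ξ (σ.symm x)) = act σ (L₁ s ξ)) ∧
    (∀ (σ : Equiv.Perm ℕ) (s : Set (Sym2 ℕ)) (ξ : ℕ → unitInterval),
      L₂ (act σ s) (fun x => ξ (σ.symm x)) = act σ (L₂ s ξ)) ∧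
    ∀ s, IsGraph s →
      (iidU ℕ).map (fun ξ => ((fun e : s => L₁ s ξ e), (fun e : s => L₂ s ξ e))) =
        (Measure.infinitePi fun _ : s => ProbabilityTheory.expMeasure 1).prod
          (Measure.infinitePi fun _ : s => lam) := by
  have : IsProbabilityMeasure (ProbabilityTheory.expMeasure 1) :=
    ProbabilityTheory.isProbabilityMeasure_expMeasure one_pos
  have : IsProbabilityMeasure lam := by
    constructor
    unfold lam
    simp
  obtain ⟨q, hq, hqm⟩ := Measure.exists_measurable_map_eq (ProbabilityTheory.expMeasure 1)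
  obtain ⟨E, hE, hEl⟩ := Vale.Agent.H16.FIID.exists_encode (V := ℕ)
  have hα : Measurable fun ξ : ℕ → unitInterval => (fun v => E (ξ v) 0 : ℕ → unitInterval) :=
    measurable_pi_lambda _ fun v => (measurable_pi_apply 0).comp (hE.comp (measurable_pi_apply v))
  have hR : Measurable fun ξ : ℕ → unitInterval =>
      (fun i => E (ξ i.1) (i.2 + 1) : ℕ × ℕ → unitInterval) :=
    measurable_pi_lambda _ fun i =>
      (measurable_pi_apply (i.2 + 1)).comp (hE.comp (measurable_pi_apply i.1))
  have henc : ∀ b : ℕ, Measurable fun p : Set (Sym2 ℕ) × (ℕ → unitInterval) =>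
      vlab_E b p.1 (fun v => E (p.2 v) 0) (fun i => E (p.2 i.1) (i.2 + 1)) := fun b =>
    (vlab_measurable_E b).comp (measurable_fst.prodMk
      ((hα.comp measurable_snd).prodMk (hR.comp measurable_snd)))
  refine ⟨fun s ξ e => q (vlab_E 0 s (fun v => E (ξ v) 0) (fun i => E (ξ i.1) (i.2 + 1)) e),
    fun s ξ e => (vlab_E 1 s (fun v => E (ξ v) 0) (fun i => E (ξ i.1) (i.2 + 1)) e : ℝ),
    ?_, ?_, ?_, ?_, ?_⟩
  · exact measurable_pi_lambda _ fun e => hq.comp ((measurable_pi_apply e).comp (henc 0))
  · exact measurable_pi_lambda _ fun e =>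
      measurable_subtype_coe.comp ((measurable_pi_apply e).comp (henc 1))
  · intro σ s ξ
    funext e
    have := congrFun (vlab_E_act 0 σ s (fun v => E (ξ v) 0) (fun i => E (ξ i.1) (i.2 + 1))) e
    simp only at this ⊢
    rw [this]
    rfl
  · intro σ s ξ
    funext e
    have := congrFun (vlab_E_act 1 σ s (fun v => E (ξ v) 0) (fun i => E (ξ i.1) (i.2 + 1))) e
    simp only at this ⊢
    rw [this]
    rfl
  · intro s hs
    obtain ⟨Ψ, hΨ⟩ : ∃ Ψ : (ℕ → unitInterval) × (ℕ × ℕ → unitInterval) → (s → ℝ) × (s → ℝ),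
        Ψ = fun p : (ℕ → unitInterval) × (ℕ × ℕ → unitInterval) =>
          ((fun e : s => q (vlab_E 0 s p.1 p.2 e)), (fun e : s => (vlab_E 1 s p.1 p.2 e : ℝ))) :=
      ⟨_, rfl⟩
    have hE' : ∀ b : ℕ, Measurable fun p : (ℕ → unitInterval) × (ℕ × ℕ → unitInterval) =>
        vlab_E b s p.1 p.2 := fun b =>
      (vlab_measurable_E b).comp (measurable_const.prodMk measurable_id)
    have hΨm : Measurable Ψ := by
      rw [hΨ]
      refine Measurable.prodMk ?_ ?_
      · exact measurable_pi_lambda _ fun e => hq.comp ((measurable_pi_apply _).comp (hE' 0))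
      · exact measurable_pi_lambda _ fun e =>
          measurable_subtype_coe.comp ((measurable_pi_apply _).comp (hE' 1))
    have h1 : (iidU ℕ).map (fun ξ => ((fun e : s => q (vlab_E 0 s (fun v => E (ξ v) 0)
        (fun i => E (ξ i.1) (i.2 + 1)) e)), (fun e : s => (vlab_E 1 s (fun v => E (ξ v) 0)
        (fun i => E (ξ i.1) (i.2 + 1)) e : ℝ)))) =
        ((iidU ℕ).prod (iidU (ℕ × ℕ))).map Ψ := by
      have h2 : (iidU ℕ).prod (iidU (ℕ × ℕ)) = (iidU ℕ).map (fun U => ((fun v => E (U v) 0 :
          ℕ → unitInterval), (fun i => E (U i.1) (i.2 + 1) : ℕ × ℕ → unitInterval))) := hEl.symm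
      rw [h2, Measure.map_map hΨm (hα.prodMk hR), hΨ]
      rfl
    rw [h1]
    have : IsProbabilityMeasure (iidU ℕ) := by
      unfold iidU
      infer_instance
    have : IsProbabilityMeasure (iidU (ℕ × ℕ)) := by
      unfold iidU
      infer_instance
    have hinj : ∀ᵐ α ∂(iidU ℕ), Function.Injective α :=
      Vale.Agent.H16.FIID.iid_injective (V := ℕ)
    have hcond : ∀ α : ℕ → unitInterval, Function.Injective α →
        (iidU (ℕ × ℕ)).map (fun R => Ψ (α, R)) =
        (Measure.infinitePi fun _ : s => ProbabilityTheory.expMeasure 1).prod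
          (Measure.infinitePi fun _ : s => lam) := by
      intro α hαi
      obtain ⟨ι, hι, hlab⟩ := vlab_inj hs hαi
      have h3 := Measure.map_infinitePi_infinitePi_of_inj
        (P := fun _ : ℕ × ℕ => (volume : Measure unitInterval)) hι
      have h4 := vlab_sum (A := s) (B := s) (volume : Measure unitInterval)
      rw [← h3, Measure.map_map (by fun_prop) (by fun_prop)] at h4
      have h5 : (fun R => Ψ (α, R)) = (Prod.map (fun (w : s → unitInterval) (e : s) => q (w e))
          (fun (w : s → unitInterval) (e : s) => (w e : ℝ))) ∘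
          ((fun w : s ⊕ s → unitInterval => ((fun a => w (Sum.inl a)), (fun b => w (Sum.inr b)))) ∘
            fun (R : ℕ × ℕ → unitInterval) (i : s ⊕ s) => R (ι i)) := by
        funext R
        rw [hΨ]
        simp only [Function.comp_apply, Prod.map_apply]
        rw [Prod.mk.injEq]
        exact ⟨funext fun e => by rw [(hlab R).1 e], funext fun e => by rw [(hlab R).2 e]⟩
      have hf : Measurable fun (w : s → unitInterval) (e : s) => q (w e) :=
        measurable_pi_lambda _ fun e => hq.comp (measurable_pi_apply e)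
      have hg : Measurable fun (w : s → unitInterval) (e : s) => (w e : ℝ) :=
        measurable_pi_lambda _ fun e => measurable_subtype_coe.comp (measurable_pi_apply e)
      have h6 : Measurable ((fun w : s ⊕ s → unitInterval =>
          ((fun a => w (Sum.inl a)), (fun b => w (Sum.inr b)))) ∘
            fun (R : ℕ × ℕ → unitInterval) (i : s ⊕ s) => R (ι i)) := by
        fun_prop
      rw [h5, ← Measure.map_map (hf.prodMap hg) h6]
      have h7 : iidU (ℕ × ℕ) = Measure.infinitePi fun _ : ℕ × ℕ => (volume : Measure unitInterval) :=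
        rfl
      rw [h7, h4, ← Measure.map_prod_map _ _ hf hg, Measure.infinitePi_map_pi _ (fun _ => hq),
        Measure.infinitePi_map_pi _ (fun _ => measurable_subtype_coe)]
      simp only [hqm, vlab_lam]
    ext C hC
    rw [Measure.map_apply hΨm hC, Measure.prod_apply (hΨm hC)]
    have h8 : ∀ᵐ α ∂(iidU ℕ), (iidU (ℕ × ℕ)) (Prod.mk α ⁻¹' (Ψ ⁻¹' C)) =
        ((Measure.infinitePi fun _ : s => ProbabilityTheory.expMeasure 1).prod
          (Measure.infinitePi fun _ : s => lam)) C := by
      filter_upwards [hinj] with α hαi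
      have hm1 : Measurable fun R : ℕ × ℕ → unitInterval => Ψ (α, R) :=
        hΨm.comp measurable_prodMk_left
      rw [← hcond α hαi, Measure.map_apply hm1 hC]
      rfl
    rw [lintegral_congr_ae h8, lintegral_const, measure_univ, mul_one]

end Vale.Agent.H15.F
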