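import Vale.Agent.H15.F.Pic8
import Vale.Agent.H15.F.VLab

/-!
P143, T12: final assembly: from edge labels to vertex labels, and the Cayley clause.
-/

open MeasureTheory Filter Topology
open scoped ENNReal

namespace Vale.Agent.H15.F

/-! ### transport along a bijection of the vertices -/

section Transport
variable {V W : Type*}

/-- the bijection of edges induced by a bijection of vertices -/
def fin_E (e : V ≃ W) : Sym2 V ≃ Sym2 W where
  toFun := Sym2.map e
  invFun := Sym2.map e.symm
  left_inv := fun x => by rw [Sym2.map_map]; simp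
  right_inv := fun x => by rw [Sym2.map_map]; simp

theorem fin_E_apply (e : V ≃ W) (x : Sym2 V) : fin_E e x = Sym2.map e x := rfl

theorem fin_E_symm (e : V ≃ W) : (fin_E e).symm = fin_E e.symm := rfl

theorem fin_image_symm (e : V ≃ W) (s : Set (Sym2 V)) :
    Sym2.map e.symm '' (Sym2.map e '' s) = s := by
  rw [← Set.image_comp, ← Sym2.map_comp]
  simp

theorem fin_image_symm' (e : V ≃ W) (s : Set (Sym2 W)) :
    Sym2.map e '' (Sym2.map e.symm '' s) = s := by
  rw [← Set.image_comp, ← Sym2.map_comp]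
  simp

/-- isomorphism of graphs -/
def fin_iso (e : V ≃ W) (S : Set (Sym2 V)) :
    SimpleGraph.fromEdgeSet S ≃g SimpleGraph.fromEdgeSet (Sym2.map e '' S) where
  toEquiv := e
  map_rel_iff' := by
    intro a b
    rw [SimpleGraph.fromEdgeSet_adj, SimpleGraph.fromEdgeSet_adj]
    refine and_congr ?_ (by simp)
    rw [← Sym2.map_mk]
    exact (Sym2.map.injective e.injective).mem_set_image

theorem fin_coe_map (e : V ≃ W) (K : Finset (Sym2 V)) :
    ((K.map (fin_E e).toEmbedding : Finset (Sym2 W)) : Set (Sym2 W)) = Sym2.map e '' K := by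
  rw [Finset.coe_map]
  rfl

theorem fin_mem_map (e : V ≃ W) (K : Finset (Sym2 V)) (x y : V) :
    s(e x, e y) ∈ K.map (fin_E e).toEmbedding ↔ s(x, y) ∈ K := by
  rw [← Sym2.map_mk, ← fin_E_apply]
  exact Finset.mem_map' _

theorem fin_reach (e : V ≃ W) (K : Finset (Sym2 V)) (x y : V) :
    (SimpleGraph.fromEdgeSet
      ((K.map (fin_E e).toEmbedding : Finset (Sym2 W)) : Set (Sym2 W))).Reachable (e x) (e y) ↔
    (SimpleGraph.fromEdgeSet (K : Set (Sym2 V))).Reachable x y := by
  rw [fin_coe_map]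
  exact SimpleGraph.Iso.reachable_iff (φ := fin_iso e (K : Set (Sym2 V)))

theorem fin_spanTree (e : V ≃ W) (K T : Finset (Sym2 V)) :
    IsSpanTree (K.map (fin_E e).toEmbedding) (T.map (fin_E e).toEmbedding) ↔ IsSpanTree K T := by
  unfold IsSpanTree
  refine and_congr Finset.map_subset_map (and_congr ?_ ?_)
  · rw [fin_coe_map]
    exact (fin_iso e (T : Set (Sym2 V))).isAcyclic_iff.symm
  · constructor
    · intro h x y hxy
      exact (fin_reach e T x y).1 (h (e x) (e y) ((fin_mem_map e K x y).2 hxy))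
    · intro h x y hxy
      obtain ⟨x, rfl⟩ := e.surjective x
      obtain ⟨y, rfl⟩ := e.surjective y
      exact (fin_reach e T x y).2 (h x y ((fin_mem_map e K x y).1 hxy))

theorem fin_treeCount (e : V ≃ W) (K A B : Finset (Sym2 V)) :
    treeCount (K.map (fin_E e).toEmbedding) (A.map (fin_E e).toEmbedding)
      (B.map (fin_E e).toEmbedding) = treeCount K A B := by
  unfold treeCount
  refine (Nat.card_congr ?_).symm
  refine Equiv.subtypeEquiv (fin_E e).finsetCongr fun T => ?_
  rw [Equiv.finsetCongr_apply, fin_spanTree, Finset.map_subset_map, Finset.disjoint_map]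

theorem fin_ustProb (e : V ≃ W) (K A B : Finset (Sym2 V)) :
    ustProb (K.map (fin_E e).toEmbedding) (A.map (fin_E e).toEmbedding)
      (B.map (fin_E e).toEmbedding) = ustProb K A B := by
  unfold ustProb
  rw [fin_treeCount]
  have := fin_treeCount e K ∅ ∅
  rw [Finset.map_empty] at this
  rw [this]

theorem fin_conn (e : V ≃ W) {K : Finset (Sym2 V)} (h : IsConn K) :
    IsConn (K.map (fin_E e).toEmbedding) := by
  intro a ha b hb x hx y hy
  obtain ⟨x, rfl⟩ := e.surjective x
  obtain ⟨y, rfl⟩ := e.surjective y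
  obtain ⟨a, ha', rfl⟩ := Finset.mem_map.1 ha
  obtain ⟨b, hb', rfl⟩ := Finset.mem_map.1 hb
  refine (fin_reach e K x y).2 (h a ha' b hb' x ?_ y ?_)
  · have hx' : e x ∈ Sym2.map e a := hx
    rw [Sym2.mem_map] at hx'
    obtain ⟨x', hx', h'⟩ := hx'
    rwa [← e.injective h']
  · have hy' : e y ∈ Sym2.map e b := hy
    rw [Sym2.mem_map] at hy'
    obtain ⟨y', hy', h'⟩ := hy'
    rwa [← e.injective h']

theorem fin_exhaustion (e : V ≃ W) {s : Set (Sym2 V)} {K : ℕ → Finset (Sym2 V)}
    (h : IsExhaustion s K) :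
    IsExhaustion (Sym2.map e '' s) (fun n => (K n).map (fin_E e).toEmbedding) := by
  obtain ⟨h1, h2, h3⟩ := h
  refine ⟨fun m n hmn => Finset.map_subset_map.2 (h1 hmn), fun n => fin_conn e (h2 n), ?_⟩
  rw [← h3, Set.image_iUnion]
  refine Set.iUnion_congr fun n => ?_
  rw [fin_coe_map]

theorem fin_measurable_image (e : V ≃ W) :
    Measurable (fun F : Set (Sym2 V) => Sym2.map e '' F) := by
  rw [measurable_set_iff]
  intro a
  have : (fun F : Set (Sym2 V) => a ∈ Sym2.map e '' F) =
      fun F : Set (Sym2 V) => (fin_E e).symm a ∈ F := by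
    funext F
    apply propext
    constructor
    · rintro ⟨b, hb, rfl⟩
      rw [← fin_E_apply, Equiv.symm_apply_apply]
      exact hb
    · intro h
      refine ⟨_, h, ?_⟩
      rw [← fin_E_apply, Equiv.apply_symm_apply]
  rw [this]
  exact measurable_set_mem _

theorem fin_measurableSet_cyl (A B : Finset (Sym2 V)) :
    MeasurableSet {F : Set (Sym2 V) | (A : Set (Sym2 V)) ⊆ F ∧ Disjoint (B : Set (Sym2 V)) F} := by
  have : {F : Set (Sym2 V) | (A : Set (Sym2 V)) ⊆ F ∧ Disjoint (B : Set (Sym2 V)) F} =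
      (⋂ a ∈ A, {F : Set (Sym2 V) | a ∈ F}) ∩ ⋂ b ∈ B, {F : Set (Sym2 V) | b ∉ F} := by
    ext F
    simp only [Set.mem_ofPred_eq, Set.mem_inter_iff, Set.mem_iInter]
    refine and_congr Iff.rfl ?_
    rw [Set.disjoint_left]
    rfl
  rw [this]
  refine MeasurableSet.inter ?_ ?_
  · exact Finset.measurableSet_biInter _ fun a _ => measurableSet_setOfPred.2 (measurable_set_mem a)
  · exact Finset.measurableSet_biInter _ fun a _ => measurableSet_setOfPred.2 (measurable_set_notMem a)

theorem fin_fusf (e : V ≃ W) {s : Set (Sym2 V)} {μ : Measure (Set (Sym2 V))} (h : IsFUSF s μ) :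
    IsFUSF (Sym2.map e '' s) (μ.map fun F => Sym2.map e '' F) := by
  obtain ⟨h1, h2⟩ := h
  refine ⟨Measure.isProbabilityMeasure_map (fin_measurable_image e).aemeasurable, ?_⟩
  intro K hK A B
  have hK' := fin_exhaustion e.symm hK
  rw [fin_image_symm] at hK'
  have h3 := h2 _ hK' (A.map (fin_E e.symm).toEmbedding) (B.map (fin_E e.symm).toEmbedding)
  simp only [fin_ustProb] at h3
  convert h3 using 2
  rw [Measure.real, Measure.real, Measure.map_apply (fin_measurable_image e)
    (fin_measurableSet_cyl A B)]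
  congr 2
  ext F
  simp only [Set.mem_preimage, Set.mem_ofPred_eq]
  rw [fin_coe_map, fin_coe_map]
  have hF : F = Sym2.map e.symm '' (Sym2.map e '' F) := (fin_image_symm e F).symm
  conv_rhs => rw [hF]
  rw [Set.image_subset_image_iff (Sym2.map.injective e.symm.injective),
    Set.disjoint_image_iff (Sym2.map.injective e.symm.injective)]

end Transport

/-! ### from edge labels to vertex labels -/

open Classical in
/-- extension by zero -/
noncomputable def fin_ext (s : Set (Sym2 ℕ)) (a : s → ℝ) : Sym2 ℕ → ℝ :=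
  fun e => if h : e ∈ s then a ⟨e, h⟩ else 0

theorem fin_ext_measurable (s : Set (Sym2 ℕ)) : Measurable (fin_ext s) := by
  refine measurable_pi_lambda _ fun e => ?_
  unfold fin_ext
  by_cases h : e ∈ s
  · simp only [h, dif_pos]
    exact measurable_pi_apply _
  · simp only [h, dif_neg, not_false_eq_true]
    exact measurable_const

theorem fin_ext_apply (s : Set (Sym2 ℕ)) (a : s → ℝ) (e : Sym2 ℕ) (he : e ∈ s) :
    fin_ext s a e = a ⟨e, he⟩ := by
  unfold fin_ext
  rw [dif_pos he]

theorem fin_expE_map (s : Set (Sym2 ℕ)) :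
    expE.map (fun u : Sym2 ℕ → ℝ => fun e : s => u e) =
      Measure.infinitePi fun _ : s => ProbabilityTheory.expMeasure 1 := by
  have : IsProbabilityMeasure (ProbabilityTheory.expMeasure 1) :=
    ProbabilityTheory.isProbabilityMeasure_expMeasure one_pos
  exact Measure.infinitePi_map_restrict' (μ := fun _ : Sym2 ℕ => ProbabilityTheory.expMeasure 1)

instance fin_lam_prob : IsProbabilityMeasure lam := by
  constructor
  unfold lam
  rw [Measure.restrict_apply_univ, Real.volume_Icc]
  simp

theorem fin_lamE_map (s : Set (Sym2 ℕ)) :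
    lamE.map (fun u : Sym2 ℕ → ℝ => fun e : s => u e) =
      Measure.infinitePi fun _ : s => lam :=
  Measure.infinitePi_map_restrict' (μ := fun _ : Sym2 ℕ => lam)

theorem unimodular_factor {ρ : Measure (Set (Sym2 ℕ) × ℕ)} (hρ : IsUnimodular ρ) :
    ∃ Φ : Set (Sym2 ℕ) → (ℕ → unitInterval) → Set (Sym2 ℕ),
      Measurable (fun q : Set (Sym2 ℕ) × (ℕ → unitInterval) => Φ q.1 q.2) ∧
      (∀ (σ : Equiv.Perm ℕ) (s : Set (Sym2 ℕ)) (U : ℕ → unitInterval),
        Φ (Sym2.map σ '' s) (fun x => U (σ.symm x)) = Sym2.map σ '' Φ s U) ∧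
      ∀ᵐ p ∂ρ, IsFUSF p.1 ((iidU ℕ).map (Φ p.1)) := by
  obtain ⟨Φ, hm, he, hl, hf⟩ := edge_factor hρ
  obtain ⟨L₁, L₂, m1, m2, e1, e2, hL⟩ := vertex_labels
  refine ⟨fun s ξ => Φ s (L₁ s ξ) (L₂ s ξ), ?_, ?_, ?_⟩
  · exact hm.comp (measurable_fst.prodMk (m1.prodMk m2))
  · intro σ s U
    have h1 := e1 σ s U
    have h2 := e2 σ s U
    have h3 := he σ s (L₁ s U) (L₂ s U)
    rw [← h1, ← h2] at h3
    exact h3
  · filter_upwards [hf, hρ.2.1] with p hp hg
    have key : (iidU ℕ).map (fun ξ => Φ p.1 (L₁ p.1 ξ) (L₂ p.1 ξ)) =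
        (expE.prod lamE).map fun q => Φ p.1 q.1 q.2 := by
      set s := p.1 with hs
      have hΨ : Measurable (fun q : (s → ℝ) × (s → ℝ) => Φ s (fin_ext s q.1) (fin_ext s q.2)) :=
        hm.comp (measurable_const.prodMk (((fin_ext_measurable s).comp measurable_fst).prodMk
          ((fin_ext_measurable s).comp measurable_snd)))
      have hloc : ∀ u v : Sym2 ℕ → ℝ, Φ s u v =
          Φ s (fin_ext s (fun e : s => u e)) (fin_ext s (fun e : s => v e)) := by
        intro u v
        refine hl s _ _ _ _ (fun e he => ?_) (fun e he => ?_) <;> rw [fin_ext_apply s _ e he]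
      have hr : Measurable (fun u : Sym2 ℕ → ℝ => fun e : s => u e) :=
        measurable_pi_lambda _ fun e => measurable_pi_apply _
      have hL1 : Measurable (L₁ s) := m1.comp (measurable_const.prodMk measurable_id)
      have hL2 : Measurable (L₂ s) := m2.comp (measurable_const.prodMk measurable_id)
      have hA : Measurable
          (fun ξ : ℕ → unitInterval => ((fun e : s => L₁ s ξ e), (fun e : s => L₂ s ξ e))) :=
        (hr.comp hL1).prodMk (hr.comp hL2)
      have hB : Measurable (fun q : (Sym2 ℕ → ℝ) × (Sym2 ℕ → ℝ) =>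
          ((fun e : s => q.1 e), (fun e : s => q.2 e))) :=
        (hr.comp measurable_fst).prodMk (hr.comp measurable_snd)
      have h1 : (iidU ℕ).map (fun ξ => Φ s (L₁ s ξ) (L₂ s ξ)) =
          ((iidU ℕ).map
            (fun ξ => ((fun e : s => L₁ s ξ e), (fun e : s => L₂ s ξ e)))).map
            (fun q : (s → ℝ) × (s → ℝ) => Φ s (fin_ext s q.1) (fin_ext s q.2)) := by
        rw [Measure.map_map hΨ hA]
        congr 1
        funext ξ
        exact hloc _ _
      have : IsProbabilityMeasure (ProbabilityTheory.expMeasure 1) :=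
        ProbabilityTheory.isProbabilityMeasure_expMeasure one_pos
      have : IsProbabilityMeasure expE := by unfold expE; infer_instance
      have : IsProbabilityMeasure lamE := by unfold lamE; infer_instance
      have h2 : ((expE.prod lamE).map fun q => Φ s q.1 q.2) =
          ((expE.prod lamE).map (fun q : (Sym2 ℕ → ℝ) × (Sym2 ℕ → ℝ) =>
            ((fun e : s => q.1 e), (fun e : s => q.2 e)))).map
            (fun q : (s → ℝ) × (s → ℝ) => Φ s (fin_ext s q.1) (fin_ext s q.2)) := by
        rw [Measure.map_map hΨ hB]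
        congr 1
        funext q
        exact hloc _ _
      rw [h1, h2, hL s hg, ← fin_expE_map, ← fin_lamE_map]
      congr 1
      rw [Measure.map_prod_map _ _ hr hr]
      rfl
    rw [key]
    exact hp

/-! ### Cayley graphs -/

theorem fin_countable {Γ : Type*} [Group Γ] (T : Finset Γ)
    (hT : Subgroup.closure (T : Set Γ) = ⊤) : Countable Γ := by
  have h1 := FreeGroup.closure_eq_range (T : Set Γ)
  rw [hT] at h1
  have h2 := MonoidHom.range_eq_top.1 h1.symm
  have h3 : Countable ((T : Set Γ) : Type _) := T.countable_toSet.to_subtype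
  exact h2.countable

theorem fin_cayley_adj {Γ : Type*} [Group Γ] (T : Set Γ) (γ x y : Γ) :
    (SimpleGraph.mulCayley T).Adj (γ * x) (γ * y) ↔ (SimpleGraph.mulCayley T).Adj x y := by
  rw [SimpleGraph.mulCayley_adj', SimpleGraph.mulCayley_adj']
  simp only [mul_assoc, mul_right_inj, ne_eq]

theorem fin_cayley_image {Γ : Type*} [Group Γ] (T : Set Γ) (γ : Γ) :
    Sym2.map (γ * ·) '' (SimpleGraph.mulCayley T).edgeSet =
      (SimpleGraph.mulCayley T).edgeSet := by
  ext e
  induction e using Sym2.ind with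
  | _ x y =>
    constructor
    · rintro ⟨f, hf, hfe⟩
      induction f using Sym2.ind with
      | _ a b =>
        rw [Sym2.map_mk] at hfe
        rw [← hfe, SimpleGraph.mem_edgeSet, fin_cayley_adj]
        exact hf
    · intro h
      refine ⟨s(γ⁻¹ * x, γ⁻¹ * y), ?_, ?_⟩
      · rw [SimpleGraph.mem_edgeSet, fin_cayley_adj]
        exact h
      · simp

theorem fin_cayley_connected {Γ : Type*} [Group Γ] (T : Set Γ)
    (hT : Subgroup.closure T = ⊤) : (SimpleGraph.mulCayley T).Connected := by
  have h1 : ∀ g : Γ, (SimpleGraph.mulCayley T).Reachable 1 g := by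
    intro g
    have hg : g ∈ Subgroup.closure T := by rw [hT]; trivial
    induction hg using Subgroup.closure_induction_right with
    | one => exact SimpleGraph.Reachable.refl _
    | mul_right x hx y hy ih =>
      refine ih.trans ?_
      by_cases hxy : x = x * y
      · rw [← hxy]
      · exact SimpleGraph.Adj.reachable
          ((SimpleGraph.mulCayley_adj' _ _ _).2 ⟨hxy, y, hy, Or.inl rfl⟩)
    | mul_inv_cancel x hx y hy ih =>
      refine ih.trans ?_
      by_cases hxy : x = x * y⁻¹
      · rw [← hxy]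
      · exact SimpleGraph.Adj.reachable
          ((SimpleGraph.mulCayley_adj' _ _ _).2 ⟨hxy, y, hy, Or.inr (by simp)⟩)
  have : Nonempty Γ := ⟨1⟩
  exact SimpleGraph.Connected.mk fun x y => (h1 x).symm.trans (h1 y)

theorem fin_cayley_finite {Γ : Type*} [Group Γ] (T : Finset Γ) (x : Γ) :
    {y : Γ | (SimpleGraph.mulCayley (T : Set Γ)).Adj x y}.Finite := by
  refine Set.Finite.subset ((T.finite_toSet.image fun g => x * g).union
    (T.finite_toSet.image fun g => x * g⁻¹)) ?_
  intro y hy
  obtain ⟨-, g, hg, h | h⟩ := (SimpleGraph.mulCayley_adj' _ _ _).1 hy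
  · exact Or.inl ⟨g, hg, h⟩
  · exact Or.inr ⟨g, hg, by rw [h]; simp⟩

theorem fin_graph {Γ : Type*} (e : Γ ≃ ℕ) (G : SimpleGraph Γ) (hc : G.Connected)
    (hf : ∀ x, {y | G.Adj x y}.Finite) : IsGraph (Sym2.map e '' G.edgeSet) := by
  refine ⟨?_, ?_, ?_⟩
  · rintro _ ⟨f, hf, rfl⟩
    induction f using Sym2.ind with
    | _ a b =>
      rw [Sym2.map_mk, Sym2.mk_isDiag_iff]
      intro h
      exact G.ne_of_adj hf (e.injective h)
  · have h1 : (SimpleGraph.fromEdgeSet G.edgeSet).Connected := by
      rw [SimpleGraph.fromEdgeSet_edgeSet]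
      exact hc
    exact (fin_iso e G.edgeSet).connected_iff.1 h1
  · intro x
    obtain ⟨x, rfl⟩ := e.surjective x
    refine ((hf x).image e).subset ?_
    intro y hy
    obtain ⟨y, rfl⟩ := e.surjective y
    refine ⟨y, ?_, rfl⟩
    have h2 : s(e x, e y) ∈ Sym2.map e '' G.edgeSet := hy
    rw [← Sym2.map_mk] at h2
    exact (Sym2.map.injective e.injective).mem_set_image.1 h2

/-- left translation as a permutation of `ℕ` -/
def fin_perm {Γ : Type*} [Group Γ] (e : Γ ≃ ℕ) (γ : Γ) : Equiv.Perm ℕ :=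
  e.symm.trans ((Equiv.mulLeft γ).trans e)

theorem fin_perm_apply {Γ : Type*} [Group Γ] (e : Γ ≃ ℕ) (γ : Γ) (g : Γ) :
    fin_perm e γ (e g) = e (γ * g) := by
  simp [fin_perm]

theorem fin_perm_symm {Γ : Type*} [Group Γ] (e : Γ ≃ ℕ) (γ : Γ) (n : ℕ) :
    (fin_perm e γ).symm n = e (γ⁻¹ * e.symm n) := by
  simp [fin_perm]

theorem fin_perm_image {Γ : Type*} [Group Γ] (e : Γ ≃ ℕ) (γ : Γ) (F : Set (Sym2 Γ)) :
    Sym2.map (fin_perm e γ) '' (Sym2.map e '' F) = Sym2.map e '' (Sym2.map (γ * ·) '' F) := by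
  rw [← Set.image_comp, ← Set.image_comp, ← Sym2.map_comp, ← Sym2.map_comp]
  congr 2
  funext g
  exact fin_perm_apply e γ g

theorem fin_perm_image' {Γ : Type*} [Group Γ] (e : Γ ≃ ℕ) (γ : Γ) (F : Set (Sym2 ℕ)) :
    Sym2.map e.symm '' (Sym2.map (fin_perm e γ) '' F) =
      Sym2.map (γ * ·) '' (Sym2.map e.symm '' F) := by
  conv_lhs => rw [← fin_image_symm' e F]
  rw [fin_perm_image, fin_image_symm]

theorem cayley_factor {Γ : Type*} [Group Γ] [Infinite Γ] (T : Finset Γ)
    (hT : Subgroup.closure (T : Set Γ) = ⊤) :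
    ∃ Φ : (Γ → unitInterval) → Set (Sym2 Γ), Measurable Φ ∧
      (∀ (γ : Γ) (U : Γ → unitInterval),
        Φ (fun x => U (γ⁻¹ * x)) = Sym2.map (γ * ·) '' Φ U) ∧
      IsFUSF (SimpleGraph.mulCayley (T : Set Γ)).edgeSet ((iidU Γ).map Φ) := by
  have : Countable Γ := fin_countable T hT
  obtain ⟨hd⟩ := nonempty_denumerable Γ
  let e : Γ ≃ ℕ := Denumerable.eqv Γ
  set G := SimpleGraph.mulCayley (T : Set Γ) with hG
  set s := Sym2.map e '' G.edgeSet with hs
  have hgr : IsGraph s := fin_graph e G (fin_cayley_connected _ hT) (fin_cayley_finite T)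
  have hinv : ∀ γ : Γ, Sym2.map (fin_perm e γ) '' s = s := by
    intro γ
    rw [hs, fin_perm_image, hG, fin_cayley_image]
  have hρ : IsUnimodular (Measure.dirac (s, e 1)) := by
    refine ⟨inferInstance, ?_, ?_⟩
    · rw [ae_dirac_eq]
      exact hgr
    · intro f hf hinvf
      rw [lintegral_dirac, lintegral_dirac]
      have h1 : ∑' y, f s (e 1) y = ∑' g : Γ, f s (e 1) (e g) := (e.tsum_eq _).symm
      have h2 : ∑' y, f s y (e 1) = ∑' g : Γ, f s (e g) (e 1) :=
        (e.tsum_eq (fun y => f s y (e 1))).symm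
      rw [h1, h2, ← (Equiv.inv Γ).tsum_eq (fun g => f s (e g) (e 1))]
      refine tsum_congr fun g => ?_
      have h3 := hinvf (fin_perm e g) s (e g⁻¹) (e 1)
      rw [hinv, fin_perm_apply, fin_perm_apply, mul_inv_cancel, mul_one] at h3
      exact h3
  obtain ⟨Φ, hm, he, hf⟩ := unimodular_factor hρ
  rw [ae_dirac_eq] at hf
  have hf' : IsFUSF s ((iidU ℕ).map (Φ s)) := hf
  have hms : Measurable (Φ s) := hm.comp (measurable_const.prodMk measurable_id)
  have hpre : Measurable (fun U : Γ → unitInterval => fun n : ℕ => U (e.symm n)) :=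
    measurable_pi_lambda _ fun n => measurable_pi_apply _
  refine ⟨fun U => Sym2.map e.symm '' Φ s (fun n => U (e.symm n)), ?_, ?_, ?_⟩
  · exact (fin_measurable_image e.symm).comp (hms.comp hpre)
  · intro γ U
    have h1 := he (fin_perm e γ) s (fun n => U (e.symm n))
    rw [hinv] at h1
    rw [← fin_perm_image', ← h1]
    refine congrArg (fun z => Sym2.map e.symm '' Φ s z) ?_
    funext n
    simp only [fin_perm_symm, Equiv.symm_apply_apply]
  · have h1 := fin_fusf e.symm hf'
    rw [hs, fin_image_symm, Measure.map_map (fin_measurable_image e.symm) hms] at h1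
    convert h1 using 1
    have h2 : (iidU Γ).map (fun U : Γ → unitInterval => fun n : ℕ => U (e.symm n)) = iidU ℕ := by
      have := Measure.infinitePi_map_piCongrLeft
        (μ := fun _ : ℕ => (volume : Measure unitInterval)) e
      unfold iidU
      convert this using 2
      funext U n
      obtain ⟨g, rfl⟩ := e.surjective n
      rw [MeasurableEquiv.coe_piCongrLeft, Equiv.piCongrLeft_apply_apply,
        Equiv.symm_apply_apply]
    rw [← h2, Measure.map_map ((fin_measurable_image e.symm).comp hms) hpre]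
    rfl

end Vale.Agent.H15.F
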