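import Vale.Agent.H15.F.Kirch
import Vale.Agent.H15.F.Cyl

/-!
P143, task T2: exhaustions, existence, uniqueness and measurability of the free uniform
spanning forest.
-/

open MeasureTheory Filter Topology
open scoped ENNReal

namespace Vale.Agent.H15.F

section A
variable {V : Type*} [DecidableEq V]

omit [DecidableEq V] in
theorem fex_dd_eq (u u' : V → ℝ) (e : Sym2 V) :
    dd u u' e = (u e.out.2 - u e.out.1) * (u' e.out.2 - u' e.out.1) := by
  conv_lhs => rw [← Quot.out_eq e]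
  rfl

omit [DecidableEq V] in
theorem fex_dd_self_nonneg (u : V → ℝ) (e : Sym2 V) : 0 ≤ dd u u e := by
  rw [fex_dd_eq]; exact mul_self_nonneg _

omit [DecidableEq V] in
theorem fex_cs (S : Finset (Sym2 V)) (u u' : V → ℝ) :
    (∑ e ∈ S, dd u u' e) ^ 2 ≤ (∑ e ∈ S, dd u u e) * ∑ e ∈ S, dd u' u' e := by
  simp only [fex_dd_eq]
  have := Finset.sum_mul_sq_le_sq_mul_sq S (fun e : Sym2 V => u e.out.2 - u e.out.1)
    (fun e => u' e.out.2 - u' e.out.1)
  simpa only [sq] using this

/-- conditional probabilities of edges decrease with the graph -/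
theorem fex_q_anti {K K' A B : Finset (Sym2 V)} (hKK : K ⊆ K') {x0 y0 : V} (hne : x0 ≠ y0)
    (hK : s(x0, y0) ∈ K) (hA : s(x0, y0) ∉ A) (hB : s(x0, y0) ∉ B)
    (hp : treeCount K A B ≠ 0) (hp' : treeCount K' A B ≠ 0) :
    (treeCount K' (insert s(x0, y0) A) B : ℝ) / (treeCount K' A B : ℝ) ≤
      (treeCount K (insert s(x0, y0) A) B : ℝ) / (treeCount K A B : ℝ) := by
  obtain ⟨u, hu1, hu2, hu3⟩ := kirchhoff K A B x0 y0 hne hK hA hB hp
  obtain ⟨u', hu1', hu2', hu3'⟩ := kirchhoff K' A B x0 y0 hne (hKK hK) hA hB hp'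
  rw [← hu2, ← hu2']
  have hq0 : 0 ≤ u y0 - u x0 := by rw [hu2]; positivity
  have hq0' : 0 ≤ u' y0 - u' x0 := by rw [hu2']; positivity
  have h1 := hu3 u hu1
  have h2 := hu3 u' hu1'
  have h3 := hu3' u' hu1'
  have h4 := fex_cs (K \ (A ∪ B)) u u'
  rw [← h2, ← h1] at h4
  have h5 : ∑ e ∈ K \ (A ∪ B), dd u' u' e ≤ u' y0 - u' x0 := by
    rw [h3]
    exact Finset.sum_le_sum_of_subset_of_nonneg (Finset.sdiff_subset_sdiff hKK subset_rfl)
      (fun e _ _ => fex_dd_self_nonneg _ _)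
  rcases hq0'.eq_or_lt with h | h
  · rw [← h]; exact hq0
  · nlinarith [mul_le_mul_of_nonneg_left h5 hq0]

end A

section B

open Classical in
/-- the part of `K` in `s` -/
noncomputable def fex_res (s : Set (Sym2 ℕ)) (K : Finset (Sym2 ℕ)) : Finset (Sym2 ℕ) :=
  K.filter (· ∈ s)

theorem fex_mem_res {s : Set (Sym2 ℕ)} {K : Finset (Sym2 ℕ)} {e : Sym2 ℕ} :
    e ∈ fex_res s K ↔ e ∈ K ∧ e ∈ s := by
  classical
  unfold fex_res; exact Finset.mem_filter

theorem fex_res_mono (s : Set (Sym2 ℕ)) {K K' : Finset (Sym2 ℕ)} (h : K ⊆ K') :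
    fex_res s K ⊆ fex_res s K' := by
  intro e he
  rw [fex_mem_res] at he ⊢
  exact ⟨h he.1, he.2⟩

theorem fex_ust_split (K A B : Finset (Sym2 ℕ)) (f : Sym2 ℕ) :
    ustProb K A (insert f B) = ustProb K A B - ustProb K (insert f A) B := by
  unfold ustProb
  rw [treeCount_split K A B f]
  push_cast
  ring

theorem fex_ust_mul {K A : Finset (Sym2 ℕ)} {f : Sym2 ℕ} (h : treeCount K A ∅ ≠ 0) :
    ustProb K (insert f A) ∅ =
      ustProb K A ∅ * ((treeCount K (insert f A) ∅ : ℝ) / (treeCount K A ∅ : ℝ)) := by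
  unfold ustProb
  have h1 : (treeCount K A ∅ : ℝ) ≠ 0 := by exact_mod_cast h
  have h2 : (treeCount K ∅ ∅ : ℝ) ≠ 0 := by exact_mod_cast treeCount_ne_zero K
  field_simp

theorem fex_conv0 (s : Set (Sym2 ℕ)) (hs : ∀ e ∈ s, ¬ e.IsDiag) (A : Finset (Sym2 ℕ)) :
    ∃ L, Tendsto (fun K : Finset (Sym2 ℕ) => ustProb (fex_res s K) A ∅) atTop (𝓝 L) := by
  induction A using Finset.induction_on with
  | empty =>
    refine ⟨1, ?_⟩
    have : (fun K : Finset (Sym2 ℕ) => ustProb (fex_res s K) ∅ ∅) = fun _ => 1 := by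
      funext K
      unfold ustProb
      exact div_self (by exact_mod_cast treeCount_ne_zero _)
    rw [this]; exact tendsto_const_nhds
  | insert f A hfA ih =>
    by_cases hfs : f ∈ s
    · by_cases h0 : ∃ K0, treeCount (fex_res s K0) A ∅ ≠ 0
      · obtain ⟨K0, hK0⟩ := h0
        obtain ⟨L, hL⟩ := ih
        have hpos : ∀ K, K0 ⊆ K → treeCount (fex_res s K) A ∅ ≠ 0 := fun K hK =>
          treeCount_pos_mono (fex_res_mono s hK) (by simp) hK0
        induction f with | _ x0 y0 =>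
        have hne : x0 ≠ y0 := fun h => hs _ hfs (by rw [h]; exact Sym2.mk_isDiag_iff.2 rfl)
        let K1 := insert s(x0, y0) K0
        let g : Finset (Sym2 ℕ) → ℝ := fun K =>
          (treeCount (fex_res s (K ∪ K1)) (insert s(x0, y0) A) ∅ : ℝ) /
            (treeCount (fex_res s (K ∪ K1)) A ∅ : ℝ)
        have hK01 : ∀ K, K0 ⊆ K ∪ K1 := fun K => (Finset.subset_insert _ _).trans
          Finset.subset_union_right
        have hg : Antitone g := by
          intro K K' hKK'
          have hKK : K ⊆ K' := hKK'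
          refine fex_q_anti (fex_res_mono s (Finset.union_subset_union hKK subset_rfl)) hne ?_ hfA
            (by simp) (hpos _ (hK01 K)) (hpos _ (hK01 K'))
          rw [fex_mem_res]
          exact ⟨Finset.mem_union_right _ (Finset.mem_insert_self _ _), hfs⟩
        have hbdd : BddBelow (Set.range g) := by
          refine ⟨0, ?_⟩
          rintro _ ⟨K, rfl⟩
          positivity
        have hg2 := tendsto_atTop_ciInf hg hbdd
        refine ⟨L * ⨅ K, g K, (hL.mul hg2).congr' ?_⟩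
        filter_upwards [eventually_ge_atTop K1] with K hK
        have hKK : K1 ⊆ K := hK
        have e1 : K ∪ K1 = K := Finset.union_eq_left.2 hKK
        rw [fex_ust_mul (hpos K ((Finset.subset_insert _ _).trans hKK))]
        simp only [g, e1]
      · push Not at h0
        refine ⟨0, ?_⟩
        have : (fun K : Finset (Sym2 ℕ) => ustProb (fex_res s K) (insert f A) ∅) = fun _ => 0 := by
          funext K
          have h1 := treeCount_split (fex_res s K) A ∅ f
          rw [h0 K] at h1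
          have h2 : treeCount (fex_res s K) (insert f A) ∅ = 0 := by omega
          unfold ustProb
          rw [h2]; simp
        rw [this]; exact tendsto_const_nhds
    · refine ⟨0, ?_⟩
      have : (fun K : Finset (Sym2 ℕ) => ustProb (fex_res s K) (insert f A) ∅) = fun _ => 0 := by
        funext K
        have h2 : treeCount (fex_res s K) (insert f A) ∅ = 0 := by
          apply treeCount_eq_zero
          intro h
          exact hfs (fex_mem_res.1 (h (Finset.mem_insert_self _ _))).2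
        unfold ustProb
        rw [h2]; simp
      rw [this]; exact tendsto_const_nhds

theorem fex_conv (s : Set (Sym2 ℕ)) (hs : ∀ e ∈ s, ¬ e.IsDiag) (B : Finset (Sym2 ℕ)) :
    ∀ A : Finset (Sym2 ℕ),
      ∃ L, Tendsto (fun K : Finset (Sym2 ℕ) => ustProb (fex_res s K) A B) atTop (𝓝 L) := by
  induction B using Finset.induction_on with
  | empty => exact fex_conv0 s hs
  | insert f B _ ih =>
    intro A
    obtain ⟨L1, h1⟩ := ih A
    obtain ⟨L2, h2⟩ := ih (insert f A)
    refine ⟨L1 - L2, ?_⟩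
    simp only [fex_ust_split]
    exact h1.sub h2

end B

section C

/-- cylinder events in the compact space -/
def fex_cyl (A B : Finset (Sym2 ℕ)) : Set (Sym2 ℕ → Bool) :=
  {x | (∀ e ∈ A, x e = true) ∧ ∀ e ∈ B, x e = false}

theorem fex_isClopen (A B : Finset (Sym2 ℕ)) : IsClopen (fex_cyl A B) := by
  have h1 : fex_cyl A B = (⋂ e ∈ A, {x : Sym2 ℕ → Bool | x e = true}) ∩
      ⋂ e ∈ B, {x : Sym2 ℕ → Bool | x e = false} := by
    ext x; simp [fex_cyl]
  rw [h1]
  refine IsClopen.inter ?_ ?_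
  · refine isClopen_biInter_finset fun e _ => ?_
    exact (isClopen_discrete {true}).preimage (continuous_apply e)
  · refine isClopen_biInter_finset fun e _ => ?_
    exact (isClopen_discrete {false}).preimage (continuous_apply e)

/-- indicator -/
noncomputable def fex_chi (T : Finset (Sym2 ℕ)) : Sym2 ℕ → Bool := fun e => decide (e ∈ T)

theorem fex_chi_mem {T A B : Finset (Sym2 ℕ)} :
    fex_chi T ∈ fex_cyl A B ↔ A ⊆ T ∧ Disjoint B T := by
  simp only [fex_cyl, fex_chi, Set.mem_ofPred_eq, decide_eq_true_eq, decide_eq_false_iff_not,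
    Finset.subset_iff, Finset.disjoint_left]

/-- the uniform spanning tree of `K` -/
noncomputable def fex_ust (K : Finset (Sym2 ℕ)) : Measure (Sym2 ℕ → Bool) :=
  ((kirch_TT K ∅ ∅).card : ℝ≥0∞)⁻¹ • ∑ T ∈ kirch_TT K ∅ ∅, Measure.dirac (fex_chi T)

theorem fex_card_ne (K : Finset (Sym2 ℕ)) : ((kirch_TT K ∅ ∅).card : ℝ≥0∞) ≠ 0 := by
  rw [← kirch_treeCount]
  exact_mod_cast treeCount_ne_zero K

theorem fex_ust_apply (K : Finset (Sym2 ℕ)) (A B : Finset (Sym2 ℕ)) :
    fex_ust K (fex_cyl A B) = (treeCount K A B : ℝ≥0∞) / (treeCount K ∅ ∅ : ℝ≥0∞) := by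
  classical
  have hm : MeasurableSet (fex_cyl A B) := (fex_isClopen A B).isOpen.measurableSet
  unfold fex_ust
  rw [Measure.smul_apply, Measure.finsetSum_apply, smul_eq_mul, ← kirch_treeCount,
    ENNReal.div_eq_inv_mul]
  congr 1
  rw [kirch_treeCount K A B, Finset.card_eq_sum_ones, Nat.cast_sum]
  have h1 : kirch_TT K A B = (kirch_TT K ∅ ∅).filter (fun T => fex_chi T ∈ fex_cyl A B) := by
    ext T
    rw [Finset.mem_filter, kirch_mem_TT, kirch_mem_TT, fex_chi_mem]
    simp
  rw [h1, Finset.sum_filter]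
  refine Finset.sum_congr rfl fun T _ => ?_
  rw [Measure.dirac_apply' _ hm]
  by_cases h : fex_chi T ∈ fex_cyl A B <;> simp [h]

instance (K : Finset (Sym2 ℕ)) : IsProbabilityMeasure (fex_ust K) := by
  constructor
  have h : (Set.univ : Set (Sym2 ℕ → Bool)) = fex_cyl ∅ ∅ := by ext x; simp [fex_cyl]
  rw [h, fex_ust_apply]
  exact ENNReal.div_self (by exact_mod_cast treeCount_ne_zero K) (ENNReal.natCast_ne_top _)

/-- as a probability measure -/
noncomputable def fex_pm (K : Finset (Sym2 ℕ)) : ProbabilityMeasure (Sym2 ℕ → Bool) :=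
  ⟨fex_ust K, inferInstance⟩

theorem fex_pm_apply (K A B : Finset (Sym2 ℕ)) :
    (fex_pm K (fex_cyl A B) : ℝ) = ustProb K A B := by
  have : (fex_pm K (fex_cyl A B) : ℝ) = ((fex_pm K : Measure _) (fex_cyl A B)).toReal := rfl
  rw [this]
  change (fex_ust K (fex_cyl A B)).toReal = _
  rw [fex_ust_apply, ENNReal.toReal_div]
  simp [ustProb]

/-- the map to subsets -/
def fex_phi (x : Sym2 ℕ → Bool) : Set (Sym2 ℕ) := {e | x e = true}

theorem fex_phi_meas : Measurable fex_phi := by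
  rw [measurable_set_iff]
  intro e
  have : (fun x : Sym2 ℕ → Bool => e ∈ fex_phi x) = fun x => x e = true := rfl
  rw [this]
  have h : MeasurableSet ((fun x : Sym2 ℕ → Bool => x e) ⁻¹' {true}) :=
    MeasurableSet.preimage (measurableSet_singleton true) (measurable_pi_apply e)
  exact measurableSet_setOfPred.mp h

theorem fex_phi_cyl (A B : Finset (Sym2 ℕ)) : fex_phi ⁻¹' cyl A B = fex_cyl A B := by
  ext x
  simp only [Set.mem_preimage, cyl, fex_phi, fex_cyl, Set.mem_ofPred_eq, Set.subset_def,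
    Set.disjoint_left, Finset.mem_coe, Bool.not_eq_true]

theorem fex_exists_law (s : Set (Sym2 ℕ)) (hs : ∀ e ∈ s, ¬ e.IsDiag) :
    ∃ μ : Measure (Set (Sym2 ℕ)), IsProbabilityMeasure μ ∧ ∀ A B : Finset (Sym2 ℕ),
      Tendsto (fun K : Finset (Sym2 ℕ) => ustProb (fex_res s K) A B) atTop
        (𝓝 (μ.real (cyl A B))) := by
  let U : Ultrafilter (Finset (Sym2 ℕ)) := Ultrafilter.of atTop
  have hU : (U : Filter (Finset (Sym2 ℕ))) ≤ atTop := Ultrafilter.of_le _
  let P : Finset (Sym2 ℕ) → ProbabilityMeasure (Sym2 ℕ → Bool) := fun K => fex_pm (fex_res s K)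
  obtain ⟨ν, _, hν⟩ := isCompact_univ.ultrafilter_le_nhds (U.map P) (by simp)
  have hν' : Tendsto P U (𝓝 ν) := hν
  refine ⟨(ν : Measure _).map fex_phi, ?_, ?_⟩
  · exact Measure.isProbabilityMeasure_map fex_phi_meas.aemeasurable
  · intro A B
    have h1 := ProbabilityMeasure.tendsto_measure_of_isClopen_of_tendsto hν' (fex_isClopen A B)
    have h2 : Tendsto (fun K : Finset (Sym2 ℕ) => ustProb (fex_res s K) A B) U
        (𝓝 ((ν (fex_cyl A B) : NNReal) : ℝ)) := by
      have := (NNReal.continuous_coe.tendsto _).comp h1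
      refine this.congr fun K => ?_
      exact fex_pm_apply _ A B
    obtain ⟨L, hL⟩ := fex_conv s hs B A
    have h3 := tendsto_nhds_unique h2 (hL.mono_left hU)
    have h4 : ((ν : Measure _).map fex_phi).real (cyl A B) = L := by
      rw [← h3, Measure.real, Measure.map_apply fex_phi_meas (measurableSet_cyl A B), fex_phi_cyl]
      rfl
    rw [h4]; exact hL

end C

section D

/-- permutation action on edges -/
def fex_E (τ : Equiv.Perm ℕ) : Sym2 ℕ ≃ Sym2 ℕ where
  toFun := Sym2.map τ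
  invFun := Sym2.map τ.symm
  left_inv e := by rw [Sym2.map_map]; simp
  right_inv e := by rw [Sym2.map_map]; simp

theorem fex_mem_map (τ : Equiv.Perm ℕ) (T : Finset (Sym2 ℕ)) (x y : ℕ) :
    s(τ x, τ y) ∈ T.map (fex_E τ).toEmbedding ↔ s(x, y) ∈ T := by
  have : s(τ x, τ y) = (fex_E τ).toEmbedding s(x, y) := rfl
  rw [this, Finset.mem_map']

/-- graph isomorphism -/
def fex_iso (τ : Equiv.Perm ℕ) (T : Finset (Sym2 ℕ)) :
    SimpleGraph.fromEdgeSet (T : Set (Sym2 ℕ)) ≃g
      SimpleGraph.fromEdgeSet ((T.map (fex_E τ).toEmbedding : Finset (Sym2 ℕ)) : Set (Sym2 ℕ)) where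
  toEquiv := τ
  map_rel_iff' := by
    intro a b
    rw [SimpleGraph.fromEdgeSet_adj, SimpleGraph.fromEdgeSet_adj, Finset.mem_coe, Finset.mem_coe,
      fex_mem_map, ne_eq, ne_eq, τ.injective.eq_iff]

theorem fex_span_map (τ : Equiv.Perm ℕ) (K T : Finset (Sym2 ℕ)) :
    IsSpanTree K T ↔ IsSpanTree (K.map (fex_E τ).toEmbedding) (T.map (fex_E τ).toEmbedding) := by
  unfold IsSpanTree
  rw [Finset.map_subset_map, ← (fex_iso τ T).isAcyclic_iff]
  refine and_congr_right fun _ => and_congr_right fun _ => ⟨fun h x y hxy => ?_, fun h x y hxy => ?_⟩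
  · obtain ⟨x, rfl⟩ := τ.surjective x
    obtain ⟨y, rfl⟩ := τ.surjective y
    rw [fex_mem_map] at hxy
    exact ((fex_iso τ T).reachable_iff).2 (h x y hxy)
  · exact ((fex_iso τ T).reachable_iff).1 (h (τ x) (τ y) ((fex_mem_map _ _ _ _).2 hxy))

theorem fex_tree_map (τ : Equiv.Perm ℕ) (K A B : Finset (Sym2 ℕ)) :
    treeCount (K.map (fex_E τ).toEmbedding) (A.map (fex_E τ).toEmbedding)
      (B.map (fex_E τ).toEmbedding) = treeCount K A B := by
  unfold treeCount
  symm
  refine Nat.card_congr (Equiv.subtypeEquiv (Equiv.finsetCongr (fex_E τ)) fun T => ?_)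
  rw [Equiv.finsetCongr_apply, ← fex_span_map, Finset.map_subset_map, Finset.disjoint_map]

theorem fex_ust_map (τ : Equiv.Perm ℕ) (K A B : Finset (Sym2 ℕ)) :
    ustProb (K.map (fex_E τ).toEmbedding) (A.map (fex_E τ).toEmbedding)
      (B.map (fex_E τ).toEmbedding) = ustProb K A B := by
  unfold ustProb
  rw [fex_tree_map]
  have := fex_tree_map τ K ∅ ∅
  simp only [Finset.map_empty] at this
  rw [this]

/-- remove loops -/
def fex_nl (s : Set (Sym2 ℕ)) : Set (Sym2 ℕ) := {e | e ∈ s ∧ ¬ e.IsDiag}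

/-- the free uniform spanning forest -/
noncomputable def fex_mu (s : Set (Sym2 ℕ)) : Measure (Set (Sym2 ℕ)) :=
  Classical.choose (fex_exists_law (fex_nl s) (fun _ he => he.2))

theorem fex_mu_spec (s : Set (Sym2 ℕ)) : IsProbabilityMeasure (fex_mu s) ∧
    ∀ A B : Finset (Sym2 ℕ), Tendsto (fun K : Finset (Sym2 ℕ) => ustProb (fex_res (fex_nl s) K) A B)
      atTop (𝓝 ((fex_mu s).real (cyl A B))) :=
  Classical.choose_spec (fex_exists_law (fex_nl s) (fun _ he => he.2))

theorem fex_res_meas (K : Finset (Sym2 ℕ)) (g : Finset (Sym2 ℕ) → ℝ) :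
    Measurable fun s : Set (Sym2 ℕ) => g (fex_res (fex_nl s) K) := by
  let _ : MeasurableSpace (Finset (Sym2 ℕ)) := ⊤
  have h1 : Measurable (fun s : Set (Sym2 ℕ) => fex_res (fex_nl s) K) := by
    refine measurable_to_countable' fun J => ?_
    have : (fun s : Set (Sym2 ℕ) => fex_res (fex_nl s) K) ⁻¹' {J} =
        ⋂ e : Sym2 ℕ, {s : Set (Sym2 ℕ) | (e ∈ K ∧ e ∈ s ∧ ¬ e.IsDiag) ↔ e ∈ J} := by
      ext s; simp [Finset.ext_iff, fex_mem_res, fex_nl]
    rw [this]
    refine MeasurableSet.iInter fun e => ?_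
    by_cases hK : e ∈ K ∧ ¬ e.IsDiag
    · by_cases hJ : e ∈ J
      · have : {s : Set (Sym2 ℕ) | (e ∈ K ∧ e ∈ s ∧ ¬ e.IsDiag) ↔ e ∈ J} = {s | e ∈ s} := by
          ext s; simp [hK.1, hK.2, hJ]
        rw [this]; exact measurableSet_mem e
      · have : {s : Set (Sym2 ℕ) | (e ∈ K ∧ e ∈ s ∧ ¬ e.IsDiag) ↔ e ∈ J} = {s | e ∉ s} := by
          ext s; simp [hK.1, hK.2, hJ]
        rw [this]; exact measurableSet_notMem e
    · have : {s : Set (Sym2 ℕ) | (e ∈ K ∧ e ∈ s ∧ ¬ e.IsDiag) ↔ e ∈ J} =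
          {_s : Set (Sym2 ℕ) | e ∉ J} := by
        ext s
        simp only [Set.mem_ofPred_eq]
        constructor
        · intro h hJ
          have := h.2 hJ
          exact hK ⟨this.1, this.2.2⟩
        · intro h
          exact ⟨fun h' => absurd ⟨h'.1, h'.2.2⟩ hK, fun h' => absurd h' h⟩
      rw [this]; exact MeasurableSet.const _
  exact (measurable_from_top (f := g)).comp h1

theorem fex_meas : Measurable fex_mu := by
  have := fun s => (fex_mu_spec s).1
  refine Measurable.measure_of_isPiSystem_of_isProbabilityMeasure generateFrom_cyl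
    isPiSystem_cyl ?_
  rintro _ ⟨A, B, rfl⟩
  have : (fun s => fex_mu s (cyl A B)) = fun s => ENNReal.ofReal ((fex_mu s).real (cyl A B)) := by
    funext s; rw [ofReal_measureReal]
  rw [this]
  refine Measurable.ennreal_ofReal ?_
  obtain ⟨x, hx⟩ := exists_seq_tendsto (atTop : Filter (Finset (Sym2 ℕ)))
  refine measurable_of_tendsto_metrizable
    (f := fun n s => ustProb (fex_res (fex_nl s) (x n)) A B) ?_ ?_
  · intro n; exact fex_res_meas (x n) (fun J => ustProb J A B)
  · rw [tendsto_pi_nhds]; intro s; exact ((fex_mu_spec s).2 A B).comp hx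

theorem fex_mem_act (σ : Equiv.Perm ℕ) (s : Set (Sym2 ℕ)) (e : Sym2 ℕ) :
    fex_E σ e ∈ act σ s ↔ e ∈ s := by
  change Sym2.map σ e ∈ Sym2.map σ '' s ↔ e ∈ s
  exact (Sym2.map.injective σ.injective).mem_set_image

theorem fex_act_meas (σ : Equiv.Perm ℕ) : Measurable (act σ : Set (Sym2 ℕ) → Set (Sym2 ℕ)) := by
  rw [measurable_set_iff]
  intro e
  obtain ⟨e, rfl⟩ := (fex_E σ).surjective e
  simp only [fex_mem_act]
  exact measurableSet_setOfPred.mp (measurableSet_mem e)

theorem fex_act_cyl (σ : Equiv.Perm ℕ) (A B : Finset (Sym2 ℕ)) :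
    (act σ : Set (Sym2 ℕ) → Set (Sym2 ℕ)) ⁻¹' cyl (A.map (fex_E σ).toEmbedding)
      (B.map (fex_E σ).toEmbedding) = cyl A B := by
  ext F
  simp only [Set.mem_preimage, cyl, Set.mem_ofPred_eq, Set.subset_def, Set.disjoint_left,
    Finset.coe_map, Set.forall_mem_image, Equiv.coe_toEmbedding, fex_mem_act]

theorem fex_nl_act (σ : Equiv.Perm ℕ) (s : Set (Sym2 ℕ)) (e : Sym2 ℕ) :
    fex_E σ e ∈ fex_nl (act σ s) ↔ e ∈ fex_nl s := by
  unfold fex_nl
  simp only [Set.mem_ofPred_eq, fex_mem_act]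
  induction e with | _ x y =>
  have h1 : fex_E σ s(x, y) = s(σ x, σ y) := rfl
  rw [h1, Sym2.mk_isDiag_iff, Sym2.mk_isDiag_iff, σ.injective.eq_iff]

theorem fex_res_act (σ : Equiv.Perm ℕ) (s : Set (Sym2 ℕ)) (K : Finset (Sym2 ℕ)) :
    fex_res (fex_nl (act σ s)) (K.map (fex_E σ).toEmbedding) =
      (fex_res (fex_nl s) K).map (fex_E σ).toEmbedding := by
  ext e
  obtain ⟨e, rfl⟩ := (fex_E σ).surjective e
  have h1 : ∀ T : Finset (Sym2 ℕ), (fex_E σ) e ∈ T.map (fex_E σ).toEmbedding ↔ e ∈ T := fun T => by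
    have : (fex_E σ) e = (fex_E σ).toEmbedding e := rfl
    rw [this, Finset.mem_map']
  rw [fex_mem_res, h1, h1, fex_mem_res, fex_nl_act]

theorem fex_mu_act (σ : Equiv.Perm ℕ) (s : Set (Sym2 ℕ)) :
    fex_mu (act σ s) = (fex_mu s).map (act σ) := by
  have := fun s => (fex_mu_spec s).1
  have : IsProbabilityMeasure ((fex_mu s).map (act σ)) :=
    Measure.isProbabilityMeasure_map (fex_act_meas σ).aemeasurable
  refine ext_of_cyl fun A B => ?_
  obtain ⟨A, rfl⟩ : ∃ A', A = A'.map (fex_E σ).toEmbedding :=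
    ⟨A.map (fex_E σ).symm.toEmbedding, by rw [Finset.map_map]; ext; simp⟩
  obtain ⟨B, rfl⟩ : ∃ B', B = B'.map (fex_E σ).toEmbedding :=
    ⟨B.map (fex_E σ).symm.toEmbedding, by rw [Finset.map_map]; ext; simp⟩
  rw [Measure.map_apply (fex_act_meas σ) (measurableSet_cyl _ _), fex_act_cyl,
    ← ofReal_measureReal, ← ofReal_measureReal]
  congr 1
  have h1 := (fex_mu_spec (act σ s)).2 (A.map (fex_E σ).toEmbedding)
    (B.map (fex_E σ).toEmbedding)
  have h2 := (fex_mu_spec s).2 A B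
  have ht : Tendsto (fun K : Finset (Sym2 ℕ) => K.map (fex_E σ).toEmbedding) atTop atTop := by
    rw [tendsto_atTop]
    intro J
    filter_upwards [eventually_ge_atTop (J.map (fex_E σ).symm.toEmbedding)] with K hK
    have hK' : J.map (fex_E σ).symm.toEmbedding ⊆ K := hK
    have := Finset.map_subset_map (f := (fex_E σ).toEmbedding) |>.2 hK'
    rw [Finset.map_map] at this
    refine le_trans (le_of_eq ?_) this
    ext; simp
  refine tendsto_nhds_unique (h1.comp ht) (h2.congr fun K => ?_)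
  simp only [Function.comp]
  rw [fex_res_act, fex_ust_map]

theorem exists_fusf : ∃ μ : Set (Sym2 ℕ) → Measure (Set (Sym2 ℕ)), Measurable μ ∧
    (∀ s, IsProbabilityMeasure (μ s)) ∧
    (∀ (σ : Equiv.Perm ℕ) (s : Set (Sym2 ℕ)), μ (act σ s) = (μ s).map (act σ)) ∧
    ∀ s, IsGraph s → IsFUSF s (μ s) := by
  refine ⟨fex_mu, fex_meas, fun s => (fex_mu_spec s).1, fex_mu_act, fun s hs => ?_⟩
  refine ⟨(fex_mu_spec s).1, fun K hK A B => ?_⟩
  classical
  obtain ⟨hmono, hconn, hU⟩ := hK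
  obtain ⟨x, hx⟩ := exists_seq_tendsto (atTop : Filter (Finset (Sym2 ℕ)))
  have hnl : fex_nl s = s := by
    ext e; exact ⟨fun h => h.1, fun h => ⟨h, hs.1 e h⟩⟩
  have hKs : ∀ n, ∀ e ∈ K n, e ∈ s := by
    intro n e he
    rw [← hU]
    exact Set.mem_iUnion.2 ⟨n, he⟩
  have ht : Tendsto (fun n => K n ∪ (x n).filter (· ∉ s)) atTop atTop := by
    rw [tendsto_atTop]
    intro J
    have : ∀ e ∈ J, ∀ᶠ n in atTop, e ∈ K n ∪ (x n).filter (· ∉ s) := by
      intro e _
      by_cases he : e ∈ s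
      · rw [← hU] at he
        obtain ⟨n0, hn0⟩ := Set.mem_iUnion.1 he
        filter_upwards [eventually_ge_atTop n0] with n hn
        exact Finset.mem_union_left _ (hmono hn hn0)
      · filter_upwards [tendsto_atTop.1 hx {e}] with n hn
        have hn' : {e} ⊆ x n := hn
        exact Finset.mem_union_right _ (Finset.mem_filter.2
          ⟨hn' (Finset.mem_singleton_self e), he⟩)
    have h2 := (Filter.eventually_all_finset J).2 this
    filter_upwards [h2] with n hn
    exact fun e he => hn e he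
  have h1 := ((fex_mu_spec s).2 A B).comp ht
  refine h1.congr fun n => ?_
  simp only [Function.comp]
  congr 1
  ext e
  rw [fex_mem_res, hnl, Finset.mem_union, Finset.mem_filter]
  constructor
  · rintro ⟨h | h, h'⟩
    · exact h
    · exact absurd h' h.2
  · intro h; exact ⟨Or.inl h, hKs n e h⟩

end D

section E

/-- edges of `s` with both end-points below `n` -/
noncomputable def fex_S (s : Set (Sym2 ℕ)) (n : ℕ) : Finset (Sym2 ℕ) :=
  fex_res s (Finset.range n).sym2

theorem fex_mem_S {s : Set (Sym2 ℕ)} {n x y : ℕ} :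
    s(x, y) ∈ fex_S s n ↔ (x < n ∧ y < n) ∧ s(x, y) ∈ s := by
  unfold fex_S
  rw [fex_mem_res, Finset.mk_mem_sym2_iff, Finset.mem_range, Finset.mem_range]

theorem fex_reach_ex {s : Set (Sym2 ℕ)} {x : ℕ}
    (h : (SimpleGraph.fromEdgeSet s).Reachable 0 x) : ∃ n, (kirch_G (fex_S s n)).Reachable 0 x := by
  rw [SimpleGraph.reachable_iff_reflTransGen] at h
  induction h with
  | refl => exact ⟨0, SimpleGraph.Reachable.refl _⟩
  | @tail b c _ hbc ih =>
    obtain ⟨n, hn⟩ := ih
    rw [SimpleGraph.fromEdgeSet_adj] at hbc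
    refine ⟨max n (max (b + 1) (c + 1)), ?_⟩
    have h1 : (kirch_G (fex_S s (max n (max (b + 1) (c + 1))))).Reachable 0 b := by
      refine hn.mono (kirch_mono ?_)
      intro e he
      induction e with | _ x y =>
      rw [fex_mem_S] at he ⊢
      exact ⟨⟨lt_of_lt_of_le he.1.1 (le_max_left _ _), lt_of_lt_of_le he.1.2 (le_max_left _ _)⟩,
        he.2⟩
    refine h1.trans (kirch_reach_of_mem ?_)
    rw [fex_mem_S]
    exact ⟨⟨by omega, by omega⟩, hbc.1⟩

open Classical in
/-- the exhaustion -/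
noncomputable def fex_K (s : Set (Sym2 ℕ)) (n : ℕ) : Finset (Sym2 ℕ) :=
  (fex_S s n).filter fun e => ∀ x ∈ e, (kirch_G (fex_S s n)).Reachable 0 x

theorem fex_mem_K {s : Set (Sym2 ℕ)} {n : ℕ} {e : Sym2 ℕ} :
    e ∈ fex_K s n ↔ e ∈ fex_S s n ∧ ∀ x ∈ e, (kirch_G (fex_S s n)).Reachable 0 x := by
  classical
  unfold fex_K; exact Finset.mem_filter

theorem fex_S_mono (s : Set (Sym2 ℕ)) {m n : ℕ} (h : m ≤ n) : fex_S s m ⊆ fex_S s n := by
  intro e he
  induction e with | _ x y =>
  rw [fex_mem_S] at he ⊢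
  exact ⟨⟨by omega, by omega⟩, he.2⟩

theorem fex_K_reach {s : Set (Sym2 ℕ)} {n x : ℕ} (h : (kirch_G (fex_S s n)).Reachable 0 x) :
    (kirch_G (fex_K s n)).Reachable 0 x := by
  rw [SimpleGraph.reachable_iff_reflTransGen] at h
  induction h with
  | refl => exact SimpleGraph.Reachable.refl _
  | @tail b c hb hbc ih =>
    refine ih.trans (kirch_reach_of_mem ?_)
    have hb' : (kirch_G (fex_S s n)).Reachable 0 b := (SimpleGraph.reachable_iff_reflTransGen _ _).2 hb
    rw [fex_mem_K]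
    refine ⟨(kirch_adj.1 hbc).1, fun z hz => ?_⟩
    rcases Sym2.mem_iff.1 hz with rfl | rfl
    · exact hb'
    · exact hb'.trans hbc.reachable

theorem exists_exhaustion {s : Set (Sym2 ℕ)} (hs : IsGraph s) :
    ∃ K : ℕ → Finset (Sym2 ℕ), IsExhaustion s K := by
  refine ⟨fex_K s, ?_, ?_, ?_⟩
  · intro m n hmn e he
    rw [fex_mem_K] at he ⊢
    exact ⟨fex_S_mono s hmn he.1, fun x hx => (he.2 x hx).mono (kirch_mono (fex_S_mono s hmn))⟩
  · intro n e he f hf x hx y hy
    rw [fex_mem_K] at he hf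
    exact (fex_K_reach (he.2 x hx)).symm.trans (fex_K_reach (hf.2 y hy))
  · ext e
    rw [Set.mem_iUnion]
    constructor
    · rintro ⟨n, hn⟩
      have := (fex_mem_K.1 hn).1
      induction e with | _ x y => exact (fex_mem_S.1 this).2
    · intro he
      induction e with | _ x y =>
      obtain ⟨n1, h1⟩ := fex_reach_ex (hs.2.1.preconnected 0 x)
      obtain ⟨n2, h2⟩ := fex_reach_ex (hs.2.1.preconnected 0 y)
      refine ⟨max (max n1 n2) (max (x + 1) (y + 1)), ?_⟩
      rw [Finset.mem_coe, fex_mem_K, fex_mem_S]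
      refine ⟨⟨⟨by omega, by omega⟩, he⟩, fun z hz => ?_⟩
      rcases Sym2.mem_iff.1 hz with rfl | rfl
      · exact h1.mono (kirch_mono (fex_S_mono s (by omega)))
      · exact h2.mono (kirch_mono (fex_S_mono s (by omega)))

theorem fex_reach_fin {s : Set (Sym2 ℕ)} {x y : ℕ} :
    (SimpleGraph.fromEdgeSet s).Reachable x y ↔
      ∃ F : Finset (Sym2 ℕ), (F : Set (Sym2 ℕ)) ⊆ s ∧ (kirch_G F).Reachable x y := by
  classical
  constructor
  · intro h
    rw [SimpleGraph.reachable_iff_reflTransGen] at h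
    induction h with
    | refl => exact ⟨∅, by simp, SimpleGraph.Reachable.refl _⟩
    | @tail b c _ hbc ih =>
      obtain ⟨F, hF, hr⟩ := ih
      rw [SimpleGraph.fromEdgeSet_adj] at hbc
      refine ⟨insert s(b, c) F, ?_, ?_⟩
      · rw [Finset.coe_insert]; exact Set.insert_subset hbc.1 hF
      · exact (hr.mono (kirch_mono (Finset.subset_insert _ _))).trans
          (kirch_reach_of_mem (Finset.mem_insert_self _ _))
  · rintro ⟨F, hF, hr⟩
    exact hr.mono (SimpleGraph.fromEdgeSet_mono hF)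

theorem measurableSet_isGraph : MeasurableSet {s : Set (Sym2 ℕ) | IsGraph s} := by
  have h1 : MeasurableSet {s : Set (Sym2 ℕ) | ∀ e ∈ s, ¬ e.IsDiag} := by
    have : {s : Set (Sym2 ℕ) | ∀ e ∈ s, ¬ e.IsDiag} =
        ⋂ e : {e : Sym2 ℕ // e.IsDiag}, {s : Set (Sym2 ℕ) | (e : Sym2 ℕ) ∉ s} := by
      ext s
      simp only [Set.mem_ofPred_eq, Set.mem_iInter, Subtype.forall]
      exact ⟨fun h e he hs => h e hs he, fun h e hs he => h e he hs⟩
    rw [this]
    exact MeasurableSet.iInter fun e => measurableSet_notMem _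
  have h2 : MeasurableSet {s : Set (Sym2 ℕ) | (SimpleGraph.fromEdgeSet s).Connected} := by
    have : {s : Set (Sym2 ℕ) | (SimpleGraph.fromEdgeSet s).Connected} =
        ⋂ x : ℕ, ⋂ y : ℕ, ⋃ F : {F : Finset (Sym2 ℕ) // (kirch_G F).Reachable x y},
          ⋂ e : {e : Sym2 ℕ // e ∈ F.1}, {s : Set (Sym2 ℕ) | (e : Sym2 ℕ) ∈ s} := by
      ext s
      simp only [Set.mem_ofPred_eq, Set.mem_iInter, Set.mem_iUnion, Subtype.forall,
        Subtype.exists, exists_prop]
      rw [SimpleGraph.connected_iff]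
      constructor
      · intro h x y
        obtain ⟨F, hF, hr⟩ := fex_reach_fin.1 (h.1 x y)
        exact ⟨F, hr, fun e he => hF he⟩
      · intro h
        refine ⟨fun x y => ?_, inferInstance⟩
        obtain ⟨F, hr, hF⟩ := h x y
        exact fex_reach_fin.2 ⟨F, fun e he => hF e he, hr⟩
    rw [this]
    refine MeasurableSet.iInter fun x => MeasurableSet.iInter fun y =>
      MeasurableSet.iUnion fun F => MeasurableSet.iInter fun e => measurableSet_mem _
  have h3 : MeasurableSet {s : Set (Sym2 ℕ) | ∀ x : ℕ, {y : ℕ | s(x, y) ∈ s}.Finite} := by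
    have : {s : Set (Sym2 ℕ) | ∀ x : ℕ, {y : ℕ | s(x, y) ∈ s}.Finite} =
        ⋂ x : ℕ, ⋃ n : ℕ, ⋂ y : {y : ℕ // n ≤ y}, {s : Set (Sym2 ℕ) | s(x, (y : ℕ)) ∉ s} := by
      ext s
      simp only [Set.mem_ofPred_eq, Set.mem_iInter, Set.mem_iUnion, Subtype.forall]
      refine forall_congr' fun x => ?_
      constructor
      · intro h
        obtain ⟨n, hn⟩ := h.bddAbove
        exact ⟨n + 1, fun y hy hxy => by have := hn hxy; omega⟩
      · rintro ⟨n, hn⟩
        refine (Set.finite_lt_nat n).subset fun y hy => ?_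
        by_contra h
        exact hn y (not_lt.1 h) hy
    rw [this]
    exact MeasurableSet.iInter fun x => MeasurableSet.iUnion fun n =>
      MeasurableSet.iInter fun y => measurableSet_notMem _
  have : {s : Set (Sym2 ℕ) | IsGraph s} = {s : Set (Sym2 ℕ) | ∀ e ∈ s, ¬ e.IsDiag} ∩
      ({s : Set (Sym2 ℕ) | (SimpleGraph.fromEdgeSet s).Connected} ∩
        {s : Set (Sym2 ℕ) | ∀ x : ℕ, {y : ℕ | s(x, y) ∈ s}.Finite}) := rfl
  rw [this]
  exact h1.inter (h2.inter h3)

end E

end Vale.Agent.H15.F
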