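import Vale.Agent.H15.F.Core

/-!
P143, task T1: finite spanning trees and Kirchhoff's theorem.
-/

namespace Vale.Agent.H15.F

section M1
variable {V : Type*} [DecidableEq V]

/-- the graph of a finite edge set -/
abbrev kirch_G {V : Type*} (F : Finset (Sym2 V)) : SimpleGraph V :=
  SimpleGraph.fromEdgeSet (F : Set (Sym2 V))

omit [DecidableEq V] in
theorem kirch_adj {F : Finset (Sym2 V)} {x y : V} :
    (kirch_G F).Adj x y ↔ s(x, y) ∈ F ∧ x ≠ y := by
  simp [kirch_G, SimpleGraph.fromEdgeSet_adj]

omit [DecidableEq V] in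
theorem kirch_mono {F F' : Finset (Sym2 V)} (h : F ⊆ F') : kirch_G F ≤ kirch_G F' :=
  SimpleGraph.fromEdgeSet_mono (by exact_mod_cast h)

omit [DecidableEq V] in
theorem kirch_reach_of_mem {F : Finset (Sym2 V)} {x y : V} (h : s(x, y) ∈ F) :
    (kirch_G F).Reachable x y := by
  by_cases hxy : x = y
  · subst hxy; exact SimpleGraph.Reachable.refl _
  · exact (kirch_adj.2 ⟨h, hxy⟩).reachable

theorem kirch_walk {F : Finset (Sym2 V)} {x y a v : V} (h : (kirch_G F).Reachable a v) :
    (kirch_G (F.erase s(x, y))).Reachable a v ∨ (kirch_G (F.erase s(x, y))).Reachable a x ∨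
      (kirch_G (F.erase s(x, y))).Reachable a y := by
  rw [SimpleGraph.reachable_iff_reflTransGen] at h
  induction h with
  | refl => exact Or.inl (SimpleGraph.Reachable.refl _)
  | @tail b c _ hbc ih =>
    rcases ih with ih | ih
    · obtain ⟨hm, hne⟩ := kirch_adj.1 hbc
      by_cases he : s(b, c) = s(x, y)
      · rcases Sym2.eq_iff.1 he with ⟨h1, _⟩ | ⟨h1, _⟩
        · right; left; rw [h1] at ih; exact ih
        · right; right; rw [h1] at ih; exact ih
      · left
        exact ih.trans (kirch_adj.2 ⟨Finset.mem_erase.2 ⟨he, hm⟩, hne⟩).reachable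
    · exact Or.inr ih

omit [DecidableEq V] in
/-- a general monotonicity: if every edge of `F` is joined in `H` then reachability transfers -/
theorem kirch_reach_trans {F : Finset (Sym2 V)} {H : SimpleGraph V}
    (hF : ∀ x y, s(x, y) ∈ F → H.Reachable x y) {a v : V} (h : (kirch_G F).Reachable a v) :
    H.Reachable a v := by
  rw [SimpleGraph.reachable_iff_reflTransGen] at h
  induction h with
  | refl => exact SimpleGraph.Reachable.refl _
  | @tail b c _ hbc ih => exact ih.trans (hF _ _ (kirch_adj.1 hbc).1)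

theorem kirch_insert_acyclic {F : Finset (Sym2 V)} {a b : V} (hF : (kirch_G F).IsAcyclic)
    (hab : ¬ (kirch_G F).Reachable a b) : (kirch_G (insert s(a, b) F)).IsAcyclic := by
  have h1 := SimpleGraph.IsAcyclic.sup_edge_of_not_reachable hab hF
  refine h1.anti ?_
  intro x y hxy
  obtain ⟨hm, hne⟩ := kirch_adj.1 hxy
  rcases Finset.mem_insert.1 hm with h | h
  · refine Or.inr ?_
    rw [SimpleGraph.edge_adj]
    rcases Sym2.eq_iff.1 h with ⟨h1, h2⟩ | ⟨h1, h2⟩
    · exact ⟨Or.inl ⟨h1, h2⟩, hne⟩
    · exact ⟨Or.inr ⟨h1, h2⟩, hne⟩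
  · exact Or.inl (kirch_adj.2 ⟨h, hne⟩)

/-- removing a non-loop edge of an acyclic set disconnects its end-points -/
theorem kirch_bridge {T : Finset (Sym2 V)} (hT : (kirch_G T).IsAcyclic) {x y : V}
    (h : s(x, y) ∈ T) (hxy : x ≠ y) : ¬ (kirch_G (T.erase s(x, y))).Reachable x y := by
  have h1 := SimpleGraph.isAcyclic_iff_forall_isBridge.1 hT
    (e := s(x, y)) (by rw [SimpleGraph.mem_edgeSet]; exact kirch_adj.2 ⟨h, hxy⟩)
  rw [SimpleGraph.isBridge_iff] at h1
  intro hr
  apply h1
  refine hr.mono ?_
  intro p q hpq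
  obtain ⟨hm, hne⟩ := kirch_adj.1 hpq
  rw [Finset.mem_erase] at hm
  rw [SimpleGraph.deleteEdges_adj]
  exact ⟨kirch_adj.2 ⟨hm.2, hne⟩, by simpa using hm.1⟩

/-- exchange -/
theorem kirch_exch {K T : Finset (Sym2 V)} (hT : IsSpanTree K T) {x y a b : V}
    (hab : s(a, b) ∈ K) (hn : ¬ (kirch_G (T.erase s(x, y))).Reachable a b) :
    IsSpanTree K (insert s(a, b) (T.erase s(x, y))) := by
  obtain ⟨hTK, hac, hsp⟩ := hT
  refine ⟨?_, ?_, ?_⟩
  · intro e he
    rcases Finset.mem_insert.1 he with h | h
    · rw [h]; exact hab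
    · exact hTK (Finset.mem_of_mem_erase h)
  · exact kirch_insert_acyclic (hac.anti (kirch_mono (Finset.erase_subset _ _))) hn
  · intro p q hpq
    have hle : kirch_G (T.erase s(x, y)) ≤ kirch_G (insert s(a, b) (T.erase s(x, y))) :=
      kirch_mono (Finset.subset_insert _ _)
    have hab' : (kirch_G (insert s(a, b) (T.erase s(x, y)))).Reachable a b :=
      kirch_reach_of_mem (Finset.mem_insert_self _ _)
    have hxy' : (kirch_G (insert s(a, b) (T.erase s(x, y)))).Reachable x y := by
      have hr := hsp a b hab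
      rcases kirch_walk (x := x) (y := y) hr with h | h | h
      · exact absurd h hn
      · rcases kirch_walk (x := x) (y := y) hr.symm with h' | h' | h'
        · exact absurd h'.symm hn
        · exact absurd (h.trans h'.symm) hn
        · exact ((h.mono hle).symm.trans hab').trans (h'.mono hle)
      · rcases kirch_walk (x := x) (y := y) hr.symm with h' | h' | h'
        · exact absurd h'.symm hn
        · exact (((h.mono hle).symm.trans hab').trans (h'.mono hle)).symm
        · exact absurd (h.trans h'.symm) hn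
    refine kirch_reach_trans ?_ (hsp p q hpq)
    intro u v huv
    by_cases he : s(u, v) = s(x, y)
    · rcases Sym2.eq_iff.1 he with ⟨h1, h2⟩ | ⟨h1, h2⟩
      · rw [h1, h2]; exact hxy'
      · rw [h1, h2]; exact hxy'.symm
    · exact kirch_reach_of_mem (Finset.mem_insert_of_mem (Finset.mem_erase.2 ⟨he, huv⟩))

open Classical in
/-- the finite set of trees -/
noncomputable def kirch_TT (K A B : Finset (Sym2 V)) : Finset (Finset (Sym2 V)) :=
  K.powerset.filter fun T => IsSpanTree K T ∧ A ⊆ T ∧ Disjoint B T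

theorem kirch_mem_TT {K A B T : Finset (Sym2 V)} :
    T ∈ kirch_TT K A B ↔ IsSpanTree K T ∧ A ⊆ T ∧ Disjoint B T := by
  classical
  unfold kirch_TT
  rw [Finset.mem_filter, Finset.mem_powerset]
  exact ⟨fun h => h.2, fun h => ⟨h.1.1, h⟩⟩

theorem kirch_treeCount (K A B : Finset (Sym2 V)) :
    treeCount K A B = (kirch_TT K A B).card := by
  unfold treeCount
  exact Nat.subtype_card _ fun T => kirch_mem_TT

/-- extension to a spanning tree -/
theorem kirch_extend {K T B : Finset (Sym2 V)} (hTK : T ⊆ K) (hT : (kirch_G T).IsAcyclic)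
    (hBT : Disjoint B T) (hB : ∀ x y, s(x, y) ∈ B → s(x, y) ∈ K → (kirch_G T).Reachable x y) :
    ∃ S, IsSpanTree K S ∧ T ⊆ S ∧ Disjoint B S := by
  classical
  let C := K.powerset.filter fun S => T ⊆ S ∧ (kirch_G S).IsAcyclic ∧ Disjoint B S
  have hC : C.Nonempty := ⟨T, by
    simp only [C, Finset.mem_filter, Finset.mem_powerset]
    exact ⟨hTK, subset_rfl, hT, hBT⟩⟩
  obtain ⟨S, hS, hmax⟩ := Finset.exists_max_image C Finset.card hC
  simp only [C, Finset.mem_filter, Finset.mem_powerset] at hS hmax
  obtain ⟨hSK, hTS, hSa, hBS⟩ := hS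
  refine ⟨S, ⟨hSK, hSa, ?_⟩, hTS, hBS⟩
  intro x y hxy
  by_contra hn
  have hnB : s(x, y) ∉ B := fun hb => hn ((hB x y hb hxy).mono (kirch_mono hTS))
  have hnS : s(x, y) ∉ S := fun hs => hn (kirch_reach_of_mem hs)
  have h1 := hmax (insert s(x, y) S) ⟨Finset.insert_subset hxy hSK,
    hTS.trans (Finset.subset_insert _ _), kirch_insert_acyclic hSa hn, by
      rw [Finset.disjoint_insert_right]; exact ⟨hnB, hBS⟩⟩
  rw [Finset.card_insert_of_notMem hnS] at h1
  omega

theorem treeCount_ne_zero (K : Finset (Sym2 V)) : treeCount K ∅ ∅ ≠ 0 := by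
  obtain ⟨S, hS, _, _⟩ := kirch_extend (K := K) (T := ∅) (B := ∅) (by simp)
    (by simp [kirch_G]) (by simp) (by simp)
  rw [kirch_treeCount]
  exact Finset.card_ne_zero.2 ⟨S, kirch_mem_TT.2 ⟨hS, by simp, by simp⟩⟩

theorem treeCount_split (K A B : Finset (Sym2 V)) (f : Sym2 V) :
    treeCount K A B = treeCount K (insert f A) B + treeCount K A (insert f B) := by
  classical
  rw [kirch_treeCount, kirch_treeCount, kirch_treeCount,
    ← Finset.card_filter_add_card_filter_not (s := kirch_TT K A B) (fun T => f ∈ T)]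
  congr 1
  · congr 1
    ext T
    simp only [Finset.mem_filter, kirch_mem_TT, Finset.insert_subset_iff]
    tauto
  · congr 1
    ext T
    simp only [Finset.mem_filter, kirch_mem_TT, Finset.disjoint_insert_left]
    tauto

theorem treeCount_eq_zero {K A B : Finset (Sym2 V)} (h : ¬ A ⊆ K) : treeCount K A B = 0 := by
  rw [kirch_treeCount, Finset.card_eq_zero, Finset.eq_empty_iff_forall_notMem]
  intro T hT
  obtain ⟨h1, h2, _⟩ := kirch_mem_TT.1 hT
  exact h (h2.trans h1.1)

theorem treeCount_pos_mono {K K' A B : Finset (Sym2 V)} (h : K ⊆ K')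
    (hB : ∀ e ∈ B, e ∈ K' → e ∈ K) (hp : treeCount K A B ≠ 0) : treeCount K' A B ≠ 0 := by
  rw [kirch_treeCount] at hp ⊢
  obtain ⟨T, hT⟩ := Finset.card_ne_zero.1 hp
  obtain ⟨h1, h2, h3⟩ := kirch_mem_TT.1 hT
  obtain ⟨S, hS, hTS, hBS⟩ := kirch_extend (h1.1.trans h) h1.2.1 h3
    (fun x y hb hk => h1.2.2 x y (hB _ hb hk))
  exact Finset.card_ne_zero.2 ⟨S, kirch_mem_TT.2 ⟨hS, h2.trans hTS, hBS⟩⟩

open Classical in
/-- indicator of the component of `y0` -/
noncomputable def kirch_w (F : Finset (Sym2 V)) (y0 z : V) : ℝ :=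
  if (kirch_G F).Reachable y0 z then 1 else 0

omit [DecidableEq V] in
theorem kirch_w_self (F : Finset (Sym2 V)) (y0 : V) : kirch_w F y0 y0 = 1 := by
  simp [kirch_w]

omit [DecidableEq V] in
theorem kirch_w_congr {F : Finset (Sym2 V)} {y0 z z' : V} (h : (kirch_G F).Reachable z z') :
    kirch_w F y0 z = kirch_w F y0 z' := by
  unfold kirch_w
  have : (kirch_G F).Reachable y0 z ↔ (kirch_G F).Reachable y0 z' :=
    ⟨fun h1 => h1.trans h, fun h1 => h1.trans h.symm⟩
  by_cases h1 : (kirch_G F).Reachable y0 z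
  · rw [if_pos h1, if_pos (this.1 h1)]
  · rw [if_neg h1, if_neg (fun h2 => h1 (this.2 h2))]

omit [DecidableEq V] in
theorem kirch_dd_mk (u u' : V → ℝ) (x y : V) : dd u u' s(x, y) = (u y - u x) * (u' y - u' x) := rfl

/-- telescoping over fundamental cuts -/
theorem kirch_tele {T : Finset (Sym2 V)} (hT : (kirch_G T).IsAcyclic) (u' : V → ℝ) {y0 z : V}
    (h : (kirch_G T).Reachable y0 z) :
    u' y0 - u' z = ∑ e ∈ T, (1 - kirch_w (T.erase e) y0 z) * dd (kirch_w (T.erase e) y0) u' e := by
  rw [SimpleGraph.reachable_iff_reflTransGen] at h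
  induction h with
  | refl => simp [kirch_w_self]
  | @tail z z' hz hzz' ih =>
    obtain ⟨hm, hne⟩ := kirch_adj.1 hzz'
    have key : ∑ e ∈ T, (1 - kirch_w (T.erase e) y0 z') * dd (kirch_w (T.erase e) y0) u' e -
        ∑ e ∈ T, (1 - kirch_w (T.erase e) y0 z) * dd (kirch_w (T.erase e) y0) u' e =
        u' z - u' z' := by
      rw [← Finset.sum_sub_distrib, Finset.sum_eq_single_of_mem s(z, z') hm]
      · rw [kirch_dd_mk]
        have hb := kirch_bridge hT hm hne
        have hw := kirch_walk (x := z) (y := z')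
          ((SimpleGraph.reachable_iff_reflTransGen _ _).2 hz)
        by_cases h1 : (kirch_G (T.erase s(z, z'))).Reachable y0 z
        · have h2 : ¬ (kirch_G (T.erase s(z, z'))).Reachable y0 z' := fun h2 =>
            hb (h1.symm.trans h2)
          have e1 : kirch_w (T.erase s(z, z')) y0 z = 1 := by simp [kirch_w, h1]
          have e2 : kirch_w (T.erase s(z, z')) y0 z' = 0 := by simp [kirch_w, h2]
          rw [e1, e2]; ring
        · have h2 : (kirch_G (T.erase s(z, z'))).Reachable y0 z' := by tauto
          have e1 : kirch_w (T.erase s(z, z')) y0 z = 0 := by simp [kirch_w, h1]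
          have e2 : kirch_w (T.erase s(z, z')) y0 z' = 1 := by simp [kirch_w, h2]
          rw [e1, e2]; ring
      · intro e he hne'
        have : (kirch_G (T.erase e)).Reachable z z' :=
          kirch_reach_of_mem (Finset.mem_erase.2 ⟨hne'.symm, hm⟩)
        rw [kirch_w_congr this]; ring
    linarith [ih, key]

theorem kirchhoff (K A B : Finset (Sym2 V)) (x0 y0 : V) (hne : x0 ≠ y0) (hK : s(x0, y0) ∈ K)
    (hA : s(x0, y0) ∉ A) (hB : s(x0, y0) ∉ B) (hp : treeCount K A B ≠ 0) :
    ∃ u : V → ℝ, (∀ x y, s(x, y) ∈ A → u x = u y) ∧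
      u y0 - u x0 = (treeCount K (insert s(x0, y0) A) B : ℝ) / (treeCount K A B : ℝ) ∧
      ∀ u' : V → ℝ, (∀ x y, s(x, y) ∈ A → u' x = u' y) →
        u' y0 - u' x0 = ∑ e ∈ K \ (A ∪ B), dd u u' e := by
  classical
  set f : Sym2 V := s(x0, y0) with hf
  set n : ℝ := (treeCount K A B : ℝ) with hn
  have hn0 : n ≠ 0 := by rw [hn]; exact_mod_cast hp
  set TT := kirch_TT K A B with hTT
  have hnTT : n = (TT.card : ℝ) := by rw [hn, hTT, kirch_treeCount]
  set TF := TT.filter (fun T => f ∈ T) with hTF
  have hTFc : (treeCount K (insert f A) B : ℝ) = (TF.card : ℝ) := by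
    rw [kirch_treeCount]
    congr 2
    ext T
    simp only [hTF, hTT, Finset.mem_filter, kirch_mem_TT, Finset.insert_subset_iff]
    tauto
  have hbr : ∀ T ∈ TF, ¬ (kirch_G (T.erase f)).Reachable y0 x0 := by
    intro T hT hr
    rw [hTF, Finset.mem_filter, hTT, kirch_mem_TT] at hT
    exact kirch_bridge hT.1.1.2.1 hT.2 hne hr.symm
  refine ⟨fun z => (1 / n) * ∑ T ∈ TF, kirch_w (T.erase f) y0 z, ?_, ?_, ?_⟩
  · intro x y hxy
    simp only
    congr 1
    refine Finset.sum_congr rfl fun T hT => ?_
    rw [hTF, Finset.mem_filter, hTT, kirch_mem_TT] at hT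
    refine kirch_w_congr (kirch_reach_of_mem (Finset.mem_erase.2 ⟨?_, hT.1.2.1 hxy⟩))
    intro h; rw [← h] at hA; exact hA hxy
  · simp only
    rw [← mul_sub, ← Finset.sum_sub_distrib]
    have : ∑ T ∈ TF, (kirch_w (T.erase f) y0 y0 - kirch_w (T.erase f) y0 x0) = (TF.card : ℝ) := by
      rw [Finset.card_eq_sum_ones, Nat.cast_sum]
      refine Finset.sum_congr rfl fun T hT => ?_
      rw [kirch_w_self]
      have : kirch_w (T.erase f) y0 x0 = 0 := by simp [kirch_w, hbr T hT]
      rw [this]; simp
    rw [this, hTFc]; ring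
  · intro u' hu'
    have h1 : n * (u' y0 - u' x0) = ∑ p ∈ TT.sigma (fun T => T),
        (1 - kirch_w (p.1.erase p.2) y0 x0) * dd (kirch_w (p.1.erase p.2) y0) u' p.2 := by
      rw [Finset.sum_sigma, hnTT, Finset.card_eq_sum_ones, Nat.cast_sum, Finset.sum_mul]
      refine Finset.sum_congr rfl fun T hT => ?_
      rw [hTT, kirch_mem_TT] at hT
      rw [← kirch_tele hT.1.2.1 u' (hT.1.2.2 y0 x0 (by rw [Sym2.eq_swap]; exact hK))]
      simp
    have h2 : n * ∑ e ∈ K \ (A ∪ B), dd (fun z => (1 / n) * ∑ T ∈ TF, kirch_w (T.erase f) y0 z) u' e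
        = ∑ q ∈ (K \ (A ∪ B)) ×ˢ TF,
          (1 - kirch_w (q.2.erase f) y0 x0) * dd (kirch_w (q.2.erase f) y0) u' q.1 := by
      rw [Finset.sum_product, Finset.mul_sum]
      refine Finset.sum_congr rfl fun e he => ?_
      have : ∀ T ∈ TF, (1 - kirch_w (T.erase f) y0 x0) * dd (kirch_w (T.erase f) y0) u' e =
          dd (kirch_w (T.erase f) y0) u' e := by
        intro T hT
        have : kirch_w (T.erase f) y0 x0 = 0 := by simp [kirch_w, hbr T hT]
        rw [this]; ring
      rw [Finset.sum_congr rfl this]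
      induction e with | _ a b =>
      simp only [kirch_dd_mk]
      rw [← Finset.sum_mul, ← mul_sub, ← Finset.sum_sub_distrib]
      field_simp
    have h3 : ∑ p ∈ TT.sigma (fun T => T),
        (1 - kirch_w (p.1.erase p.2) y0 x0) * dd (kirch_w (p.1.erase p.2) y0) u' p.2 =
        ∑ q ∈ (K \ (A ∪ B)) ×ˢ TF,
          (1 - kirch_w (q.2.erase f) y0 x0) * dd (kirch_w (q.2.erase f) y0) u' q.1 := by
      refine Finset.sum_bij_ne_zero
        (fun p _ _ => (p.2, insert f (p.1.erase p.2))) ?_ ?_ ?_ ?_
      · -- membership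
        rintro ⟨T, e⟩ hp hne0
        simp only [Finset.mem_sigma] at hp
        obtain ⟨hT, he⟩ := hp
        rw [hTT, kirch_mem_TT] at hT
        have hnr : ¬ (kirch_G (T.erase e)).Reachable y0 x0 := by
          intro hr
          apply hne0
          have : kirch_w (T.erase e) y0 x0 = 1 := by simp [kirch_w, hr]
          simp [this]
        have heA : e ∉ A := by
          intro heA
          apply hne0
          induction e with | _ a b =>
          simp only [kirch_dd_mk]
          rw [hu' a b heA]; ring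
        have heB : e ∉ B := fun h => (Finset.disjoint_left.1 hT.2.2) h he
        rw [Finset.mem_product]
        refine ⟨?_, ?_⟩
        · simp only [Finset.mem_sdiff, Finset.mem_union, not_or]
          exact ⟨hT.1.1 he, heA, heB⟩
        · simp only
          rw [hTF, Finset.mem_filter, hTT, kirch_mem_TT]
          refine ⟨⟨?_, ?_, ?_⟩, Finset.mem_insert_self _ _⟩
          · induction e with | _ a b =>
            exact kirch_exch hT.1 hK (fun h => hnr h.symm)
          · intro g hg
            exact Finset.mem_insert_of_mem (Finset.mem_erase.2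
              ⟨fun h => heA (h ▸ hg), hT.2.1 hg⟩)
          · rw [Finset.disjoint_insert_right]
            exact ⟨hB, hT.2.2.mono_right (Finset.erase_subset _ _)⟩
      · -- injectivity
        rintro ⟨T1, e1⟩ hp1 hn1 ⟨T2, e2⟩ hp2 hn2 heq
        simp only [Prod.mk.injEq] at heq
        obtain ⟨h1', h2'⟩ := heq
        subst h1'
        simp only [Finset.mem_sigma] at hp1 hp2
        have hf1 : f ∉ T1.erase e1 := by
          intro hfm
          apply hn1
          have : kirch_w (T1.erase e1) y0 x0 = 1 := by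
            have hr : (kirch_G (T1.erase e1)).Reachable y0 x0 :=
              (kirch_reach_of_mem hfm).symm
            simp [kirch_w, hr]
          simp [this]
        have hf2 : f ∉ T2.erase e1 := by
          intro hfm
          apply hn2
          have : kirch_w (T2.erase e1) y0 x0 = 1 := by
            have hr : (kirch_G (T2.erase e1)).Reachable y0 x0 :=
              (kirch_reach_of_mem hfm).symm
            simp [kirch_w, hr]
          simp [this]
        have h3' : T1.erase e1 = T2.erase e1 := by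
          rw [← Finset.erase_insert hf1, ← Finset.erase_insert hf2, h2']
        have h4' : T1 = T2 := by
          rw [← Finset.insert_erase hp1.2, ← Finset.insert_erase hp2.2, h3']
        subst h4'
        rfl
      · -- surjectivity
        rintro ⟨e, T⟩ hq hn1
        rw [Finset.mem_product] at hq
        obtain ⟨he, hT⟩ := hq
        simp only at he hT hn1
        have hnr : ∀ a b, e = s(a, b) → ¬ (kirch_G (T.erase f)).Reachable a b := by
          intro a b hab hr
          apply hn1
          rw [hab, kirch_dd_mk, kirch_w_congr hr]; ring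
        have hnm : e ∉ T.erase f := by
          intro hm
          induction e with | _ a b =>
          exact hnr a b rfl (kirch_reach_of_mem hm)
        simp only [Finset.mem_sdiff, Finset.mem_union, not_or] at he
        have hT' := hT
        rw [hTF, Finset.mem_filter, hTT, kirch_mem_TT] at hT'
        have hmem : insert e (T.erase f) ∈ TT := by
          rw [hTT, kirch_mem_TT]
          refine ⟨?_, ?_, ?_⟩
          · induction e with | _ a b =>
            exact kirch_exch hT'.1.1 he.1 (hnr a b rfl)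
          · intro g hg
            exact Finset.mem_insert_of_mem (Finset.mem_erase.2
              ⟨fun h => hA (h ▸ hg), hT'.1.2.1 hg⟩)
          · rw [Finset.disjoint_insert_right]
            exact ⟨he.2.2, hT'.1.2.2.mono_right (Finset.erase_subset _ _)⟩
        refine ⟨⟨insert e (T.erase f), e⟩, ?_, ?_, ?_⟩
        · simp only [Finset.mem_sigma]
          exact ⟨hmem, Finset.mem_insert_self _ _⟩
        · simp only [Finset.erase_insert hnm]; exact hn1
        · simp only [Finset.erase_insert hnm, Finset.insert_erase hT'.2]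
      · -- values
        rintro ⟨T, e⟩ hp hn1
        simp only [Finset.mem_sigma] at hp
        have hf1 : f ∉ T.erase e := by
          intro hfm
          apply hn1
          have : kirch_w (T.erase e) y0 x0 = 1 := by
            have hr : (kirch_G (T.erase e)).Reachable y0 x0 :=
              (kirch_reach_of_mem hfm).symm
            simp [kirch_w, hr]
          simp [this]
        simp only [Finset.erase_insert hf1]
    have h4 := h1.trans (h3.trans h2.symm)
    exact mul_left_cancel₀ hn0 h4

end M1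

end Vale.Agent.H15.F
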