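import Vale.Agent.H15.F.Proj
import Vale.Agent.H15.F.Kirch
import Vale.Agent.H15.F.FusfEx

/-!
P143, task T3: domination inequalities for the free uniform spanning forest.
-/

open MeasureTheory Filter Topology
open scoped ENNReal InnerProductSpace

namespace Vale.Agent.H15.F

theorem fd_sub {s : Set (Sym2 ℕ)} {K : ℕ → Finset (Sym2 ℕ)} (hK : IsExhaustion s K) (n : ℕ)
    {e : Sym2 ℕ} (he : e ∈ K n) : e ∈ s := by
  rw [← hK.2.2]; exact Set.mem_iUnion.2 ⟨n, he⟩

theorem fd_eventually {s : Set (Sym2 ℕ)} {K : ℕ → Finset (Sym2 ℕ)} (hK : IsExhaustion s K)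
    {e : Sym2 ℕ} (he : e ∈ s) : ∀ᶠ n in atTop, e ∈ K n := by
  rw [← hK.2.2] at he
  obtain ⟨n, hn⟩ := Set.mem_iUnion.1 he
  filter_upwards [eventually_ge_atTop n] with m hm
  exact hK.1 hm hn

theorem fusf_subset {s : Set (Sym2 ℕ)} (hs : IsGraph s) {μ : Measure (Set (Sym2 ℕ))}
    (hμ : IsFUSF s μ) : ∀ᵐ F ∂μ, F ⊆ s := by
  obtain ⟨K, hK⟩ := exists_exhaustion hs
  have := hμ.1
  have h : ∀ e : Sym2 ℕ, ∀ᵐ F ∂μ, e ∉ s → e ∉ F := by
    intro e
    by_cases he : e ∈ s
    · exact Eventually.of_forall fun F h => absurd he h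
    · have h1 := hμ.2 K hK {e} ∅
      have h2 : (fun n => ustProb (K n) {e} ∅) = fun _ => 0 := by
        funext n
        rw [ustProb, treeCount_eq_zero, Nat.cast_zero, zero_div]
        intro h
        exact he (fd_sub hK n (h (Finset.mem_singleton_self e)))
      rw [h2] at h1
      have h3 := tendsto_nhds_unique h1 tendsto_const_nhds
      rw [measureReal_eq_zero_iff] at h3
      rw [ae_iff]
      refine measure_mono_null ?_ h3
      intro F hF
      simp only [Set.mem_ofPred_eq, Classical.not_imp, not_not] at hF ⊢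
      refine ⟨?_, ?_⟩
      · simpa using hF.2
      · simp
  have h' := ae_all_iff.2 h
  filter_upwards [h'] with F hF e he
  by_contra hne
  exact hF e hne he

/-- sum over darts -/
theorem fd_dart {E : Finset (Sym2 ℕ)} (hE : ∀ e ∈ E, ¬ e.IsDiag) (g : Sym2 ℕ → ℝ) :
    HasSum (fun d : ℕ × ℕ => if s(d.1, d.2) ∈ E then g s(d.1, d.2) else 0)
      (2 * ∑ e ∈ E, g e) := by
  induction E using Finset.induction_on with
  | empty => simp [hasSum_zero]
  | insert e E he ih =>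
    have ih' := ih fun f hf => hE f (Finset.mem_insert_of_mem hf)
    rw [Finset.sum_insert he, mul_add]
    have h1 : (fun d : ℕ × ℕ => if s(d.1, d.2) ∈ insert e E then g s(d.1, d.2) else 0) =
        fun d : ℕ × ℕ => (if s(d.1, d.2) = e then g e else 0) +
          (if s(d.1, d.2) ∈ E then g s(d.1, d.2) else 0) := by
      funext d
      by_cases hd : s(d.1, d.2) = e
      · rw [if_pos (by rw [hd]; exact Finset.mem_insert_self _ _), if_pos hd,
          if_neg (by rw [hd]; exact he), hd, add_zero]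
      · by_cases hd' : s(d.1, d.2) ∈ E
        · rw [if_pos (Finset.mem_insert_of_mem hd'), if_neg hd, if_pos hd', zero_add]
        · rw [if_neg (by simp [Finset.mem_insert, hd, hd']), if_neg hd, if_neg hd', zero_add]
    rw [h1]
    refine HasSum.add ?_ ih'
    have hnd := hE e (Finset.mem_insert_self _ _)
    induction e using Sym2.ind with
    | _ a b =>
      have hab : a ≠ b := fun h => hnd (by rw [h]; exact Sym2.mk_isDiag_iff.2 rfl)
      have h2 : (fun d : ℕ × ℕ => if s(d.1, d.2) = s(a, b) then g s(a, b) else 0) =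
          fun d => (if d = (a, b) then g s(a, b) else 0) + (if d = (b, a) then g s(a, b) else 0) := by
        funext d
        obtain ⟨c, d⟩ := d
        simp only [Sym2.eq_iff, Prod.mk.injEq]
        by_cases h3 : c = a ∧ d = b
        · have h4 : ¬ (c = b ∧ d = a) := by
            rintro ⟨h5, h6⟩; exact hab (h3.1.symm.trans h5)
          simp [h3]
          intro h; exact absurd h hab
        · simp [h3]
      rw [h2, two_mul]
      exact (hasSum_ite_eq (a, b) (g s(a, b))).add (hasSum_ite_eq (b, a) (g s(a, b)))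

theorem fd_cs (E : Finset (Sym2 ℕ)) (u u' : ℕ → ℝ) :
    (∑ e ∈ E, dd u u' e) ^ 2 ≤ (∑ e ∈ E, dd u u e) * (∑ e ∈ E, dd u' u' e) := by
  have hnn : ∀ (v : ℕ → ℝ) (e : Sym2 ℕ), 0 ≤ dd v v e := by
    intro v e
    induction e using Sym2.ind with
    | _ a b => exact mul_self_nonneg (v b - v a)
  refine Finset.sum_sq_le_sum_mul_sum_of_sq_le_mul E (fun i _ => hnn u i) (fun i _ => hnn u' i)
    fun e _ => le_of_eq ?_
  induction e using Sym2.ind with
  | _ a b =>
    show ((u b - u a) * (u' b - u' a)) ^ 2 = (u b - u a) * (u b - u a) *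
      ((u' b - u' a) * (u' b - u' a))
    ring

theorem fd_norm_sq (h : Hs) : HasSum (fun d : ℕ × ℕ => (h d) ^ 2) (‖h‖ ^ 2) := by
  have h2 := lp.hasSum_inner (𝕜 := ℝ) (G := fun _ : ℕ × ℕ => ℝ) h h
  rw [real_inner_self_eq_norm_sq] at h2
  have h3 : (fun d : ℕ × ℕ => (h d) ^ 2) = fun i => ⟪h i, h i⟫_ℝ := by
    funext i; rw [real_inner_self_eq_norm_sq, Real.norm_eq_abs, sq_abs]
  rw [h3]; exact h2

theorem fd_en {E : Finset (Sym2 ℕ)} (hE : ∀ e ∈ E, ¬ e.IsDiag) {S : Set (Sym2 ℕ)}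
    (hES : ∀ e ∈ E, e ∉ S) (h : Hs) (g : Sym2 ℕ → ℝ)
    (hg : ∀ a b : ℕ, s(a, b) ∈ E → g s(a, b) = (h (a, b)) ^ 2) :
    ∑ e ∈ E, g e ≤ en S h := by
  classical
  have h1 := fd_dart hE g
  have hsum : Summable fun d : ℕ × ℕ => if s(d.1, d.2) ∈ S then 0 else (h d) ^ 2 := by
    refine Summable.of_nonneg_of_le (fun d => ?_) (fun d => ?_) (fd_norm_sq h).summable
    · split_ifs <;> positivity
    · split_ifs
      · positivity
      · exact le_rfl
  have h2 : 2 * ∑ e ∈ E, g e ≤ ∑' d : ℕ × ℕ, if s(d.1, d.2) ∈ S then 0 else (h d) ^ 2 := by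
    refine hasSum_le (fun d => ?_) h1 hsum.hasSum
    by_cases hd : s(d.1, d.2) ∈ E
    · rw [if_pos hd, if_neg (hES _ hd), hg _ _ hd]
    · rw [if_neg hd]
      split_ifs <;> positivity
  rw [en]
  have h3 : (∑' d : ℕ × ℕ, if s(d.1, d.2) ∈ S then 0 else (h d) ^ 2) =
      ∑' d : ℕ × ℕ, @ite ℝ (s(d.1, d.2) ∈ S) (Classical.propDecidable _) 0 ((h d) ^ 2) := by
    congr
  linarith


/-- a finite set of vertices containing the end-points of the edges of `K` -/
theorem fd_vert (K : Finset (Sym2 ℕ)) : ∃ W : Finset ℕ, ∀ a b : ℕ, s(a, b) ∈ K → a ∈ W ∧ b ∈ W := by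
  classical
  refine ⟨K.biUnion fun e => e.toFinset, fun a b h => ?_⟩
  constructor
  · exact Finset.mem_biUnion.2 ⟨_, h, by simp⟩
  · exact Finset.mem_biUnion.2 ⟨_, h, by simp⟩

theorem fusf_D1 {s : Set (Sym2 ℕ)} (hs : IsGraph s) {μ : Measure (Set (Sym2 ℕ))}
    (hμ : IsFUSF s μ) (A B : Finset (Sym2 ℕ)) (x y : ℕ) (hxy : s(x, y) ∈ s)
    (hA : s(x, y) ∉ A) (hB : s(x, y) ∉ B) (h : Hs) (hh : h ∈ Hsp s (A : Set (Sym2 ℕ))) :
    (h (x, y)) ^ 2 * μ.real (cyl A B) ≤
      en ((A : Set (Sym2 ℕ)) ∪ B) h * μ.real (cyl (insert s(x, y) A) B) := by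
  obtain ⟨K, hK⟩ := exists_exhaustion hs
  have := hμ.1
  have hne : x ≠ y := fun h => hs.1 _ hxy (by rw [h]; exact Sym2.mk_isDiag_iff.2 rfl)
  have hen : 0 ≤ en ((A : Set (Sym2 ℕ)) ∪ B) h := by
    rw [en]
    refine mul_nonneg (by norm_num) (tsum_nonneg fun d => ?_)
    split_ifs <;> positivity
  have l1 : Tendsto (fun n => (h (x, y)) ^ 2 * ustProb (K n) A B) atTop
      (𝓝 ((h (x, y)) ^ 2 * μ.real (cyl A B))) := (hμ.2 K hK A B).const_mul _
  have l2 : Tendsto (fun n => en ((A : Set (Sym2 ℕ)) ∪ B) h *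
      ustProb (K n) (insert s(x, y) A) B) atTop
      (𝓝 (en ((A : Set (Sym2 ℕ)) ∪ B) h * μ.real (cyl (insert s(x, y) A) B))) :=
    (hμ.2 K hK (insert s(x, y) A) B).const_mul _
  refine le_of_tendsto_of_tendsto l1 l2 ?_
  filter_upwards [fd_eventually hK hxy] with n hn
  have hT : (0 : ℝ) < treeCount (K n) ∅ ∅ := by
    have := treeCount_ne_zero (K n)
    positivity
  rw [ustProb, ustProb, ← mul_div_assoc, ← mul_div_assoc]
  refine div_le_div_of_nonneg_right ?_ hT.le
  by_cases hp : treeCount (K n) A B = 0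
  · rw [hp, Nat.cast_zero, mul_zero]
    exact mul_nonneg hen (Nat.cast_nonneg _)
  have hpos : (0 : ℝ) < treeCount (K n) A B := by positivity
  have hAK : A ⊆ K n := by
    by_contra hc
    exact hp (treeCount_eq_zero hc)
  obtain ⟨u, hu1, hu2, hu3⟩ := kirchhoff (K n) A B x y hne hn hA hB hp
  obtain ⟨W, hW⟩ := fd_vert (K n)
  obtain ⟨u', hu'⟩ := hh.1 W
  have hinc : ∀ a b : ℕ, s(a, b) ∈ K n → h (a, b) = u' b - u' a := fun a b hab =>
    hu' a (hW a b hab).1 b (hW a b hab).2 (fd_sub hK n hab)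
  have huA : ∀ a b : ℕ, s(a, b) ∈ A → u' a = u' b := by
    intro a b hab
    have h1 := hinc a b (hAK hab)
    rw [hh.2 a b (Or.inr hab)] at h1
    linarith
  have e1 := hu3 u' huA
  have e2 := hu3 u hu1
  have cs := fd_cs (K n \ (A ∪ B)) u u'
  rw [← e1, ← e2, ← hinc x y hn, hu2] at cs
  have e3 : ∑ e ∈ K n \ (A ∪ B), dd u' u' e ≤ en ((A : Set (Sym2 ℕ)) ∪ B) h := by
    refine fd_en (fun e he => hs.1 e (fd_sub hK n (Finset.mem_sdiff.1 he).1)) (fun e he => ?_) h
      (dd u' u') (fun a b hab => ?_)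
    · have := (Finset.mem_sdiff.1 he).2
      simpa using this
    · rw [hinc a b (Finset.mem_sdiff.1 hab).1]
      show (u' b - u' a) * (u' b - u' a) = _
      ring
  have e4 : (h (x, y)) ^ 2 ≤ (treeCount (K n) (insert s(x, y) A) B : ℝ) / treeCount (K n) A B *
      en ((A : Set (Sym2 ℕ)) ∪ B) h :=
    cs.trans (mul_le_mul_of_nonneg_left e3 (by positivity))
  calc (h (x, y)) ^ 2 * (treeCount (K n) A B : ℝ)
      ≤ ((treeCount (K n) (insert s(x, y) A) B : ℝ) / treeCount (K n) A B *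
        en ((A : Set (Sym2 ℕ)) ∪ B) h) * (treeCount (K n) A B : ℝ) :=
        mul_le_mul_of_nonneg_right e4 hpos.le
    _ = en ((A : Set (Sym2 ℕ)) ∪ B) h * (treeCount (K n) (insert s(x, y) A) B : ℝ) := by
        field_simp


/-- the gradient of `u` on the finite graph `K`, as a square-summable function on darts -/
noncomputable def fdv (K : Finset (Sym2 ℕ)) (u : ℕ → ℝ) : Hs :=
  ⟨fun d => if s(d.1, d.2) ∈ K then u d.2 - u d.1 else 0, by
    obtain ⟨W, hW⟩ := fd_vert K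
    refine memℓp_gen ?_
    refine summable_of_hasFiniteSupport ?_
    refine Set.Finite.subset (W ×ˢ W).finite_toSet fun d hd => ?_
    by_contra hc
    apply hd
    have : s(d.1, d.2) ∉ K := fun h => hc (by
      have := hW _ _ h
      simpa using this)
    simp [this]⟩

theorem fdv_apply (K : Finset (Sym2 ℕ)) (u : ℕ → ℝ) (a b : ℕ) :
    fdv K u (a, b) = if s(a, b) ∈ K then u b - u a else 0 := rfl

theorem fdv_inner {K K' : Finset (Sym2 ℕ)} (hE : ∀ e ∈ K, ¬ e.IsDiag) (h : K ⊆ K')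
    (u u' : ℕ → ℝ) : ⟪fdv K u, fdv K' u'⟫_ℝ = 2 * ∑ e ∈ K, dd u u' e := by
  have h1 := lp.hasSum_inner (𝕜 := ℝ) (G := fun _ : ℕ × ℕ => ℝ) (fdv K u) (fdv K' u')
  have h2 := fd_dart hE (dd u u')
  have h3 : (fun i => ⟪fdv K u i, fdv K' u' i⟫_ℝ) =
      fun d : ℕ × ℕ => if s(d.1, d.2) ∈ K then dd u u' s(d.1, d.2) else 0 := by
    funext d
    obtain ⟨a, b⟩ := d
    rw [fdv_apply, fdv_apply]
    by_cases hab : s(a, b) ∈ K
    · rw [if_pos hab, if_pos (h hab), if_pos hab]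
      show (u' b - u' a) * (u b - u a) = (u b - u a) * (u' b - u' a)
      ring
    · rw [if_neg hab, if_neg hab, inner_zero_left]
  rw [h3] at h1
  exact h1.unique h2

/-- limits of gradients on a finite set are gradients -/
theorem fd_closed (s : Set (Sym2 ℕ)) (W : Finset ℕ) (v : ℕ → Hs) (h : Hs)
    (hv : Tendsto v atTop (𝓝 h))
    (hg : ∀ᶠ n in atTop, ∃ u : ℕ → ℝ, ∀ a ∈ W, ∀ b ∈ W, s(a, b) ∈ s → v n (a, b) = u b - u a) :
    ∃ u : ℕ → ℝ, ∀ a ∈ W, ∀ b ∈ W, s(a, b) ∈ s → h (a, b) = u b - u a := by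
  classical
  let L : (ℕ → ℝ) →ₗ[ℝ] (W × W → ℝ) :=
    { toFun := fun u q => if s((q.1 : ℕ), (q.2 : ℕ)) ∈ s then u q.2 - u q.1 else 0
      map_add' := by
        intro u u'
        funext q
        simp only [Pi.add_apply]
        split_ifs
        · ring
        · ring
      map_smul' := by
        intro c u
        funext q
        simp only [Pi.smul_apply, smul_eq_mul, RingHom.id_apply]
        split_ifs
        · ring
        · ring }
  have hcl : IsClosed (LinearMap.range L : Set (W × W → ℝ)) :=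
    Submodule.closed_of_finiteDimensional _
  have hcoord : ∀ d, Tendsto (fun n => v n d) atTop (𝓝 (h d)) := by
    intro d
    have := (tendsto_const_nhds (x := dl d)).inner (𝕜 := ℝ) hv
    simpa only [inner_dl_left] using this
  let w : ℕ → (W × W → ℝ) := fun n q => if s((q.1 : ℕ), (q.2 : ℕ)) ∈ s then v n (q.1, q.2) else 0
  have hw : Tendsto w atTop (𝓝 fun q => if s((q.1 : ℕ), (q.2 : ℕ)) ∈ s then h (q.1, q.2) else 0) := by
    rw [tendsto_pi_nhds]
    intro q
    by_cases hq : s((q.1 : ℕ), (q.2 : ℕ)) ∈ s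
    · simp only [w, if_pos hq]; exact hcoord _
    · simp only [w, if_neg hq]; exact tendsto_const_nhds
  have hmem := hcl.mem_of_tendsto hw (by
    filter_upwards [hg] with n hn
    obtain ⟨u, hu⟩ := hn
    refine ⟨u, ?_⟩
    funext q
    show (if s((q.1 : ℕ), (q.2 : ℕ)) ∈ s then u q.2 - u q.1 else 0) = w n q
    by_cases hq : s((q.1 : ℕ), (q.2 : ℕ)) ∈ s
    · simp only [w, if_pos hq]; exact (hu _ q.1.2 _ q.2.2 hq).symm
    · simp only [w, if_neg hq])
  obtain ⟨u, hu⟩ := hmem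
  refine ⟨u, fun a ha b hb hab => ?_⟩
  have := congrFun hu (⟨a, ha⟩, ⟨b, hb⟩)
  change (if s(a, b) ∈ s then u b - u a else 0) = (if s(a, b) ∈ s then h (a, b) else 0) at this
  rw [if_pos hab, if_pos hab] at this
  exact this.symm

theorem fusf_D2 {s : Set (Sym2 ℕ)} (hs : IsGraph s) {μ : Measure (Set (Sym2 ℕ))}
    (hμ : IsFUSF s μ) (e : Sym2 ℕ) (he : e ∈ s) : μ.real {F | e ∈ F} ≤ xval s ∅ ∅ e := by
  obtain ⟨K, hK⟩ := exists_exhaustion hs
  have := hμ.1
  induction e using Sym2.ind with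
  | _ x y =>
  have hne : x ≠ y := fun h => hs.1 _ he (by rw [h]; exact Sym2.mk_isDiag_iff.2 rfl)
  have hnd : ∀ n, ∀ f ∈ K n, ¬ f.IsDiag := fun n f hf => hs.1 f (fd_sub hK n hf)
  obtain ⟨N0, hN0⟩ := eventually_atTop.1 (fd_eventually hK he)
  set q : ℕ → ℝ := fun n => ustProb (K n) {s(x, y)} ∅ with hq
  have hlim : Tendsto q atTop (𝓝 (μ.real {F | s(x, y) ∈ F})) := by
    have := hμ.2 K hK {s(x, y)} ∅
    simpa using this
  have hex : ∀ n, ∃ u : ℕ → ℝ, N0 ≤ n → (u y - u x = q n ∧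
      ∀ u' : ℕ → ℝ, u' y - u' x = ∑ e ∈ K n, dd u u' e) := by
    intro n
    by_cases hn : N0 ≤ n
    · obtain ⟨u, _, h2, h3⟩ := kirchhoff (K n) ∅ ∅ x y hne (hN0 n hn) (by simp) (by simp)
        (treeCount_ne_zero _)
      refine ⟨u, fun _ => ⟨h2, fun u' => ?_⟩⟩
      have := h3 u' (by simp)
      simpa using this
    · exact ⟨0, fun h => absurd h hn⟩
  choose u hu using hex
  have hinner : ∀ n m, N0 ≤ n → n ≤ m → ⟪fdv (K n) (u n), fdv (K m) (u m)⟫_ℝ = 2 * q m := by
    intro n m hn hm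
    rw [fdv_inner (hnd n) (hK.1 hm), ← (hu n hn).2 (u m), (hu m (hn.trans hm)).1]
  have hnsq : ∀ n, N0 ≤ n → ‖fdv (K n) (u n)‖ ^ 2 = 2 * q n := by
    intro n hn
    rw [← real_inner_self_eq_norm_sq, hinner n n hn le_rfl]
  have hdist : ∀ n m, N0 ≤ n → n ≤ m →
      ‖fdv (K n) (u n) - fdv (K m) (u m)‖ ^ 2 = 2 * (q n - q m) := by
    intro n m hn hm
    rw [norm_sub_sq_real, hinner n m hn hm, hnsq n hn, hnsq m (hn.trans hm)]
    ring
  have hcauchy : CauchySeq fun n => fdv (K n) (u n) := by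
    rw [Metric.cauchySeq_iff']
    intro ε hε
    obtain ⟨N, hN⟩ := Metric.cauchySeq_iff.1 hlim.cauchySeq (ε ^ 2 / 2) (by positivity)
    refine ⟨max N N0, fun n hn => ?_⟩
    rw [dist_comm, dist_eq_norm]
    have h1 := hdist (max N N0) n (le_max_right _ _) hn
    have h2 := hN (max N N0) (le_max_left _ _) n ((le_max_left _ _).trans hn)
    rw [Real.dist_eq] at h2
    have h3 := (abs_lt.1 h2).2
    refine lt_of_pow_lt_pow_left₀ 2 hε.le ?_
    rw [h1]; linarith
  obtain ⟨v, hv⟩ := cauchySeq_tendsto_of_complete hcauchy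
  have hcoord : ∀ d, Tendsto (fun n => fdv (K n) (u n) d) atTop (𝓝 (v d)) := by
    intro d
    have := (tendsto_const_nhds (x := dl d)).inner (𝕜 := ℝ) hv
    simpa only [inner_dl_left] using this
  have hvxy : v (x, y) = μ.real {F | s(x, y) ∈ F} := by
    refine tendsto_nhds_unique (hcoord (x, y)) (hlim.congr' ?_)
    filter_upwards [eventually_ge_atTop N0] with n hn
    rw [fdv_apply, if_pos (hN0 n hn), (hu n hn).1]
  have hvn : ‖v‖ ^ 2 = 2 * μ.real {F | s(x, y) ∈ F} := by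
    refine tendsto_nhds_unique (hv.norm.pow 2) ((hlim.const_mul 2).congr' ?_)
    filter_upwards [eventually_ge_atTop N0] with n hn
    rw [hnsq n hn]
  have hvH : v ∈ Hsp s ∅ := by
    refine ⟨fun W => fd_closed s W _ v hv ?_, fun a b hab => ?_⟩
    · have : ∀ᶠ n in atTop, ∀ d ∈ W ×ˢ W, s(d.1, d.2) ∈ s → s(d.1, d.2) ∈ K n := by
        rw [Filter.eventually_all_finset]
        intro d _
        by_cases hd : s(d.1, d.2) ∈ s
        · filter_upwards [fd_eventually hK hd] with n hn _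
          exact hn
        · exact Eventually.of_forall fun n h => absurd h hd
      filter_upwards [this] with n hn
      refine ⟨u n, fun a ha b hb hab => ?_⟩
      rw [fdv_apply, if_pos (hn (a, b) (Finset.mem_product.2 ⟨ha, hb⟩) hab)]
    · have hab' : s(a, b) ∉ s := by simpa using hab
      refine tendsto_nhds_unique (hcoord (a, b)) (tendsto_const_nhds.congr fun n => ?_)
      rw [fdv_apply, if_neg fun h => hab' (fd_sub hK n h)]
  have hvX : v ∈ (Xsp s ∅ ∅).topologicalClosure := by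
    refine Submodule.le_topologicalClosure _ ⟨v, hvH, ?_⟩
    show prj (Csp ∅ᶜ) v = v
    ext d
    obtain ⟨a, b⟩ := d
    rw [prj_Csp_apply, if_pos (by simp)]
  have hPv : prj (Xsp s ∅ ∅) v = v := by
    rw [prj]; exact Submodule.starProjection_eq_self_iff.2 hvX
  have hin : μ.real {F | s(x, y) ∈ F} = ⟪v, prj (Xsp s ∅ ∅) (dl (x, y))⟫_ℝ := by
    rw [← hvxy, ← inner_dl_right]
    conv_lhs => rw [← hPv]
    rw [prj]; exact Submodule.inner_starProjection_left_eq_right _ _ _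
  rw [xval_eq]
  have cs := real_inner_mul_inner_self_le v (prj (Xsp s ∅ ∅) (dl (x, y)))
  rw [← hin, real_inner_self_eq_norm_sq, real_inner_self_eq_norm_sq, hvn] at cs
  rcases (measureReal_nonneg (μ := μ) (s := {F | s(x, y) ∈ F})).eq_or_lt with h0 | h0
  · rw [← h0]; positivity
  · nlinarith

end Vale.Agent.H15.F
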