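import Vale.Agent.H15.F.Core
import Vale.Agent.H15.F.Field

open MeasureTheory Filter Topology
open scoped ENNReal InnerProductSpace

namespace Vale.Agent.H15.F

theorem tr_inner_dl (d : ℕ × ℕ) (h : Hs) : ⟪dl d, h⟫_ℝ = h d := by
  have := lp.inner_single_left (𝕜 := ℝ) (G := fun _ : ℕ × ℕ => ℝ) d (1 : ℝ) h
  rw [dl, this]; simp

theorem tr_norm_sq (h : Hs) :
    ENNReal.ofReal (‖h‖ ^ 2) = ∑' d : ℕ × ℕ, ENNReal.ofReal ((h d) ^ 2) := by
  have h1 : HasSum (fun d : ℕ × ℕ => (h d) ^ 2) (‖h‖ ^ 2) := by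
    have h2 := lp.hasSum_inner (𝕜 := ℝ) (G := fun _ : ℕ × ℕ => ℝ) h h
    rw [real_inner_self_eq_norm_sq] at h2
    have h3 : (fun d : ℕ × ℕ => (h d) ^ 2) = fun i => ⟪h i, h i⟫_ℝ := by
      funext i; rw [real_inner_self_eq_norm_sq, Real.norm_eq_abs, sq_abs]
    rw [h3]; exact h2
  rw [← h1.tsum_eq, ENNReal.ofReal_tsum_of_nonneg (fun d => sq_nonneg _) h1.summable]

theorem tr_norm_sq' (h : Hs) :
    ENNReal.ofReal (‖h‖ ^ 2) = ∑' x : ℕ, ∑' y : ℕ, ENNReal.ofReal ((h (x, y)) ^ 2) := by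
  rw [tr_norm_sq]
  exact ENNReal.tsum_prod (f := fun x y => ENNReal.ofReal ((h (x, y)) ^ 2))

theorem tr_adj (T : Hs →L[ℝ] Hs) (d d' : ℕ × ℕ) :
    (ContinuousLinearMap.adjoint T) (dl d) d' = T (dl d') d := by
  rw [← tr_inner_dl d' , ContinuousLinearMap.adjoint_inner_right, real_inner_comm, tr_inner_dl]

/-- integrated trace -/
noncomputable def trH {Ω : Type*} [MeasurableSpace Ω] (m : Measure (Ω × ℕ))
    (T : Ω → Hs →L[ℝ] Hs) : ℝ≥0∞ :=
  ∫⁻ p, ∑' y, ENNReal.ofReal (‖T p.1 (dl (p.2, y))‖ ^ 2) ∂m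

/-- Step 1: the integrated trace of `T* T` and `T T*` agree -/
theorem trH_adjoint {Ω : Type*} [MeasurableSpace Ω] [PermAct Ω] {m : Measure (Ω × ℕ)} (hm : MTP m)
    {T : Ω → Hs →L[ℝ] Hs} (mT : MeasOp T) (eT : EquivOp T) :
    trH m T = trH m (fun ω => ContinuousLinearMap.adjoint (T ω)) := by
  let f : Ω → ℕ → ℕ → ℝ≥0∞ := fun ω x z =>
    ∑' y, ∑' y', ENNReal.ofReal ((T ω (dl (x, y)) (z, y')) ^ 2)
  have hf : ∀ x y, Measurable fun ω => f ω x y := by
    intro x z
    refine Measurable.tsum fun y => Measurable.tsum fun y' => ?_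
    exact ENNReal.measurable_ofReal.comp ((mT (x, y) (z, y')).pow_const 2)
  have he : ∀ (σ : Equiv.Perm ℕ) (ω : Ω) (x y : ℕ), f (act σ ω) (σ x) (σ y) = f ω x y := by
    intro σ ω x z
    simp only [f]
    rw [← Equiv.tsum_eq σ]
    refine tsum_congr fun y => ?_
    rw [← Equiv.tsum_eq σ]
    refine tsum_congr fun y' => ?_
    have := eT σ ω (x, y) (z, y')
    simp only [pd] at this
    rw [this]
  have key := hm f hf he
  have h1 : trH m T = ∫⁻ p, ∑' y, f p.1 p.2 y ∂m := by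
    refine lintegral_congr fun p => ?_
    simp only [f]
    rw [ENNReal.tsum_comm]
    refine tsum_congr fun y => ?_
    rw [tr_norm_sq']
  have h2 : trH m (fun ω => ContinuousLinearMap.adjoint (T ω)) =
      ∫⁻ p, ∑' y, f p.1 y p.2 ∂m := by
    refine lintegral_congr fun p => ?_
    simp only [f]
    have : ∀ z : ℕ, ∑' y, ∑' y', ENNReal.ofReal ((T p.1 (dl (z, y)) (p.2, y')) ^ 2) =
        ∑' y', ∑' y, ENNReal.ofReal ((T p.1 (dl (z, y)) (p.2, y')) ^ 2) := fun z =>
      ENNReal.tsum_comm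
    simp_rw [this]
    rw [ENNReal.tsum_comm]
    refine tsum_congr fun y' => ?_
    rw [tr_norm_sq']
    refine tsum_congr fun z => tsum_congr fun y => ?_
    rw [tr_adj]
  rw [h1, h2, key]

section Alg

open ContinuousLinearMap (adjoint)

variable {P' R : Hs →L[ℝ] Hs}

/-- `1 - R* R` is a contraction -/
theorem tr_K_norm {R : Hs →L[ℝ] Hs} (hR1 : ‖R‖ ≤ 1) :
    ‖(1 : Hs →L[ℝ] Hs) - (adjoint R) * R‖ ≤ 1 := by
  refine ContinuousLinearMap.opNorm_le_bound _ zero_le_one fun v => ?_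
  rw [one_mul]
  have h1 : ‖R v‖ ≤ ‖v‖ := by simpa using R.le_of_opNorm_le hR1 v
  have hadj : ‖adjoint R‖ ≤ 1 := by
    rw [LinearIsometryEquiv.norm_map]; exact hR1
  have h2 : ‖(adjoint R) (R v)‖ ≤ ‖R v‖ := by
    simpa using (adjoint R).le_of_opNorm_le hadj (R v)
  have h3 : ⟪v, (adjoint R) (R v)⟫_ℝ = ‖R v‖ ^ 2 := by
    rw [ContinuousLinearMap.adjoint_inner_right, real_inner_self_eq_norm_sq]
  have h4 : ‖((1 : Hs →L[ℝ] Hs) - (adjoint R) * R) v‖ ^ 2 ≤ ‖v‖ ^ 2 := by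
    have : ((1 : Hs →L[ℝ] Hs) - (adjoint R) * R) v =
        v - (adjoint R) (R v) := rfl
    rw [this, norm_sub_sq_real, h3]
    nlinarith [norm_nonneg (R v), norm_nonneg ((adjoint R) (R v))]
  exact le_of_sq_le_sq h4 (norm_nonneg _)

/-- partial sums of powers of `1 - R R*` -/
noncomputable def trG (R : Hs →L[ℝ] Hs) : ℕ → (Hs →L[ℝ] Hs)
  | 0 => 0
  | j + 1 => 1 + (1 - R * adjoint R) * trG R j

theorem trG_comm (R : Hs →L[ℝ] Hs) (j : ℕ) :
    (1 - R * adjoint R) * trG R j = trG R j * (1 - R * adjoint R) := by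
  induction j with
  | zero => simp [trG]
  | succ j ih =>
    simp only [trG]
    rw [mul_add, mul_one, add_mul, one_mul, mul_assoc, ih]

theorem trG_star (R : Hs →L[ℝ] Hs) (j : ℕ) : adjoint (trG R j) = trG R j := by
  rw [← ContinuousLinearMap.star_eq_adjoint]
  induction j with
  | zero => simp [trG]
  | succ j ih =>
    have := trG_comm R j
    simp only [trG, star_add, star_mul, star_one, star_sub, ih,
      ContinuousLinearMap.star_eq_adjoint, ContinuousLinearMap.adjoint_adjoint]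
    rw [this]

theorem trG_norm {R : Hs →L[ℝ] Hs} (hR1 : ‖R‖ ≤ 1) (j : ℕ) : ‖trG R j‖ ≤ j := by
  have hadj : ‖adjoint R‖ ≤ 1 := by
    rw [LinearIsometryEquiv.norm_map]; exact hR1
  have h1 : ‖(1 : Hs →L[ℝ] Hs) - R * adjoint R‖ ≤ 1 := by
    have := tr_K_norm hadj
    rwa [ContinuousLinearMap.adjoint_adjoint] at this
  induction j with
  | zero => simp [trG]
  | succ j ih =>
    simp only [trG]
    calc ‖1 + (1 - R * adjoint R) * trG R j‖ ≤ ‖(1 : Hs →L[ℝ] Hs)‖ +
          ‖(1 - R * adjoint R) * trG R j‖ := norm_add_le _ _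
      _ ≤ 1 + 1 * j := by
          refine add_le_add ContinuousLinearMap.norm_id_le ?_
          refine (norm_mul_le _ _).trans ?_
          exact mul_le_mul h1 ih (norm_nonneg _) zero_le_one
      _ = ((j + 1 : ℕ) : ℝ) := by push_cast; ring

theorem trG_D (R : Hs →L[ℝ] Hs) (j : ℕ) :
    adjoint R * trG R j * R = 1 - (1 - adjoint R * R) ^ j := by
  induction j with
  | zero => simp [trG]
  | succ j ih =>
    simp only [trG]
    have : adjoint R * (1 + (1 - R * adjoint R) * trG R j) * R =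
        adjoint R * R + (1 - adjoint R * R) * (adjoint R * trG R j * R) := by
      noncomm_ring
    rw [this, ih, pow_succ']
    noncomm_ring

theorem trG_D' (R : Hs →L[ℝ] Hs) (j : ℕ) :
    trG R j * R * adjoint R = 1 - (1 - R * adjoint R) ^ j := by
  induction j with
  | zero => simp [trG]
  | succ j ih =>
    simp only [trG]
    have : (1 + (1 - R * adjoint R) * trG R j) * R * adjoint R =
        R * adjoint R + (1 - R * adjoint R) * (trG R j * R * adjoint R) := by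
      noncomm_ring
    rw [this, ih, pow_succ']
    noncomm_ring

theorem trG_P' {R P' : Hs →L[ℝ] Hs} (h1 : P' * R = R) (h2 : adjoint R * P' = adjoint R) (j : ℕ) :
    P' * trG R j = trG R j * P' := by
  induction j with
  | zero => simp [trG]
  | succ j ih =>
    simp only [trG]
    rw [mul_add, mul_one, add_mul, one_mul, mul_assoc _ (trG R j) P', ← ih]
    congr 1
    have : P' * ((1 - R * adjoint R) * trG R j) = P' * trG R j - (P' * R) * adjoint R * trG R j := by
      noncomm_ring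
    have h3 : (1 - R * adjoint R) * (P' * trG R j) =
        P' * trG R j - R * (adjoint R * P') * trG R j := by
      noncomm_ring
    rw [this, h3, h1, h2]

theorem tr_pow_nonneg {K : Hs →L[ℝ] Hs} (hK : adjoint K = K) (h0 : ∀ w, 0 ≤ ⟪w, K w⟫_ℝ)
    (j : ℕ) (w : Hs) : 0 ≤ ⟪w, (K ^ j) w⟫_ℝ := by
  have hpow : ∀ i, adjoint (K ^ i) = K ^ i := by
    intro i
    rw [← ContinuousLinearMap.star_eq_adjoint, star_pow, ContinuousLinearMap.star_eq_adjoint, hK]
  rcases Nat.even_or_odd' j with ⟨k, rfl | rfl⟩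
  · have : ⟪w, (K ^ (2 * k)) w⟫_ℝ = ⟪(K ^ k) w, (K ^ k) w⟫_ℝ := by
      rw [two_mul, pow_add]
      show ⟪w, (K ^ k) ((K ^ k) w)⟫_ℝ = _
      rw [← ContinuousLinearMap.adjoint_inner_left, hpow]
    rw [this, real_inner_self_eq_norm_sq]; positivity
  · have : ⟪w, (K ^ (2 * k + 1)) w⟫_ℝ = ⟪(K ^ k) w, K ((K ^ k) w)⟫_ℝ := by
      rw [show 2 * k + 1 = k + (1 + k) by ring, pow_add, pow_add, pow_one]
      show ⟪w, (K ^ k) (K ((K ^ k) w))⟫_ℝ = _
      rw [← ContinuousLinearMap.adjoint_inner_left, hpow]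
    rw [this]; exact h0 _

theorem tr_K_star (R : Hs →L[ℝ] Hs) :
    adjoint (1 - adjoint R * R) = 1 - adjoint R * R := by
  rw [← ContinuousLinearMap.star_eq_adjoint, star_sub, star_one, star_mul,
    ContinuousLinearMap.star_eq_adjoint, ContinuousLinearMap.star_eq_adjoint,
    ContinuousLinearMap.adjoint_adjoint]

theorem tr_K_nonneg {R : Hs →L[ℝ] Hs} (hR1 : ‖R‖ ≤ 1) (w : Hs) :
    0 ≤ ⟪w, (1 - adjoint R * R) w⟫_ℝ := by
  have h1 : ‖R w‖ ≤ ‖w‖ := by simpa using R.le_of_opNorm_le hR1 w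
  have : (1 - adjoint R * R) w = w - (adjoint R) (R w) := rfl
  rw [this, inner_sub_right, ContinuousLinearMap.adjoint_inner_right, real_inner_self_eq_norm_sq,
    real_inner_self_eq_norm_sq]
  nlinarith [norm_nonneg (R w)]

/-- lower bound for the left side -/
theorem tr_D_nonneg {R : Hs →L[ℝ] Hs} (hR1 : ‖R‖ ≤ 1) (j : ℕ) (v : Hs) :
    0 ≤ ⟪v, (1 - (1 - adjoint R * R) ^ j) v⟫_ℝ := by
  have : (1 - (1 - adjoint R * R) ^ j) v = v - ((1 - adjoint R * R) ^ j) v := rfl
  rw [this, inner_sub_right, real_inner_self_eq_norm_sq]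
  have h1 : ‖((1 - adjoint R * R) ^ j : Hs →L[ℝ] Hs)‖ ≤ 1 := by
    clear this
    induction j with
    | zero => exact ContinuousLinearMap.norm_id_le
    | succ j ih =>
      rw [pow_succ]
      refine (norm_mul_le _ _).trans ?_
      exact mul_le_one₀ ih (norm_nonneg _) (tr_K_norm hR1)
  have h2 : ‖((1 - adjoint R * R) ^ j : Hs →L[ℝ] Hs) v‖ ≤ ‖v‖ := by
    simpa using ContinuousLinearMap.le_of_opNorm_le _ h1 v
  have h3 := real_inner_le_norm v (((1 - adjoint R * R) ^ j : Hs →L[ℝ] Hs) v)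
  nlinarith [norm_nonneg v]

theorem tr_D'_nonneg {R : Hs →L[ℝ] Hs} (hR1 : ‖R‖ ≤ 1) (j : ℕ) (v : Hs) :
    0 ≤ ⟪v, (1 - (1 - R * adjoint R) ^ j) v⟫_ℝ := by
  have hadj : ‖adjoint R‖ ≤ 1 := by
    rw [LinearIsometryEquiv.norm_map]; exact hR1
  have := tr_D_nonneg hadj j v
  rwa [ContinuousLinearMap.adjoint_adjoint] at this

/-- upper bound for the right side -/
theorem tr_D'_le {R P' : Hs →L[ℝ] Hs} (hR1 : ‖R‖ ≤ 1) (hP' : adjoint P' = P')
    (h1 : P' * R = R) (h2 : adjoint R * P' = adjoint R) (j : ℕ) (v : Hs) :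
    ⟪v, (1 - (1 - R * adjoint R) ^ j) v⟫_ℝ ≤ ‖P' v‖ ^ 2 := by
  have hadj : ‖adjoint R‖ ≤ 1 := by
    rw [LinearIsometryEquiv.norm_map]; exact hR1
  have hD : (1 - (1 - R * adjoint R) ^ j : Hs →L[ℝ] Hs) =
      P' * (1 - (1 - R * adjoint R) ^ j) * P' := by
    rw [← trG_D']
    have e1 : P' * (trG R j * R * adjoint R) * P' = (P' * trG R j) * R * (adjoint R * P') := by
      noncomm_ring
    rw [e1, trG_P' h1 h2, h2, mul_assoc (trG R j) P' R, h1]
  rw [hD]
  show ⟪v, P' ((1 - (1 - R * adjoint R) ^ j) (P' v))⟫_ℝ ≤ _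
  rw [← ContinuousLinearMap.adjoint_inner_left, hP']
  have : (1 - (1 - R * adjoint R) ^ j) (P' v) = P' v - ((1 - R * adjoint R) ^ j) (P' v) := rfl
  rw [this, inner_sub_right, real_inner_self_eq_norm_sq]
  have hs := tr_K_star (adjoint R)
  rw [ContinuousLinearMap.adjoint_adjoint] at hs
  have hn : ∀ w, 0 ≤ ⟪w, (1 - R * adjoint R) w⟫_ℝ := by
    intro w
    have := tr_K_nonneg hadj w
    rwa [ContinuousLinearMap.adjoint_adjoint] at this
  have := tr_pow_nonneg hs hn j (P' v)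
  linarith

/-- polarization -/
theorem tr_polar (G T : Hs →L[ℝ] Hs) (v : Hs) :
    ‖((1 + G) * T) v‖ ^ 2 = 4 * ⟪T v, G (T v)⟫_ℝ + ‖((1 - G) * T) v‖ ^ 2 := by
  have e1 : ((1 + G) * T) v = T v + G (T v) := rfl
  have e2 : ((1 - G) * T) v = T v - G (T v) := rfl
  rw [e1, e2, norm_add_sq_real, norm_sub_sq_real]
  ring

theorem tr_polar1 (R : Hs →L[ℝ] Hs) (j : ℕ) (v : Hs) :
    ‖((1 + trG R j) * R) v‖ ^ 2 =
      4 * ⟪v, (1 - (1 - adjoint R * R) ^ j) v⟫_ℝ + ‖((1 - trG R j) * R) v‖ ^ 2 := by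
  rw [tr_polar, ← trG_D]
  show _ = 4 * ⟪v, (adjoint R) (trG R j (R v))⟫_ℝ + _
  rw [ContinuousLinearMap.adjoint_inner_right]

theorem tr_polar2 (R : Hs →L[ℝ] Hs) (j : ℕ) (v : Hs) :
    ‖(adjoint ((1 + trG R j) * R)) v‖ ^ 2 =
      4 * ⟪v, (1 - (1 - R * adjoint R) ^ j) v⟫_ℝ + ‖(adjoint ((1 - trG R j) * R)) v‖ ^ 2 := by
  have hG := trG_star R j
  have e1 : adjoint ((1 + trG R j) * R) = adjoint R * (1 + trG R j) := by
    rw [← ContinuousLinearMap.star_eq_adjoint, star_mul, star_add, star_one,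
      ContinuousLinearMap.star_eq_adjoint, ContinuousLinearMap.star_eq_adjoint, hG]
  have e2 : adjoint ((1 - trG R j) * R) = adjoint R * (1 - trG R j) := by
    rw [← ContinuousLinearMap.star_eq_adjoint, star_mul, star_sub, star_one,
      ContinuousLinearMap.star_eq_adjoint, ContinuousLinearMap.star_eq_adjoint, hG]
  rw [e1, e2]
  have e3 : (adjoint R * (1 + trG R j)) v = adjoint R v + adjoint R (trG R j v) := by
    show adjoint R (v + trG R j v) = _
    rw [map_add]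
  have e4 : (adjoint R * (1 - trG R j)) v = adjoint R v - adjoint R (trG R j v) := by
    show adjoint R (v - trG R j v) = _
    rw [map_sub]
  rw [e3, e4, norm_add_sq_real, norm_sub_sq_real, ← trG_D']
  have e5 : ⟪adjoint R v, adjoint R (trG R j v)⟫_ℝ = ⟪v, (trG R j * R * adjoint R) v⟫_ℝ := by
    show _ = ⟪v, trG R j (R (adjoint R v))⟫_ℝ
    rw [← ContinuousLinearMap.adjoint_inner_left (trG R j), hG,
      ContinuousLinearMap.adjoint_inner_right, real_inner_comm]
  rw [e5]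
  ring

theorem tr_minus_le {R P' : Hs →L[ℝ] Hs} (hR1 : ‖R‖ ≤ 1)
    (h1 : P' * R = R) (h2 : adjoint R * P' = adjoint R) (j : ℕ) (v : Hs) :
    ‖(adjoint ((1 - trG R j) * R)) v‖ ≤ (1 + j) * ‖P' v‖ := by
  have hG := trG_star R j
  have hadj : ‖adjoint R‖ ≤ 1 := by
    rw [LinearIsometryEquiv.norm_map]; exact hR1
  have e2 : adjoint ((1 - trG R j) * R) = adjoint R * (1 - trG R j) := by
    rw [← ContinuousLinearMap.star_eq_adjoint, star_mul, star_sub, star_one,
      ContinuousLinearMap.star_eq_adjoint, ContinuousLinearMap.star_eq_adjoint, hG]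
  have e3 : adjoint R * (1 - trG R j) = adjoint R * (1 - trG R j) * P' := by
    have : adjoint R * (1 - trG R j) * P' = adjoint R * P' - adjoint R * (trG R j * P') := by
      noncomm_ring
    rw [this, ← trG_P' h1 h2, h2]
    have : adjoint R * (P' * trG R j) = (adjoint R * P') * trG R j := by noncomm_ring
    rw [this, h2]
    noncomm_ring
  rw [e2, e3]
  show ‖(adjoint R) ((1 - trG R j) (P' v))‖ ≤ _
  have n1 : ‖(adjoint R) ((1 - trG R j) (P' v))‖ ≤ ‖(1 - trG R j) (P' v)‖ := by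
    simpa using (adjoint R).le_of_opNorm_le hadj ((1 - trG R j) (P' v))
  have n2 : ‖(1 - trG R j : Hs →L[ℝ] Hs)‖ ≤ 1 + j := by
    refine (norm_sub_le _ _).trans ?_
    exact add_le_add ContinuousLinearMap.norm_id_le (trG_norm hR1 j)
  exact n1.trans (ContinuousLinearMap.le_of_opNorm_le _ n2 (P' v))

end Alg


section Meas

open ContinuousLinearMap (adjoint)

variable {Ω : Type*} [MeasurableSpace Ω] [PermAct Ω]

/-- integrated trace of a nonnegative operator -/
noncomputable def trI (m : Measure (Ω × ℕ)) (T : Ω → Hs →L[ℝ] Hs) : ℝ≥0∞ :=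
  ∫⁻ p, ∑' y, ENNReal.ofReal ⟪dl (p.2, y), T p.1 (dl (p.2, y))⟫_ℝ ∂m

omit [PermAct Ω] in
theorem trI_meas {T : Ω → Hs →L[ℝ] Hs} (mT : MeasOp T) :
    Measurable fun p : Ω × ℕ => ∑' y, ENNReal.ofReal ⟪dl (p.2, y), T p.1 (dl (p.2, y))⟫_ℝ := by
  refine measurable_from_prod_countable_left fun x => ?_
  refine Measurable.tsum fun y => ?_
  have : (fun ω => ENNReal.ofReal ⟪dl (x, y), T ω (dl (x, y))⟫_ℝ) =
      fun ω => ENNReal.ofReal (T ω (dl (x, y)) (x, y)) := by
    funext ω; rw [tr_inner_dl]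
  exact this ▸ ENNReal.measurable_ofReal.comp (mT (x, y) (x, y))

omit [PermAct Ω] in
theorem trG_measOp {R : Ω → Hs →L[ℝ] Hs} (mR : MeasOp R) (j : ℕ) :
    MeasOp fun ω => trG (R ω) j := by
  have mK : MeasOp fun ω => (1 : Hs →L[ℝ] Hs) - (R ω).comp (adjoint (R ω)) :=
    MeasOp.one.sub (mR.comp mR.adjoint)
  induction j with
  | zero =>
    have := (mR.sub mR)
    have h : (fun ω => R ω - R ω) = fun ω => trG (R ω) 0 := by
      funext ω; simp [trG]
    rwa [h] at this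
  | succ j ih => exact MeasOp.one.add (mK.comp ih)

omit [MeasurableSpace Ω] in
theorem trG_equivOp {R : Ω → Hs →L[ℝ] Hs} (eR : EquivOp R) (j : ℕ) :
    EquivOp fun ω => trG (R ω) j := by
  have mK : EquivOp fun ω => (1 : Hs →L[ℝ] Hs) - (R ω).comp (adjoint (R ω)) :=
    EquivOp.one.sub (eR.comp eR.adjoint)
  induction j with
  | zero =>
    have := (eR.sub eR)
    have h : (fun ω => R ω - R ω) = fun ω => trG (R ω) 0 := by
      funext ω; simp [trG]
    rwa [h] at this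
  | succ j ih => exact EquivOp.one.add (mK.comp ih)

theorem tr_step {m : Measure (Ω × ℕ)} (hm : MTP m)
    {P' R : Ω → Hs →L[ℝ] Hs} (mR : MeasOp R) (eR : EquivOp R)
    (hP' : ∀ ω, IsStarProjection (P' ω))
    (hR1 : ∀ ω, ‖R ω‖ ≤ 1)
    (hPR : ∀ ω, (P' ω).comp (R ω) = R ω)
    (hfin : trH m P' ≠ ∞) (j : ℕ) :
    trI m (fun ω => 1 - (1 - adjoint (R ω) * R ω) ^ j) ≤ trH m P' := by
  have hsa : ∀ ω, adjoint (P' ω) = P' ω := fun ω => by
    have := (hP' ω).isSelfAdjoint.star_eq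
    rwa [ContinuousLinearMap.star_eq_adjoint] at this
  have h1 : ∀ ω, P' ω * R ω = R ω := hPR
  have h2 : ∀ ω, adjoint (R ω) * P' ω = adjoint (R ω) := by
    intro ω
    have := congrArg star (h1 ω)
    rw [star_mul] at this
    rw [ContinuousLinearMap.star_eq_adjoint, ContinuousLinearMap.star_eq_adjoint, hsa] at this
    exact this
  have mG := trG_measOp mR j
  have eG := trG_equivOp eR j
  -- the four operators
  have mTp : MeasOp fun ω => (1 + trG (R ω) j) * R ω := (MeasOp.one.add mG).comp mR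
  have eTp : EquivOp fun ω => (1 + trG (R ω) j) * R ω := (EquivOp.one.add eG).comp eR
  have mTm : MeasOp fun ω => (1 - trG (R ω) j) * R ω := (MeasOp.one.sub mG).comp mR
  have eTm : EquivOp fun ω => (1 - trG (R ω) j) * R ω := (EquivOp.one.sub eG).comp eR
  have kp := trH_adjoint hm mTp eTp
  have km := trH_adjoint hm mTm eTm
  have mD : MeasOp fun ω => 1 - (1 - adjoint (R ω) * R ω) ^ j :=
    MeasOp.one.sub ((MeasOp.one.sub (mR.adjoint.comp mR)).pow j)
  have mD' : MeasOp fun ω => 1 - (1 - R ω * adjoint (R ω)) ^ j :=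
    MeasOp.one.sub ((MeasOp.one.sub (mR.comp mR.adjoint)).pow j)
  have split1 : trH m (fun ω => (1 + trG (R ω) j) * R ω) =
      4 * trI m (fun ω => 1 - (1 - adjoint (R ω) * R ω) ^ j) +
        trH m (fun ω => (1 - trG (R ω) j) * R ω) := by
    unfold trH trI
    rw [← lintegral_const_mul' _ _ (by norm_num), ← lintegral_add_left]
    · refine lintegral_congr fun p => ?_
      rw [← ENNReal.tsum_mul_left, ← ENNReal.tsum_add]
      refine tsum_congr fun y => ?_
      rw [tr_polar1, ENNReal.ofReal_add, ENNReal.ofReal_mul (by norm_num)]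
      · norm_num
      · exact mul_nonneg (by norm_num) (tr_D_nonneg (hR1 _) _ _)
      · positivity
    · exact (trI_meas mD).const_mul 4
  have split2 : trH m (fun ω => adjoint ((1 + trG (R ω) j) * R ω)) =
      4 * trI m (fun ω => 1 - (1 - R ω * adjoint (R ω)) ^ j) +
        trH m (fun ω => adjoint ((1 - trG (R ω) j) * R ω)) := by
    unfold trH trI
    rw [← lintegral_const_mul' _ _ (by norm_num), ← lintegral_add_left]
    · refine lintegral_congr fun p => ?_
      rw [← ENNReal.tsum_mul_left, ← ENNReal.tsum_add]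
      refine tsum_congr fun y => ?_
      rw [tr_polar2, ENNReal.ofReal_add, ENNReal.ofReal_mul (by norm_num)]
      · norm_num
      · exact mul_nonneg (by norm_num) (tr_D'_nonneg (hR1 _) _ _)
      · positivity
    · exact (trI_meas mD').const_mul 4
  have fin : trH m (fun ω => adjoint ((1 - trG (R ω) j) * R ω)) ≠ ∞ := by
    have hle : trH m (fun ω => adjoint ((1 - trG (R ω) j) * R ω)) ≤
        ENNReal.ofReal ((1 + j) ^ 2) * trH m P' := by
      unfold trH
      rw [← lintegral_const_mul' _ _ ENNReal.ofReal_ne_top]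
      refine lintegral_mono fun p => ?_
      simp only
      rw [← ENNReal.tsum_mul_left]
      refine ENNReal.tsum_le_tsum fun y => ?_
      rw [← ENNReal.ofReal_mul (by positivity), ← mul_pow]
      refine ENNReal.ofReal_le_ofReal ?_
      exact pow_le_pow_left₀ (norm_nonneg _) (tr_minus_le (hR1 _) (h1 _) (h2 _) j _) 2
    exact ne_top_of_le_ne_top (ENNReal.mul_ne_top ENNReal.ofReal_ne_top hfin) hle
  rw [split1, split2, km] at kp
  have k4 := (ENNReal.add_left_inj fin).1 kp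
  have k5 := (ENNReal.mul_right_inj (by norm_num) (by norm_num)).1 k4
  rw [k5]
  unfold trI trH
  refine lintegral_mono fun p => ?_
  simp only
  refine ENNReal.tsum_le_tsum fun y => ?_
  exact ENNReal.ofReal_le_ofReal (tr_D'_le (hR1 _) (hsa _) (h1 _) (h2 _) j _)

theorem tr_fix {P R : Hs →L[ℝ] Hs} (hP : IsStarProjection P)
    (hR1 : ‖R‖ ≤ 1) (hRP : R.comp P = R) (hinj : ∀ ξ, P ξ = ξ → R ξ = 0 → ξ = 0) (v : Hs) :
    Tendsto (fun N : ℕ => (N : ℝ)⁻¹ * ∑ j ∈ Finset.range N,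
      ⟪v, (1 - (1 - adjoint R * R) ^ j) v⟫_ℝ) atTop (𝓝 (‖P v‖ ^ 2)) := by
  set K : Hs →L[ℝ] Hs := 1 - adjoint R * R with hKdef
  have hsa : adjoint P = P := by
    have := hP.isSelfAdjoint.star_eq
    rwa [ContinuousLinearMap.star_eq_adjoint] at this
  have hPP : ∀ w, P (P w) = P w := by
    intro w
    have := hP.isIdempotentElem.eq
    exact congrArg (fun T : Hs →L[ℝ] Hs => T w) this
  have hRP' : ∀ w, R (P w) = R w := fun w => congrArg (fun T : Hs →L[ℝ] Hs => T w) hRP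
  have erg := ContinuousLinearMap.tendsto_birkhoffAverage_orthogonalProjection K
    (tr_K_norm hR1) v
  have hfixK : ∀ w, w ∈ K.eqLocus (1 : Hs →L[ℝ] Hs) ↔ P w = 0 := by
    intro w
    have hK : K w = w - adjoint R (R w) := rfl
    have e0 : w ∈ K.eqLocus (1 : Hs →L[ℝ] Hs) ↔ adjoint R (R w) = 0 := by
      rw [LinearMap.mem_eqLocus]
      constructor
      · intro h
        have h' : K w = w := h
        rw [hK] at h'
        simpa using h'
      · intro h
        show K w = w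
        rw [hK, h, sub_zero]
    rw [e0]
    constructor
    · intro h
      have h3 : R w = 0 := by
        have : ⟪w, adjoint R (R w)⟫_ℝ = 0 := by rw [h, inner_zero_right]
        rw [ContinuousLinearMap.adjoint_inner_right] at this
        exact inner_self_eq_zero.1 this
      exact hinj _ (hPP w) (by rw [hRP' w, h3])
    · intro h
      rw [← hRP' w, h, map_zero, map_zero]
  have hlim : ((K.eqLocus (1 : Hs →L[ℝ] Hs)).orthogonalProjectionOnto v : Hs) = v - P v := by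
    rw [← Submodule.starProjection_apply]
    refine Submodule.eq_starProjection_of_mem_of_inner_eq_zero ?_ fun w hw => ?_
    · rw [hfixK, map_sub, hPP, sub_self]
    · rw [hfixK] at hw
      rw [sub_sub_cancel, ← ContinuousLinearMap.adjoint_inner_right, hsa, hw, inner_zero_right]
  rw [hlim] at erg
  have h5 := (tendsto_const_nhds (x := ‖v‖ ^ 2)).sub
    ((tendsto_const_nhds (x := v)).inner (𝕜 := ℝ) erg)
  have h6 : ‖v‖ ^ 2 - ⟪v, v - P v⟫_ℝ = ‖P v‖ ^ 2 := by
    rw [inner_sub_right, real_inner_self_eq_norm_sq]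
    have : ⟪v, P v⟫_ℝ = ‖P v‖ ^ 2 := by
      rw [← hPP v, ← ContinuousLinearMap.adjoint_inner_left, hsa, hPP,
        real_inner_self_eq_norm_sq]
    rw [this]; ring
  rw [h6] at h5
  refine h5.congr' ?_
  filter_upwards [eventually_gt_atTop 0] with N hN
  have hN' : (N : ℝ) ≠ 0 := by positivity
  rw [birkhoffAverage, birkhoffSum, inner_smul_right, inner_sum]
  have : ∀ j, ⟪v, (1 - K ^ j) v⟫_ℝ = ‖v‖ ^ 2 - ⟪v, id ((⇑K)^[j] v)⟫_ℝ := by
    intro j
    have e : (1 - K ^ j) v = v - (K ^ j) v := rfl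
    rw [e, inner_sub_right, real_inner_self_eq_norm_sq]
    have e2 : (K ^ j) v = (⇑K)^[j] v := by
      rw [FunLike.coe_pow_eq_iterate]
    rw [e2, id]
  simp_rw [this]
  rw [Finset.sum_sub_distrib, Finset.sum_const, Finset.card_range, nsmul_eq_mul]
  field_simp

theorem trace_le {Ω : Type*} [MeasurableSpace Ω] [PermAct Ω] {m : Measure (Ω × ℕ)} (hm : MTP m)
    {P P' R : Ω → Hs →L[ℝ] Hs} (mP : MeasOp P) (mP' : MeasOp P') (mR : MeasOp R)
    (eR : EquivOp R)
    (hP : ∀ ω, IsStarProjection (P ω)) (hP' : ∀ ω, IsStarProjection (P' ω))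
    (hR1 : ∀ ω, ‖R ω‖ ≤ 1) (hRP : ∀ ω, (R ω).comp (P ω) = R ω)
    (hPR : ∀ ω, (P' ω).comp (R ω) = R ω)
    (hinj : ∀ᵐ p ∂m, ∀ ξ, P p.1 ξ = ξ → R p.1 ξ = 0 → ξ = 0)
    (hfin : ∫⁻ p, ∑' y, ENNReal.ofReal (‖P' p.1 (dl (p.2, y))‖ ^ 2) ∂m ≠ ∞) :
    ∫⁻ p, ∑' y, ENNReal.ofReal (‖P p.1 (dl (p.2, y))‖ ^ 2) ∂m ≤
      ∫⁻ p, ∑' y, ENNReal.ofReal (‖P' p.1 (dl (p.2, y))‖ ^ 2) ∂m := by
  have step := tr_step hm mR eR hP' hR1 hPR hfin
  have mD : ∀ j, MeasOp fun ω => 1 - (1 - adjoint (R ω) * R ω) ^ j := fun j =>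
    MeasOp.one.sub ((MeasOp.one.sub (mR.adjoint.comp mR)).pow j)
  let D : ℕ → Ω → Hs →L[ℝ] Hs := fun j ω => 1 - (1 - adjoint (R ω) * R ω) ^ j
  let a : ℕ → Ω × ℕ → ℕ → ℝ≥0∞ := fun N p y =>
    ENNReal.ofReal ((N : ℝ)⁻¹ * ∑ j ∈ Finset.range N, ⟪dl (p.2, y), D j p.1 (dl (p.2, y))⟫_ℝ)
  have ha : ∀ N p y, a N p y = ENNReal.ofReal ((N : ℝ)⁻¹) *
      ∑ j ∈ Finset.range N, ENNReal.ofReal ⟪dl (p.2, y), D j p.1 (dl (p.2, y))⟫_ℝ := by
    intro N p y
    rw [← ENNReal.ofReal_sum_of_nonneg, ← ENNReal.ofReal_mul (by positivity)]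
    intro j _
    exact tr_D_nonneg (hR1 _) _ _
  have ha' : ∀ N p, ∑' y, a N p y = ENNReal.ofReal ((N : ℝ)⁻¹) *
      ∑ j ∈ Finset.range N, ∑' y, ENNReal.ofReal ⟪dl (p.2, y), D j p.1 (dl (p.2, y))⟫_ℝ := by
    intro N p
    simp_rw [ha]
    rw [ENNReal.tsum_mul_left]
    congr 1
    exact Summable.tsum_finsetSum fun _ _ => ENNReal.summable
  have hmeas : ∀ N, Measurable fun p => ∑' y, a N p y := by
    intro N
    simp_rw [ha']
    exact (Finset.measurable_sum _ fun j _ => trI_meas (mD j)).const_mul _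
  have hint : ∀ N, ∫⁻ p, ∑' y, a N p y ∂m ≤ trH m P' := by
    intro N
    rcases Nat.eq_zero_or_pos N with rfl | hN
    · simp [ha']
    simp_rw [ha']
    rw [lintegral_const_mul' _ _ ENNReal.ofReal_ne_top,
      lintegral_finsetSum _ fun j _ => trI_meas (mD j)]
    calc ENNReal.ofReal ((N : ℝ)⁻¹) * ∑ j ∈ Finset.range N, trI m (D j)
        ≤ ENNReal.ofReal ((N : ℝ)⁻¹) * ∑ j ∈ Finset.range N, trH m P' := by
          gcongr with j hj; exact step j
      _ = trH m P' := by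
          rw [Finset.sum_const, Finset.card_range, nsmul_eq_mul, ← mul_assoc,
            ENNReal.ofReal_inv_of_pos (by positivity), ENNReal.ofReal_natCast,
            ENNReal.inv_mul_cancel (by positivity) (by simp), one_mul]
  calc ∫⁻ p, ∑' y, ENNReal.ofReal (‖P p.1 (dl (p.2, y))‖ ^ 2) ∂m
      ≤ ∫⁻ p, liminf (fun N => ∑' y, a N p y) atTop ∂m := by
        refine lintegral_mono_ae ?_
        filter_upwards [hinj] with p hp
        have hl : ∀ y, ENNReal.ofReal (‖P p.1 (dl (p.2, y))‖ ^ 2) =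
            liminf (fun N => a N p y) atTop := by
          intro y
          have := tr_fix (hP p.1) (hR1 p.1) (hRP p.1) hp (dl (p.2, y))
          exact (((ENNReal.continuous_ofReal.tendsto _).comp this).liminf_eq).symm
        simp_rw [hl]
        rw [← lintegral_count]
        simp_rw [← lintegral_count (fun y => a _ p y)]
        exact lintegral_liminf_le fun N => measurable_of_countable _
    _ ≤ liminf (fun N => ∫⁻ p, ∑' y, a N p y ∂m) atTop := lintegral_liminf_le hmeas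
    _ ≤ trH m P' := by
        refine (liminf_le_of_frequently_le' ?_)
        exact Frequently.of_forall hint

end Meas

end Vale.Agent.H15.F
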