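import Vale.Agent.H15.F.Proj
import Vale.Agent.H15.F.Trace

open MeasureTheory Filter Topology
open scoped ENNReal

namespace Vale.Agent.H15.F

attribute [local irreducible] xval

/-! ### projections -/

theorem lip_prj_mem (N : Submodule ℝ Hs) (x : Hs) : prj N x ∈ N.topologicalClosure :=
  Submodule.starProjection_apply_mem _ _

theorem lip_prj_eq_self {N : Submodule ℝ Hs} {x : Hs} :
    prj N x = x ↔ x ∈ N.topologicalClosure := Submodule.starProjection_eq_self_iff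

theorem lip_prj_inner (N : Submodule ℝ Hs) (x y : Hs) :
    inner ℝ (prj N x) y = inner ℝ x (prj N y) :=
  Submodule.inner_starProjection_left_eq_right _ x y

theorem lip_prj_star (N : Submodule ℝ Hs) : IsStarProjection (prj N) :=
  isStarProjection_starProjection

theorem lip_prj_norm (N : Submodule ℝ Hs) : ‖prj N‖ ≤ 1 := Submodule.starProjection_norm_le _

theorem lip_prj_idem (N : Submodule ℝ Hs) (x : Hs) : prj N (prj N x) = prj N x :=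
  lip_prj_eq_self.mpr (lip_prj_mem N x)

theorem lip_prj_comp {N N' : Submodule ℝ Hs} (h : N' ≤ N) (x : Hs) :
    prj N' (prj N x) = prj N' x := by
  have h' : N'.topologicalClosure ≤ N.topologicalClosure := Submodule.topologicalClosure_mono h
  have := Submodule.starProjection_comp_starProjection_of_le h'
  exact congrArg (fun T : Hs →L[ℝ] Hs => T x) this

theorem lip_prj_comp' {N N' : Submodule ℝ Hs} (h : N' ≤ N) (x : Hs) :
    prj N (prj N' x) = prj N' x :=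
  lip_prj_eq_self.mpr (Submodule.topologicalClosure_mono h (lip_prj_mem N' x))

theorem lip_diff_star {N N' : Submodule ℝ Hs} (h : N' ≤ N) :
    IsStarProjection (prj N - prj N') := by
  refine ⟨?_, (lip_prj_star N).isSelfAdjoint.sub (lip_prj_star N').isSelfAdjoint⟩
  refine ContinuousLinearMap.ext fun x => ?_
  show prj N (prj N x - prj N' x) - prj N' (prj N x - prj N' x) = prj N x - prj N' x
  rw [map_sub, map_sub, lip_prj_idem, lip_prj_idem, lip_prj_comp h, lip_prj_comp' h, sub_self,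
    sub_zero]

theorem lip_diff_normsq {N N' : Submodule ℝ Hs} (h : N' ≤ N) (x : Hs) :
    ‖(prj N - prj N') x‖ ^ 2 = ‖prj N x‖ ^ 2 - ‖prj N' x‖ ^ 2 := by
  have e1 : ∀ M : Submodule ℝ Hs, ‖prj M x‖ ^ 2 = inner ℝ (prj M x) x := by
    intro M
    rw [← real_inner_self_eq_norm_sq, lip_prj_inner, lip_prj_idem, ← lip_prj_inner]
  have h2 : ‖(prj N - prj N') x‖ ^ 2 = inner ℝ ((prj N - prj N') x) x := by
    rw [← real_inner_self_eq_norm_sq]
    show inner ℝ (prj N x - prj N' x) (prj N x - prj N' x) = inner ℝ (prj N x - prj N' x) x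
    rw [inner_sub_left, inner_sub_left, inner_sub_right, inner_sub_right, lip_prj_inner N x,
      lip_prj_inner N x, lip_prj_inner N' x, lip_prj_inner N' x, lip_prj_idem, lip_prj_idem,
      lip_prj_comp h, lip_prj_comp' h, lip_prj_inner N x x, lip_prj_inner N' x x]
    ring
  rw [h2, e1, e1]
  show inner ℝ (prj N x - prj N' x) x = _
  rw [inner_sub_left]

/-- a vector in the closure of `N` and orthogonal to `N` vanishes -/
theorem lip_eq_zero {N : Submodule ℝ Hs} {x : Hs} (hx : x ∈ N.topologicalClosure)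
    (h : ∀ y ∈ N, inner ℝ y x = (0 : ℝ)) : x = 0 := by
  have hcl : ∀ y ∈ N.topologicalClosure, inner ℝ y x = (0 : ℝ) := by
    intro y hy
    have hc : IsClosed {y : Hs | inner ℝ y x = (0 : ℝ)} :=
      isClosed_eq (by fun_prop) continuous_const
    exact closure_minimal (fun z hz => h z hz) hc hy
  exact inner_self_eq_zero.mp (hcl x hx)

theorem lip_clo_Hsp (s A : Set (Sym2 ℕ)) : (Hsp s A).topologicalClosure = Hsp s A :=
  (isClosed_Hsp s A).submodule_topologicalClosure_eq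

theorem lip_clo_Csp (S : Set (Sym2 ℕ)) : (Csp S).topologicalClosure = Csp S :=
  (isClosed_Csp S).submodule_topologicalClosure_eq

theorem lip_Hsp_mono {s A A' : Set (Sym2 ℕ)} (h : A ⊆ A') : Hsp s A' ≤ Hsp s A := by
  rintro k ⟨h1, h2⟩
  exact ⟨h1, fun x y hxy => h2 x y (hxy.imp id fun hA => h hA)⟩

theorem lip_Xsp_mono {s A A' : Set (Sym2 ℕ)} (S : Set (Sym2 ℕ)) (h : A ⊆ A') :
    Xsp s A' S ≤ Xsp s A S := Submodule.map_mono (lip_Hsp_mono h)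

theorem lip_anti {s A : Set (Sym2 ℕ)} {h : Hs} (hh : h ∈ Hsp s A) (x y : ℕ) :
    h (x, y) = - h (y, x) := by
  by_cases hs : s(x, y) ∈ s
  · obtain ⟨u, hu⟩ := hh.1 {x, y}
    rw [hu x (by simp) y (by simp) hs, hu y (by simp) x (by simp) (by rwa [Sym2.eq_swap])]
    ring
  · rw [hh.2 x y (Or.inl hs), hh.2 y x (Or.inl (by rwa [Sym2.eq_swap])), neg_zero]

theorem lip_Xsp_le_Csp (s A S : Set (Sym2 ℕ)) : (Xsp s A S).topologicalClosure ≤ Csp Sᶜ := by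
  rw [← lip_clo_Csp Sᶜ]
  refine Submodule.topologicalClosure_mono ?_
  rintro _ ⟨h, _, rfl⟩
  have := lip_prj_mem (Csp Sᶜ) h
  rwa [lip_clo_Csp] at this

theorem lip_T3_inj {s A A' S : Set (Sym2 ℕ)} (hAA : A ⊆ A') (ξ : Hs)
    (h1 : (prj (Xsp s A S) - prj (Xsp s A' S)) ξ = ξ)
    (h2 : prj (Asp (A' \ A)) (prj (Hsp s A) ξ) = 0) : ξ = 0 := by
  have hmono := lip_Xsp_mono (s := s) S hAA
  have h3 : prj (Xsp s A' S) ξ = 0 := by
    rw [← h1]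
    show prj (Xsp s A' S) (prj (Xsp s A S) ξ - prj (Xsp s A' S) ξ) = 0
    rw [map_sub, lip_prj_comp hmono, lip_prj_idem, sub_self]
  have h4 : prj (Xsp s A S) ξ = ξ := by
    have : prj (Xsp s A S) ξ - prj (Xsp s A' S) ξ = ξ := h1
    rwa [h3, sub_zero] at this
  have h5 : ξ ∈ (Xsp s A S).topologicalClosure := lip_prj_eq_self.mp h4
  have h6 : prj (Csp Sᶜ) ξ = ξ :=
    lip_prj_eq_self.mpr (by rw [lip_clo_Csp]; exact lip_Xsp_le_Csp _ _ _ h5)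
  have hη : prj (Hsp s A) ξ ∈ Hsp s A := by
    have := lip_prj_mem (Hsp s A) ξ
    rwa [lip_clo_Hsp] at this
  have hη' : prj (Hsp s A) ξ ∈ Hsp s A' := by
    refine ⟨hη.1, fun x y hxy => ?_⟩
    rcases hxy with hxy | hxy
    · exact hη.2 x y (Or.inl hxy)
    · by_cases hA : s(x, y) ∈ A
      · exact hη.2 x y (Or.inr hA)
      · have h7 := prj_Asp_apply (A' \ A) (prj (Hsp s A) ξ) x y
        rw [h2, if_pos ⟨hxy, hA⟩] at h7
        have h8 := lip_anti hη x y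
        have h9 : (0 : Hs) (x, y) = 0 := rfl
        rw [h9] at h7
        linarith
  obtain ⟨η, hηdef⟩ : ∃ η, η = prj (Hsp s A) ξ := ⟨_, rfl⟩
  rw [← hηdef] at hη hη'
  have h10 : inner ℝ η ξ = (0 : ℝ) := by
    have hz : prj (Csp Sᶜ) η ∈ (Xsp s A' S).topologicalClosure :=
      Submodule.le_topologicalClosure _ ⟨η, hη', rfl⟩
    have hz2 : prj (Xsp s A' S) (prj (Csp Sᶜ) η) = prj (Csp Sᶜ) η := lip_prj_eq_self.mpr hz
    have e1 : inner ℝ η ξ = inner ℝ (prj (Csp Sᶜ) η) ξ := by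
      rw [lip_prj_inner, h6]
    rw [e1, ← hz2, lip_prj_inner, h3, inner_zero_right]
  have h11 : η = 0 := by
    have hself : prj (Hsp s A) η = η := by rw [hηdef, lip_prj_idem]
    have : inner ℝ η η = (0 : ℝ) := by
      nth_rw 1 [← hself]
      rw [lip_prj_inner, hself]
      nth_rw 2 [hηdef]
      rw [← lip_prj_inner, hself, h10]
    exact inner_self_eq_zero.mp this
  refine lip_eq_zero h5 ?_
  rintro _ ⟨h, hh, rfl⟩
  have hh' : prj (Hsp s A) h = h :=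
    lip_prj_eq_self.mpr (Submodule.le_topologicalClosure _ hh)
  show inner ℝ (prj (Csp Sᶜ) h) ξ = (0 : ℝ)
  rw [lip_prj_inner, h6, ← hh', lip_prj_inner, ← hηdef, h11, inner_zero_right]

/-! ### fields over a configuration space -/

theorem MeasOp.lip_comp {Ω Ω' : Type*} [MeasurableSpace Ω] [MeasurableSpace Ω']
    {T : Ω' → Hs →L[ℝ] Hs} (hT : MeasOp T) {φ : Ω → Ω'} (hφ : Measurable φ) :
    MeasOp fun ω => T (φ ω) := fun d d' => (hT d d').comp hφ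

theorem EquivOp.lip_comp {Ω Ω' : Type*} [PermAct Ω] [PermAct Ω']
    {T : Ω' → Hs →L[ℝ] Hs} (hT : EquivOp T) {φ : Ω → Ω'}
    (hφ : ∀ (σ : Equiv.Perm ℕ) (ω : Ω), φ (act σ ω) = act σ (φ ω)) :
    EquivOp fun ω => T (φ ω) := by
  intro σ ω d d'
  show T (φ (act σ ω)) _ _ = _
  rw [hφ]
  exact hT σ (φ ω) d d'

theorem lip_Asp_norm (S : Set (Sym2 ℕ)) (x y : ℕ) :
    2 * ‖prj (Asp S) (dl (x, y))‖ ^ 2 ≤ S.indicator 1 s(x, y) := by
  have e1 : ‖prj (Asp S) (dl (x, y))‖ ^ 2 = (prj (Asp S) (dl (x, y))) (x, y) := by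
    rw [← real_inner_self_eq_norm_sq, lip_prj_inner, lip_prj_idem, ← lip_prj_inner]
    rw [show inner ℝ (prj (Asp S) (dl (x, y))) (dl (x, y)) = (prj (Asp S) (dl (x, y))) (x, y) from ?_]
    have := lp.inner_single_right (𝕜 := ℝ) (G := fun _ : ℕ × ℕ => ℝ) (x, y) (1 : ℝ)
      (prj (Asp S) (dl (x, y)))
    unfold dl
    rw [lp.inner_single_right]
    simp
  rw [e1, prj_Asp_apply]
  by_cases h : s(x, y) ∈ S
  · rw [if_pos h, Set.indicator_of_mem h, Pi.one_apply]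
    have h1 : (dl (x, y)) (x, y) = (1 : ℝ) := by simp [dl]
    have h2 : (0 : ℝ) ≤ (dl (x, y)) (y, x) := by
      by_cases hxy : (y, x) = (x, y)
      · rw [hxy, h1]; exact zero_le_one
      · have : (dl (x, y)) (y, x) = (0 : ℝ) := by
          unfold dl
          rw [lp.single_apply_ne _ _ _ hxy]
        rw [this]
    rw [h1]
    linarith
  · rw [if_neg h, Set.indicator_of_notMem h]
    simp

theorem lip_two (c : ℝ) : 2 * ENNReal.ofReal c = ENNReal.ofReal (2 * c) := by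
  rw [ENNReal.ofReal_mul (by norm_num)]
  simp

theorem lip_P' (S : Set (Sym2 ℕ)) (x y : ℕ) :
    2 * ENNReal.ofReal (‖prj (Asp S) (dl (x, y))‖ ^ 2) ≤
      S.indicator (1 : Sym2 ℕ → ℝ≥0∞) s(x, y) := by
  have h1 := lip_Asp_norm S x y
  rw [lip_two]
  refine (ENNReal.ofReal_le_ofReal h1).trans ?_
  by_cases h : s(x, y) ∈ S
  · rw [Set.indicator_of_mem h, Set.indicator_of_mem h]; simp
  · rw [Set.indicator_of_notMem h, Set.indicator_of_notMem h]; simp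

theorem lip_xdiff {s A A' S : Set (Sym2 ℕ)} (h : A ⊆ A') (x y : ℕ) :
    ENNReal.ofReal (xval s A S s(x, y) - xval s A' S s(x, y)) =
      2 * ENNReal.ofReal (‖(prj (Xsp s A S) - prj (Xsp s A' S)) (dl (x, y))‖ ^ 2) := by
  rw [lip_two, lip_diff_normsq (lip_Xsp_mono _ h), xval_eq, xval_eq]
  congr 1
  ring

/-- abstract version of the composition used below -/
theorem lip_trace_comp {Ω : Type*} [MeasurableSpace Ω] [PermAct Ω] {m : Measure (Ω × ℕ)}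
    (hm : MTP m) {P C H : Ω → Hs →L[ℝ] Hs} (mP : MeasOp P) (eP : EquivOp P) (mC : MeasOp C)
    (eC : EquivOp C) (mH : MeasOp H) (eH : EquivOp H) (hP : ∀ ω, IsStarProjection (P ω))
    (hC : ∀ ω, IsStarProjection (C ω)) (hH : ∀ ω, ‖H ω‖ ≤ 1)
    (hinj : ∀ᵐ p ∂m, ∀ ξ, P p.1 ξ = ξ → C p.1 (H p.1 ξ) = 0 → ξ = 0)
    (hfin : ∫⁻ p, ∑' y, ENNReal.ofReal (‖C p.1 (dl (p.2, y))‖ ^ 2) ∂m ≠ ∞) :
    ∫⁻ p, ∑' y, ENNReal.ofReal (‖P p.1 (dl (p.2, y))‖ ^ 2) ∂m ≤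
      ∫⁻ p, ∑' y, ENNReal.ofReal (‖C p.1 (dl (p.2, y))‖ ^ 2) ∂m := by
  have key := trace_le hm (P := P) (P' := C) (R := fun ω => (C ω).comp ((H ω).comp (P ω)))
    mP mC (mC.comp (mH.comp mP)) (eC.comp (eH.comp eP)) hP hC
    (fun ω => by
      refine (ContinuousLinearMap.opNorm_comp_le _ _).trans ?_
      refine mul_le_one₀ (hC ω).norm_le (norm_nonneg _) ?_
      refine (ContinuousLinearMap.opNorm_comp_le _ _).trans ?_
      exact mul_le_one₀ (hH ω) (norm_nonneg _) (hP ω).norm_le)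
    (fun ω => by
      refine ContinuousLinearMap.ext fun x => ?_
      have : P ω (P ω x) = P ω x :=
        congrArg (fun T : Hs →L[ℝ] Hs => T x) (hP ω).isIdempotentElem
      show C ω (H ω (P ω (P ω x))) = C ω (H ω (P ω x))
      rw [this])
    (fun ω => by
      refine ContinuousLinearMap.ext fun x => ?_
      exact congrArg (fun T : Hs →L[ℝ] Hs => T (H ω (P ω x))) (hC ω).isIdempotentElem)
    (by
      filter_upwards [hinj] with p hp ξ h1 h2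
      refine hp ξ h1 ?_
      have h3 : C p.1 (H p.1 (P p.1 ξ)) = 0 := h2
      rwa [h1] at h3)
    hfin
  exact key

section
variable {Ω : Type*} [MeasurableSpace Ω] [PermAct Ω]

theorem lip_mX {fs fA fS : Ω → Set (Sym2 ℕ)} (ms : Measurable fs) (mA : Measurable fA)
    (mS : Measurable fS) : MeasOp fun ω => prj (Xsp (fs ω) (fA ω) (fS ω)) :=
  measOp_Xsp.lip_comp (T := fun q : Set (Sym2 ℕ) × Set (Sym2 ℕ) × Set (Sym2 ℕ) =>
    prj (Xsp q.1 q.2.1 q.2.2)) (φ := fun ω => (fs ω, fA ω, fS ω)) (ms.prodMk (mA.prodMk mS))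

theorem lip_eX {fs fA fS : Ω → Set (Sym2 ℕ)}
    (es : ∀ (σ : Equiv.Perm ℕ) (ω : Ω), fs (act σ ω) = act σ (fs ω))
    (eA : ∀ (σ : Equiv.Perm ℕ) (ω : Ω), fA (act σ ω) = act σ (fA ω))
    (eS : ∀ (σ : Equiv.Perm ℕ) (ω : Ω), fS (act σ ω) = act σ (fS ω)) :
    EquivOp fun ω => prj (Xsp (fs ω) (fA ω) (fS ω)) :=
  equivOp_Xsp.lip_comp (T := fun q : Set (Sym2 ℕ) × Set (Sym2 ℕ) × Set (Sym2 ℕ) =>
    prj (Xsp q.1 q.2.1 q.2.2)) (φ := fun ω => (fs ω, fA ω, fS ω)) (fun σ ω => by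
      show (fs (act σ ω), fA (act σ ω), fS (act σ ω)) = (act σ (fs ω), act σ (fA ω), act σ (fS ω))
      rw [es, eA, eS])

theorem lip_mH {fs fA : Ω → Set (Sym2 ℕ)} (ms : Measurable fs) (mA : Measurable fA) :
    MeasOp fun ω => prj (Hsp (fs ω) (fA ω)) :=
  measOp_Hsp.lip_comp (T := fun q : Set (Sym2 ℕ) × Set (Sym2 ℕ) => prj (Hsp q.1 q.2))
    (φ := fun ω => (fs ω, fA ω)) (ms.prodMk mA)

theorem lip_eH {fs fA : Ω → Set (Sym2 ℕ)}
    (es : ∀ (σ : Equiv.Perm ℕ) (ω : Ω), fs (act σ ω) = act σ (fs ω))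
    (eA : ∀ (σ : Equiv.Perm ℕ) (ω : Ω), fA (act σ ω) = act σ (fA ω)) :
    EquivOp fun ω => prj (Hsp (fs ω) (fA ω)) :=
  equivOp_Hsp.lip_comp (T := fun q : Set (Sym2 ℕ) × Set (Sym2 ℕ) => prj (Hsp q.1 q.2))
    (φ := fun ω => (fs ω, fA ω)) (fun σ ω => by
      show (fs (act σ ω), fA (act σ ω)) = (act σ (fs ω), act σ (fA ω))
      rw [es, eA])

theorem lip_mD {fA fA' : Ω → Set (Sym2 ℕ)} (mA : Measurable fA) (mA' : Measurable fA') :
    Measurable fun ω => fA' ω \ fA ω := by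
  refine measurable_set_iff.mpr fun g => measurableSet_setOfPred.mp ?_
  exact (measurableSet_setOfPred.mpr (measurable_set_iff.mp mA' g)).diff
    (measurableSet_setOfPred.mpr (measurable_set_iff.mp mA g))

theorem lip_eD {fA fA' : Ω → Set (Sym2 ℕ)}
    (eA : ∀ (σ : Equiv.Perm ℕ) (ω : Ω), fA (act σ ω) = act σ (fA ω))
    (eA' : ∀ (σ : Equiv.Perm ℕ) (ω : Ω), fA' (act σ ω) = act σ (fA' ω))
    (σ : Equiv.Perm ℕ) (ω : Ω) : fA' (act σ ω) \ fA (act σ ω) = act σ (fA' ω \ fA ω) := by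
  rw [eA, eA']
  exact (Set.image_diff (Sym2.map.injective σ.injective) _ _).symm

/-- the basic trace inequality, in terms of `xval` -/
theorem lip_T3 {m : Measure (Ω × ℕ)} (hm : MTP m)
    {fs fA fA' fS : Ω → Set (Sym2 ℕ)} (ms : Measurable fs) (mA : Measurable fA)
    (mA' : Measurable fA') (mS : Measurable fS)
    (es : ∀ (σ : Equiv.Perm ℕ) (ω : Ω), fs (act σ ω) = act σ (fs ω))
    (eA : ∀ (σ : Equiv.Perm ℕ) (ω : Ω), fA (act σ ω) = act σ (fA ω))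
    (eA' : ∀ (σ : Equiv.Perm ℕ) (ω : Ω), fA' (act σ ω) = act σ (fA' ω))
    (eS : ∀ (σ : Equiv.Perm ℕ) (ω : Ω), fS (act σ ω) = act σ (fS ω))
    (hsub : ∀ ω, fA ω ⊆ fA' ω) :
    ∫⁻ p, ∑' y, ENNReal.ofReal (xval (fs p.1) (fA p.1) (fS p.1) s(p.2, y) -
        xval (fs p.1) (fA' p.1) (fS p.1) s(p.2, y)) ∂m ≤
      ∫⁻ p, ∑' y, (fA' p.1 \ fA p.1).indicator (1 : Sym2 ℕ → ℝ≥0∞) s(p.2, y) ∂m := by
  by_cases htop : ∫⁻ p, ∑' y, (fA' p.1 \ fA p.1).indicator (1 : Sym2 ℕ → ℝ≥0∞) s(p.2, y) ∂m = ∞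
  · rw [htop]; exact le_top
  obtain ⟨P, hPdef⟩ : ∃ P : Ω → Hs →L[ℝ] Hs, P = fun ω => prj (Xsp (fs ω) (fA ω) (fS ω)) -
    prj (Xsp (fs ω) (fA' ω) (fS ω)) := ⟨_, rfl⟩
  obtain ⟨C, hCdef⟩ : ∃ C : Ω → Hs →L[ℝ] Hs, C = fun ω => prj (Asp (fA' ω \ fA ω)) := ⟨_, rfl⟩
  obtain ⟨H, hHdef⟩ : ∃ H : Ω → Hs →L[ℝ] Hs, H = fun ω => prj (Hsp (fs ω) (fA ω)) := ⟨_, rfl⟩
  have mP : MeasOp P := by rw [hPdef]; exact (lip_mX ms mA mS).sub (lip_mX ms mA' mS)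
  have eP : EquivOp P := by rw [hPdef]; exact (lip_eX es eA eS).sub (lip_eX es eA' eS)
  have mC : MeasOp C := by
    rw [hCdef]
    exact measOp_Asp.lip_comp (T := fun S : Set (Sym2 ℕ) => prj (Asp S))
      (φ := fun ω => fA' ω \ fA ω) (lip_mD mA mA')
  have eC : EquivOp C := by
    rw [hCdef]
    exact equivOp_Asp.lip_comp (T := fun S : Set (Sym2 ℕ) => prj (Asp S))
      (φ := fun ω => fA' ω \ fA ω) (fun σ ω => lip_eD eA eA' σ ω)
  have mH : MeasOp H := by rw [hHdef]; exact lip_mH ms mA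
  have eH : EquivOp H := by rw [hHdef]; exact lip_eH es eA
  have hPs : ∀ ω, IsStarProjection (P ω) := by
    rw [hPdef]; exact fun ω => lip_diff_star (lip_Xsp_mono _ (hsub ω))
  have hCs : ∀ ω, IsStarProjection (C ω) := by rw [hCdef]; exact fun ω => lip_prj_star _
  have hHn : ∀ ω, ‖H ω‖ ≤ 1 := by rw [hHdef]; exact fun ω => lip_prj_norm _
  have hC2 : ∀ (p : Ω × ℕ) (y : ℕ), 2 * ENNReal.ofReal (‖C p.1 (dl (p.2, y))‖ ^ 2) ≤
      (fA' p.1 \ fA p.1).indicator (1 : Sym2 ℕ → ℝ≥0∞) s(p.2, y) := by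
    rw [hCdef]; exact fun p y => lip_P' _ _ _
  have hinj : ∀ p : Ω × ℕ, ∀ ξ, P p.1 ξ = ξ → C p.1 (H p.1 ξ) = 0 → ξ = 0 := by
    rw [hPdef, hCdef, hHdef]
    exact fun p ξ h1 h2 => lip_T3_inj (hsub p.1) ξ h1 h2
  have key := lip_trace_comp hm mP eP mC eC mH eH hPs hCs hHn (Eventually.of_forall hinj)
    (by
      refine ne_top_of_le_ne_top htop ?_
      refine lintegral_mono fun p => ENNReal.tsum_le_tsum fun y => ?_
      refine le_trans ?_ (hC2 p y)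
      exact le_mul_of_one_le_left zero_le (by norm_num))
  have e1 : ∀ (p : Ω × ℕ) (y : ℕ), ENNReal.ofReal (xval (fs p.1) (fA p.1) (fS p.1) s(p.2, y) -
        xval (fs p.1) (fA' p.1) (fS p.1) s(p.2, y)) =
      2 * ENNReal.ofReal (‖P p.1 (dl (p.2, y))‖ ^ 2) := by
    rw [hPdef]; exact fun p y => lip_xdiff (hsub p.1) _ _
  calc ∫⁻ p, ∑' y, ENNReal.ofReal (xval (fs p.1) (fA p.1) (fS p.1) s(p.2, y) -
        xval (fs p.1) (fA' p.1) (fS p.1) s(p.2, y)) ∂m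
      = ∫⁻ p, 2 * ∑' y, ENNReal.ofReal (‖P p.1 (dl (p.2, y))‖ ^ 2) ∂m := by
        refine lintegral_congr fun p => ?_
        rw [← ENNReal.tsum_mul_left]
        exact tsum_congr fun y => e1 p y
    _ = 2 * ∫⁻ p, ∑' y, ENNReal.ofReal (‖P p.1 (dl (p.2, y))‖ ^ 2) ∂m :=
        lintegral_const_mul' _ _ (by norm_num)
    _ ≤ 2 * ∫⁻ p, ∑' y, ENNReal.ofReal (‖C p.1 (dl (p.2, y))‖ ^ 2) ∂m := by
        gcongr
    _ = ∫⁻ p, 2 * ∑' y, ENNReal.ofReal (‖C p.1 (dl (p.2, y))‖ ^ 2) ∂m :=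
        (lintegral_const_mul' _ _ (by norm_num)).symm
    _ ≤ ∫⁻ p, ∑' y, (fA' p.1 \ fA p.1).indicator (1 : Sym2 ℕ → ℝ≥0∞) s(p.2, y) ∂m := by
        refine lintegral_mono fun p => ?_
        rw [← ENNReal.tsum_mul_left]
        exact ENNReal.tsum_le_tsum fun y => hC2 p y

end

theorem lip_meas_root {Ω : Type*} [MeasurableSpace Ω] {f : Ω × ℕ → ℝ≥0∞}
    (h : ∀ x, Measurable fun ω => f (ω, x)) : Measurable f :=
  measurable_from_prod_countable_left h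

theorem lip_meas_indic {Ω : Type*} [MeasurableSpace Ω] {f : Ω → Set (Sym2 ℕ)}
    (hf : Measurable f) (e : Sym2 ℕ) :
    Measurable fun ω => (f ω).indicator (1 : Sym2 ℕ → ℝ≥0∞) e := by
  have : (fun ω => (f ω).indicator (1 : Sym2 ℕ → ℝ≥0∞) e) = Set.indicator {ω | e ∈ f ω} 1 := by
    funext a
    by_cases h : e ∈ f a
    · rw [Set.indicator_of_mem h, Set.indicator_of_mem (by exact h)]; rfl
    · rw [Set.indicator_of_notMem h, Set.indicator_of_notMem (by exact h)]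
  rw [this]
  exact measurable_one.indicator (measurableSet_setOfPred.mpr (measurable_set_iff.mp hf e))

theorem lip_meas_indic_sum {Ω : Type*} [MeasurableSpace Ω] {f : Ω → Set (Sym2 ℕ)}
    (hf : Measurable f) :
    Measurable fun p : Ω × ℕ => ∑' y, (f p.1).indicator (1 : Sym2 ℕ → ℝ≥0∞) s(p.2, y) :=
  lip_meas_root fun x => Measurable.ennreal_tsum fun y => lip_meas_indic hf s(x, y)

theorem lip_meas_xval {Ω : Type*} [MeasurableSpace Ω] {f g h : Ω → Set (Sym2 ℕ)}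
    (hf : Measurable f) (hg : Measurable g) (hh : Measurable h) (e : Sym2 ℕ) :
    Measurable fun a => xval (f a) (g a) (h a) e :=
  Measurable.comp (g := fun q : Set (Sym2 ℕ) × Set (Sym2 ℕ) × Set (Sym2 ℕ) =>
    xval q.1 q.2.1 q.2.2 e) (f := fun a => (f a, g a, h a)) (measurable_xval e)
    (hf.prodMk (hg.prodMk hh))

theorem lip_meas_diff_sum {Ω : Type*} [MeasurableSpace Ω] {f g h g' h' : Ω → Set (Sym2 ℕ)}
    (hf : Measurable f) (hg : Measurable g) (hh : Measurable h) (hg' : Measurable g')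
    (hh' : Measurable h') :
    Measurable fun p : Ω × ℕ => ∑' y, ENNReal.ofReal (xval (f p.1) (g p.1) (h p.1) s(p.2, y) -
      xval (f p.1) (g' p.1) (h' p.1) s(p.2, y)) :=
  lip_meas_root fun x => Measurable.ennreal_tsum fun y => ENNReal.measurable_ofReal.comp
    ((lip_meas_xval hf hg hh s(x, y)).sub (lip_meas_xval hf hg' hh' s(x, y)))

theorem lip_meas_union {Ω : Type*} [MeasurableSpace Ω] {f f' : Ω → Set (Sym2 ℕ)}
    (hf : Measurable f) (hf' : Measurable f') : Measurable fun a => f a ∪ f' a := by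
  refine measurable_set_iff.mpr fun g => measurableSet_setOfPred.mp ?_
  exact (measurableSet_setOfPred.mpr (measurable_set_iff.mp hf g)).union
    (measurableSet_setOfPred.mpr (measurable_set_iff.mp hf' g))

theorem lip_meas_inter {Ω : Type*} [MeasurableSpace Ω] {f f' : Ω → Set (Sym2 ℕ)}
    (hf : Measurable f) (hf' : Measurable f') : Measurable fun a => f a ∩ f' a := by
  refine measurable_set_iff.mpr fun g => measurableSet_setOfPred.mp ?_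
  exact (measurableSet_setOfPred.mpr (measurable_set_iff.mp hf g)).inter
    (measurableSet_setOfPred.mpr (measurable_set_iff.mp hf' g))

theorem lip_act_union (σ : Equiv.Perm ℕ) (A B : Set (Sym2 ℕ)) :
    act σ (A ∪ B) = act σ A ∪ act σ B := Set.image_union _ _ _

theorem lip_act_inter (σ : Equiv.Perm ℕ) (A B : Set (Sym2 ℕ)) :
    act σ (A ∩ B) = act σ A ∩ act σ B := Set.image_inter (Sym2.map.injective σ.injective)

theorem lip_act_empty (σ : Equiv.Perm ℕ) : act σ (∅ : Set (Sym2 ℕ)) = ∅ := Set.image_empty _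

/-- configurations `(s, A, A', S)` -/
theorem xval_lip {m : Measure ((Set (Sym2 ℕ) × Set (Sym2 ℕ) × Set (Sym2 ℕ) × Set (Sym2 ℕ)) × ℕ)}
    (hm : MTP m) :
    ∫⁻ p, ∑' y, ENNReal.ofReal |xval p.1.1 p.1.2.1 p.1.2.2.2 s(p.2, y) -
        xval p.1.1 p.1.2.2.1 p.1.2.2.2 s(p.2, y)| ∂m ≤
      ∫⁻ p, ∑' y, (symmDiff p.1.2.1 p.1.2.2.1).indicator 1 s(p.2, y) ∂m := by
  obtain ⟨fs, hfs⟩ : ∃ f : Set (Sym2 ℕ) × Set (Sym2 ℕ) × Set (Sym2 ℕ) × Set (Sym2 ℕ) →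
    Set (Sym2 ℕ), f = fun ω => ω.1 := ⟨_, rfl⟩
  obtain ⟨fA, hfA⟩ : ∃ f : Set (Sym2 ℕ) × Set (Sym2 ℕ) × Set (Sym2 ℕ) × Set (Sym2 ℕ) →
    Set (Sym2 ℕ), f = fun ω => ω.2.1 := ⟨_, rfl⟩
  obtain ⟨fB, hfB⟩ : ∃ f : Set (Sym2 ℕ) × Set (Sym2 ℕ) × Set (Sym2 ℕ) × Set (Sym2 ℕ) →
    Set (Sym2 ℕ), f = fun ω => ω.2.2.1 := ⟨_, rfl⟩
  obtain ⟨fS, hfS⟩ : ∃ f : Set (Sym2 ℕ) × Set (Sym2 ℕ) × Set (Sym2 ℕ) × Set (Sym2 ℕ) →
    Set (Sym2 ℕ), f = fun ω => ω.2.2.2 := ⟨_, rfl⟩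
  have ms : Measurable fs := by rw [hfs]; fun_prop
  have mA : Measurable fA := by rw [hfA]; fun_prop
  have mB : Measurable fB := by rw [hfB]; fun_prop
  have mS : Measurable fS := by rw [hfS]; fun_prop
  have es : ∀ (σ : Equiv.Perm ℕ) ω, fs (act σ ω) = act σ (fs ω) := by
    rw [hfs]; exact fun σ ω => rfl
  have eA : ∀ (σ : Equiv.Perm ℕ) ω, fA (act σ ω) = act σ (fA ω) := by
    rw [hfA]; exact fun σ ω => rfl
  have eB : ∀ (σ : Equiv.Perm ℕ) ω, fB (act σ ω) = act σ (fB ω) := by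
    rw [hfB]; exact fun σ ω => rfl
  have eS : ∀ (σ : Equiv.Perm ℕ) ω, fS (act σ ω) = act σ (fS ω) := by
    rw [hfS]; exact fun σ ω => rfl
  have mU := lip_meas_union mA mB
  have eU : ∀ (σ : Equiv.Perm ℕ) ω, fA (act σ ω) ∪ fB (act σ ω) = act σ (fA ω ∪ fB ω) := by
    intro σ ω; rw [eA, eB, lip_act_union]
  have k1 := lip_T3 hm ms mA mU mS es eA eU eS (fun ω => Set.subset_union_left)
  have k2 := lip_T3 hm ms mB mU mS es eB eU eS (fun ω => Set.subset_union_right)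
  have goal1 : ∫⁻ p, ∑' y, ENNReal.ofReal |xval (fs p.1) (fA p.1) (fS p.1) s(p.2, y) -
        xval (fs p.1) (fB p.1) (fS p.1) s(p.2, y)| ∂m ≤
      ∫⁻ p, ∑' y, (symmDiff (fA p.1) (fB p.1)).indicator (1 : Sym2 ℕ → ℝ≥0∞) s(p.2, y) ∂m := by
    calc ∫⁻ p, ∑' y, ENNReal.ofReal |xval (fs p.1) (fA p.1) (fS p.1) s(p.2, y) -
        xval (fs p.1) (fB p.1) (fS p.1) s(p.2, y)| ∂m
        ≤ ∫⁻ p, (∑' y, ENNReal.ofReal (xval (fs p.1) (fA p.1) (fS p.1) s(p.2, y) -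
          xval (fs p.1) (fA p.1 ∪ fB p.1) (fS p.1) s(p.2, y)) +
          ∑' y, ENNReal.ofReal (xval (fs p.1) (fB p.1) (fS p.1) s(p.2, y) -
          xval (fs p.1) (fA p.1 ∪ fB p.1) (fS p.1) s(p.2, y))) ∂m := by
          refine lintegral_mono fun p => ?_
          rw [← ENNReal.tsum_add]
          refine ENNReal.tsum_le_tsum fun y => ?_
          have h1 := xval_anti (fs p.1) (fS p.1) (A := fA p.1) (A' := fA p.1 ∪ fB p.1)
            Set.subset_union_left s(p.2, y)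
          have h2 := xval_anti (fs p.1) (fS p.1) (A := fB p.1) (A' := fA p.1 ∪ fB p.1)
            Set.subset_union_right s(p.2, y)
          rw [← ENNReal.ofReal_add (by linarith) (by linarith)]
          refine ENNReal.ofReal_le_ofReal ?_
          rw [abs_le]
          constructor <;> linarith
      _ = ∫⁻ p, ∑' y, ENNReal.ofReal (xval (fs p.1) (fA p.1) (fS p.1) s(p.2, y) -
          xval (fs p.1) (fA p.1 ∪ fB p.1) (fS p.1) s(p.2, y)) ∂m +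
          ∫⁻ p, ∑' y, ENNReal.ofReal (xval (fs p.1) (fB p.1) (fS p.1) s(p.2, y) -
          xval (fs p.1) (fA p.1 ∪ fB p.1) (fS p.1) s(p.2, y)) ∂m :=
          lintegral_add_left (lip_meas_diff_sum ms mA mS mU mS) _
      _ ≤ ∫⁻ p, ∑' y, ((fA p.1 ∪ fB p.1) \ fA p.1).indicator (1 : Sym2 ℕ → ℝ≥0∞) s(p.2, y) ∂m +
          ∫⁻ p, ∑' y, ((fA p.1 ∪ fB p.1) \ fB p.1).indicator (1 : Sym2 ℕ → ℝ≥0∞) s(p.2, y) ∂m :=
          add_le_add k1 k2
      _ = ∫⁻ p, (∑' y, ((fA p.1 ∪ fB p.1) \ fA p.1).indicator (1 : Sym2 ℕ → ℝ≥0∞) s(p.2, y) +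
          ∑' y, ((fA p.1 ∪ fB p.1) \ fB p.1).indicator (1 : Sym2 ℕ → ℝ≥0∞) s(p.2, y)) ∂m :=
          (lintegral_add_left (lip_meas_indic_sum (lip_mD mA mU)) _).symm
      _ = ∫⁻ p, ∑' y, (symmDiff (fA p.1) (fB p.1)).indicator
          (1 : Sym2 ℕ → ℝ≥0∞) s(p.2, y) ∂m := by
          refine lintegral_congr fun p => ?_
          rw [← ENNReal.tsum_add]
          refine tsum_congr fun y => ?_
          by_cases hA : s(p.2, y) ∈ fA p.1 <;> by_cases hB : s(p.2, y) ∈ fB p.1 <;>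
            simp [Set.indicator, Set.mem_symmDiff, hA, hB]
  rw [hfs, hfA, hfB, hfS] at goal1
  exact goal1

theorem lip_Xsp_empty (s A : Set (Sym2 ℕ)) : Xsp s A ∅ = Hsp s A := by
  have hC : Csp (∅ᶜ : Set (Sym2 ℕ)) = ⊤ := by
    rw [eq_top_iff]
    intro h _ x y hxy
    exact absurd (by simp) hxy
  have h1 : ∀ h : Hs, prj (Csp (∅ᶜ : Set (Sym2 ℕ))) h = h := by
    intro h
    rw [lip_prj_eq_self, lip_clo_Csp, hC]
    trivial
  ext h
  constructor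
  · rintro ⟨k, hk, rfl⟩
    show prj (Csp (∅ᶜ : Set (Sym2 ℕ))) k ∈ Hsp s A
    rw [h1]; exact hk
  · intro hk
    exact ⟨h, hk, h1 h⟩

theorem lip_Xsp_self (s S : Set (Sym2 ℕ)) : Xsp s S S = Hsp s S := by
  have h1 : ∀ h ∈ Hsp s S, prj (Csp Sᶜ) h = h := by
    intro h hh
    rw [lip_prj_eq_self, lip_clo_Csp]
    intro x y hxy
    exact hh.2 x y (Or.inr (by simpa using hxy))
  ext h
  constructor
  · rintro ⟨k, hk, rfl⟩
    show prj (Csp Sᶜ) k ∈ Hsp s S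
    rw [h1 k hk]; exact hk
  · intro hk
    exact ⟨h, hk, h1 h hk⟩

theorem lip_xval_self (s S : Set (Sym2 ℕ)) (e : Sym2 ℕ) : xval s S S e = xval s S ∅ e := by
  induction e using Sym2.ind with
  | _ x y => rw [xval_eq, xval_eq, lip_Xsp_empty, lip_Xsp_self]

/-- injectivity of the restriction off `S` -/
theorem lip_I1_inj {s A S : Set (Sym2 ℕ)} (hAS : A ⊆ S)
    (hinj : ∀ h ∈ Hsp s ∅, (∀ x y : ℕ, s(x, y) ∉ S \ A → h (x, y) = 0) → h = 0) (ξ : Hs)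
    (h1 : (prj (Hsp s A) - prj (Hsp s S)) ξ = ξ)
    (h2 : (prj (Xsp s A S) - prj (Hsp s S)) (prj (Csp Sᶜ) ξ) = 0) : ξ = 0 := by
  have hmono : Hsp s S ≤ Hsp s A := lip_Hsp_mono hAS
  have h3 : prj (Hsp s S) ξ = 0 := by
    rw [← h1]
    show prj (Hsp s S) (prj (Hsp s A) ξ - prj (Hsp s S) ξ) = 0
    rw [map_sub, lip_prj_comp hmono, lip_prj_idem, sub_self]
  have h4 : prj (Hsp s A) ξ = ξ := by
    have : prj (Hsp s A) ξ - prj (Hsp s S) ξ = ξ := h1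
    rwa [h3, sub_zero] at this
  have h5 : ξ ∈ Hsp s A := by
    have := lip_prj_eq_self.mp h4
    rwa [lip_clo_Hsp] at this
  -- `Qξ` is in `X` and orthogonal to `Hsp s S`, so it is zero
  have h6 : prj (Xsp s A S) (prj (Csp Sᶜ) ξ) = prj (Csp Sᶜ) ξ :=
    lip_prj_eq_self.mpr (Submodule.le_topologicalClosure _ ⟨ξ, h5, rfl⟩)
  have h7 : prj (Hsp s S) (prj (Csp Sᶜ) ξ) = 0 := by
    have hm : prj (Hsp s S) (prj (Csp Sᶜ) ξ) ∈ (Hsp s S).topologicalClosure := lip_prj_mem _ _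
    refine lip_eq_zero hm ?_
    intro y hy
    have hy1 : prj (Hsp s S) y = y :=
      lip_prj_eq_self.mpr (Submodule.le_topologicalClosure _ hy)
    have hy2 : prj (Csp Sᶜ) y = y := by
      rw [lip_prj_eq_self, lip_clo_Csp]
      intro a b hab
      exact hy.2 a b (Or.inr (by simpa using hab))
    rw [← lip_prj_inner, hy1, ← lip_prj_inner, hy2, ← hy1, lip_prj_inner, h3, inner_zero_right]
  have h8 : prj (Csp Sᶜ) ξ = 0 := by
    have : prj (Xsp s A S) (prj (Csp Sᶜ) ξ) - prj (Hsp s S) (prj (Csp Sᶜ) ξ) = 0 := h2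
    rwa [h6, h7, sub_zero] at this
  refine hinj ξ (lip_Hsp_mono (Set.empty_subset A) h5) ?_
  intro x y hxy
  by_cases hS : s(x, y) ∈ S
  · have hA : s(x, y) ∈ A := by
      by_contra hA
      exact hxy ⟨hS, hA⟩
    exact h5.2 x y (Or.inr hA)
  · have h9 := prj_Csp_apply Sᶜ ξ x y
    rw [h8, if_pos (show s(x, y) ∈ Sᶜ from hS)] at h9
    exact h9.symm

/-- configurations `(s, A, S)` -/
theorem xval_ident {m : Measure ((Set (Sym2 ℕ) × Set (Sym2 ℕ) × Set (Sym2 ℕ)) × ℕ)} (hm : MTP m)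
    (hsub : ∀ᵐ p ∂m, p.1.2.1 ⊆ p.1.2.2)
    (hinj : ∀ᵐ p ∂m, ∀ h ∈ Hsp p.1.1 ∅, (∀ x y : ℕ, s(x, y) ∉ p.1.2.2 \ p.1.2.1 → h (x, y) = 0) →
      h = 0)
    (hfin : ∫⁻ p, ∑' y, (p.1.2.2).indicator 1 s(p.2, y) ∂m ≠ ∞) :
    ∫⁻ p, ∑' y, ENNReal.ofReal (xval p.1.1 ∅ ∅ s(p.2, y) - xval p.1.1 p.1.2.2 p.1.2.2 s(p.2, y)) ∂m
      ≤ ∫⁻ p, ∑' y, (p.1.2.1).indicator 1 s(p.2, y) ∂m +
        ∫⁻ p, ∑' y, ENNReal.ofReal (xval p.1.1 p.1.2.1 p.1.2.2 s(p.2, y) -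
          xval p.1.1 p.1.2.2 p.1.2.2 s(p.2, y)) ∂m ∧
    ∫⁻ p, ∑' y, ENNReal.ofReal (xval p.1.1 p.1.2.1 p.1.2.2 s(p.2, y) -
          xval p.1.1 p.1.2.2 p.1.2.2 s(p.2, y)) ∂m ≠ ∞ := by
  obtain ⟨fs, hfs⟩ : ∃ f : Set (Sym2 ℕ) × Set (Sym2 ℕ) × Set (Sym2 ℕ) →
    Set (Sym2 ℕ), f = fun ω => ω.1 := ⟨_, rfl⟩
  obtain ⟨fA, hfA⟩ : ∃ f : Set (Sym2 ℕ) × Set (Sym2 ℕ) × Set (Sym2 ℕ) →
    Set (Sym2 ℕ), f = fun ω => ω.2.1 := ⟨_, rfl⟩
  obtain ⟨fS, hfS⟩ : ∃ f : Set (Sym2 ℕ) × Set (Sym2 ℕ) × Set (Sym2 ℕ) →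
    Set (Sym2 ℕ), f = fun ω => ω.2.2 := ⟨_, rfl⟩
  have ms : Measurable fs := by rw [hfs]; fun_prop
  have mA0 : Measurable fA := by rw [hfA]; fun_prop
  have mS : Measurable fS := by rw [hfS]; fun_prop
  have es : ∀ (σ : Equiv.Perm ℕ) ω, fs (act σ ω) = act σ (fs ω) := by
    rw [hfs]; exact fun σ ω => rfl
  have eA0 : ∀ (σ : Equiv.Perm ℕ) ω, fA (act σ ω) = act σ (fA ω) := by
    rw [hfA]; exact fun σ ω => rfl
  have eS : ∀ (σ : Equiv.Perm ℕ) ω, fS (act σ ω) = act σ (fS ω) := by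
    rw [hfS]; exact fun σ ω => rfl
  obtain ⟨fB, hfB⟩ : ∃ f : Set (Sym2 ℕ) × Set (Sym2 ℕ) × Set (Sym2 ℕ) →
    Set (Sym2 ℕ), f = fun ω => fA ω ∩ fS ω := ⟨_, rfl⟩
  have mB : Measurable fB := by rw [hfB]; exact lip_meas_inter mA0 mS
  have eB : ∀ (σ : Equiv.Perm ℕ) ω, fB (act σ ω) = act σ (fB ω) := by
    rw [hfB]; intro σ ω
    show fA (act σ ω) ∩ fS (act σ ω) = act σ (fA ω ∩ fS ω)
    rw [eA0, eS, lip_act_inter]
  have hBS : ∀ ω, fB ω ⊆ fS ω := by rw [hfB]; exact fun ω => Set.inter_subset_right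
  have hAB : ∀ᵐ p ∂m, fA p.1 = fB p.1 := by
    filter_upwards [hsub] with p hp
    rw [hfB]
    show fA p.1 = fA p.1 ∩ fS p.1
    rw [Set.inter_eq_left.mpr]
    rw [hfA, hfS]; exact hp
  have mE : Measurable fun _ : Set (Sym2 ℕ) × Set (Sym2 ℕ) × Set (Sym2 ℕ) =>
    (∅ : Set (Sym2 ℕ)) := measurable_const
  have eE : ∀ (σ : Equiv.Perm ℕ) (ω : Set (Sym2 ℕ) × Set (Sym2 ℕ) × Set (Sym2 ℕ)),
      (fun _ : Set (Sym2 ℕ) × Set (Sym2 ℕ) × Set (Sym2 ℕ) => (∅ : Set (Sym2 ℕ))) (act σ ω) =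
      act σ ((fun _ : Set (Sym2 ℕ) × Set (Sym2 ℕ) × Set (Sym2 ℕ) => (∅ : Set (Sym2 ℕ))) ω) :=
    fun σ ω => (lip_act_empty σ).symm
  have k1 := lip_T3 hm ms mE mB mE es eE eB eE (fun ω => Set.empty_subset _)
  have k2 := lip_T3 hm ms mB mS mS es eB eS eS hBS
  have hfin2 : ∫⁻ p, ∑' y, (fS p.1 \ fB p.1).indicator (1 : Sym2 ℕ → ℝ≥0∞) s(p.2, y) ∂m ≠ ∞ := by
    refine ne_top_of_le_ne_top (b := ∫⁻ p, ∑' y, (fS p.1).indicator
      (1 : Sym2 ℕ → ℝ≥0∞) s(p.2, y) ∂m) (by rw [hfS]; exact hfin) ?_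
    refine lintegral_mono fun p => ENNReal.tsum_le_tsum fun y => ?_
    exact Set.indicator_le_indicator_of_subset Set.diff_subset (fun _ => zero_le) _
  have hfin3 := ne_top_of_le_ne_top hfin2 k2
  -- the comparison of `Hsp s B ⊖ Hsp s S` with `X(s,B,S) ⊖ Hsp s S`
  obtain ⟨P, hPdef⟩ : ∃ P : Set (Sym2 ℕ) × Set (Sym2 ℕ) × Set (Sym2 ℕ) → Hs →L[ℝ] Hs,
    P = fun ω => prj (Hsp (fs ω) (fB ω)) - prj (Hsp (fs ω) (fS ω)) := ⟨_, rfl⟩
  obtain ⟨C, hCdef⟩ : ∃ C : Set (Sym2 ℕ) × Set (Sym2 ℕ) × Set (Sym2 ℕ) → Hs →L[ℝ] Hs,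
    C = fun ω => prj (Xsp (fs ω) (fB ω) (fS ω)) - prj (Hsp (fs ω) (fS ω)) := ⟨_, rfl⟩
  obtain ⟨H, hHdef⟩ : ∃ H : Set (Sym2 ℕ) × Set (Sym2 ℕ) × Set (Sym2 ℕ) → Hs →L[ℝ] Hs,
    H = fun ω => prj (Csp (fS ω)ᶜ) := ⟨_, rfl⟩
  have hXle : ∀ ω, Hsp (fs ω) (fS ω) ≤ Xsp (fs ω) (fB ω) (fS ω) := by
    intro ω
    have := lip_Xsp_mono (s := fs ω) (fS ω) (hBS ω)
    rwa [lip_Xsp_self] at this
  have mP : MeasOp P := by rw [hPdef]; exact (lip_mH ms mB).sub (lip_mH ms mS)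
  have eP : EquivOp P := by rw [hPdef]; exact (lip_eH es eB).sub (lip_eH es eS)
  have mC : MeasOp C := by rw [hCdef]; exact (lip_mX ms mB mS).sub (lip_mH ms mS)
  have eC : EquivOp C := by rw [hCdef]; exact (lip_eX es eB eS).sub (lip_eH es eS)
  have mSc : Measurable fun ω => (fS ω)ᶜ := by
    refine measurable_set_iff.mpr fun g => measurableSet_setOfPred.mp ?_
    exact (measurableSet_setOfPred.mpr (measurable_set_iff.mp mS g)).compl
  have mH : MeasOp H := by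
    rw [hHdef]
    exact measOp_Csp.lip_comp (T := fun S : Set (Sym2 ℕ) => prj (Csp S))
      (φ := fun ω => (fS ω)ᶜ) mSc
  have eH : EquivOp H := by
    rw [hHdef]
    refine equivOp_Csp.lip_comp (T := fun S : Set (Sym2 ℕ) => prj (Csp S))
      (φ := fun ω => (fS ω)ᶜ) (fun σ ω => ?_)
    show (fS (act σ ω))ᶜ = act σ ((fS ω)ᶜ)
    rw [eS]
    exact (Set.image_compl_eq (Sym2.map.injective σ.injective |> fun h => ⟨h,
      Function.Surjective.of_comp (f := fun e => Sym2.map σ e) (g := fun e => Sym2.map σ.symm e)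
        (by intro e; exact ⟨e, by simp [Sym2.map_map]⟩)⟩)).symm
  have hPs : ∀ ω, IsStarProjection (P ω) := by
    rw [hPdef]; exact fun ω => lip_diff_star (lip_Hsp_mono (hBS ω))
  have hCs : ∀ ω, IsStarProjection (C ω) := by
    rw [hCdef]; exact fun ω => lip_diff_star (hXle ω)
  have hHn : ∀ ω, ‖H ω‖ ≤ 1 := by rw [hHdef]; exact fun ω => lip_prj_norm _
  have hinj2 : ∀ᵐ p ∂m, ∀ ξ, P p.1 ξ = ξ → C p.1 (H p.1 ξ) = 0 → ξ = 0 := by
    rw [hPdef, hCdef, hHdef]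
    filter_upwards [hinj, hAB] with p hp hab ξ h1 h2
    refine lip_I1_inj (hBS p.1) ?_ ξ h1 h2
    rw [← hab, hfs, hfA, hfS]
    exact hp
  have eCx : ∀ (p : (Set (Sym2 ℕ) × Set (Sym2 ℕ) × Set (Sym2 ℕ)) × ℕ) (y : ℕ),
      ENNReal.ofReal (xval (fs p.1) (fB p.1) (fS p.1) s(p.2, y) -
        xval (fs p.1) (fS p.1) (fS p.1) s(p.2, y)) =
      2 * ENNReal.ofReal (‖C p.1 (dl (p.2, y))‖ ^ 2) := by
    intro p y
    rw [lip_xdiff (hBS p.1), lip_Xsp_self, hCdef]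
  have ePx : ∀ (p : (Set (Sym2 ℕ) × Set (Sym2 ℕ) × Set (Sym2 ℕ)) × ℕ) (y : ℕ),
      ENNReal.ofReal (xval (fs p.1) (fB p.1) ∅ s(p.2, y) -
        xval (fs p.1) (fS p.1) ∅ s(p.2, y)) =
      2 * ENNReal.ofReal (‖P p.1 (dl (p.2, y))‖ ^ 2) := by
    intro p y
    rw [lip_xdiff (hBS p.1), lip_Xsp_empty, lip_Xsp_empty, hPdef]
  have totC : ∫⁻ p, ∑' y, ENNReal.ofReal (xval (fs p.1) (fB p.1) (fS p.1) s(p.2, y) -
        xval (fs p.1) (fS p.1) (fS p.1) s(p.2, y)) ∂m =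
      2 * ∫⁻ p, ∑' y, ENNReal.ofReal (‖C p.1 (dl (p.2, y))‖ ^ 2) ∂m := by
    rw [← lintegral_const_mul' _ _ (by norm_num)]
    refine lintegral_congr fun p => ?_
    rw [← ENNReal.tsum_mul_left]
    exact tsum_congr fun y => eCx p y
  have totP : ∫⁻ p, ∑' y, ENNReal.ofReal (xval (fs p.1) (fB p.1) ∅ s(p.2, y) -
        xval (fs p.1) (fS p.1) ∅ s(p.2, y)) ∂m =
      2 * ∫⁻ p, ∑' y, ENNReal.ofReal (‖P p.1 (dl (p.2, y))‖ ^ 2) ∂m := by
    rw [← lintegral_const_mul' _ _ (by norm_num)]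
    refine lintegral_congr fun p => ?_
    rw [← ENNReal.tsum_mul_left]
    exact tsum_congr fun y => ePx p y
  have hfinC : ∫⁻ p, ∑' y, ENNReal.ofReal (‖C p.1 (dl (p.2, y))‖ ^ 2) ∂m ≠ ∞ := by
    intro h
    rw [totC, h] at hfin3
    exact hfin3 (by simp)
  have key := lip_trace_comp hm mP eP mC eC mH eH hPs hCs hHn hinj2 hfinC
  have k3 : ∫⁻ p, ∑' y, ENNReal.ofReal (xval (fs p.1) (fB p.1) ∅ s(p.2, y) -
        xval (fs p.1) (fS p.1) ∅ s(p.2, y)) ∂m ≤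
      ∫⁻ p, ∑' y, ENNReal.ofReal (xval (fs p.1) (fB p.1) (fS p.1) s(p.2, y) -
        xval (fs p.1) (fS p.1) (fS p.1) s(p.2, y)) ∂m := by
    rw [totC, totP]
    gcongr
  have goal1 : ∫⁻ p, ∑' y, ENNReal.ofReal (xval (fs p.1) ∅ ∅ s(p.2, y) -
        xval (fs p.1) (fS p.1) (fS p.1) s(p.2, y)) ∂m ≤
      ∫⁻ p, ∑' y, (fB p.1).indicator (1 : Sym2 ℕ → ℝ≥0∞) s(p.2, y) ∂m +
      ∫⁻ p, ∑' y, ENNReal.ofReal (xval (fs p.1) (fB p.1) (fS p.1) s(p.2, y) -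
        xval (fs p.1) (fS p.1) (fS p.1) s(p.2, y)) ∂m := by
    calc ∫⁻ p, ∑' y, ENNReal.ofReal (xval (fs p.1) ∅ ∅ s(p.2, y) -
          xval (fs p.1) (fS p.1) (fS p.1) s(p.2, y)) ∂m
        ≤ ∫⁻ p, (∑' y, ENNReal.ofReal (xval (fs p.1) ∅ ∅ s(p.2, y) -
          xval (fs p.1) (fB p.1) ∅ s(p.2, y)) +
          ∑' y, ENNReal.ofReal (xval (fs p.1) (fB p.1) ∅ s(p.2, y) -
            xval (fs p.1) (fS p.1) ∅ s(p.2, y))) ∂m := by
          refine lintegral_mono fun p => ?_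
          rw [← ENNReal.tsum_add]
          refine ENNReal.tsum_le_tsum fun y => ?_
          have h1 := xval_anti (fs p.1) ∅ (A := ∅) (A' := fB p.1)
            (Set.empty_subset _) s(p.2, y)
          have h2 := xval_anti (fs p.1) ∅ (A := fB p.1) (A' := fS p.1) (hBS p.1) s(p.2, y)
          rw [← ENNReal.ofReal_add (by linarith) (by linarith), lip_xval_self (fs p.1) (fS p.1)]
          refine ENNReal.ofReal_le_ofReal ?_
          linarith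
      _ = ∫⁻ p, ∑' y, ENNReal.ofReal (xval (fs p.1) ∅ ∅ s(p.2, y) -
          xval (fs p.1) (fB p.1) ∅ s(p.2, y)) ∂m +
          ∫⁻ p, ∑' y, ENNReal.ofReal (xval (fs p.1) (fB p.1) ∅ s(p.2, y) -
            xval (fs p.1) (fS p.1) ∅ s(p.2, y)) ∂m :=
          lintegral_add_left (lip_meas_diff_sum ms mE mE mB mE) _
      _ ≤ ∫⁻ p, ∑' y, (fB p.1).indicator (1 : Sym2 ℕ → ℝ≥0∞) s(p.2, y) ∂m +
          ∫⁻ p, ∑' y, ENNReal.ofReal (xval (fs p.1) (fB p.1) (fS p.1) s(p.2, y) -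
            xval (fs p.1) (fS p.1) (fS p.1) s(p.2, y)) ∂m := by
          refine add_le_add ?_ k3
          simpa using k1
  have eq1 : ∫⁻ p, ∑' y, (fB p.1).indicator (1 : Sym2 ℕ → ℝ≥0∞) s(p.2, y) ∂m =
      ∫⁻ p, ∑' y, (fA p.1).indicator (1 : Sym2 ℕ → ℝ≥0∞) s(p.2, y) ∂m := by
    refine lintegral_congr_ae ?_
    filter_upwards [hAB] with p hp
    rw [hp]
  have eq2 : ∫⁻ p, ∑' y, ENNReal.ofReal (xval (fs p.1) (fB p.1) (fS p.1) s(p.2, y) -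
        xval (fs p.1) (fS p.1) (fS p.1) s(p.2, y)) ∂m =
      ∫⁻ p, ∑' y, ENNReal.ofReal (xval (fs p.1) (fA p.1) (fS p.1) s(p.2, y) -
        xval (fs p.1) (fS p.1) (fS p.1) s(p.2, y)) ∂m := by
    refine lintegral_congr_ae ?_
    filter_upwards [hAB] with p hp
    rw [hp]
  rw [eq1, eq2] at goal1
  rw [eq2] at hfin3
  rw [hfs, hfA, hfS] at goal1 hfin3
  exact ⟨goal1, hfin3⟩

end Vale.Agent.H15.F
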