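import Vale.Agent.H15.F.Core

/-!
P143, M0: mass transport tools; the resampling inequality.
-/

open MeasureTheory Filter Topology ProbabilityTheory
open scoped ENNReal

namespace Vale.Agent.H15.F

/-! ### M0: mass transport tools -/
section M0

theorem mtp_mem_act (σ : Equiv.Perm ℕ) (s : Set (Sym2 ℕ)) (e : Sym2 ℕ) :
    e ∈ act σ s ↔ Sym2.map σ.symm e ∈ s := by
  constructor
  · rintro ⟨x, hx, rfl⟩
    rw [Sym2.map_map]
    simpa using hx
  · intro h
    refine ⟨_, h, ?_⟩
    rw [Sym2.map_map]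
    simp

theorem measurable_act_set (σ : Equiv.Perm ℕ) :
    Measurable (act σ : Set (Sym2 ℕ) → Set (Sym2 ℕ)) := by
  rw [measurable_set_iff]
  intro e
  simp_rw [mtp_mem_act]
  exact measurable_set_mem _

theorem measurable_act_fun {M : Type*} [MeasurableSpace M] (σ : Equiv.Perm ℕ) :
    Measurable (act σ : (Sym2 ℕ → M) → (Sym2 ℕ → M)) := by
  rw [measurable_pi_iff]
  intro e
  exact measurable_pi_apply (Sym2.map σ.symm e)

theorem measurable_act_prod {Ω Ω' : Type*} [MeasurableSpace Ω] [MeasurableSpace Ω']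
    [PermAct Ω] [PermAct Ω'] (σ : Equiv.Perm ℕ) (h : Measurable (act σ : Ω → Ω))
    (h' : Measurable (act σ : Ω' → Ω')) : Measurable (act σ : Ω × Ω' → Ω × Ω') :=
  (h.comp measurable_fst).prodMk (h'.comp measurable_snd)

/-- i.i.d. labels are invariant -/
theorem infinitePi_act (ν : Measure ℝ) [IsProbabilityMeasure ν] (σ : Equiv.Perm ℕ) :
    (Measure.infinitePi fun _ : Sym2 ℕ => ν).map (act σ) =
      Measure.infinitePi fun _ : Sym2 ℕ => ν := by
  have hinj : Function.Injective (Sym2.map σ.symm) := Sym2.map.injective σ.symm.injective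
  exact Measure.map_infinitePi_infinitePi_of_inj (P := fun _ : Sym2 ℕ => ν) hinj

theorem mtp_measurable_sum {Ω : Type*} [MeasurableSpace Ω] (f : Ω → ℕ → ℕ → ℝ≥0∞)
    (hf : ∀ x y, Measurable fun ω => f ω x y) :
    Measurable (fun p : Ω × ℕ => ∑' y, f p.1 p.2 y) :=
  measurable_from_prod_countable_left fun x => Measurable.tsum fun y => hf x y

theorem mtp_measurable_sum' {Ω : Type*} [MeasurableSpace Ω] (f : Ω → ℕ → ℕ → ℝ≥0∞)
    (hf : ∀ x y, Measurable fun ω => f ω x y) :
    Measurable (fun p : Ω × ℕ => ∑' y, f p.1 y p.2) :=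
  measurable_from_prod_countable_left fun x => Measurable.tsum fun y => hf y x

theorem MTP.map {Ω Ω' : Type*} [MeasurableSpace Ω] [MeasurableSpace Ω']
    [PermAct Ω] [PermAct Ω'] {m : Measure (Ω × ℕ)} (hm : MTP m) (φ : Ω → Ω')
    (hφ : Measurable φ) (he : ∀ (σ : Equiv.Perm ℕ) (ω : Ω), φ (act σ ω) = act σ (φ ω)) :
    MTP (m.map (fun p => (φ p.1, p.2))) := by
  intro f hf hinv
  have hφ' : Measurable fun p : Ω × ℕ => (φ p.1, p.2) :=
    (hφ.comp measurable_fst).prodMk measurable_snd
  rw [lintegral_map (mtp_measurable_sum f hf) hφ', lintegral_map (mtp_measurable_sum' f hf) hφ']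
  refine hm (fun ω x y => f (φ ω) x y) (fun x y => (hf x y).comp hφ) fun σ ω x y => ?_
  rw [he]
  exact hinv σ _ x y

/-- extension of a configuration by an equivariant kernel -/
noncomputable def extend {Ω Ω' : Type*} [MeasurableSpace Ω] [MeasurableSpace Ω']
    (m : Measure (Ω × ℕ)) (κ : Ω → Measure Ω') : Measure ((Ω × Ω') × ℕ) :=
  m.bind fun p => (κ p.1).map fun ω' => ((p.1, ω'), p.2)

section ext
variable {Ω Ω' : Type*} [MeasurableSpace Ω] [MeasurableSpace Ω']

theorem mtp_measurable_mk (p : Ω × ℕ) : Measurable fun ω' : Ω' => ((p.1, ω'), p.2) :=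
  (measurable_const.prodMk measurable_id).prodMk measurable_const

/-- the kernel on `Ω × ℕ` -/
noncomputable def mtpKernel (κ : Ω → Measure Ω') (hκ : Measurable κ) : Kernel (Ω × ℕ) Ω' :=
  ⟨fun p => κ p.1, hκ.comp measurable_fst⟩

theorem mtpKernel_markov {κ : Ω → Measure Ω'} (hκ : Measurable κ)
    (h1 : ∀ ω, IsProbabilityMeasure (κ ω)) : IsMarkovKernel (mtpKernel κ hκ) :=
  ⟨fun p => h1 p.1⟩

theorem mtp_measurable_kernel {κ : Ω → Measure Ω'} (hκ : Measurable κ)
    (h1 : ∀ ω, IsProbabilityMeasure (κ ω)) :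
    Measurable fun p : Ω × ℕ => (κ p.1).map fun ω' => ((p.1, ω'), p.2) := by
  have := mtpKernel_markov hκ h1
  refine Measure.measurable_of_measurable_coe _ fun s hs => ?_
  have e : (fun p : Ω × ℕ => ((κ p.1).map fun ω' => ((p.1, ω'), p.2)) s) =
      fun p : Ω × ℕ => (mtpKernel κ hκ p) (Prod.mk p ⁻¹'
        {q : (Ω × ℕ) × Ω' | ((q.1.1, q.2), q.1.2) ∈ s}) := by
    ext p
    rw [Measure.map_apply (mtp_measurable_mk p) hs]
    rfl
  rw [e]
  apply Kernel.measurable_kernel_prodMk_left
  have : Measurable fun q : (Ω × ℕ) × Ω' => ((q.1.1, q.2), q.1.2) :=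
    ((measurable_fst.comp measurable_fst).prodMk measurable_snd).prodMk
      (measurable_snd.comp measurable_fst)
  exact this hs

theorem lintegral_extend 
    (m : Measure (Ω × ℕ)) {κ : Ω → Measure Ω'} (hκ : Measurable κ)
    (h1 : ∀ ω, IsProbabilityMeasure (κ ω)) (f : (Ω × Ω') × ℕ → ℝ≥0∞) (hf : Measurable f) :
    ∫⁻ q, f q ∂(extend m κ) = ∫⁻ p, ∫⁻ ω', f ((p.1, ω'), p.2) ∂(κ p.1) ∂m := by
  unfold extend
  rw [Measure.lintegral_bind (mtp_measurable_kernel hκ h1).aemeasurable hf.aemeasurable]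
  refine lintegral_congr fun p => ?_
  rw [lintegral_map hf (mtp_measurable_mk p)]

theorem ae_extend
    (m : Measure (Ω × ℕ)) {κ : Ω → Measure Ω'} (hκ : Measurable κ)
    (h1 : ∀ ω, IsProbabilityMeasure (κ ω)) {p : (Ω × Ω') × ℕ → Prop}
    (hp : ∀ᵐ q ∂(extend m κ), p q) :
    ∀ᵐ a ∂m, ∀ᵐ ω' ∂(κ a.1), p ((a.1, ω'), a.2) := by
  have h := Measure.ae_ae_of_ae_bind (mtp_measurable_kernel hκ h1).aemeasurable hp
  filter_upwards [h] with a ha
  exact ae_of_ae_map (mtp_measurable_mk a).aemeasurable ha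

theorem ae_extend_of
    (m : Measure (Ω × ℕ)) {κ : Ω → Measure Ω'} (hκ : Measurable κ)
    (h1 : ∀ ω, IsProbabilityMeasure (κ ω)) {p : (Ω × Ω') × ℕ → Prop}
    (hm : MeasurableSet {q | p q})
    (hp : ∀ᵐ a ∂m, ∀ᵐ ω' ∂(κ a.1), p ((a.1, ω'), a.2)) :
    ∀ᵐ q ∂(extend m κ), p q := by
  have hmc : MeasurableSet {q | ¬ p q} := hm.compl
  rw [ae_iff]
  have h2 := lintegral_extend m hκ h1 ({q | ¬ p q}.indicator 1) (measurable_one.indicator hmc)
  rw [lintegral_indicator_one hmc] at h2
  rw [h2]
  have h3 : ∀ᵐ a ∂m, ∫⁻ ω', ({q | ¬ p q}.indicator 1 ((a.1, ω'), a.2) : ℝ≥0∞) ∂(κ a.1) = 0 := by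
    filter_upwards [hp] with a ha
    have h4 : (fun ω' => ({q | ¬ p q}.indicator 1 ((a.1, ω'), a.2) : ℝ≥0∞)) =ᵐ[κ a.1]
        fun _ => 0 := by
      filter_upwards [ha] with ω' hω
      simp [hω]
    rw [lintegral_congr_ae h4, lintegral_zero]
  rw [lintegral_congr_ae h3]
  simp

theorem MTP.extend [PermAct Ω] [PermAct Ω'] {m : Measure (Ω × ℕ)} (hm : MTP m)
    {κ : Ω → Measure Ω'}
    (hκ : Measurable κ) (h1 : ∀ ω, IsProbabilityMeasure (κ ω))
    (ha : ∀ σ : Equiv.Perm ℕ, Measurable (act σ : Ω' → Ω'))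
    (he : ∀ (σ : Equiv.Perm ℕ) (ω : Ω), κ (act σ ω) = (κ ω).map (act σ)) :
    MTP (F.extend m κ) := by
  intro f hf hinv
  have hsec : ∀ ω x y, Measurable fun ω' : Ω' => f (ω, ω') x y := fun ω x y =>
    (hf x y).comp measurable_prodMk_left
  set κ' : Kernel Ω Ω' := ⟨κ, hκ⟩ with hκ'
  have : IsMarkovKernel κ' := ⟨h1⟩
  have hg : ∀ x y, Measurable fun ω => ∫⁻ ω', f (ω, ω') x y ∂(κ ω) := fun x y =>
    (Measurable.lintegral_kernel_prod_right' (κ := κ') (hf x y))
  rw [lintegral_extend m hκ h1 _ (mtp_measurable_sum f hf),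
    lintegral_extend m hκ h1 _ (mtp_measurable_sum' f hf)]
  have e1 : ∀ p : Ω × ℕ, ∫⁻ ω', ∑' y, f (p.1, ω') p.2 y ∂(κ p.1) =
      ∑' y, ∫⁻ ω', f (p.1, ω') p.2 y ∂(κ p.1) := fun p =>
    lintegral_tsum fun y => (hsec _ _ _).aemeasurable
  have e2 : ∀ p : Ω × ℕ, ∫⁻ ω', ∑' y, f (p.1, ω') y p.2 ∂(κ p.1) =
      ∑' y, ∫⁻ ω', f (p.1, ω') y p.2 ∂(κ p.1) := fun p =>
    lintegral_tsum fun y => (hsec _ _ _).aemeasurable
  simp only [e1, e2]
  refine hm (fun ω x y => ∫⁻ ω', f (ω, ω') x y ∂(κ ω)) hg fun σ ω x y => ?_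
  rw [he, lintegral_map (hsec _ _ _) (ha σ)]
  refine lintegral_congr fun ω' => ?_
  exact hinv σ (ω, ω') x y

end ext

/-- everything shows at the root -/
theorem MTP.root {Ω : Type*} [MeasurableSpace Ω] [PermAct Ω] {m : Measure (Ω × ℕ)} (hm : MTP m)
    (B : Ω → ℕ → Prop) (hB : ∀ x, MeasurableSet {ω | B ω x})
    (he : ∀ (σ : Equiv.Perm ℕ) (ω : Ω) (x : ℕ), B (act σ ω) (σ x) ↔ B ω x)
    (h : ∀ᵐ p ∂m, B p.1 p.2) : ∀ᵐ p ∂m, ∀ x, B p.1 x := by
  classical
  set f : Ω → ℕ → ℕ → ℝ≥0∞ := fun ω _ y => if B ω y then 0 else 1 with hf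
  have hfm : ∀ x y, Measurable fun ω => f ω x y := fun x y =>
    Measurable.ite (hB y) measurable_const measurable_const
  have key := hm f hfm fun σ ω x y => by simp only [hf, he]
  have h0 : ∫⁻ p, ∑' y, f p.1 y p.2 ∂m = 0 := by
    rw [lintegral_eq_zero_iff (mtp_measurable_sum' f hfm)]
    filter_upwards [h] with p hp
    simp [hf, hp]
  rw [h0, lintegral_eq_zero_iff (mtp_measurable_sum f hfm)] at key
  filter_upwards [key] with p hp x
  simp only [Pi.zero_apply, ENNReal.tsum_eq_zero] at hp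
  have := hp x
  simp only [hf] at this
  by_contra hc
  rw [if_neg hc] at this
  exact one_ne_zero this

end M0

/-! ### the resampling inequality -/

theorem mtp_measurable_update {ι : Type*} [DecidableEq ι] (e : ι) :
    Measurable fun p : (ι → ℝ) × ℝ => Function.update p.1 e p.2 := by
  rw [measurable_pi_iff]
  intro i
  by_cases h : i = e
  · subst h
    simpa using measurable_snd
  · simp only [Function.update_of_ne h]
    exact (measurable_pi_apply i).comp measurable_fst

theorem mtp_map_update {ι : Type*} [DecidableEq ι] (ν : Measure ℝ) [IsProbabilityMeasure ν]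
    (e : ι) :
    ((Measure.infinitePi fun _ : ι => ν).prod ν).map (fun p => Function.update p.1 e p.2) =
      Measure.infinitePi fun _ : ι => ν := by
  classical
  apply Measure.eq_infinitePi
  intro s t ht
  rw [Measure.map_apply (mtp_measurable_update e)
    (MeasurableSet.pi s.countable_toSet fun i _ => ht i)]
  by_cases hes : e ∈ s
  · have h1 : (fun p : (ι → ℝ) × ℝ => Function.update p.1 e p.2) ⁻¹' ((s : Set ι).pi t) =
        (((s.erase e : Finset ι) : Set ι).pi t) ×ˢ (t e) := by
      ext ⟨u, z⟩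
      simp only [Set.mem_preimage, Set.mem_pi, Set.mem_prod, Finset.mem_coe, Finset.mem_erase]
      constructor
      · intro h
        refine ⟨fun i hi => ?_, by simpa using h e hes⟩
        have := h i hi.2
        rwa [Function.update_of_ne hi.1] at this
      · rintro ⟨h2, h3⟩ i hi
        by_cases hie : i = e
        · subst hie; simpa using h3
        · rw [Function.update_of_ne hie]; exact h2 i ⟨hie, hi⟩
    rw [h1, Measure.prod_prod, Measure.infinitePi_pi _ (fun i _ => ht i),
      Finset.prod_erase_mul _ _ hes]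
  · have h1 : (fun p : (ι → ℝ) × ℝ => Function.update p.1 e p.2) ⁻¹' ((s : Set ι).pi t) =
        ((s : Set ι).pi t) ×ˢ Set.univ := by
      ext ⟨u, z⟩
      simp only [Set.mem_preimage, Set.mem_pi, Set.mem_prod, Finset.mem_coe, Set.mem_univ,
        and_true]
      refine forall₂_congr fun i hi => ?_
      have hie : i ≠ e := fun h => hes (h ▸ hi)
      rw [Function.update_of_ne hie]
    rw [h1, Measure.prod_prod, Measure.infinitePi_pi _ (fun i _ => ht i), measure_univ, mul_one]

theorem mtp_exp_Ioi {x : ℝ} (hx : 0 ≤ x) :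
    ENNReal.ofReal (Real.exp (-x)) ≤ expMeasure 1 {z | x ≤ z} := by
  have : IsProbabilityMeasure (expMeasure 1) := isProbabilityMeasure_expMeasure one_pos
  have h1 : expMeasure 1 (Set.Ioi x) = ENNReal.ofReal (Real.exp (-x)) := by
    have h2 : Set.Ioi x = (Set.Iic x)ᶜ := by ext; simp
    rw [h2, prob_compl_eq_one_sub measurableSet_Iic, ← ofReal_cdf, cdf_expMeasure_eq one_pos,
      if_pos hx, ← ENNReal.ofReal_one, ← ENNReal.ofReal_sub _ (by
        rw [sub_nonneg]; exact Real.exp_le_one_iff.mpr (by linarith))]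
    congr 1
    ring_nf
  rw [← h1]
  exact measure_mono fun z hz => show x ≤ z from le_of_lt hz

theorem mtp_pdf (z : ℝ) : gammaPDF 1 1 z = ENNReal.ofReal (if 0 ≤ z then Real.exp (-z) else 0) := by
  unfold gammaPDF gammaPDFReal
  congr 1
  split_ifs with h
  · simp
  · rfl

/-- resampling inequality -/
theorem resample (D : ℝ) (hD : 1 ≤ D) (e : Sym2 ℕ) (A : (Sym2 ℕ → ℝ) → ℝ → ℝ≥0∞)
    (hA : Measurable fun q : (Sym2 ℕ → ℝ) × ℝ => A q.1 q.2)
    (hloc : ∀ u u' r, 0 < r → (∀ g, g ≠ e → u g = u' g) → r ≤ u e * D → r ≤ u' e * D →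
      A u r = A u' r)
    (t : ℝ) :
    ∫⁻ u in {u | u e * D < t}, A u (u e * D) ∂expE ≤
      ∫⁻ r in Set.Ioo 0 t, ∫⁻ u in {u | r ≤ u e * D}, A u r ∂expE := by
  classical
  have hprob : IsProbabilityMeasure (expMeasure 1) := isProbabilityMeasure_expMeasure one_pos
  have hprobE : IsProbabilityMeasure expE := by unfold expE; infer_instance
  have hD0 : 0 < D := by linarith
  set E : Measure ℝ := expMeasure 1 with hE
  have hupd : Measurable fun p : (Sym2 ℕ → ℝ) × ℝ => Function.update p.1 e p.2 :=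
    mtp_measurable_update e
  have hmap : (expE.prod E).map (fun p => Function.update p.1 e p.2) = expE :=
    mtp_map_update (expMeasure 1) e
  have mue : Measurable fun u : Sym2 ℕ → ℝ => u e := measurable_pi_apply e
  have hset1 : MeasurableSet {u : Sym2 ℕ → ℝ | u e * D < t} :=
    measurableSet_lt (mue.mul_const D) measurable_const
  have mA1 : Measurable fun u : Sym2 ℕ → ℝ => A u (u e * D) :=
    hA.comp (measurable_id.prodMk (mue.mul_const D))
  -- the left side
  have hL : ∫⁻ u in {u | u e * D < t}, A u (u e * D) ∂expE =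
      ∫⁻ u, ∫⁻ z, (if z * D < t then A (Function.update u e z) (z * D) else 0) ∂E ∂expE := by
    rw [← lintegral_indicator hset1]
    conv_lhs => rw [← hmap]
    rw [lintegral_map (mA1.indicator hset1) hupd]
    rw [lintegral_prod]
    · refine lintegral_congr fun u => lintegral_congr fun z => ?_
      simp only [Set.indicator_apply, Set.mem_ofPred_eq, Function.update_self]
    · exact ((mA1.indicator hset1).comp hupd).aemeasurable
  have mker : Measurable fun p : (Sym2 ℕ → ℝ) × ℝ => A (Function.update p.1 e (p.2 / D)) p.2 :=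
    hA.comp (((mtp_measurable_update e).comp
      (measurable_fst.prodMk (measurable_snd.div_const D))).prodMk measurable_snd)
  have mpdf : Measurable fun z : ℝ => ENNReal.ofReal (if 0 ≤ z then Real.exp (-z) else 0) := by
    refine ENNReal.measurable_ofReal.comp (Measurable.ite measurableSet_Ici ?_ measurable_const)
    exact Real.measurable_exp.comp measurable_neg
  have hL2 : ∀ u : Sym2 ℕ → ℝ, ∫⁻ z, (if z * D < t then A (Function.update u e z) (z * D) else 0) ∂E ≤
      ∫⁻ r in Set.Ioo 0 t, ENNReal.ofReal (Real.exp (-(r / D))) *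
        A (Function.update u e (r / D)) r := by
    intro u
    have mh : Measurable fun z : ℝ =>
        (if z * D < t then A (Function.update u e z) (z * D) else 0) := by
      refine Measurable.ite (measurableSet_lt (measurable_id.mul_const D) measurable_const) ?_
        measurable_const
      exact hA.comp ((hupd.comp (measurable_const.prodMk measurable_id)).prodMk
        (measurable_id.mul_const D))
    have mg : Measurable (gammaPDF 1 1) := by
      have : gammaPDF 1 1 = fun z : ℝ => ENNReal.ofReal (if 0 ≤ z then Real.exp (-z) else 0) :=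
        funext mtp_pdf
      rw [this]; exact mpdf
    have h1 : ∫⁻ z, (if z * D < t then A (Function.update u e z) (z * D) else 0) ∂E =
        ∫⁻ z, ENNReal.ofReal (if 0 ≤ z then Real.exp (-z) else 0) *
          (if z * D < t then A (Function.update u e z) (z * D) else 0) := by
      rw [hE]
      unfold expMeasure gammaMeasure
      rw [lintegral_withDensity_eq_lintegral_mul _ mg mh]
      refine lintegral_congr fun z => ?_
      rw [Pi.mul_apply, mtp_pdf]
    rw [h1]
    have hvol := Real.smul_map_volume_mul_left (a := D⁻¹) (inv_ne_zero hD0.ne')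
    set G : ℝ → ℝ≥0∞ := fun z => ENNReal.ofReal (if 0 ≤ z then Real.exp (-z) else 0) *
          (if z * D < t then A (Function.update u e z) (z * D) else 0) with hG
    have mG : Measurable G := mpdf.mul mh
    have h7 : ∫⁻ z, G z = ENNReal.ofReal |D⁻¹| * ∫⁻ r, G (D⁻¹ * r) := by
      conv_lhs => rw [← hvol]
      rw [lintegral_smul_measure, lintegral_map mG (measurable_const_mul _), smul_eq_mul]
    rw [h7]
    have h2 : ENNReal.ofReal |D⁻¹| ≤ 1 := by
      rw [abs_of_pos (inv_pos.mpr hD0)]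
      exact ENNReal.ofReal_le_one.mpr (inv_le_one_of_one_le₀ hD)
    refine (mul_le_mul' h2 le_rfl).trans ?_
    rw [one_mul, ← lintegral_indicator measurableSet_Ioo]
    refine lintegral_mono_ae ?_
    have hne : ∀ᵐ r : ℝ, r ≠ 0 := by
      rw [ae_iff]; simp
    filter_upwards [hne] with r hr
    simp only [hG]
    rw [mul_comm D⁻¹ r, ← div_eq_mul_inv]
    have h3 : r / D * D = r := div_mul_cancel₀ _ hD0.ne'
    rw [h3]
    rcases lt_trichotomy r 0 with h | h | h
    · have : ¬ 0 ≤ r / D := not_le.mpr (div_neg_of_neg_of_pos h hD0)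
      rw [if_neg this]
      simp
    · exact absurd h hr
    · rw [if_pos (div_nonneg h.le hD0.le)]
      by_cases ht : r < t
      · rw [if_pos ht, Set.indicator_of_mem (show r ∈ Set.Ioo 0 t from ⟨h, ht⟩)]
      · rw [if_neg ht]; simp
  rw [hL]
  refine (lintegral_mono hL2).trans ?_
  rw [lintegral_lintegral_swap]
  swap
  · have : Measurable fun p : (Sym2 ℕ → ℝ) × ℝ => ENNReal.ofReal (Real.exp (-(p.2 / D))) *
        A (Function.update p.1 e (p.2 / D)) p.2 := by
      refine Measurable.mul ?_ mker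
      exact ENNReal.measurable_ofReal.comp (Real.measurable_exp.comp
        ((measurable_snd.div_const D).neg))
    exact this.aemeasurable
  refine setLIntegral_mono' measurableSet_Ioo fun r hr => ?_
  -- right side inner integral
  have hset2 : MeasurableSet {u : Sym2 ℕ → ℝ | r ≤ u e * D} :=
    measurableSet_le measurable_const (mue.mul_const D)
  have mAr : Measurable fun u : Sym2 ℕ → ℝ => A u r :=
    hA.comp (measurable_id.prodMk measurable_const)
  have hR : ∫⁻ u in {u | r ≤ u e * D}, A u r ∂expE =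
      ∫⁻ u, ∫⁻ z, (if r ≤ z * D then A (Function.update u e (r / D)) r else 0) ∂E ∂expE := by
    rw [← lintegral_indicator hset2]
    conv_lhs => rw [← hmap]
    rw [lintegral_map (mAr.indicator hset2) hupd, lintegral_prod]
    · refine lintegral_congr fun u => lintegral_congr fun z => ?_
      simp only [Set.indicator_apply, Set.mem_ofPred_eq, Function.update_self]
      split_ifs with hz
      · refine hloc _ _ r hr.1 (fun g hg => ?_) (by simpa using hz) ?_
        · rw [Function.update_of_ne hg, Function.update_of_ne hg]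
        · rw [Function.update_self, div_mul_cancel₀ _ hD0.ne']
      · rfl
    · exact ((mAr.indicator hset2).comp hupd).aemeasurable
  rw [hR]
  refine lintegral_mono fun u => ?_
  have h5 : ∫⁻ z, (if r ≤ z * D then A (Function.update u e (r / D)) r else 0) ∂E =
      A (Function.update u e (r / D)) r * E {z | r / D ≤ z} := by
    have h6 : (fun z : ℝ => (if r ≤ z * D then A (Function.update u e (r / D)) r else 0)) =
        ({z : ℝ | r / D ≤ z}).indicator fun _ => A (Function.update u e (r / D)) r := by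
      ext z
      simp only [Set.indicator_apply, Set.mem_ofPred_eq, div_le_iff₀ hD0]
    rw [h6]
    exact lintegral_indicator_const (s := {z : ℝ | r / D ≤ z}) measurableSet_Ici _
  simp only
  rw [h5, mul_comm]
  gcongr
  exact mtp_exp_Ioi (div_nonneg hr.1.le hD0.le)

end Vale.Agent.H15.F
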