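import Vale.Agent.H15.F.Field

/-!
P143, task T4b: the projections `prj (Csp S)`, `prj (Asp S)`, `prj (Hsp s A)`, `prj (Xsp s A S)`
and the function `xval`.
-/

open MeasureTheory Filter Topology
open scoped ENNReal

namespace Vale.Agent.H15.F

/-! ### generalities on `prj` -/

theorem prj_eq {N : Submodule ℝ Hs} {h v : Hs} (hv : v ∈ N.topologicalClosure)
    (ho : ∀ w ∈ N, inner ℝ (h - v) w = 0) : prj N h = v := by
  unfold prj
  apply Submodule.eq_starProjection_of_mem_orthogonal hv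
  rw [Submodule.orthogonal_closure, Submodule.mem_orthogonal']
  exact ho

theorem prj_mem (N : Submodule ℝ Hs) (h : Hs) : prj N h ∈ N.topologicalClosure :=
  Submodule.starProjection_apply_mem _ h

theorem prj_inner (N : Submodule ℝ Hs) (h : Hs) {w : Hs} (hw : w ∈ N.topologicalClosure) :
    inner ℝ (prj N h) w = inner ℝ h w := by
  have h1 := Submodule.starProjection_inner_eq_zero (K := N.topologicalClosure) h w hw
  rw [inner_sub_left] at h1
  unfold prj
  linarith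

theorem prj_apply_self (N : Submodule ℝ Hs) (d : ℕ × ℕ) :
    prj N (dl d) d = ‖prj N (dl d)‖ ^ 2 := by
  rw [← real_inner_self_eq_norm_sq, prj_inner N (dl d) (prj_mem N _), inner_dl_left]

theorem prj_congr {N : Submodule ℝ Hs} {h h' : Hs} (ho : ∀ w ∈ N, inner ℝ h w = inner ℝ h' w) :
    prj N h = prj N h' := by
  apply prj_eq (prj_mem N h')
  intro w hw
  rw [inner_sub_left, prj_inner N h' (N.le_topologicalClosure hw), ho w hw, sub_self]

theorem norm_prj_le (N : Submodule ℝ Hs) (h : Hs) : ‖prj N h‖ ≤ ‖h‖ :=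
  Submodule.norm_starProjection_apply_le _ h

theorem opNorm_prj_le (N : Submodule ℝ Hs) : ‖prj N‖ ≤ 1 :=
  ContinuousLinearMap.opNorm_le_bound _ zero_le_one fun x => by
    rw [one_mul]; exact norm_prj_le N x

theorem norm_prj_mono {N N' : Submodule ℝ Hs} (hN : N ≤ N') (h : Hs) :
    ‖prj N h‖ ≤ ‖prj N' h‖ := by
  have h1 : prj N h = prj N (prj N' h) := by
    apply prj_congr
    intro w hw
    rw [prj_inner N' h (N'.le_topologicalClosure (hN hw))]
  rw [h1]
  exact norm_prj_le _ _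

theorem prj_of_isClosed {N : Submodule ℝ Hs} (hN : IsClosed (N : Set Hs)) {h v : Hs}
    (hv : v ∈ N) (ho : ∀ w ∈ N, inner ℝ (h - v) w = 0) : prj N h = v :=
  have _ := hN
  prj_eq (N.le_topologicalClosure hv) ho

theorem closure_eq_of_isClosed {N : Submodule ℝ Hs} (hN : IsClosed (N : Set Hs)) :
    N.topologicalClosure = N := IsClosed.submodule_topologicalClosure_eq hN

theorem prj_eq_zero_iff (N : Submodule ℝ Hs) (h : Hs) :
    prj N h = 0 ↔ ∀ w ∈ N, inner ℝ h w = 0 := by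
  constructor
  · intro h1 w hw
    rw [← prj_inner N h (N.le_topologicalClosure hw), h1, inner_zero_left]
  · intro h1
    apply prj_eq (Submodule.zero_mem _)
    intro w hw
    rw [sub_zero, h1 w hw]

theorem prj_of_mem {N : Submodule ℝ Hs} {h : Hs} (hh : h ∈ N.topologicalClosure) :
    prj N h = h := by
  apply prj_eq hh
  intro w _
  rw [sub_self, inner_zero_left]

theorem prj_eq_self_iff (N : Submodule ℝ Hs) (h : Hs) :
    prj N h = h ↔ h ∈ N.topologicalClosure :=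
  ⟨fun h1 => h1 ▸ prj_mem N h, prj_of_mem⟩

theorem continuous_coord (d : ℕ × ℕ) : Continuous fun h : Hs => h d := by
  have h1 : (fun h : Hs => h d) = fun h => innerSL ℝ (dl d) h := by
    funext h
    rw [innerSL_apply_apply, inner_dl_left]
  rw [h1]
  exact (innerSL ℝ (dl d)).continuous

/-! ### closedness -/

theorem isClosed_Csp (S : Set (Sym2 ℕ)) : IsClosed (Csp S : Set Hs) := by
  have : (Csp S : Set Hs) = ⋂ x : ℕ, ⋂ y : ℕ, ⋂ _ : s(x, y) ∉ S, {h : Hs | h (x, y) = 0} := by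
    ext h
    simp only [Set.mem_iInter, Set.mem_ofPred_eq]
    rfl
  rw [this]
  exact isClosed_iInter fun x => isClosed_iInter fun y => isClosed_iInter fun _ =>
    isClosed_eq (continuous_coord _) continuous_const

theorem isClosed_Asp (S : Set (Sym2 ℕ)) : IsClosed (Asp S : Set Hs) := by
  have : (Asp S : Set Hs) = (⋂ x : ℕ, ⋂ y : ℕ, ⋂ _ : s(x, y) ∉ S, {h : Hs | h (x, y) = 0}) ∩
      ⋂ x : ℕ, ⋂ y : ℕ, {h : Hs | h (x, y) = - h (y, x)} := by
    ext h
    simp only [Set.mem_inter_iff, Set.mem_iInter, Set.mem_ofPred_eq]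
    rfl
  rw [this]
  refine IsClosed.inter ?_ ?_
  · exact isClosed_iInter fun x => isClosed_iInter fun y => isClosed_iInter fun _ =>
      isClosed_eq (continuous_coord _) continuous_const
  · exact isClosed_iInter fun x => isClosed_iInter fun y =>
      isClosed_eq (continuous_coord _) (continuous_coord _).neg

/-- functions that are gradients along the edges of `s` inside `{0,…,k-1}` -/
def Gsp (k : ℕ) (s : Set (Sym2 ℕ)) : Submodule ℝ Hs where
  carrier := {h | ∃ u : ℕ → ℝ, ∀ x < k, ∀ y < k, s(x, y) ∈ s → h (x, y) = u y - u x}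
  add_mem' := by
    rintro h h' ⟨u, hu⟩ ⟨v, hv⟩
    refine ⟨fun z => u z + v z, fun x hx y hy hs => ?_⟩
    rw [lp.coeFn_add, Pi.add_apply, hu x hx y hy hs, hv x hx y hy hs]
    ring
  zero_mem' := ⟨fun _ => 0, fun x _ y _ _ => by simp⟩
  smul_mem' := by
    rintro c h ⟨u, hu⟩
    refine ⟨fun z => c * u z, fun x hx y hy hs => ?_⟩
    rw [lp.coeFn_smul, Pi.smul_apply, hu x hx y hy hs, smul_eq_mul]
    ring

theorem isClosed_Gsp (k : ℕ) (s : Set (Sym2 ℕ)) : IsClosed (Gsp k s : Set Hs) := by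
  let N : Submodule ℝ (Fin k × Fin k → ℝ) :=
    { carrier := {p | ∃ u : ℕ → ℝ, ∀ x y : Fin k, s(x.val, y.val) ∈ s →
        p (x, y) = u y.val - u x.val}
      add_mem' := by
        rintro h h' ⟨u, hu⟩ ⟨v, hv⟩
        refine ⟨fun z => u z + v z, fun x y hs => ?_⟩
        rw [Pi.add_apply, hu x y hs, hv x y hs]
        ring
      zero_mem' := ⟨fun _ => 0, fun x y _ => by simp⟩
      smul_mem' := by
        rintro c h ⟨u, hu⟩
        refine ⟨fun z => c * u z, fun x y hs => ?_⟩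
        rw [Pi.smul_apply, hu x y hs, smul_eq_mul]
        ring }
  have hN : IsClosed (N : Set (Fin k × Fin k → ℝ)) := Submodule.closed_of_finiteDimensional N
  have hc : Continuous fun (h : Hs) (p : Fin k × Fin k) => h (p.1.val, p.2.val) :=
    continuous_pi fun p => continuous_coord _
  have : (Gsp k s : Set Hs)
      = (fun (h : Hs) (p : Fin k × Fin k) => h (p.1.val, p.2.val)) ⁻¹' (N : Set _) := by
    ext h
    constructor
    · rintro ⟨u, hu⟩
      exact ⟨u, fun x y hs => hu x.val x.2 y.val y.2 hs⟩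
    · rintro ⟨u, hu⟩
      exact ⟨u, fun x hx y hy hs => hu ⟨x, hx⟩ ⟨y, hy⟩ hs⟩
  rw [this]
  exact hN.preimage hc

theorem Hsp_eq (s A : Set (Sym2 ℕ)) : Hsp s A = (⨅ k, Gsp k s) ⊓ Csp (s ∩ Aᶜ) := by
  ext h
  rw [Submodule.mem_inf, Submodule.mem_iInf]
  constructor
  · rintro ⟨h1, h2⟩
    refine ⟨fun k => ?_, ?_⟩
    · obtain ⟨u, hu⟩ := h1 (Finset.range k)
      exact ⟨u, fun x hx y hy hs => hu x (Finset.mem_range.2 hx) y (Finset.mem_range.2 hy) hs⟩
    · intro x y hxy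
      apply h2
      by_cases hs : s(x, y) ∈ s
      · right
        by_contra hA
        exact hxy ⟨hs, hA⟩
      · exact Or.inl hs
  · rintro ⟨h1, h2⟩
    refine ⟨fun W => ?_, fun x y hxy => ?_⟩
    · obtain ⟨k, hk⟩ : ∃ k, W ⊆ Finset.range k := W.exists_nat_subset_range
      obtain ⟨u, hu⟩ := h1 k
      exact ⟨u, fun x hx y hy hs =>
        hu x (Finset.mem_range.1 (hk hx)) y (Finset.mem_range.1 (hk hy)) hs⟩
    · apply h2
      rintro ⟨hs, hA⟩
      rcases hxy with h | h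
      · exact h hs
      · exact hA h

theorem isClosed_Hsp (s A : Set (Sym2 ℕ)) : IsClosed (Hsp s A : Set Hs) := by
  rw [Hsp_eq, Submodule.coe_inf, Submodule.coe_iInf]
  exact (isClosed_iInter fun k => isClosed_Gsp k s).inter (isClosed_Csp _)

/-! ### explicit projections -/

theorem memlp_of_le {h : Hs} {g : ℕ × ℕ → ℝ} (hg : ∀ d, |g d| ≤ |h d|) :
    Memℓp g 2 := by
  have h1 := lp.memℓp h
  rw [memℓp_gen_iff (by norm_num)] at h1 ⊢
  refine h1.of_nonneg_of_le (fun d => by positivity) (fun d => ?_)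
  exact Real.rpow_le_rpow (norm_nonneg _) (hg d) (by norm_num)

theorem inner_eq_tsum' (f g : Hs) : inner ℝ f g = ∑' d, f d * g d := by
  rw [lp.inner_eq_tsum]
  refine tsum_congr fun d => ?_
  simp [mul_comm]

theorem norm_sq_eq_tsum (f : Hs) : ‖f‖ ^ 2 = ∑' d, (f d) ^ 2 := by
  rw [← real_inner_self_eq_norm_sq, inner_eq_tsum']
  exact tsum_congr fun d => by ring

open Classical in
theorem prj_Csp_apply (S : Set (Sym2 ℕ)) (h : Hs) (x y : ℕ) :
    prj (Csp S) h (x, y) = if s(x, y) ∈ S then h (x, y) else 0 := by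
  let g : ℕ × ℕ → ℝ := fun d => if s(d.1, d.2) ∈ S then h d else 0
  have hg : Memℓp g 2 := by
    apply memlp_of_le (h := h)
    intro d
    simp only [g]
    split_ifs
    · exact le_rfl
    · simp
  let v : Hs := ⟨g, hg⟩
  have hv : prj (Csp S) h = v := by
    apply prj_eq
    · apply Submodule.le_topologicalClosure
      intro x y hxy
      show g (x, y) = 0
      simp only [g]
      rw [if_neg hxy]
    · intro w hw
      rw [inner_eq_tsum']
      have h0 : ∀ d, (h - v) d * w d = 0 := by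
        rintro ⟨x, y⟩
        have h1 : (h - v) (x, y) = h (x, y) - g (x, y) := by
          rw [lp.coeFn_sub]; rfl
        rw [h1]
        by_cases hS : s(x, y) ∈ S
        · simp only [g, if_pos hS]; ring
        · rw [hw x y hS, mul_zero]
      simp only [h0, tsum_zero]
  rw [hv]

/-- the flip of darts -/
noncomputable def flip : Hs ≃ₗᵢ[ℝ] Hs := compIso (Equiv.prodComm ℕ ℕ)

theorem flip_apply (h : Hs) (x y : ℕ) : flip h (x, y) = h (y, x) := rfl

theorem inner_flip (h w : Hs) : inner ℝ (flip h) w = inner ℝ h (flip w) := by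
  have h1 : flip (flip h) = h := by
    apply lp.ext; funext d; rfl
  rw [← LinearIsometryEquiv.inner_map_map flip (flip h) w, h1]

open Classical in
theorem prj_Asp_apply (S : Set (Sym2 ℕ)) (h : Hs) (x y : ℕ) :
    prj (Asp S) h (x, y) = if s(x, y) ∈ S then (h (x, y) - h (y, x)) / 2 else 0 := by
  let v : Hs := (1 / 2 : ℝ) • (prj (Csp S) h - flip (prj (Csp S) h))
  have hva : ∀ x y : ℕ, v (x, y) = if s(x, y) ∈ S then (h (x, y) - h (y, x)) / 2 else 0 := by
    intro x y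
    have h1 : v (x, y) = (1 / 2 : ℝ) * (prj (Csp S) h (x, y) - prj (Csp S) h (y, x)) := by
      simp only [v]
      rw [lp.coeFn_smul, Pi.smul_apply, lp.coeFn_sub, Pi.sub_apply, flip_apply, smul_eq_mul]
    rw [h1, prj_Csp_apply, prj_Csp_apply, Sym2.eq_swap (a := y) (b := x)]
    split_ifs
    · ring
    · ring
  have hv : prj (Asp S) h = v := by
    apply prj_eq
    · apply Submodule.le_topologicalClosure
      refine ⟨fun x y hxy => ?_, fun x y => ?_⟩
      · rw [hva, if_neg hxy]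
      · rw [hva, hva, Sym2.eq_swap (a := y) (b := x)]
        split_ifs
        · ring
        · ring
    · rintro w ⟨hw1, hw2⟩
      have hwC : w ∈ Csp S := hw1
      have hfw : flip w = -w := by
        apply lp.ext
        funext ⟨x, y⟩
        rw [flip_apply, lp.coeFn_neg, Pi.neg_apply, hw2 y x]
      have e1 : inner ℝ (prj (Csp S) h) w = inner ℝ h w :=
        prj_inner _ _ ((Csp S).le_topologicalClosure hwC)
      have e2 : inner ℝ v w = inner ℝ h w := by
        simp only [v]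
        rw [inner_smul_left, inner_sub_left, inner_flip, hfw, inner_neg_right, e1]
        simp
        ring
      rw [inner_sub_left, e2, sub_self]
  rw [hv, hva]

/-! ### measurability -/

section
variable {Ω Ω' : Type*} [MeasurableSpace Ω] [MeasurableSpace Ω']

theorem MeasOp.comp_measurable {T : Ω' → Hs →L[ℝ] Hs} (hT : MeasOp T) {f : Ω → Ω'}
    (hf : Measurable f) : MeasOp fun ω => T (f ω) := by
  intro d d'
  exact (hT d d').comp hf

end

theorem measurableSet_mem_set (e : Sym2 ℕ) : MeasurableSet {S : Set (Sym2 ℕ) | e ∈ S} :=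
  measurableSet_setOfPred.2 (measurable_set_mem e)

theorem measOp_Csp : MeasOp fun S : Set (Sym2 ℕ) => prj (Csp S) := by
  classical
  rintro d ⟨x, y⟩
  simp only [prj_Csp_apply]
  exact Measurable.ite (measurableSet_mem_set _) measurable_const measurable_const

theorem measOp_Asp : MeasOp fun S : Set (Sym2 ℕ) => prj (Asp S) := by
  classical
  rintro d ⟨x, y⟩
  simp only [prj_Asp_apply]
  exact Measurable.ite (measurableSet_mem_set _) measurable_const measurable_const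

theorem Gsp_congr (k : ℕ) {s s' : Set (Sym2 ℕ)}
    (h : ∀ x < k, ∀ y < k, s(x, y) ∈ s ↔ s(x, y) ∈ s') : Gsp k s = Gsp k s' := by
  ext g
  constructor
  · rintro ⟨u, hu⟩
    exact ⟨u, fun x hx y hy hs => hu x hx y hy ((h x hx y hy).2 hs)⟩
  · rintro ⟨u, hu⟩
    exact ⟨u, fun x hx y hy hs => hu x hx y hy ((h x hx y hy).1 hs)⟩

theorem measOp_Gsp (k : ℕ) : MeasOp fun s : Set (Sym2 ℕ) => prj (Gsp k s) := by
  intro d d'
  let R : Set (Sym2 ℕ) → (Fin k × Fin k → Prop) := fun s p => s(p.1.val, p.2.val) ∈ s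
  have hR : Measurable R := measurable_pi_lambda _ fun p => measurable_set_mem _
  let L : (Fin k × Fin k → Prop) → Set (Sym2 ℕ) := fun q =>
    {e | ∃ p : Fin k × Fin k, e = s(p.1.val, p.2.val) ∧ q p}
  have hL : ∀ s, Gsp k s = Gsp k (L (R s)) := by
    intro s
    apply Gsp_congr
    intro x hx y hy
    constructor
    · intro h
      exact ⟨(⟨x, hx⟩, ⟨y, hy⟩), rfl, h⟩
    · rintro ⟨p, hp, h⟩
      rw [hp]; exact h
  have h1 : (fun s : Set (Sym2 ℕ) => prj (Gsp k s) (dl d) d')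
      = (fun q => prj (Gsp k (L q)) (dl d) d') ∘ R := by
    funext s
    simp only [Function.comp_apply]
    rw [← hL s]
  rw [h1]
  exact (measurable_of_finite _).comp hR

theorem ker_one_sub_prj {N : Submodule ℝ Hs} (hN : IsClosed (N : Set Hs)) :
    LinearMap.ker ((1 : Hs →L[ℝ] Hs) - prj N).toLinearMap = N := by
  ext h
  rw [LinearMap.mem_ker]
  show h - prj N h = 0 ↔ h ∈ N
  rw [sub_eq_zero, eq_comm, prj_eq_self_iff, closure_eq_of_isClosed hN]

theorem norm_one_sub_prj_le (N : Submodule ℝ Hs) : ‖(1 : Hs →L[ℝ] Hs) - prj N‖ ≤ 1 := by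
  refine ContinuousLinearMap.opNorm_le_bound _ zero_le_one fun x => ?_
  rw [one_mul]
  have h1 : ((1 : Hs →L[ℝ] Hs) - prj N) x = x - prj N x := rfl
  rw [h1]
  have h2 : ‖x - prj N x‖ ^ 2 = ‖x‖ ^ 2 - ‖prj N x‖ ^ 2 := by
    rw [norm_sub_sq_real]
    have : inner ℝ x (prj N x) = ‖prj N x‖ ^ 2 := by
      rw [← real_inner_self_eq_norm_sq, prj_inner N x (prj_mem N x)]
    rw [this]; ring
  nlinarith [norm_nonneg x, norm_nonneg (x - prj N x), sq_nonneg ‖prj N x‖,
    abs_le_of_sq_le_sq' (a := ‖x - prj N x‖) (b := ‖x‖)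
      (by nlinarith [sq_nonneg ‖prj N x‖]) (norm_nonneg x)]

theorem measOp_Hsp : MeasOp fun q : Set (Sym2 ℕ) × Set (Sym2 ℕ) => prj (Hsp q.1 q.2) := by
  let T : ℕ → Set (Sym2 ℕ) × Set (Sym2 ℕ) → Hs →L[ℝ] Hs := fun k q =>
    match k with
    | 0 => 1 - prj (Csp (q.1 ∩ q.2ᶜ))
    | k + 1 => 1 - prj (Gsp k q.1)
  have hT : ∀ k, MeasOp (T k) := by
    intro k
    cases k with
    | zero =>
      have hm : Measurable fun q : Set (Sym2 ℕ) × Set (Sym2 ℕ) => q.1 ∩ q.2ᶜ := by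
        rw [measurable_set_iff]
        intro e
        have h1 : Measurable fun q : Set (Sym2 ℕ) × Set (Sym2 ℕ) => e ∈ q.1 :=
          (measurable_set_mem e).comp measurable_fst
        have h2 : Measurable fun q : Set (Sym2 ℕ) × Set (Sym2 ℕ) => e ∈ q.2 :=
          (measurable_set_mem e).comp measurable_snd
        exact h1.and h2.not
      exact MeasOp.one.sub (measOp_Csp.comp_measurable hm)
    | succ k => exact MeasOp.one.sub ((measOp_Gsp k).comp_measurable measurable_fst)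
  have h1 : ∀ k q, ‖T k q‖ ≤ 1 := by
    intro k q
    cases k with
    | zero => exact norm_one_sub_prj_le _
    | succ k => exact norm_one_sub_prj_le _
  have h2 := MeasOp.prj_iInf_ker hT h1
  have h3 : ∀ q : Set (Sym2 ℕ) × Set (Sym2 ℕ),
      (⨅ k, LinearMap.ker (T k q).toLinearMap) = Hsp q.1 q.2 := by
    intro q
    rw [Hsp_eq]
    ext h
    rw [Submodule.mem_iInf, Submodule.mem_inf, Submodule.mem_iInf]
    have e0 : LinearMap.ker (T 0 q).toLinearMap = Csp (q.1 ∩ q.2ᶜ) :=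
      ker_one_sub_prj (isClosed_Csp _)
    have e1 : ∀ k, LinearMap.ker (T (k + 1) q).toLinearMap = Gsp k q.1 := fun k =>
      ker_one_sub_prj (isClosed_Gsp k _)
    constructor
    · intro hh
      refine ⟨fun k => ?_, ?_⟩
      · rw [← e1]; exact hh (k + 1)
      · rw [← e0]; exact hh 0
    · rintro ⟨hh1, hh2⟩ k
      cases k with
      | zero => rw [e0]; exact hh2
      | succ k => rw [e1]; exact hh1 k
  simpa only [h3] using h2

theorem prj_Xsp_eq (s A S : Set (Sym2 ℕ)) :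
    prj (Xsp s A S) = 1 - prj (⨅ _k : ℕ,
      LinearMap.ker ((prj (Hsp s A)).comp (prj (Csp Sᶜ))).toLinearMap) := by
  ext h : 1
  set M := ⨅ _k : ℕ, LinearMap.ker ((prj (Hsp s A)).comp (prj (Csp Sᶜ))).toLinearMap with hM
  have hMmem : ∀ g, g ∈ M ↔ ∀ w ∈ Xsp s A S, inner ℝ g w = 0 := by
    intro g
    rw [hM, iInf_const, LinearMap.mem_ker]
    show prj (Hsp s A) (prj (Csp Sᶜ) g) = 0 ↔ _
    rw [prj_eq_zero_iff]
    constructor
    · rintro hg w ⟨h, hh, rfl⟩
      have h2 := hg h hh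
      have h3 : inner ℝ (prj (Csp Sᶜ) g) h = inner ℝ g (prj (Csp Sᶜ) h) := by
        rw [← prj_inner (Csp Sᶜ) g (prj_mem _ h), real_inner_comm (prj (Csp Sᶜ) h),
          prj_inner (Csp Sᶜ) h (prj_mem _ g), real_inner_comm]
      rw [h3] at h2
      exact h2
    · intro hg h hh
      have h2 := hg (prj (Csp Sᶜ) h) ⟨h, hh, rfl⟩
      have h3 : inner ℝ (prj (Csp Sᶜ) g) h = inner ℝ g (prj (Csp Sᶜ) h) := by
        rw [← prj_inner (Csp Sᶜ) g (prj_mem _ h), real_inner_comm (prj (Csp Sᶜ) h),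
          prj_inner (Csp Sᶜ) h (prj_mem _ g), real_inner_comm]
      rw [h3]
      exact h2
  show prj (Xsp s A S) h = h - prj M h
  have hMc : IsClosed (M : Set Hs) := by
    rw [hM, iInf_const]
    exact ((prj (Hsp s A)).comp (prj (Csp Sᶜ))).isClosed_ker
  have h5 : prj M h = h - prj (Xsp s A S) h := by
    apply prj_eq
    · apply M.le_topologicalClosure
      rw [hMmem]
      intro w hw
      rw [inner_sub_left, prj_inner _ _ ((Xsp s A S).le_topologicalClosure hw), sub_self]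
    · intro w hw
      rw [sub_sub_cancel]
      have hw' := (hMmem w).1 hw
      have h6 : prj (Xsp s A S) w = 0 := (prj_eq_zero_iff _ _).2 hw'
      rw [real_inner_comm, ← prj_inner (Xsp s A S) w (prj_mem _ h), h6, inner_zero_left]
  rw [h5, sub_sub_cancel]

theorem measOp_Xsp : MeasOp fun q : Set (Sym2 ℕ) × Set (Sym2 ℕ) × Set (Sym2 ℕ) =>
    prj (Xsp q.1 q.2.1 q.2.2) := by
  let T : ℕ → Set (Sym2 ℕ) × Set (Sym2 ℕ) × Set (Sym2 ℕ) → Hs →L[ℝ] Hs :=
    fun _ q => (prj (Hsp q.1 q.2.1)).comp (prj (Csp q.2.2ᶜ))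
  have hT : ∀ k, MeasOp (T k) := by
    intro k
    have hm1 : Measurable fun q : Set (Sym2 ℕ) × Set (Sym2 ℕ) × Set (Sym2 ℕ) =>
        (q.1, q.2.1) := measurable_fst.prodMk (measurable_fst.comp measurable_snd)
    have hm2 : Measurable fun q : Set (Sym2 ℕ) × Set (Sym2 ℕ) × Set (Sym2 ℕ) => q.2.2ᶜ := by
      rw [measurable_set_iff]
      intro e
      have h1 : Measurable fun q : Set (Sym2 ℕ) × Set (Sym2 ℕ) × Set (Sym2 ℕ) => e ∈ q.2.2 :=
        (measurable_set_mem e).comp (measurable_snd.comp measurable_snd)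
      exact h1.not
    exact (measOp_Hsp.comp_measurable hm1).comp (measOp_Csp.comp_measurable hm2)
  have h1 : ∀ k q, ‖T k q‖ ≤ 1 := by
    intro k q
    refine (ContinuousLinearMap.opNorm_comp_le _ _).trans ?_
    exact mul_le_one₀ (opNorm_prj_le _) (norm_nonneg _) (opNorm_prj_le _)
  have key := MeasOp.prj_iInf_ker hT h1
  have h4 : (fun q : Set (Sym2 ℕ) × Set (Sym2 ℕ) × Set (Sym2 ℕ) =>
      prj (Xsp q.1 q.2.1 q.2.2))
      = fun q => 1 - prj (⨅ k, LinearMap.ker (T k q).toLinearMap) :=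
    funext fun q => prj_Xsp_eq q.1 q.2.1 q.2.2
  rw [h4]
  exact MeasOp.one.sub key

/-! ### equivariance -/

theorem prj_map_Uact (N : Submodule ℝ Hs) (σ : Equiv.Perm ℕ) (h : Hs) :
    prj (N.map (Uact σ).toLinearEquiv.toLinearMap) (Uact σ h) = Uact σ (prj N h) := by
  apply prj_eq
  · have h1 : prj N h ∈ closure (N : Set Hs) := prj_mem N h
    have h2 : Uact σ (prj N h) ∈ closure ((Uact σ) '' (N : Set Hs)) :=
      image_closure_subset_closure_image (Uact σ).continuous ⟨_, h1, rfl⟩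
    exact h2
  · rintro _ ⟨w, hw, rfl⟩
    show inner ℝ (Uact σ h - Uact σ (prj N h)) (Uact σ w) = 0
    rw [← map_sub, LinearIsometryEquiv.inner_map_map, inner_sub_left,
      prj_inner N h (N.le_topologicalClosure hw), sub_self]

theorem equivOp_of_map {Ω : Type*} [PermAct Ω] (N : Ω → Submodule ℝ Hs)
    (h : ∀ (σ : Equiv.Perm ℕ) (ω : Ω),
      N (act σ ω) = (N ω).map (Uact σ).toLinearEquiv.toLinearMap) :
    EquivOp fun ω => prj (N ω) := by
  rw [equivOp_iff]
  intro σ ω g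
  rw [h, prj_map_Uact]

theorem mem_act_set (σ : Equiv.Perm ℕ) (s : Set (Sym2 ℕ)) (x y : ℕ) :
    s(x, y) ∈ (act σ s : Set (Sym2 ℕ)) ↔ s(σ⁻¹ x, σ⁻¹ y) ∈ s := by
  show s(x, y) ∈ Sym2.map σ '' s ↔ _
  constructor
  · rintro ⟨e, he, hxy⟩
    induction e using Sym2.ind with
    | _ a b =>
      have h1 : s(σ⁻¹ x, σ⁻¹ y) = Sym2.map (σ⁻¹ : Equiv.Perm ℕ) s(x, y) := rfl
      rw [h1, ← hxy, Sym2.map_map]
      simpa using he
  · intro h
    refine ⟨_, h, ?_⟩
    simp

theorem mem_map_Uact (N : Submodule ℝ Hs) (σ : Equiv.Perm ℕ) (h : Hs) :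
    h ∈ N.map (Uact σ).toLinearEquiv.toLinearMap ↔ (Uact σ).symm h ∈ N := by
  constructor
  · rintro ⟨w, hw, rfl⟩
    have : (Uact σ).symm ((Uact σ).toLinearEquiv.toLinearMap w) = w :=
      (Uact σ).symm_apply_apply w
    rw [this]; exact hw
  · intro hh
    exact ⟨_, hh, (Uact σ).apply_symm_apply h⟩

theorem Uact_symm_apply (σ : Equiv.Perm ℕ) (h : Hs) (x y : ℕ) :
    (Uact σ).symm h (x, y) = h (σ x, σ y) := rfl

theorem Csp_act (σ : Equiv.Perm ℕ) (S : Set (Sym2 ℕ)) :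
    Csp (act σ S) = (Csp S).map (Uact σ).toLinearEquiv.toLinearMap := by
  ext h
  rw [mem_map_Uact]
  constructor
  · intro hh x y hxy
    rw [Uact_symm_apply]
    apply hh
    rw [mem_act_set]
    simpa using hxy
  · intro hh x y hxy
    rw [mem_act_set] at hxy
    have := hh _ _ hxy
    rw [Uact_symm_apply] at this
    simpa using this

theorem Asp_act (σ : Equiv.Perm ℕ) (S : Set (Sym2 ℕ)) :
    Asp (act σ S) = (Asp S).map (Uact σ).toLinearEquiv.toLinearMap := by
  ext h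
  rw [mem_map_Uact]
  constructor
  · rintro ⟨hh, ha⟩
    refine ⟨fun x y hxy => ?_, fun x y => ?_⟩
    · rw [Uact_symm_apply]
      apply hh
      rw [mem_act_set]
      simpa using hxy
    · rw [Uact_symm_apply, Uact_symm_apply]
      exact ha _ _
  · rintro ⟨hh, ha⟩
    refine ⟨fun x y hxy => ?_, fun x y => ?_⟩
    · rw [mem_act_set] at hxy
      have := hh _ _ hxy
      rw [Uact_symm_apply] at this
      simpa using this
    · have := ha (σ⁻¹ x) (σ⁻¹ y)
      rw [Uact_symm_apply, Uact_symm_apply] at this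
      simpa using this

theorem Hsp_act (σ : Equiv.Perm ℕ) (s A : Set (Sym2 ℕ)) :
    Hsp (act σ s) (act σ A) = (Hsp s A).map (Uact σ).toLinearEquiv.toLinearMap := by
  ext h
  rw [mem_map_Uact]
  constructor
  · rintro ⟨h1, h2⟩
    refine ⟨fun W => ?_, fun x y hxy => ?_⟩
    · obtain ⟨u, hu⟩ := h1 (W.map σ.toEmbedding)
      refine ⟨fun z => u (σ z), fun x hx y hy hs => ?_⟩
      rw [Uact_symm_apply]
      apply hu _ (Finset.mem_map_of_mem _ hx) _ (Finset.mem_map_of_mem _ hy)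
      show s(σ x, σ y) ∈ _
      rw [mem_act_set]
      simpa using hs
    · rw [Uact_symm_apply]
      apply h2
      rw [mem_act_set, mem_act_set]
      simpa using hxy
  · rintro ⟨h1, h2⟩
    refine ⟨fun W => ?_, fun x y hxy => ?_⟩
    · obtain ⟨u, hu⟩ := h1 (W.map (σ⁻¹).toEmbedding)
      refine ⟨fun z => u (σ⁻¹ z), fun x hx y hy hs => ?_⟩
      rw [mem_act_set] at hs
      have := hu _ (Finset.mem_map_of_mem _ hx) _ (Finset.mem_map_of_mem _ hy) hs
      have h3 : (Uact σ).symm h ((σ⁻¹) x, (σ⁻¹) y) = h (x, y) := by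
        rw [Uact_symm_apply]; simp
      rw [← h3]
      exact this
    · rw [mem_act_set, mem_act_set] at hxy
      have := h2 _ _ hxy
      rw [Uact_symm_apply] at this
      simpa using this

theorem act_compl (σ : Equiv.Perm ℕ) (S : Set (Sym2 ℕ)) : (act σ S)ᶜ = act σ Sᶜ := by
  ext e
  induction e using Sym2.ind with
  | _ x y => rw [Set.mem_compl_iff, mem_act_set, mem_act_set, Set.mem_compl_iff]

theorem Xsp_act (σ : Equiv.Perm ℕ) (s A S : Set (Sym2 ℕ)) :
    Xsp (act σ s) (act σ A) (act σ S)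
      = (Xsp s A S).map (Uact σ).toLinearEquiv.toLinearMap := by
  unfold Xsp
  rw [Hsp_act, act_compl, Csp_act]
  ext g
  constructor
  · rintro ⟨_, ⟨h, hh, rfl⟩, rfl⟩
    refine ⟨prj (Csp Sᶜ) h, ⟨h, hh, rfl⟩, ?_⟩
    exact (prj_map_Uact (Csp Sᶜ) σ h).symm
  · rintro ⟨_, ⟨h, hh, rfl⟩, rfl⟩
    refine ⟨Uact σ h, ⟨h, hh, rfl⟩, ?_⟩
    exact prj_map_Uact (Csp Sᶜ) σ h

theorem equivOp_Csp : EquivOp fun S : Set (Sym2 ℕ) => prj (Csp S) :=
  equivOp_of_map _ Csp_act

theorem equivOp_Asp : EquivOp fun S : Set (Sym2 ℕ) => prj (Asp S) :=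
  equivOp_of_map _ Asp_act

theorem equivOp_Hsp : EquivOp fun q : Set (Sym2 ℕ) × Set (Sym2 ℕ) => prj (Hsp q.1 q.2) :=
  equivOp_of_map (fun q : Set (Sym2 ℕ) × Set (Sym2 ℕ) => Hsp q.1 q.2)
    fun σ q => Hsp_act σ q.1 q.2

theorem equivOp_Xsp : EquivOp fun q : Set (Sym2 ℕ) × Set (Sym2 ℕ) × Set (Sym2 ℕ) =>
    prj (Xsp q.1 q.2.1 q.2.2) :=
  equivOp_of_map (fun q : Set (Sym2 ℕ) × Set (Sym2 ℕ) × Set (Sym2 ℕ) => Xsp q.1 q.2.1 q.2.2)
    fun σ q => Xsp_act σ q.1 q.2.1 q.2.2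

/-! ### `xval` -/

theorem xval_mk (s A S : Set (Sym2 ℕ)) (x y : ℕ) : xval s A S s(x, y)
    = ‖prj (Xsp s A S) (dl (x, y))‖ ^ 2 + ‖prj (Xsp s A S) (dl (y, x))‖ ^ 2 := rfl

theorem Hsp_antisymm {s A : Set (Sym2 ℕ)} {h : Hs} (hh : h ∈ Hsp s A) (x y : ℕ) :
    h (x, y) = - h (y, x) := by
  obtain ⟨h1, h2⟩ := hh
  by_cases hs : s(x, y) ∈ s
  · obtain ⟨u, hu⟩ := h1 {x, y}
    have e1 := hu x (by simp) y (by simp) hs
    have e2 := hu y (by simp) x (by simp) (by rw [Sym2.eq_swap]; exact hs)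
    rw [e1, e2]; ring
  · rw [h2 x y (Or.inl hs), h2 y x (Or.inl (by rw [Sym2.eq_swap]; exact hs)), neg_zero]

open Classical in
theorem Xsp_apply {s A S : Set (Sym2 ℕ)} {w : Hs} (hw : w ∈ Xsp s A S) :
    ∃ h ∈ Hsp s A, w = prj (Csp Sᶜ) h ∧
      ∀ x y : ℕ, w (x, y) = if s(x, y) ∈ S then 0 else h (x, y) := by
  obtain ⟨h, hh, rfl⟩ := hw
  refine ⟨h, hh, rfl, fun x y => ?_⟩
  show prj (Csp Sᶜ) h (x, y) = _
  rw [prj_Csp_apply]
  by_cases hS : s(x, y) ∈ S
  · rw [if_pos hS, if_neg (fun h => h hS)]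
  · rw [if_neg hS, if_pos (show s(x, y) ∈ Sᶜ from hS)]

theorem Xsp_antisymm {s A S : Set (Sym2 ℕ)} {w : Hs} (hw : w ∈ Xsp s A S) (x y : ℕ) :
    w (x, y) = - w (y, x) := by
  classical
  obtain ⟨h, hh, _, hap⟩ := Xsp_apply hw
  rw [hap, hap, Sym2.eq_swap (a := y) (b := x)]
  split_ifs
  · simp
  · exact Hsp_antisymm hh x y

theorem prj_Xsp_swap (s A S : Set (Sym2 ℕ)) (x y : ℕ) :
    prj (Xsp s A S) (dl (y, x)) = - prj (Xsp s A S) (dl (x, y)) := by
  rw [← map_neg]
  apply prj_congr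
  intro w hw
  rw [inner_neg_left, inner_dl_left, inner_dl_left, Xsp_antisymm hw]

theorem xval_eq (s A S : Set (Sym2 ℕ)) (x y : ℕ) :
    xval s A S s(x, y) = 2 * ‖prj (Xsp s A S) (dl (x, y))‖ ^ 2 := by
  rw [xval_mk, prj_Xsp_swap, norm_neg]; ring

theorem xval_nonneg (s A S : Set (Sym2 ℕ)) (e : Sym2 ℕ) : 0 ≤ xval s A S e := by
  induction e using Sym2.ind with
  | _ x y => rw [xval_mk]; positivity

theorem xval_le_one (s A S : Set (Sym2 ℕ)) (e : Sym2 ℕ) : xval s A S e ≤ 1 := by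
  induction e using Sym2.ind with
  | _ x y =>
    rw [xval_eq]
    have h1 : prj (Xsp s A S) (dl (x, y))
        = prj (Xsp s A S) ((1 / 2 : ℝ) • (dl (x, y) - dl (y, x))) := by
      rw [map_smul, map_sub, prj_Xsp_swap s A S x y]
      rw [sub_neg_eq_add, ← two_smul ℝ, smul_smul]
      norm_num
    have h2 : ‖(1 / 2 : ℝ) • (dl (x, y) - dl (y, x))‖ ^ 2 ≤ 1 / 2 := by
      rw [norm_smul, mul_pow, norm_sub_sq_real, norm_dl, norm_dl, inner_dl_left]
      have : 0 ≤ (dl (y, x)) (x, y) := by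
        rw [dl_apply]; split_ifs <;> norm_num
      norm_num
      linarith
    have h3 := norm_prj_le (Xsp s A S) ((1 / 2 : ℝ) • (dl (x, y) - dl (y, x)))
    rw [h1]
    have h4 := pow_le_pow_left₀ (norm_nonneg _) h3 2
    linarith

theorem xval_eq_zero (s A S : Set (Sym2 ℕ)) (e : Sym2 ℕ)
    (h : e ∈ S ∨ e ∉ s ∨ e ∈ A ∨ e.IsDiag) : xval s A S e = 0 := by
  classical
  induction e using Sym2.ind with
  | _ x y =>
    rw [xval_eq]
    have h1 : prj (Xsp s A S) (dl (x, y)) = 0 := by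
      rw [prj_eq_zero_iff]
      intro w hw
      rw [inner_dl_left]
      obtain ⟨g, hg, _, hap⟩ := Xsp_apply hw
      rw [hap]
      by_cases hS : s(x, y) ∈ S
      · rw [if_pos hS]
      · rw [if_neg hS]
        rcases h with h | h | h | h
        · exact absurd h hS
        · exact hg.2 x y (Or.inl h)
        · exact hg.2 x y (Or.inr h)
        · rw [Sym2.mk_isDiag_iff] at h
          subst h
          have := Hsp_antisymm hg x x
          linarith
    rw [h1, norm_zero]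
    norm_num

theorem Hsp_anti (s : Set (Sym2 ℕ)) {A A' : Set (Sym2 ℕ)} (h : A ⊆ A') : Hsp s A' ≤ Hsp s A := by
  rintro g ⟨h1, h2⟩
  exact ⟨h1, fun x y hxy => h2 x y (hxy.imp id fun hh => h hh)⟩

theorem xval_anti (s S : Set (Sym2 ℕ)) {A A' : Set (Sym2 ℕ)} (h : A ⊆ A') (e : Sym2 ℕ) :
    xval s A' S e ≤ xval s A S e := by
  induction e using Sym2.ind with
  | _ x y =>
    rw [xval_eq, xval_eq]
    have h1 : Xsp s A' S ≤ Xsp s A S := Submodule.map_mono (Hsp_anti s h)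
    have h2 := pow_le_pow_left₀ (norm_nonneg _) (norm_prj_mono h1 (dl (x, y))) 2
    linarith

theorem measurable_xval (e : Sym2 ℕ) : Measurable
    fun q : Set (Sym2 ℕ) × Set (Sym2 ℕ) × Set (Sym2 ℕ) => xval q.1 q.2.1 q.2.2 e := by
  induction e using Sym2.ind with
  | _ x y =>
    have h1 : (fun q : Set (Sym2 ℕ) × Set (Sym2 ℕ) × Set (Sym2 ℕ) =>
        xval q.1 q.2.1 q.2.2 s(x, y))
        = fun q => 2 * prj (Xsp q.1 q.2.1 q.2.2) (dl (x, y)) (x, y) := by
      funext q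
      rw [xval_eq, prj_apply_self]
    rw [h1]
    exact (measOp_Xsp (x, y) (x, y)).const_mul 2

theorem xval_act (σ : Equiv.Perm ℕ) (s A S : Set (Sym2 ℕ)) (e : Sym2 ℕ) :
    xval (act σ s) (act σ A) (act σ S) (Sym2.map σ e) = xval s A S e := by
  induction e using Sym2.ind with
  | _ x y =>
    have h1 := equivOp_Xsp σ (s, A, S) (x, y) (x, y)
    rw [Sym2.map_mk, xval_eq, xval_eq, ← prj_apply_self, ← prj_apply_self]
    congr 1

theorem en_eq (S : Set (Sym2 ℕ)) (h : Hs) : en S h = (1 / 2) * ‖prj (Csp Sᶜ) h‖ ^ 2 := by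
  classical
  unfold en
  rw [norm_sq_eq_tsum]
  congr 1
  refine tsum_congr fun d => ?_
  obtain ⟨x, y⟩ := d
  rw [prj_Csp_apply]
  by_cases hS : s(x, y) ∈ S
  · rw [if_pos hS, if_neg (fun h => h hS)]; norm_num
  · rw [if_neg hS, if_pos (show s(x, y) ∈ Sᶜ from hS)]

theorem xval_le_of (s A S : Set (Sym2 ℕ)) (x y : ℕ) (c : ℝ) (hc : 0 ≤ c)
    (h : ∀ h ∈ Hsp s A, (h (x, y)) ^ 2 ≤ c * en S h) : xval s A S s(x, y) ≤ c := by
  classical
  by_cases hS : s(x, y) ∈ S
  · rw [xval_eq_zero _ _ _ _ (Or.inl hS)]; exact hc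
  rw [xval_eq]
  set ξ := prj (Xsp s A S) (dl (x, y)) with hξ
  have h1 : ∀ w ∈ (Xsp s A S).topologicalClosure, (w (x, y)) ^ 2 ≤ c / 2 * ‖w‖ ^ 2 := by
    intro w hw
    have hcl : IsClosed {w : Hs | (w (x, y)) ^ 2 ≤ c / 2 * ‖w‖ ^ 2} :=
      isClosed_le ((continuous_coord _).pow 2) (continuous_const.mul (continuous_norm.pow 2))
    have hsub : ((Xsp s A S : Submodule ℝ Hs) : Set Hs)
        ⊆ {w : Hs | (w (x, y)) ^ 2 ≤ c / 2 * ‖w‖ ^ 2} := by
      intro w hw
      obtain ⟨g, hg, hwg, hap⟩ := Xsp_apply hw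
      show (w (x, y)) ^ 2 ≤ c / 2 * ‖w‖ ^ 2
      rw [hap, if_neg hS, hwg]
      have := h g hg
      rw [en_eq] at this
      linarith
    exact closure_minimal hsub hcl hw
  have h2 := h1 ξ (prj_mem _ _)
  have h3 : ξ (x, y) = ‖ξ‖ ^ 2 := prj_apply_self _ _
  rw [h3] at h2
  have h4 : 0 ≤ ‖ξ‖ ^ 2 := by positivity
  by_cases h5 : ‖ξ‖ ^ 2 = 0
  · rw [h5]; linarith
  · have h6 : 0 < ‖ξ‖ ^ 2 := lt_of_le_of_ne h4 (Ne.symm h5)
    have h7 : ‖ξ‖ ^ 2 ≤ c / 2 := by
      by_contra hcon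
      push Not at hcon
      nlinarith
    linarith

end Vale.Agent.H15.F
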