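import Vale.Agent.H15.F.Cyl
import Vale.Agent.H15.F.Proj
import Vale.Agent.H15.F.Mtp
import Vale.Agent.H15.F.FusfD
import Vale.Agent.H15.F.Lip

/-!
P143, task T8 (M6): the sampling identity.  Parts: conditional probabilities given finitely many
edges, the lower bound, uniqueness, measurability of the uniqueness event, the total equality via
mass transport, and the identity itself.
-/

open MeasureTheory Filter Topology
open scoped ENNReal

namespace Vale.Agent.H15.F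


open Classical in
/-- the part of `F` in the finite window `W` -/
noncomputable def fa (W : Finset (Sym2 ℕ)) (F : Set (Sym2 ℕ)) : Finset (Sym2 ℕ) :=
  W.filter fun e => e ∈ F

theorem ident_mem_fa {W : Finset (Sym2 ℕ)} {F : Set (Sym2 ℕ)} {e : Sym2 ℕ} :
    e ∈ fa W F ↔ e ∈ W ∧ e ∈ F := by
  unfold fa; simp

theorem ident_fa_subset (W : Finset (Sym2 ℕ)) (F : Set (Sym2 ℕ)) : fa W F ⊆ W := by
  intro e he; exact (ident_mem_fa.mp he).1

theorem ident_fa_eq_iff {W A : Finset (Sym2 ℕ)} (hA : A ⊆ W) (F : Set (Sym2 ℕ)) :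
    fa W F = A ↔ F ∈ cyl A (W \ A) := by
  constructor
  · rintro rfl
    refine ⟨fun e he => (ident_mem_fa.mp he).2, ?_⟩
    rw [Set.disjoint_left]
    intro e he heF
    rw [Finset.mem_coe, Finset.mem_sdiff] at he
    exact he.2 (ident_mem_fa.mpr ⟨he.1, heF⟩)
  · rintro ⟨h1, h2⟩
    ext e
    rw [ident_mem_fa]
    constructor
    · rintro ⟨hW, hF⟩
      by_contra hn
      exact Set.disjoint_left.mp h2 (Finset.mem_coe.mpr (Finset.mem_sdiff.mpr ⟨hW, hn⟩)) hF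
    · intro he
      exact ⟨hA he, h1 he⟩

theorem ident_measurableSet_fa (W A : Finset (Sym2 ℕ)) :
    MeasurableSet {F : Set (Sym2 ℕ) | fa W F = A} := by
  by_cases hA : A ⊆ W
  · have : {F : Set (Sym2 ℕ) | fa W F = A} = cyl A (W \ A) := by
      ext F; exact ident_fa_eq_iff hA F
    rw [this]; exact measurableSet_cyl _ _
  · have : {F : Set (Sym2 ℕ) | fa W F = A} = ∅ := by
      ext F
      simp only [Set.mem_ofPred_eq, Set.mem_empty_iff_false, iff_false]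
      rintro rfl
      exact hA (ident_fa_subset W F)
    rw [this]; exact MeasurableSet.empty

/-- functions of the window are measurable -/
theorem ident_measurable_fa {β : Type*} [MeasurableSpace β] (W : Finset (Sym2 ℕ))
    (g : Finset (Sym2 ℕ) → β) : Measurable fun F : Set (Sym2 ℕ) => g (fa W F) := by
  intro t _
  have : (fun F : Set (Sym2 ℕ) => g (fa W F)) ⁻¹' t =
      ⋃ A ∈ {A : Finset (Sym2 ℕ) | g A ∈ t}, {F : Set (Sym2 ℕ) | fa W F = A} := by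
    ext F
    simp only [Set.mem_preimage, Set.mem_iUnion, Set.mem_ofPred_eq, exists_prop,
      exists_eq_right']
  rw [this]
  exact MeasurableSet.biUnion (Set.to_countable _) fun A _ => ident_measurableSet_fa W A

theorem ident_measurableSet_Q (W : Finset (Sym2 ℕ)) (Q : Finset (Sym2 ℕ) → Prop) :
    MeasurableSet {F : Set (Sym2 ℕ) | Q (fa W F)} := by
  have h := ident_measurable_fa (β := Prop) W Q
  exact measurableSet_setOfPred.mpr h

/-- conditional probability of `e` given the window -/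
noncomputable def yv (μ : Measure (Set (Sym2 ℕ))) (W : Finset (Sym2 ℕ)) (e : Sym2 ℕ)
    (F : Set (Sym2 ℕ)) : ℝ :=
  μ.real (cyl (insert e (fa W F)) (W \ fa W F)) / μ.real (cyl (fa W F) (W \ fa W F))

theorem ident_yv_nonneg (μ : Measure (Set (Sym2 ℕ))) (W : Finset (Sym2 ℕ)) (e : Sym2 ℕ)
    (F : Set (Sym2 ℕ)) : 0 ≤ yv μ W e F := by unfold yv; positivity

theorem ident_measurable_yv (μ : Measure (Set (Sym2 ℕ))) (W : Finset (Sym2 ℕ)) (e : Sym2 ℕ) :
    Measurable (yv μ W e) :=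
  ident_measurable_fa W fun A => μ.real (cyl (insert e A) (W \ A)) / μ.real (cyl A (W \ A))

theorem ident_cyl_insert {A B : Finset (Sym2 ℕ)} (e : Sym2 ℕ) :
    cyl (insert e A) B = cyl A B ∩ {F | e ∈ F} := by
  ext F
  simp only [cyl, Set.mem_ofPred_eq, Set.mem_inter_iff, Finset.coe_insert, Set.insert_subset_iff]
  tauto

/-- integral over an atom -/
theorem ident_atom {μ : Measure (Set (Sym2 ℕ))} [IsProbabilityMeasure μ] (W A : Finset (Sym2 ℕ))
    (e : Sym2 ℕ) :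
    ∫⁻ F in {F | fa W F = A}, ENNReal.ofReal (yv μ W e F) ∂μ =
      μ ({F | fa W F = A} ∩ {F | e ∈ F}) := by
  by_cases hA : A ⊆ W
  · have hset : {F : Set (Sym2 ℕ) | fa W F = A} = cyl A (W \ A) := by
      ext F; exact ident_fa_eq_iff hA F
    have h1 : ∫⁻ F in {F | fa W F = A}, ENNReal.ofReal (yv μ W e F) ∂μ =
        ∫⁻ _ in {F | fa W F = A}, ENNReal.ofReal (μ.real (cyl (insert e A) (W \ A)) /
          μ.real (cyl A (W \ A))) ∂μ := by
      refine setLIntegral_congr_fun (ident_measurableSet_fa W A) fun F hF => ?_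
      have hF' : fa W F = A := hF
      simp only [yv, hF']
    rw [h1, setLIntegral_const, hset, ← ident_cyl_insert]
    by_cases h0 : μ (cyl A (W \ A)) = 0
    · rw [h0, mul_zero]
      exact (measure_mono_null (by rw [ident_cyl_insert]; exact Set.inter_subset_left) h0).symm
    · have hr : 0 < μ.real (cyl A (W \ A)) := by
        rw [measureReal_def]
        exact ENNReal.toReal_pos h0 (measure_ne_top _ _)
      rw [ENNReal.ofReal_div_of_pos hr, measureReal_def, measureReal_def,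
        ENNReal.ofReal_toReal (measure_ne_top _ _), ENNReal.ofReal_toReal (measure_ne_top _ _)]
      exact ENNReal.div_mul_cancel h0 (measure_ne_top _ _)
  · have : {F : Set (Sym2 ℕ) | fa W F = A} = ∅ := by
      ext F
      simp only [Set.mem_ofPred_eq, Set.mem_empty_iff_false, iff_false]
      rintro rfl
      exact hA (ident_fa_subset W F)
    rw [this]; simp

open Classical in
theorem ident_Q_eq (W : Finset (Sym2 ℕ)) (Q : Finset (Sym2 ℕ) → Prop) :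
    {F : Set (Sym2 ℕ) | Q (fa W F)} =
      ⋃ A ∈ W.powerset.filter Q, {F : Set (Sym2 ℕ) | fa W F = A} := by
  ext F
  simp only [Set.mem_ofPred_eq, Set.mem_iUnion, Finset.mem_filter, Finset.mem_powerset,
    exists_prop]
  constructor
  · intro h; exact ⟨_, ⟨ident_fa_subset W F, h⟩, rfl⟩
  · rintro ⟨A, ⟨_, h⟩, rfl⟩; exact h

theorem ident_cond {μ : Measure (Set (Sym2 ℕ))} [IsProbabilityMeasure μ] (W : Finset (Sym2 ℕ))
    (e : Sym2 ℕ) (Q : Finset (Sym2 ℕ) → Prop) :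
    ∫⁻ F in {F | Q (fa W F)}, ENNReal.ofReal (yv μ W e F) ∂μ =
      μ ({F | Q (fa W F)} ∩ {F | e ∈ F}) := by
  classical
  rw [ident_Q_eq]
  have hdisj : Set.PairwiseDisjoint (↑(W.powerset.filter Q))
      (fun A : Finset (Sym2 ℕ) => {F : Set (Sym2 ℕ) | fa W F = A}) := by
    intro A _ A' _ hne
    rw [Function.onFun, Set.disjoint_left]
    intro F h1 h2
    exact hne (h1.symm.trans h2)
  rw [lintegral_biUnion_finset hdisj fun A _ => ident_measurableSet_fa W A, Set.iUnion₂_inter,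
    measure_biUnion_finset]
  · exact Finset.sum_congr rfl fun A _ => ident_atom W A e
  · intro A hA A' hA' hne
    exact (hdisj hA hA' hne).mono Set.inter_subset_left Set.inter_subset_left
  · intro A _
    exact (ident_measurableSet_fa W A).inter (measurableSet_mem e)

/-- almost every atom has positive probability -/
theorem ident_pos {μ : Measure (Set (Sym2 ℕ))} [IsProbabilityMeasure μ] (W : Finset (Sym2 ℕ)) :
    ∀ᵐ F ∂μ, 0 < μ.real (cyl (fa W F) (W \ fa W F)) := by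
  classical
  have h : ∀ A ∈ W.powerset, ∀ᵐ F ∂μ, fa W F = A → 0 < μ.real (cyl (fa W F) (W \ fa W F)) := by
    intro A hA
    have hA' := Finset.mem_powerset.mp hA
    by_cases h0 : μ (cyl A (W \ A)) = 0
    · have : ∀ᵐ F ∂μ, F ∉ cyl A (W \ A) := by
        rw [ae_iff]; simpa using h0
      filter_upwards [this] with F hF hF'
      exact absurd ((ident_fa_eq_iff hA' F).mp hF') hF
    · refine Eventually.of_forall fun F hF => ?_
      rw [hF, measureReal_def]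
      exact ENNReal.toReal_pos h0 (measure_ne_top _ _)
  have h2 : ∀ᵐ F ∂μ, ∀ A ∈ W.powerset, fa W F = A → 0 < μ.real (cyl (fa W F) (W \ fa W F)) := by
    exact (ae_ball_iff (Finset.countable_toSet W.powerset)).mpr h
  filter_upwards [h2] with F hF
  exact hF _ (Finset.mem_powerset.mpr (ident_fa_subset W F)) rfl

/-- the first inequality, pointwise -/
theorem ident_D1 {s : Set (Sym2 ℕ)} (hs : IsGraph s) {μ : Measure (Set (Sym2 ℕ))}
    (hμ : IsFUSF s μ) (W : Finset (Sym2 ℕ)) {x y : ℕ} (hxy : s(x, y) ∈ s) (hW : s(x, y) ∉ W) :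
    ∀ᵐ F ∂μ, ∀ h ∈ Hsp s (fa W F : Set (Sym2 ℕ)),
      (h (x, y)) ^ 2 ≤ en (W : Set (Sym2 ℕ)) h * yv μ W s(x, y) F := by
  have := hμ.1
  filter_upwards [ident_pos (μ := μ) W] with F hF h hh
  have h1 := fusf_D1 hs hμ (fa W F) (W \ fa W F) x y hxy
    (fun hc => hW (ident_fa_subset W F hc)) (fun hc => hW (Finset.mem_sdiff.mp hc).1) h hh
  have h2 : ((fa W F : Finset (Sym2 ℕ)) : Set (Sym2 ℕ)) ∪ ((W \ fa W F : Finset (Sym2 ℕ)) : Set (Sym2 ℕ)) =
      (W : Set (Sym2 ℕ)) := by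
    rw [← Finset.coe_union, Finset.union_sdiff_of_subset (ident_fa_subset W F)]
  rw [h2] at h1
  unfold yv
  rw [← mul_div_assoc, le_div_iff₀ hF]
  exact h1



open Classical in
/-- finite windows exhausting `S` -/
noncomputable def win (S : Set (Sym2 ℕ)) (n : ℕ) : Finset (Sym2 ℕ) :=
  (Finset.range n).sym2.filter fun e => e ∈ S

theorem ident_mem_win {S : Set (Sym2 ℕ)} {n : ℕ} {e : Sym2 ℕ} :
    e ∈ win S n ↔ e ∈ (Finset.range n).sym2 ∧ e ∈ S := by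
  unfold win
  simp

theorem ident_win_subset (S : Set (Sym2 ℕ)) (n : ℕ) : (win S n : Set (Sym2 ℕ)) ⊆ S := by
  intro e he
  rw [Finset.mem_coe, ident_mem_win] at he
  exact he.2

theorem ident_win_eventually {S : Set (Sym2 ℕ)} {e : Sym2 ℕ} (he : e ∈ S) :
    ∀ᶠ n in atTop, e ∈ win S n := by
  induction e using Sym2.ind with
  | _ x y =>
    filter_upwards [eventually_gt_atTop (max x y)] with n hn
    rw [ident_mem_win, Finset.mk_mem_sym2_iff, Finset.mem_range, Finset.mem_range]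
    exact ⟨⟨lt_of_le_of_lt (le_max_left _ _) hn, lt_of_le_of_lt (le_max_right _ _) hn⟩, he⟩

theorem ident_win_eventually' {S : Set (Sym2 ℕ)} {W : Finset (Sym2 ℕ)}
    (hW : (W : Set (Sym2 ℕ)) ⊆ S) : ∀ᶠ n in atTop, W ⊆ win S n := by
  have h : ∀ e ∈ W, ∀ᶠ n in atTop, e ∈ win S n := fun e he => ident_win_eventually (hW he)
  have h2 := (Filter.eventually_all_finset W).mpr h
  filter_upwards [h2] with n hn e he
  exact hn e he

theorem ident_summable_sq (h : Hs) : Summable fun d : ℕ × ℕ => (h d) ^ 2 := by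
  have := (lp.memℓp h).summable (by norm_num : 0 < (2 : ℝ≥0∞).toReal)
  simpa using this

theorem ident_en_nonneg (S : Set (Sym2 ℕ)) (h : Hs) : 0 ≤ en S h := by
  classical
  unfold en
  refine mul_nonneg (by norm_num) (tsum_nonneg fun d => ?_)
  split_ifs
  · exact le_rfl
  · exact sq_nonneg _

theorem ident_en_tendsto (S : Set (Sym2 ℕ)) (h : Hs) :
    Tendsto (fun n => en (win S n : Set (Sym2 ℕ)) h) atTop (𝓝 (en S h)) := by
  classical
  unfold en
  refine Tendsto.const_mul _ ?_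
  refine tendsto_tsum_of_dominated_convergence (ident_summable_sq h) (fun d => ?_)
    (Eventually.of_forall fun n d => ?_)
  · by_cases hd : s(d.1, d.2) ∈ S
    · rw [if_pos hd]
      refine tendsto_const_nhds.congr' ?_
      filter_upwards [ident_win_eventually hd] with n hn
      rw [if_pos (Finset.mem_coe.mpr hn)]
    · rw [if_neg hd]
      refine tendsto_const_nhds.congr' (Eventually.of_forall fun n => ?_)
      exact (if_neg fun hc => hd (ident_win_subset S n hc)).symm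
  · split_ifs
    · simpa using sq_nonneg (h d)
    · simp

theorem ident_Hsp_mono {s A A' : Set (Sym2 ℕ)} (h : A' ⊆ A) : Hsp s A ≤ Hsp s A' := by
  rintro k ⟨h1, h2⟩
  exact ⟨h1, fun x y hxy => h2 x y (hxy.imp id fun hc => h hc)⟩

/-- the frequent bound passes to the limit -/
theorem ident_freq {s S F : Set (Sym2 ℕ)} {x y : ℕ} {Y : ℕ → ℝ} {c : ℝ} (hc : 0 ≤ c)
    (hY : ∀ n, ∀ h ∈ Hsp s (fa (win S n) F : Set (Sym2 ℕ)),
      (h (x, y)) ^ 2 ≤ en (win S n : Set (Sym2 ℕ)) h * Y n)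
    (hf : ∃ᶠ n in atTop, Y n ≤ c) : xval s (F ∩ S) S s(x, y) ≤ c := by
  refine xval_le_of s (F ∩ S) S x y c hc fun h hh => ?_
  have ht : Tendsto (fun n => c * en (win S n : Set (Sym2 ℕ)) h) atTop (𝓝 (c * en S h)) :=
    (ident_en_tendsto S h).const_mul c
  refine ge_of_tendsto_of_frequently ht (hf.mono fun n hn => ?_)
  have h1 : h ∈ Hsp s (fa (win S n) F : Set (Sym2 ℕ)) := by
    refine ident_Hsp_mono ?_ hh
    intro e he
    have := ident_mem_fa.mp (Finset.mem_coe.mp he)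
    exact ⟨this.2, ident_win_subset S n this.1⟩
  refine (hY n h h1).trans ?_
  rw [mul_comm]
  exact mul_le_mul_of_nonneg_right hn (ident_en_nonneg _ _)

theorem ident_liminf {s S F : Set (Sym2 ℕ)} {x y : ℕ} {Y : ℕ → ℝ} (hY0 : ∀ n, 0 ≤ Y n)
    (hY : ∀ n, ∀ h ∈ Hsp s (fa (win S n) F : Set (Sym2 ℕ)),
      (h (x, y)) ^ 2 ≤ en (win S n : Set (Sym2 ℕ)) h * Y n) :
    ENNReal.ofReal (xval s (F ∩ S) S s(x, y)) ≤ liminf (fun n => ENNReal.ofReal (Y n)) atTop := by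
  by_contra hcon
  push Not at hcon
  obtain ⟨b, hb1, hb2⟩ := exists_between hcon
  have hbt : b ≠ ∞ := ne_top_of_lt hb2
  have hfr : ∃ᶠ n in atTop, ENNReal.ofReal (Y n) < b := frequently_lt_of_liminf_lt (by isBoundedDefault) hb1
  have hfr2 : ∃ᶠ n in atTop, Y n ≤ b.toReal := by
    refine hfr.mono fun n hn => ?_
    rw [← ENNReal.ofReal_toReal hbt] at hn
    exact (ENNReal.ofReal_lt_ofReal_iff_of_nonneg (hY0 n)).mp hn |>.le
  have h1 := ident_freq ENNReal.toReal_nonneg hY hfr2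
  have h2 : ENNReal.ofReal (xval s (F ∩ S) S s(x, y)) ≤ b := by
    rw [← ENNReal.ofReal_toReal hbt]
    exact ENNReal.ofReal_le_ofReal h1
  exact absurd hb2 (not_lt.mpr h2)

theorem ident_measurable_inter (S : Set (Sym2 ℕ)) :
    Measurable fun F : Set (Sym2 ℕ) => F ∩ S := by
  rw [measurable_set_iff]
  intro e
  have : (fun F : Set (Sym2 ℕ) => e ∈ F ∩ S) = fun F => e ∈ F ∧ e ∈ S := rfl
  rw [this]
  exact (measurable_set_mem e).and measurable_const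

theorem ident_measurable_x (s S : Set (Sym2 ℕ)) (e : Sym2 ℕ) :
    Measurable fun F : Set (Sym2 ℕ) => ENNReal.ofReal (xval s (F ∩ S) S e) := by
  have h1 : Measurable fun F : Set (Sym2 ℕ) => ((s, F ∩ S, S) :
      Set (Sym2 ℕ) × Set (Sym2 ℕ) × Set (Sym2 ℕ)) :=
    Measurable.prodMk measurable_const (Measurable.prodMk (ident_measurable_inter S)
      measurable_const)
  have h2 := (measurable_xval e).comp h1
  exact ENNReal.measurable_ofReal.comp h2

theorem ident_win_Q {S : Set (Sym2 ℕ)} {W : Finset (Sym2 ℕ)} (Q : Finset (Sym2 ℕ) → Prop) {n : ℕ}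
    (hn : W ⊆ win S n) : ∃ Q' : Finset (Sym2 ℕ) → Prop,
      {F : Set (Sym2 ℕ) | Q (fa W F)} = {F | Q' (fa (win S n) F)} := by
  classical
  refine ⟨fun A => Q (A.filter fun e => e ∈ W), ?_⟩
  ext F
  simp only [Set.mem_ofPred_eq]
  have : (fa (win S n) F).filter (fun e => e ∈ W) = fa W F := by
    ext e
    simp only [Finset.mem_filter, ident_mem_fa]
    constructor
    · rintro ⟨⟨_, h2⟩, h3⟩; exact ⟨h3, h2⟩
    · rintro ⟨h2, h3⟩; exact ⟨⟨hn h2, h3⟩, h2⟩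
  rw [this]

theorem ident_ae_liminf {s : Set (Sym2 ℕ)} (hs : IsGraph s) {μ : Measure (Set (Sym2 ℕ))}
    (hμ : IsFUSF s μ) (S : Set (Sym2 ℕ)) {x y : ℕ} (he : s(x, y) ∈ s) (heS : s(x, y) ∉ S) :
    ∀ᵐ F ∂μ, ENNReal.ofReal (xval s (F ∩ S) S s(x, y)) ≤
        liminf (fun n => ENNReal.ofReal (yv μ (win S n) s(x, y) F)) atTop := by
  have h1 : ∀ᵐ F ∂μ, ∀ n, ∀ h ∈ Hsp s (fa (win S n) F : Set (Sym2 ℕ)),
      (h (x, y)) ^ 2 ≤ en (win S n : Set (Sym2 ℕ)) h * yv μ (win S n) s(x, y) F := by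
    rw [ae_all_iff]
    intro n
    exact ident_D1 hs hμ (win S n) he fun hc => heS (ident_win_subset S n hc)
  filter_upwards [h1] with F hF
  exact ident_liminf (fun n => ident_yv_nonneg _ _ _ _) hF

theorem ident_LB' {s : Set (Sym2 ℕ)} (hs : IsGraph s) {μ : Measure (Set (Sym2 ℕ))}
    (hμ : IsFUSF s μ) (S : Set (Sym2 ℕ)) {x y : ℕ} (he : s(x, y) ∈ s) (heS : s(x, y) ∉ S)
    (W : Finset (Sym2 ℕ)) (hW : (W : Set (Sym2 ℕ)) ⊆ S) (Q : Finset (Sym2 ℕ) → Prop) :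
    ∫⁻ F in {F | Q (fa W F)}, ENNReal.ofReal (xval s (F ∩ S) S s(x, y)) ∂μ ≤
      μ ({F | Q (fa W F)} ∩ {F | s(x, y) ∈ F}) := by
  have hprob : IsProbabilityMeasure μ := hμ.1
  have h2 := ident_ae_liminf hs hμ S he heS
  have h3 : ∀ᶠ n in atTop, μ ({F | Q (fa W F)} ∩ {F | s(x, y) ∈ F}) =
      ∫⁻ F in {F | Q (fa W F)}, ENNReal.ofReal (yv μ (win S n) s(x, y) F) ∂μ := by
    filter_upwards [ident_win_eventually' hW] with n hn
    obtain ⟨Q', hQ'⟩ := ident_win_Q Q hn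
    rw [hQ']
    exact (ident_cond (win S n) s(x, y) Q').symm
  have h4 : ∫⁻ F in {F | Q (fa W F)}, ENNReal.ofReal (xval s (F ∩ S) S s(x, y)) ∂μ ≤
      ∫⁻ F in {F | Q (fa W F)},
        liminf (fun n => ENNReal.ofReal (yv μ (win S n) s(x, y) F)) atTop ∂μ :=
    lintegral_mono_ae (ae_restrict_of_ae h2)
  refine h4.trans ?_
  have h5 := lintegral_liminf_le (μ := μ.restrict {F | Q (fa W F)})
    (f := fun (n : ℕ) F => ENNReal.ofReal (yv μ (win S n) s(x, y) F)) (u := atTop)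
    (fun n => ENNReal.measurable_ofReal.comp (ident_measurable_yv _ _ _))
  refine h5.trans (le_of_eq ?_)
  exact Tendsto.liminf_eq (tendsto_const_nhds.congr' h3)

/-- the lower bound -/
theorem ident_LB {s : Set (Sym2 ℕ)} (hs : IsGraph s) {μ : Measure (Set (Sym2 ℕ))}
    (hμ : IsFUSF s μ) (S : Set (Sym2 ℕ)) {e : Sym2 ℕ} (he : e ∈ s) (heS : e ∉ S)
    (W : Finset (Sym2 ℕ)) (hW : (W : Set (Sym2 ℕ)) ⊆ S) (Q : Finset (Sym2 ℕ) → Prop) :
    ∫⁻ F in {F | Q (fa W F)}, ENNReal.ofReal (xval s (F ∩ S) S e) ∂μ ≤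
      μ ({F | Q (fa W F)} ∩ {F | e ∈ F}) := by
  revert he heS
  refine Sym2.ind (fun x y he heS => ?_) e
  exact ident_LB' hs hμ S he heS W hW Q

theorem ident_bad {μ : Measure (Set (Sym2 ℕ))} [IsProbabilityMeasure μ] (W : Finset (Sym2 ℕ))
    (e : Sym2 ℕ) {ε : ℝ} (hε1 : ε ≤ 1) :
    μ {F | e ∉ F ∧ 1 - ε < yv μ W e F} ≤ ENNReal.ofReal ε := by
  set R : Set (Set (Sym2 ℕ)) := {F | 1 - ε < yv μ W e F} with hR
  have hRm : MeasurableSet R := measurableSet_lt measurable_const (ident_measurable_yv _ _ _)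
  have h7 : ∫⁻ F in R, ENNReal.ofReal (yv μ W e F) ∂μ = μ (R ∩ {F | e ∈ F}) :=
    ident_cond (μ := μ) W e (fun A => 1 - ε < μ.real (cyl (insert e A) (W \ A)) /
        μ.real (cyl A (W \ A)))
  have h8 : ENNReal.ofReal (1 - ε) * μ R ≤ μ (R ∩ {F | e ∈ F}) := by
    rw [← h7, ← setLIntegral_const]
    refine setLIntegral_mono' hRm fun F hF => ?_
    exact ENNReal.ofReal_le_ofReal (le_of_lt hF)
  have h9 : μ (R ∩ {F | e ∈ F}) + μ (R \ {F | e ∈ F}) = μ R :=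
    measure_inter_add_sdiff R (measurableSet_mem _)
  have h10 : {F | e ∉ F ∧ 1 - ε < yv μ W e F} = R \ {F | e ∈ F} := by
    ext F
    simp only [hR, Set.mem_ofPred_eq, Set.mem_sdiff]
    tauto
  rw [h10]
  have hRt : μ R ≤ 1 := prob_le_one
  have e1 : μ (R \ {F | e ∈ F}) = μ R - μ (R ∩ {F | e ∈ F}) := by
    rw [← h9, ENNReal.add_sub_cancel_left (measure_ne_top _ _)]
  rw [e1]
  calc μ R - μ (R ∩ {F | e ∈ F}) ≤ μ R - ENNReal.ofReal (1 - ε) * μ R :=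
        tsub_le_tsub_left h8 _
    _ = (ENNReal.ofReal 1 - ENNReal.ofReal (1 - ε)) * μ R := by
        rw [ENNReal.sub_mul (fun _ _ => measure_ne_top _ _), ENNReal.ofReal_one, one_mul]
    _ = ENNReal.ofReal ε * μ R := by
        rw [← ENNReal.ofReal_sub _ (by linarith)]
        congr 2
        ring
    _ ≤ ENNReal.ofReal ε * 1 := by gcongr
    _ = ENNReal.ofReal ε := mul_one _

theorem ident_bad' {μ : Measure (Set (Sym2 ℕ))} [IsProbabilityMeasure μ]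
    (W : ℕ → Finset (Sym2 ℕ)) (e : Sym2 ℕ) {ε : ℝ} (hε1 : ε ≤ 1) :
    μ {F | e ∉ F ∧ ∀ᶠ n in atTop, 1 - ε < yv μ (W n) e F} ≤ ENNReal.ofReal ε := by
  have h1 : {F | e ∉ F ∧ ∀ᶠ n in atTop, 1 - ε < yv μ (W n) e F} =
      ⋃ N : ℕ, {F | e ∉ F ∧ ∀ n, N ≤ n → 1 - ε < yv μ (W n) e F} := by
    ext F
    simp only [Set.mem_ofPred_eq, eventually_atTop, Set.mem_iUnion]
    constructor
    · rintro ⟨h1, N, hN⟩; exact ⟨N, h1, hN⟩
    · rintro ⟨N, h1, hN⟩; exact ⟨h1, N, hN⟩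
  have h2 : Monotone fun N : ℕ => {F | e ∉ F ∧ ∀ n, N ≤ n → 1 - ε < yv μ (W n) e F} := by
    intro N N' hNN F hF
    exact ⟨hF.1, fun n hn => hF.2 n (hNN.trans hn)⟩
  rw [h1, h2.measure_iUnion]
  refine iSup_le fun N => (measure_mono ?_).trans (ident_bad (μ := μ) (W N) e hε1)
  rintro F ⟨h3, h4⟩
  exact ⟨h3, h4 N le_rfl⟩

theorem ident_bad_ae {μ : Measure (Set (Sym2 ℕ))} [IsProbabilityMeasure μ]
    (W : ℕ → Finset (Sym2 ℕ)) (e : Sym2 ℕ) : ∀ᵐ F ∂μ, e ∉ F → ∃ ε : ℝ, 0 < ε ∧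
        ∃ᶠ n in atTop, yv μ (W n) e F ≤ 1 - ε := by
  have h14 : μ {F | e ∉ F ∧ ∀ k : ℕ, ∀ᶠ n in atTop,
      1 - 1 / ((k : ℝ) + 1) < yv μ (W n) e F} = 0 := by
    have hle : ∀ k : ℕ, μ {F | e ∉ F ∧ ∀ k : ℕ, ∀ᶠ n in atTop,
      1 - 1 / ((k : ℝ) + 1) < yv μ (W n) e F} ≤ ENNReal.ofReal (1 / ((k : ℝ) + 1)) := by
      intro k
      have hε1 : 1 / ((k : ℝ) + 1) ≤ 1 := by
        rw [div_le_one (by positivity)]
        have : (0 : ℝ) ≤ k := by positivity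
        linarith
      refine (measure_mono ?_).trans (ident_bad' (μ := μ) W e hε1)
      rintro F ⟨h15, h16⟩
      exact ⟨h15, h16 k⟩
    have ht : Tendsto (fun k : ℕ => ENNReal.ofReal (1 / ((k : ℝ) + 1))) atTop (𝓝 0) := by
      have := ENNReal.tendsto_ofReal (tendsto_one_div_add_atTop_nhds_zero_nat (𝕜 := ℝ))
      simpa using this
    exact le_antisymm (ge_of_tendsto' ht hle) bot_le
  have h17 : ∀ᵐ F ∂μ, ¬ (e ∉ F ∧ ∀ k : ℕ, ∀ᶠ n in atTop,
      1 - 1 / ((k : ℝ) + 1) < yv μ (W n) e F) := by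
    rw [ae_iff]; simpa using h14
  filter_upwards [h17] with F hF hF2
  have h18 : ∃ k : ℕ, ¬ ∀ᶠ n in atTop, 1 - 1 / ((k : ℝ) + 1) < yv μ (W n) e F := by
    by_contra hc
    push Not at hc
    exact hF ⟨hF2, fun k => by simpa using hc k⟩
  obtain ⟨k, hk⟩ := h18
  rw [not_eventually] at hk
  exact ⟨1 / ((k : ℝ) + 1), by positivity, hk.mono fun n hn => not_lt.mp hn⟩

theorem ident_tsum_pair {x y : ℕ} (hne : x ≠ y) (k : ℕ × ℕ → ℝ) (g : ℕ × ℕ → ℝ)
    (hg1 : ∀ d, d = (x, y) ∨ d = (y, x) → g d = k d)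
    (hg2 : ∀ d, ¬ (d = (x, y) ∨ d = (y, x)) → g d = 0) :
    ∑' d, g d = k (x, y) + k (y, x) := by
  classical
  have h5 : ∑' d, g d = ∑ d ∈ ({(x, y), (y, x)} : Finset (ℕ × ℕ)), g d :=
    tsum_eq_sum fun d hd => hg2 d (by simpa using hd)
  rw [h5, Finset.sum_pair (fun hc => hne (Prod.mk.inj hc).1), hg1 _ (Or.inl rfl),
    hg1 _ (Or.inr rfl)]

theorem ident_en_compl {s : Set (Sym2 ℕ)} {x y : ℕ} (hxy : s(x, y) ∈ s) (hne : x ≠ y) {h : Hs}
    (hh : h ∈ Hsp s ∅) : en ({s(x, y)}ᶜ) h = (h (x, y)) ^ 2 := by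
  have hanti : h (y, x) = - h (x, y) := by
    obtain ⟨u, hu⟩ := hh.1 {x, y}
    rw [hu x (by simp) y (by simp) hxy, hu y (by simp) x (by simp) (by rw [Sym2.eq_swap]; exact hxy)]
    ring
  unfold en
  rw [ident_tsum_pair hne (fun d => (h d) ^ 2)]
  · simp only
    rw [hanti]
    ring
  · rintro ⟨a, b⟩ hd
    have h3 : s(a, b) = s(x, y) := by
      rw [Sym2.eq_iff]
      rcases hd with hd | hd
      · left; exact Prod.mk.inj hd
      · right; exact Prod.mk.inj hd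
    exact if_neg (by simp [h3])
  · rintro ⟨a, b⟩ hd
    have h3 : s(a, b) ≠ s(x, y) := by
      intro hc
      apply hd
      rw [Sym2.eq_iff] at hc
      rcases hc with ⟨rfl, rfl⟩ | ⟨rfl, rfl⟩ <;> simp
    exact if_pos (by simp [h3])

theorem ident_unique_edge {s : Set (Sym2 ℕ)} (hs : IsGraph s) {μ : Measure (Set (Sym2 ℕ))}
    (hμ : IsFUSF s μ) {x y : ℕ} (hxy : s(x, y) ∈ s) : ∀ᵐ F ∂μ, s(x, y) ∉ F → ∀ h ∈ Hsp s ∅,
      (∀ x y : ℕ, s(x, y) ∈ F → h (x, y) = 0) → h (x, y) = 0 := by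
  have hprob : IsProbabilityMeasure μ := hμ.1
  have hne : x ≠ y := fun hc => hs.1 _ hxy (by rw [hc]; exact Sym2.mk_isDiag_iff.mpr rfl)
  set S : Set (Sym2 ℕ) := {s(x, y)}ᶜ with hS
  have heS : s(x, y) ∉ S := by simp [hS]
  have h1 : ∀ᵐ F ∂μ, ∀ n, ∀ h ∈ Hsp s (fa (win S n) F : Set (Sym2 ℕ)),
      (h (x, y)) ^ 2 ≤ en (win S n : Set (Sym2 ℕ)) h * yv μ (win S n) s(x, y) F := by
    rw [ae_all_iff]
    intro n
    exact ident_D1 hs hμ (win S n) hxy fun hc => heS (ident_win_subset S n hc)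
  filter_upwards [h1, ident_bad_ae (μ := μ) (win S) s(x, y)] with F hF1 hF4 hFe h hh hv
  obtain ⟨ε, hε0, hfr⟩ := hF4 hFe
  have hev : ∀ n, h ∈ Hsp s (fa (win S n) F : Set (Sym2 ℕ)) := by
    intro n
    refine ⟨hh.1, fun a b hab => ?_⟩
    rcases hab with hab | hab
    · exact hh.2 a b (Or.inl hab)
    · exact hv a b (ident_mem_fa.mp (Finset.mem_coe.mp hab)).2
  have ht : Tendsto (fun n => en (win S n : Set (Sym2 ℕ)) h * (1 - ε)) atTop
      (𝓝 (en S h * (1 - ε))) := (ident_en_tendsto S h).mul_const _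
  have h18 : (h (x, y)) ^ 2 ≤ en S h * (1 - ε) := by
    refine ge_of_tendsto_of_frequently ht (hfr.mono fun n hn => ?_)
    exact (hF1 n h (hev n)).trans (mul_le_mul_of_nonneg_left hn (ident_en_nonneg _ _))
  rw [hS, ident_en_compl hxy hne hh] at h18
  have h19 : (h (x, y)) ^ 2 ≤ 0 := by nlinarith [sq_nonneg (h (x, y))]
  exact pow_eq_zero_iff (two_ne_zero) |>.mp (le_antisymm h19 (sq_nonneg _))

/-- a.s. no nonzero gradient of finite energy vanishes on the forest -/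
theorem ident_unique {s : Set (Sym2 ℕ)} (hs : IsGraph s) {μ : Measure (Set (Sym2 ℕ))}
    (hμ : IsFUSF s μ) : ∀ᵐ F ∂μ, ∀ h ∈ Hsp s ∅, (∀ x y : ℕ, s(x, y) ∈ F → h (x, y) = 0) →
      h = 0 := by
  have key2 : ∀ᵐ F ∂μ, ∀ x y : ℕ, s(x, y) ∈ s → s(x, y) ∉ F → ∀ h ∈ Hsp s ∅,
      (∀ x y : ℕ, s(x, y) ∈ F → h (x, y) = 0) → h (x, y) = 0 := by
    rw [ae_all_iff]; intro x
    rw [ae_all_iff]; intro y
    by_cases hxy : s(x, y) ∈ s
    · filter_upwards [ident_unique_edge hs hμ hxy] with F hF _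
      exact hF
    · exact Eventually.of_forall fun F hc => absurd hc hxy
  filter_upwards [key2] with F hF h hh hv
  refine lp.ext (funext fun d => ?_)
  obtain ⟨x, y⟩ := d
  rw [lp.coeFn_zero, Pi.zero_apply]
  by_cases hxy : s(x, y) ∈ s
  · by_cases hF2 : s(x, y) ∈ F
    · exact hv x y hF2
    · exact hF x y hxy hF2 h hh hv
  · exact hh.2 x y (Or.inl hxy)



/-- uniqueness event for the configurations `(s, A, S)` -/
def Good (q : Set (Sym2 ℕ) × Set (Sym2 ℕ) × Set (Sym2 ℕ)) : Prop :=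
  ∀ h ∈ Hsp q.1 ∅, (∀ x y : ℕ, s(x, y) ∉ q.2.2 \ q.2.1 → h (x, y) = 0) → h = 0

theorem ident_good_iff (q : Set (Sym2 ℕ) × Set (Sym2 ℕ) × Set (Sym2 ℕ)) {N : Submodule ℝ Hs}
    (hN : N = Hsp q.1 ∅ ⊓ Csp (q.2.2 \ q.2.1)) :
    Good q ↔ ∀ d d' : ℕ × ℕ, prj N (dl d) d' = 0 := by
  have hcl : IsClosed (N : Set Hs) := by
    rw [hN]
    exact (isClosed_Hsp _ _).inter (isClosed_Csp _)
  constructor
  · intro hg d d'
    have h1 : prj N (dl d) ∈ N := by
      have := prj_mem N (dl d)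
      rwa [closure_eq_of_isClosed hcl] at this
    rw [hN] at h1
    have h2 := hg _ h1.1 h1.2
    rw [hN, h2]
    simp
  · intro h0 h hh hv
    have hm : h ∈ N := by rw [hN]; exact ⟨hh, hv⟩
    have hm' : h ∈ N.topologicalClosure := N.le_topologicalClosure hm
    refine lp.ext (funext fun d => ?_)
    rw [lp.coeFn_zero, Pi.zero_apply]
    have h3 : prj N (dl d) = 0 := lp.ext (funext fun d' => by rw [h0 d d']; simp)
    have h4 := prj_inner N (dl d) hm'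
    rw [h3] at h4
    simp only [inner_zero_left, inner_dl_left] at h4
    exact h4.symm

theorem ident_measurable_sdiff : Measurable
    fun q : Set (Sym2 ℕ) × Set (Sym2 ℕ) × Set (Sym2 ℕ) => q.2.2 \ q.2.1 := by
  rw [measurable_set_iff]
  intro e
  have : (fun q : Set (Sym2 ℕ) × Set (Sym2 ℕ) × Set (Sym2 ℕ) => e ∈ q.2.2 \ q.2.1) =
      fun q => e ∈ q.2.2 ∧ ¬ e ∈ q.2.1 := rfl
  rw [this]
  exact ((measurable_set_mem e).comp (measurable_snd.comp measurable_snd)).and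
    ((measurable_set_mem e).comp (measurable_fst.comp measurable_snd)).not

theorem ident_measurableSet_good :
    MeasurableSet {q : Set (Sym2 ℕ) × Set (Sym2 ℕ) × Set (Sym2 ℕ) | Good q} := by
  let T : ℕ → Set (Sym2 ℕ) × Set (Sym2 ℕ) × Set (Sym2 ℕ) → Hs →L[ℝ] Hs := fun k q =>
    if k = 0 then 1 - prj (Hsp q.1 ∅) else 1 - prj (Csp (q.2.2 \ q.2.1))
  have hT : ∀ k, MeasOp (T k) := by
    intro k
    by_cases hk : k = 0
    · have h1 : MeasOp fun q : Set (Sym2 ℕ) × Set (Sym2 ℕ) × Set (Sym2 ℕ) =>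
          prj (Hsp q.1 ∅) := measOp_Hsp.comp_measurable
            (f := fun q : Set (Sym2 ℕ) × Set (Sym2 ℕ) × Set (Sym2 ℕ) => (q.1, ∅))
            (measurable_fst.prodMk measurable_const)
      have h2 : T k = fun q => 1 - prj (Hsp q.1 ∅) := by
        funext q; simp only [T, if_pos hk]
      rw [h2]
      exact MeasOp.sub MeasOp.one h1
    · have h1 : MeasOp fun q : Set (Sym2 ℕ) × Set (Sym2 ℕ) × Set (Sym2 ℕ) =>
          prj (Csp (q.2.2 \ q.2.1)) := measOp_Csp.comp_measurable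
            (f := fun q : Set (Sym2 ℕ) × Set (Sym2 ℕ) × Set (Sym2 ℕ) => q.2.2 \ q.2.1)
            ident_measurable_sdiff
      have h2 : T k = fun q => 1 - prj (Csp (q.2.2 \ q.2.1)) := by
        funext q; simp only [T, if_neg hk]
      rw [h2]
      exact MeasOp.sub MeasOp.one h1
  have hn : ∀ k q, ‖T k q‖ ≤ 1 := by
    intro k q
    by_cases hk : k = 0
    · simp only [T, if_pos hk]; exact norm_one_sub_prj_le _
    · simp only [T, if_neg hk]; exact norm_one_sub_prj_le _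
  have hM := MeasOp.prj_iInf_ker hT hn
  have hN : ∀ q : Set (Sym2 ℕ) × Set (Sym2 ℕ) × Set (Sym2 ℕ),
      (⨅ k, LinearMap.ker (T k q).toLinearMap) = Hsp q.1 ∅ ⊓ Csp (q.2.2 \ q.2.1) := by
    intro q
    have h0 : LinearMap.ker (T 0 q).toLinearMap = Hsp q.1 ∅ := by
      simp only [T, if_pos]
      exact ker_one_sub_prj (isClosed_Hsp _ _)
    have h1 : ∀ k, k ≠ 0 → LinearMap.ker (T k q).toLinearMap = Csp (q.2.2 \ q.2.1) := by
      intro k hk
      simp only [T, if_neg hk]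
      exact ker_one_sub_prj (isClosed_Csp _)
    refine le_antisymm (le_inf ?_ ?_) (le_iInf fun k => ?_)
    · exact (iInf_le _ 0).trans h0.le
    · exact (iInf_le _ 1).trans (h1 1 one_ne_zero).le
    · by_cases hk : k = 0
      · subst hk; exact inf_le_left.trans h0.ge
      · exact inf_le_right.trans (h1 k hk).ge
  have hset : {q : Set (Sym2 ℕ) × Set (Sym2 ℕ) × Set (Sym2 ℕ) | Good q} =
      ⋂ (d : ℕ × ℕ), ⋂ (d' : ℕ × ℕ),
        {q | prj (⨅ k, LinearMap.ker (T k q).toLinearMap) (dl d) d' = 0} := by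
    ext q
    simp only [Set.mem_ofPred_eq, Set.mem_iInter]
    exact ident_good_iff q (hN q)
  rw [hset]
  refine MeasurableSet.iInter fun d => MeasurableSet.iInter fun d' => ?_
  exact measurableSet_eq_fun (hM d d') measurable_const



/-- the configuration `(s, F ∩ S, S)` -/
def idphi (q : (Set (Sym2 ℕ) × Set (Sym2 ℕ)) × Set (Sym2 ℕ)) :
    Set (Sym2 ℕ) × Set (Sym2 ℕ) × Set (Sym2 ℕ) := (q.1.1, q.2 ∩ q.1.2, q.1.2)

theorem ident_measurable_phi : Measurable idphi := by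
  have h : Measurable fun q : (Set (Sym2 ℕ) × Set (Sym2 ℕ)) × Set (Sym2 ℕ) => q.2 ∩ q.1.2 := by
    rw [measurable_set_iff]
    intro e
    have : (fun q : (Set (Sym2 ℕ) × Set (Sym2 ℕ)) × Set (Sym2 ℕ) => e ∈ q.2 ∩ q.1.2) =
      fun q => e ∈ q.2 ∧ e ∈ q.1.2 := rfl
    rw [this]
    exact ((measurable_set_mem e).comp measurable_snd).and
      ((measurable_set_mem e).comp (measurable_snd.comp measurable_fst))
  exact (measurable_fst.comp measurable_fst).prodMk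
    (h.prodMk (measurable_snd.comp measurable_fst))

theorem ident_act_inter (σ : Equiv.Perm ℕ) (A B : Set (Sym2 ℕ)) :
    act σ (A ∩ B) = act σ A ∩ act σ B :=
  Set.image_inter (Sym2.map.injective σ.injective)

theorem ident_phi_act (σ : Equiv.Perm ℕ) (q : (Set (Sym2 ℕ) × Set (Sym2 ℕ)) × Set (Sym2 ℕ)) :
    idphi (act σ q) = act σ (idphi q) := by
  have h := ident_act_inter σ q.2 q.1.2
  exact Prod.ext rfl (Prod.ext h.symm rfl)

/-- law of `(s, F ∩ S, S)` -/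
noncomputable def idm (μ : Set (Sym2 ℕ) → Measure (Set (Sym2 ℕ)))
    (m : Measure ((Set (Sym2 ℕ) × Set (Sym2 ℕ)) × ℕ)) :
    Measure ((Set (Sym2 ℕ) × Set (Sym2 ℕ) × Set (Sym2 ℕ)) × ℕ) :=
  (extend m fun ω => μ ω.1).map fun p => (idphi p.1, p.2)

section
variable {μ : Set (Sym2 ℕ) → Measure (Set (Sym2 ℕ))} (hμm : Measurable μ)
    (hμ1 : ∀ s, IsProbabilityMeasure (μ s))
    (m : Measure ((Set (Sym2 ℕ) × Set (Sym2 ℕ)) × ℕ))

include hμm hμ1 in
theorem ident_lintegral_m (f : (Set (Sym2 ℕ) × Set (Sym2 ℕ) × Set (Sym2 ℕ)) × ℕ → ℝ≥0∞)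
    (hf : Measurable f) : ∫⁻ p, f p ∂(idm μ m) =
      ∫⁻ p, ∫⁻ F, f ((p.1.1, F ∩ p.1.2, p.1.2), p.2) ∂(μ p.1.1) ∂m := by
  have hφ : Measurable fun p : ((Set (Sym2 ℕ) × Set (Sym2 ℕ)) × Set (Sym2 ℕ)) × ℕ =>
      (idphi p.1, p.2) := (ident_measurable_phi.comp measurable_fst).prodMk measurable_snd
  unfold idm
  rw [lintegral_map hf hφ]
  exact lintegral_extend m (κ := fun ω : Set (Sym2 ℕ) × Set (Sym2 ℕ) => μ ω.1)
    (hμm.comp measurable_fst) (fun ω => hμ1 _)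
    (fun a : ((Set (Sym2 ℕ) × Set (Sym2 ℕ)) × Set (Sym2 ℕ)) × ℕ => f (idphi a.1, a.2))
    (hf.comp hφ)

include hμm hμ1 in
theorem ident_ae_m {P : (Set (Sym2 ℕ) × Set (Sym2 ℕ) × Set (Sym2 ℕ)) × ℕ → Prop}
    (hP : MeasurableSet {q | P q})
    (h : ∀ᵐ p ∂m, ∀ᵐ F ∂(μ p.1.1), P ((p.1.1, F ∩ p.1.2, p.1.2), p.2)) :
    ∀ᵐ p ∂(idm μ m), P p := by
  have hφ : Measurable fun p : ((Set (Sym2 ℕ) × Set (Sym2 ℕ)) × Set (Sym2 ℕ)) × ℕ =>
      (idphi p.1, p.2) := (ident_measurable_phi.comp measurable_fst).prodMk measurable_snd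
  unfold idm
  rw [ae_map_iff hφ.aemeasurable hP]
  exact ae_extend_of m (κ := fun ω : Set (Sym2 ℕ) × Set (Sym2 ℕ) => μ ω.1)
    (hμm.comp measurable_fst) (fun ω => hμ1 _) (hφ hP) h

include hμm hμ1 in
theorem ident_mtp_m (hμe : ∀ (σ : Equiv.Perm ℕ) (s : Set (Sym2 ℕ)),
    μ (act σ s) = (μ s).map (act σ)) {m : Measure ((Set (Sym2 ℕ) × Set (Sym2 ℕ)) × ℕ)}
    (hm : MTP m) : MTP (idm μ m) := by
  exact MTP.map (MTP.extend hm (κ := fun ω : Set (Sym2 ℕ) × Set (Sym2 ℕ) => μ ω.1)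
    (hμm.comp measurable_fst) (fun ω => hμ1 _)
    measurable_act_set fun σ ω => hμe σ ω.1) idphi ident_measurable_phi ident_phi_act

end

theorem ident_lint_mem (μ : Measure (Set (Sym2 ℕ))) (S : Set (Sym2 ℕ)) (e : Sym2 ℕ) :
    ∫⁻ F, (F ∩ S).indicator 1 e ∂μ = μ {F | e ∈ F ∩ S} := by
  classical
  have hm : MeasurableSet {F : Set (Sym2 ℕ) | e ∈ F ∩ S} :=
    (ident_measurable_inter S) (measurableSet_mem e)
  rw [← lintegral_indicator_one hm]
  refine lintegral_congr fun F => ?_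
  by_cases h : e ∈ F ∩ S
  · rw [Set.indicator_of_mem h, Set.indicator_of_mem (show F ∈ {F | e ∈ F ∩ S} from h)]
    rfl
  · rw [Set.indicator_of_notMem h, Set.indicator_of_notMem (show F ∉ {F | e ∈ F ∩ S} from h)]

theorem ident_mem_le {s : Set (Sym2 ℕ)} (hs : IsGraph s) {μ : Measure (Set (Sym2 ℕ))}
    (hμ : IsFUSF s μ) {e : Sym2 ℕ} (he : e ∈ s) :
    μ {F | e ∈ F} ≤ ENNReal.ofReal (xval s ∅ ∅ e) := by
  have hprob : IsProbabilityMeasure μ := hμ.1
  rw [← ENNReal.ofReal_toReal (measure_ne_top μ {F | e ∈ F})]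
  exact ENNReal.ofReal_le_ofReal (fusf_D2 hs hμ e he)

theorem ident_lint_sub {s : Set (Sym2 ℕ)} {μ : Measure (Set (Sym2 ℕ))} [IsProbabilityMeasure μ]
    (S : Set (Sym2 ℕ)) (e : Sym2 ℕ) :
    ENNReal.ofReal (xval s S S e) ≤ ∫⁻ F, ENNReal.ofReal (xval s (F ∩ S) S e) ∂μ ∧
    ∫⁻ F, ENNReal.ofReal (xval s (F ∩ S) S e - xval s S S e) ∂μ =
      ∫⁻ F, ENNReal.ofReal (xval s (F ∩ S) S e) ∂μ - ENNReal.ofReal (xval s S S e) := by
  have h1 : ∀ F : Set (Sym2 ℕ), ENNReal.ofReal (xval s S S e) ≤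
      ENNReal.ofReal (xval s (F ∩ S) S e) := fun F =>
    ENNReal.ofReal_le_ofReal (xval_anti s S Set.inter_subset_right e)
  constructor
  · calc ENNReal.ofReal (xval s S S e) = ∫⁻ _ : Set (Sym2 ℕ), ENNReal.ofReal (xval s S S e) ∂μ := by
          rw [lintegral_const, measure_univ, mul_one]
      _ ≤ _ := lintegral_mono h1
  · have h2 : ∀ F : Set (Sym2 ℕ), ENNReal.ofReal (xval s (F ∩ S) S e - xval s S S e) =
        ENNReal.ofReal (xval s (F ∩ S) S e) - ENNReal.ofReal (xval s S S e) := fun F =>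
      ENNReal.ofReal_sub _ (xval_nonneg _ _ _ _)
    simp only [h2]
    rw [lintegral_sub measurable_const (by simp) (Eventually.of_forall h1)]
    rw [lintegral_const, measure_univ, mul_one]

theorem ident_I_le {s : Set (Sym2 ℕ)} (hs : IsGraph s) {μ : Measure (Set (Sym2 ℕ))}
    (hμ : IsFUSF s μ) {S : Set (Sym2 ℕ)} {e : Sym2 ℕ} (he : e ∈ s) (heS : e ∉ S) :
    ∫⁻ F, ENNReal.ofReal (xval s (F ∩ S) S e) ∂μ ≤ μ {F | e ∈ F} := by
  have h := ident_LB hs hμ S he heS ∅ (by simp) (fun _ => True)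
  simpa using h

theorem ident_term {s : Set (Sym2 ℕ)} (hs : IsGraph s) {μ : Measure (Set (Sym2 ℕ))}
    (hμ : IsFUSF s μ) {S : Set (Sym2 ℕ)} (hS : S ⊆ s) (e : Sym2 ℕ) :
    ∫⁻ F, (F ∩ S).indicator 1 e ∂μ +
      ∫⁻ F, ENNReal.ofReal (xval s (F ∩ S) S e - xval s S S e) ∂μ ≤
      ENNReal.ofReal (xval s ∅ ∅ e - xval s S S e) := by
  have hprob : IsProbabilityMeasure μ := hμ.1
  rw [ident_lint_mem]
  by_cases he : e ∈ s
  · by_cases heS : e ∈ S
    · have h1 : ∀ A, xval s A S e = 0 := fun A => xval_eq_zero s A S e (Or.inl heS)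
      simp only [h1, sub_zero, ENNReal.ofReal_zero, lintegral_zero, add_zero]
      refine le_trans (measure_mono ?_) (ident_mem_le hs hμ he)
      intro F hF
      exact hF.1
    · have h0 : μ {F | e ∈ F ∩ S} = 0 := by
        have : {F : Set (Sym2 ℕ) | e ∈ F ∩ S} = ∅ := by
          ext F; simp [heS]
        rw [this, measure_empty]
      rw [h0, zero_add, (ident_lint_sub S e).2, ENNReal.ofReal_sub _ (xval_nonneg _ _ _ _)]
      exact tsub_le_tsub_right ((ident_I_le hs hμ he heS).trans (ident_mem_le hs hμ he)) _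
  · have h1 : ∀ A S', xval s A S' e = 0 := fun A S' => xval_eq_zero s A S' e (Or.inr (Or.inl he))
    simp only [h1, sub_zero, ENNReal.ofReal_zero, lintegral_zero, add_zero]
    have : {F : Set (Sym2 ℕ) | e ∈ F ∩ S} = ∅ := by
      ext F
      simp only [Set.mem_ofPred_eq, Set.mem_inter_iff, Set.mem_empty_iff_false, iff_false, not_and]
      intro _ hc
      exact he (hS hc)
    rw [this, measure_empty]

theorem ident_term_eq {s : Set (Sym2 ℕ)} (hs : IsGraph s) {μ : Measure (Set (Sym2 ℕ))}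
    (hμ : IsFUSF s μ) {S : Set (Sym2 ℕ)} {e : Sym2 ℕ} (he : e ∈ s \ S)
    (h : ∫⁻ F, (F ∩ S).indicator 1 e ∂μ +
      ∫⁻ F, ENNReal.ofReal (xval s (F ∩ S) S e - xval s S S e) ∂μ =
      ENNReal.ofReal (xval s ∅ ∅ e - xval s S S e)) :
    ∫⁻ F, ENNReal.ofReal (xval s (F ∩ S) S e) ∂μ = μ {F | e ∈ F} := by
  have hprob : IsProbabilityMeasure μ := hμ.1
  have h0 : μ {F | e ∈ F ∩ S} = 0 := by
    have : {F : Set (Sym2 ℕ) | e ∈ F ∩ S} = ∅ := by
      ext F; simp [he.2]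
    rw [this, measure_empty]
  rw [ident_lint_mem, h0, zero_add, (ident_lint_sub S e).2,
    ENNReal.ofReal_sub _ (xval_nonneg _ _ _ _)] at h
  have h1 := (ident_lint_sub (μ := μ) (s := s) S e).1
  have h2 := ident_I_le hs hμ he.1 he.2
  have h3 := ident_mem_le hs hμ he.1
  set I := ∫⁻ F, ENNReal.ofReal (xval s (F ∩ S) S e) ∂μ with hI
  set L := ENNReal.ofReal (xval s S S e) with hL
  have h4 : I = ENNReal.ofReal (xval s ∅ ∅ e) := by
    rw [← tsub_add_cancel_of_le h1, h, tsub_add_cancel_of_le (h1.trans (h2.trans h3))]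
  exact le_antisymm h2 (h4 ▸ h3)



/-! ### from total equality to the sampling identity -/

open Classical in
theorem ident_cyl_Q {S : Set (Sym2 ℕ)} {A B : Finset (Sym2 ℕ)}
    (hA : (A : Set (Sym2 ℕ)) ⊆ S) :
    ∃ (W : Finset (Sym2 ℕ)) (Q : Finset (Sym2 ℕ) → Prop), (W : Set (Sym2 ℕ)) ⊆ S ∧
      {F : Set (Sym2 ℕ) | F ∩ S ∈ cyl A B} = {F | Q (fa W F)} := by
  refine ⟨A ∪ B.filter (fun e => e ∈ S),
    fun A' => A ⊆ A' ∧ Disjoint (B.filter fun e => e ∈ S) A', ?_, ?_⟩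
  · intro e he
    rw [Finset.mem_coe, Finset.mem_union, Finset.mem_filter] at he
    rcases he with he | he
    · exact hA he
    · exact he.2
  · ext F
    simp only [Set.mem_ofPred_eq, cyl]
    constructor
    · rintro ⟨h1, h2⟩
      refine ⟨fun e he => ?_, ?_⟩
      · exact ident_mem_fa.mpr ⟨Finset.mem_union_left _ he, (h1 he).1⟩
      · rw [Finset.disjoint_left]
        intro e he he'
        rw [Finset.mem_filter] at he
        exact Set.disjoint_left.mp h2 (Finset.mem_coe.mpr he.1)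
          ⟨(ident_mem_fa.mp he').2, he.2⟩
    · rintro ⟨h1, h2⟩
      refine ⟨fun e he => ⟨(ident_mem_fa.mp (h1 he)).2, hA he⟩, ?_⟩
      rw [Set.disjoint_left]
      rintro e he ⟨heF, heS⟩
      have h3 : e ∈ B.filter fun e => e ∈ S := Finset.mem_filter.mpr ⟨he, heS⟩
      exact Finset.disjoint_left.mp h2 h3
        (ident_mem_fa.mpr ⟨Finset.mem_union_right _ h3, heF⟩)

theorem ident_split {a b a' b' : ℝ≥0∞} (h1 : a ≤ a') (h2 : b ≤ b') (h3 : a + b = a' + b')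
    (hb : b' ≠ ∞) : a = a' := by
  refine le_antisymm h1 ?_
  have hb2 : b ≠ ∞ := ne_top_of_le_ne_top hb h2
  have : a' + b ≤ a + b := by rw [h3]; gcongr
  exact (ENNReal.add_le_add_iff_right hb2).mp this

theorem ident_IDp {s : Set (Sym2 ℕ)} (hs : IsGraph s) {μ : Measure (Set (Sym2 ℕ))}
    (hμ : IsFUSF s μ) {S : Set (Sym2 ℕ)} {e : Sym2 ℕ} (he : e ∈ s \ S)
    (hT : ∫⁻ F, ENNReal.ofReal (xval s (F ∩ S) S e) ∂μ = μ {F | e ∈ F}) : IDp μ s S e := by
  have hprob : IsProbabilityMeasure μ := hμ.1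
  have hmS := ident_measurable_inter S
  set x : Set (Sym2 ℕ) → ℝ≥0∞ := fun F => ENNReal.ofReal (xval s (F ∩ S) S e) with hx
  have hxm : Measurable x := ident_measurable_x s S e
  have hmem : MeasurableSet {F : Set (Sym2 ℕ) | e ∈ F} := measurableSet_mem e
  -- the two measures
  have e1 : ∀ C : Set (Set (Sym2 ℕ)), MeasurableSet C →
      (((μ.withDensity x).map fun F => F ∩ S) C) = ∫⁻ F in {F | F ∩ S ∈ C}, x F ∂μ := by
    intro C hC
    rw [Measure.map_apply hmS hC, withDensity_apply _ (hmS hC)]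
    rfl
  have e2 : ∀ C : Set (Set (Sym2 ℕ)), MeasurableSet C →
      (((μ.restrict {F | e ∈ F}).map fun F => F ∩ S) C) = μ ({F | F ∩ S ∈ C} ∩ {F | e ∈ F}) := by
    intro C hC
    rw [Measure.map_apply hmS hC, Measure.restrict_apply (hmS hC)]
    rfl
  have hfin : IsFiniteMeasure ((μ.withDensity x).map fun F => F ∩ S) := by
    constructor
    rw [e1 _ MeasurableSet.univ]
    simp only [Set.mem_univ]
    have : ∫⁻ F in {F : Set (Sym2 ℕ) | True}, x F ∂μ ≤ ∫⁻ F, x F ∂μ :=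
      setLIntegral_le_lintegral _ _
    refine lt_of_le_of_lt this ?_
    rw [hT]
    exact measure_lt_top _ _
  have hcyl : ∀ A B : Finset (Sym2 ℕ), ((μ.withDensity x).map fun F => F ∩ S) (cyl A B) =
      ((μ.restrict {F | e ∈ F}).map fun F => F ∩ S) (cyl A B) := by
    intro A B
    rw [e1 _ (measurableSet_cyl A B), e2 _ (measurableSet_cyl A B)]
    by_cases hA : (A : Set (Sym2 ℕ)) ⊆ S
    · obtain ⟨W, Q, hW, hQ⟩ := ident_cyl_Q (B := B) hA
      rw [hQ]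
      have hQm : MeasurableSet {F : Set (Sym2 ℕ) | Q (fa W F)} := ident_measurableSet_Q W Q
      have l1 := ident_LB hs hμ S he.1 he.2 W hW Q
      have l2 := ident_LB hs hμ S he.1 he.2 W hW (fun A => ¬ Q A)
      refine ident_split l1 l2 ?_ (measure_ne_top _ _)
      have c1 : {F : Set (Sym2 ℕ) | ¬ Q (fa W F)} = {F : Set (Sym2 ℕ) | Q (fa W F)}ᶜ := rfl
      rw [c1, lintegral_add_compl _ hQm]
      rw [hx, hT] 
      have h9 := measure_inter_add_sdiff (μ := μ) {F : Set (Sym2 ℕ) | e ∈ F} hQm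
      rw [← h9, Set.inter_comm]
      congr 2
      ext F
      simp only [Set.mem_sdiff, Set.mem_inter_iff, Set.mem_compl_iff]
      tauto
    · have h0 : {F : Set (Sym2 ℕ) | F ∩ S ∈ cyl A B} = ∅ := by
        ext F
        simp only [Set.mem_ofPred_eq, cyl, Set.mem_empty_iff_false, iff_false, not_and]
        intro h1
        exact absurd (h1.trans Set.inter_subset_right) hA
      rw [h0]; simp
  have hext := ext_of_cyl hcyl
  intro C hC
  have h1 : ((μ.withDensity x).map fun F => F ∩ S) C =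
      ((μ.restrict {F | e ∈ F}).map fun F => F ∩ S) C := by rw [hext]
  rw [e1 C hC, e2 C hC] at h1
  exact h1

/-! ### total equality at the root -/

section
variable {μ : Set (Sym2 ℕ) → Measure (Set (Sym2 ℕ))} 

/-- total equality -/
def Tot (μ : Set (Sym2 ℕ) → Measure (Set (Sym2 ℕ))) (s S : Set (Sym2 ℕ)) (e : Sym2 ℕ) : Prop :=
  ∫⁻ F, ENNReal.ofReal (xval s (F ∩ S) S e) ∂(μ s) = μ s {F | e ∈ F}

theorem ident_measurableSet_tot (hμm : Measurable μ)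
    (hμ1 : ∀ s, IsProbabilityMeasure (μ s)) (e : Sym2 ℕ) :
    MeasurableSet {ω : Set (Sym2 ℕ) × Set (Sym2 ℕ) | Tot μ ω.1 ω.2 e} := by
  let κ : ProbabilityTheory.Kernel (Set (Sym2 ℕ) × Set (Sym2 ℕ)) (Set (Sym2 ℕ)) :=
    ⟨fun ω => μ ω.1, hμm.comp measurable_fst⟩
  have hκ : ProbabilityTheory.IsMarkovKernel κ := ⟨fun ω => hμ1 ω.1⟩
  have hf0 : Measurable fun q : (Set (Sym2 ℕ) × Set (Sym2 ℕ)) × Set (Sym2 ℕ) =>
      xval (idphi q).1 (idphi q).2.1 (idphi q).2.2 e :=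
    (measurable_xval e).comp ident_measurable_phi
  have hf : Measurable fun q : (Set (Sym2 ℕ) × Set (Sym2 ℕ)) × Set (Sym2 ℕ) =>
      ENNReal.ofReal (xval q.1.1 (q.2 ∩ q.1.2) q.1.2 e) := hf0.ennreal_ofReal
  have h1 : Measurable fun ω : Set (Sym2 ℕ) × Set (Sym2 ℕ) =>
      ∫⁻ F, ENNReal.ofReal (xval ω.1 (F ∩ ω.2) ω.2 e) ∂(μ ω.1) :=
    Measurable.lintegral_kernel_prod_right' (κ := κ) hf
  have h2 : Measurable fun ω : Set (Sym2 ℕ) × Set (Sym2 ℕ) => μ ω.1 {F | e ∈ F} :=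
    (Measure.measurable_coe (measurableSet_mem e)).comp (hμm.comp measurable_fst)
  exact measurableSet_eq_fun h1 h2

theorem ident_tot_act (hμe : ∀ (σ : Equiv.Perm ℕ) (s : Set (Sym2 ℕ)),
    μ (act σ s) = (μ s).map (act σ)) (σ : Equiv.Perm ℕ) (s S : Set (Sym2 ℕ)) (e : Sym2 ℕ) :
    Tot μ (act σ s) (act σ S) (Sym2.map σ e) ↔ Tot μ s S e := by
  unfold Tot
  have h1 : ∫⁻ F, ENNReal.ofReal (xval (act σ s) (F ∩ act σ S) (act σ S) (Sym2.map σ e))
      ∂(μ (act σ s)) = ∫⁻ F, ENNReal.ofReal (xval s (F ∩ S) S e) ∂(μ s) := by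
    rw [hμe, lintegral_map (ident_measurable_x _ _ _) (measurable_act_set σ)]
    refine lintegral_congr fun F => ?_
    rw [← ident_act_inter, xval_act]
  have h2 : μ (act σ s) {F | Sym2.map σ e ∈ F} = μ s {F | e ∈ F} := by
    rw [hμe, Measure.map_apply (measurable_act_set σ) (measurableSet_mem _)]
    congr 1
    ext F
    simp only [Set.mem_preimage, Set.mem_ofPred_eq]
    constructor
    · rintro ⟨e', he', h⟩
      rwa [← Sym2.map.injective σ.injective h]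
    · intro h; exact ⟨e, h, rfl⟩
  rw [h1, h2]

theorem ident_mem_act (σ : Equiv.Perm ℕ) (s : Set (Sym2 ℕ)) (x y : ℕ) :
    s(σ x, σ y) ∈ act σ s ↔ s(x, y) ∈ s := by
  constructor
  · rintro ⟨e', he', h⟩
    have h2 : Sym2.map σ e' = Sym2.map σ s(x, y) := by rw [h, Sym2.map_mk]
    rwa [← Sym2.map.injective σ.injective h2]
  · intro h; exact ⟨s(x, y), h, by rw [Sym2.map_mk]⟩

theorem ident_root (hμm : Measurable μ)
    (hμ1 : ∀ s, IsProbabilityMeasure (μ s))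
    (hμe : ∀ (σ : Equiv.Perm ℕ) (s : Set (Sym2 ℕ)), μ (act σ s) = (μ s).map (act σ))
    {m : Measure ((Set (Sym2 ℕ) × Set (Sym2 ℕ)) × ℕ)} (hm : MTP m)
    (h : ∀ᵐ p ∂m, ∀ y, s(p.2, y) ∈ p.1.1 \ p.1.2 → Tot μ p.1.1 p.1.2 s(p.2, y)) :
    ∀ᵐ p ∂m, ∀ e ∈ p.1.1 \ p.1.2, Tot μ p.1.1 p.1.2 e := by
  have h1 := MTP.root hm (fun ω x => ∀ y, s(x, y) ∈ ω.1 \ ω.2 → Tot μ ω.1 ω.2 s(x, y)) ?_ ?_ h
  · filter_upwards [h1] with p hp e he
    revert he
    refine Sym2.ind (fun x y he => ?_) e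
    exact hp x y he
  · intro x
    have : {ω : Set (Sym2 ℕ) × Set (Sym2 ℕ) | ∀ y, s(x, y) ∈ ω.1 \ ω.2 → Tot μ ω.1 ω.2 s(x, y)} =
        ⋂ y, ({ω | s(x, y) ∈ ω.1} ∩ {ω | s(x, y) ∈ ω.2}ᶜ)ᶜ ∪ {ω | Tot μ ω.1 ω.2 s(x, y)} := by
      ext ω
      simp only [Set.mem_ofPred_eq, Set.mem_iInter, Set.mem_union, Set.mem_compl_iff,
        Set.mem_inter_iff, Set.mem_sdiff]
      refine forall_congr' fun y => ?_
      tauto
    rw [this]
    refine MeasurableSet.iInter fun y => (MeasurableSet.compl (MeasurableSet.inter ?_ ?_)).union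
      (ident_measurableSet_tot hμm hμ1 _)
    · exact measurable_fst (measurableSet_mem s(x, y))
    · exact (measurable_snd (measurableSet_mem s(x, y))).compl
  · intro σ ω x
    have key : ∀ y, (s(σ x, σ y) ∈ (act σ ω).1 \ (act σ ω).2 →
        Tot μ (act σ ω).1 (act σ ω).2 s(σ x, σ y)) ↔
        (s(x, y) ∈ ω.1 \ ω.2 → Tot μ ω.1 ω.2 s(x, y)) := by
      intro y
      have a1 : s(σ x, σ y) ∈ (act σ ω).1 ↔ s(x, y) ∈ ω.1 := ident_mem_act σ ω.1 x y
      have a2 : s(σ x, σ y) ∈ (act σ ω).2 ↔ s(x, y) ∈ ω.2 := ident_mem_act σ ω.2 x y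
      have a3 := ident_tot_act hμe σ ω.1 ω.2 s(x, y)
      rw [Sym2.map_mk] at a3
      rw [Set.mem_sdiff, Set.mem_sdiff, a1, a2]
      exact imp_congr_right fun _ => a3
    constructor
    · intro hB y
      exact (key y).mp (hB (σ y))
    · intro hB y
      have := (key (σ.symm y)).mpr (hB _)
      rwa [Equiv.apply_symm_apply] at this

end



/-! ### the sampling identity almost everywhere -/

theorem ident_meas_xval {Ω : Type*} [MeasurableSpace Ω] {s A S : Ω → Set (Sym2 ℕ)}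
    (hs : Measurable s) (hA : Measurable A) (hS : Measurable S) (e : Sym2 ℕ) :
    Measurable fun ω => xval (s ω) (A ω) (S ω) e := by
  have h := (measurable_xval e).comp (hs.prodMk (hA.prodMk hS))
  exact h

attribute [local irreducible] xval

theorem ident_tsum_eq {a b : ℕ → ℝ≥0∞} (h : ∀ y, b y ≤ a y) (he : ∑' y, b y = ∑' y, a y)
    (hf : ∑' y, b y ≠ ∞) (y : ℕ) : b y = a y := by
  by_contra hne
  have hlt : b y < a y := lt_of_le_of_ne (h y) hne
  exact absurd he (ne_of_lt (ENNReal.tsum_lt_tsum hf h hlt))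

theorem ident_meas1 : Measurable fun p : (Set (Sym2 ℕ) × Set (Sym2 ℕ) × Set (Sym2 ℕ)) × ℕ =>
    ∑' y, ENNReal.ofReal (xval p.1.1 ∅ ∅ s(p.2, y) - xval p.1.1 p.1.2.2 p.1.2.2 s(p.2, y)) := by
  refine mtp_measurable_sum (fun (q : Set (Sym2 ℕ) × Set (Sym2 ℕ) × Set (Sym2 ℕ)) (x y : ℕ) =>
    ENNReal.ofReal (xval q.1 ∅ ∅ s(x, y) - xval q.1 q.2.2 q.2.2 s(x, y))) fun x y => ?_
  have h1 : Measurable fun q : Set (Sym2 ℕ) × Set (Sym2 ℕ) × Set (Sym2 ℕ) =>
      xval q.1 ∅ ∅ s(x, y) :=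
    ident_meas_xval measurable_fst measurable_const measurable_const _
  have h2 : Measurable fun q : Set (Sym2 ℕ) × Set (Sym2 ℕ) × Set (Sym2 ℕ) =>
      xval q.1 q.2.2 q.2.2 s(x, y) :=
    ident_meas_xval measurable_fst (measurable_snd.comp measurable_snd)
      (measurable_snd.comp measurable_snd) _
  exact (h1.sub h2).ennreal_ofReal

theorem ident_meas2 : Measurable fun p : (Set (Sym2 ℕ) × Set (Sym2 ℕ) × Set (Sym2 ℕ)) × ℕ =>
    ∑' y, ((p.1.2.1).indicator 1 s(p.2, y) : ℝ≥0∞) := by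
  classical
  refine mtp_measurable_sum (fun (q : Set (Sym2 ℕ) × Set (Sym2 ℕ) × Set (Sym2 ℕ)) (x y : ℕ) =>
    ((q.2.1).indicator 1 s(x, y) : ℝ≥0∞)) fun x y => ?_
  have h1 : MeasurableSet {q : Set (Sym2 ℕ) × Set (Sym2 ℕ) × Set (Sym2 ℕ) | s(x, y) ∈ q.2.1} :=
    (measurable_fst.comp measurable_snd) (measurableSet_mem s(x, y))
  have h2 : (fun q : Set (Sym2 ℕ) × Set (Sym2 ℕ) × Set (Sym2 ℕ) =>
      ((q.2.1).indicator 1 s(x, y) : ℝ≥0∞)) =
      {q : Set (Sym2 ℕ) × Set (Sym2 ℕ) × Set (Sym2 ℕ) | s(x, y) ∈ q.2.1}.indicator 1 := by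
    funext q
    by_cases h : s(x, y) ∈ q.2.1
    · rw [Set.indicator_of_mem h, Set.indicator_of_mem (Set.mem_ofPred_eq ▸ h)]; rfl
    · rw [Set.indicator_of_notMem h, Set.indicator_of_notMem (Set.mem_ofPred_eq ▸ h)]
  rw [h2]
  exact measurable_one.indicator h1

theorem ident_meas3 : Measurable fun p : (Set (Sym2 ℕ) × Set (Sym2 ℕ) × Set (Sym2 ℕ)) × ℕ =>
    ∑' y, ENNReal.ofReal (xval p.1.1 p.1.2.1 p.1.2.2 s(p.2, y) -
      xval p.1.1 p.1.2.2 p.1.2.2 s(p.2, y)) := by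
  refine mtp_measurable_sum (fun (q : Set (Sym2 ℕ) × Set (Sym2 ℕ) × Set (Sym2 ℕ)) (x y : ℕ) =>
    ENNReal.ofReal (xval q.1 q.2.1 q.2.2 s(x, y) - xval q.1 q.2.2 q.2.2 s(x, y))) fun x y => ?_
  have h2 : Measurable fun q : Set (Sym2 ℕ) × Set (Sym2 ℕ) × Set (Sym2 ℕ) =>
      xval q.1 q.2.2 q.2.2 s(x, y) :=
    ident_meas_xval measurable_fst (measurable_snd.comp measurable_snd)
      (measurable_snd.comp measurable_snd) _
  exact ((measurable_xval s(x, y)).sub h2).ennreal_ofReal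

theorem ident_meas4 : Measurable fun p : (Set (Sym2 ℕ) × Set (Sym2 ℕ) × Set (Sym2 ℕ)) × ℕ =>
    ∑' y, ((p.1.2.2).indicator 1 s(p.2, y) : ℝ≥0∞) := by
  classical
  refine mtp_measurable_sum (fun (q : Set (Sym2 ℕ) × Set (Sym2 ℕ) × Set (Sym2 ℕ)) (x y : ℕ) =>
    ((q.2.2).indicator 1 s(x, y) : ℝ≥0∞)) fun x y => ?_
  have h1 : MeasurableSet {q : Set (Sym2 ℕ) × Set (Sym2 ℕ) × Set (Sym2 ℕ) | s(x, y) ∈ q.2.2} :=
    (measurable_snd.comp measurable_snd) (measurableSet_mem s(x, y))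
  have h2 : (fun q : Set (Sym2 ℕ) × Set (Sym2 ℕ) × Set (Sym2 ℕ) =>
      ((q.2.2).indicator 1 s(x, y) : ℝ≥0∞)) =
      {q : Set (Sym2 ℕ) × Set (Sym2 ℕ) × Set (Sym2 ℕ) | s(x, y) ∈ q.2.2}.indicator 1 := by
    funext q
    by_cases h : s(x, y) ∈ q.2.2
    · rw [Set.indicator_of_mem h, Set.indicator_of_mem (Set.mem_ofPred_eq ▸ h)]; rfl
    · rw [Set.indicator_of_notMem h, Set.indicator_of_notMem (Set.mem_ofPred_eq ▸ h)]
  rw [h2]
  exact measurable_one.indicator h1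

theorem ident_lconst {μ : Measure (Set (Sym2 ℕ))} (h : IsProbabilityMeasure μ) (c : ℝ≥0∞) :
    ∫⁻ _ : Set (Sym2 ℕ), c ∂μ = c := by
  rw [lintegral_const, measure_univ, mul_one]

theorem ident_measurableSet_sub : MeasurableSet
    {p : (Set (Sym2 ℕ) × Set (Sym2 ℕ) × Set (Sym2 ℕ)) × ℕ | p.1.2.1 ⊆ p.1.2.2} := by
  have : {p : (Set (Sym2 ℕ) × Set (Sym2 ℕ) × Set (Sym2 ℕ)) × ℕ | p.1.2.1 ⊆ p.1.2.2} =
      ⋂ e : Sym2 ℕ, {p | e ∈ p.1.2.1}ᶜ ∪ {p | e ∈ p.1.2.2} := by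
    ext p
    simp only [Set.mem_ofPred_eq, Set.subset_def, Set.mem_iInter, Set.mem_union,
      Set.mem_compl_iff]
    refine forall_congr' fun e => ?_
    tauto
  rw [this]
  refine MeasurableSet.iInter fun e => MeasurableSet.union ?_ ?_
  · exact ((measurable_fst.comp (measurable_snd.comp measurable_fst))
      (measurableSet_mem e)).compl
  · exact (measurable_snd.comp (measurable_snd.comp measurable_fst)) (measurableSet_mem e)

section
variable {μ : Set (Sym2 ℕ) → Measure (Set (Sym2 ℕ))} (hμm : Measurable μ)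
    (hμ1 : ∀ s, IsProbabilityMeasure (μ s))
    (hμe : ∀ (σ : Equiv.Perm ℕ) (s : Set (Sym2 ℕ)), μ (act σ s) = (μ s).map (act σ))
    (hμF : ∀ s, IsGraph s → IsFUSF s (μ s))
    {m : Measure ((Set (Sym2 ℕ) × Set (Sym2 ℕ)) × ℕ)} (hm : MTP m)
    (hg : ∀ᵐ p ∂m, IsGraph p.1.1) 
    (hfin : ∫⁻ p, ∑' y, (p.1.2).indicator 1 s(p.2, y) ∂m ≠ ∞)

/-- the three sums -/
noncomputable def ida (p : (Set (Sym2 ℕ) × Set (Sym2 ℕ)) × ℕ) (y : ℕ) : ℝ≥0∞ :=
  ENNReal.ofReal (xval p.1.1 ∅ ∅ s(p.2, y) - xval p.1.1 p.1.2 p.1.2 s(p.2, y))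

noncomputable def idb (μ : Set (Sym2 ℕ) → Measure (Set (Sym2 ℕ)))
    (p : (Set (Sym2 ℕ) × Set (Sym2 ℕ)) × ℕ) (y : ℕ) : ℝ≥0∞ :=
  ∫⁻ F, (F ∩ p.1.2).indicator 1 s(p.2, y) ∂(μ p.1.1)

noncomputable def idc (μ : Set (Sym2 ℕ) → Measure (Set (Sym2 ℕ)))
    (p : (Set (Sym2 ℕ) × Set (Sym2 ℕ)) × ℕ) (y : ℕ) : ℝ≥0∞ :=
  ∫⁻ F, ENNReal.ofReal (xval p.1.1 (F ∩ p.1.2) p.1.2 s(p.2, y) -
    xval p.1.1 p.1.2 p.1.2 s(p.2, y)) ∂(μ p.1.1)

include hμm hμ1 hμe hμF hm hg hfin in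
theorem ident_key : ∫⁻ p, ∑' y, ida p y ∂m ≤
      ∫⁻ p, ∑' y, idb μ p y ∂m + ∫⁻ p, ∑' y, idc μ p y ∂m ∧
    ∫⁻ p, ∑' y, idc μ p y ∂m ≠ ∞ ∧ ∫⁻ p, ∑' y, idb μ p y ∂m ≠ ∞ := by
  have hm2 : MTP (idm μ m) := ident_mtp_m hμm hμ1 hμe hm
  have e4 : ∫⁻ p, ∑' y, (p.1.2.2).indicator 1 s(p.2, y) ∂(idm μ m) =
      ∫⁻ p, ∑' y, (p.1.2).indicator 1 s(p.2, y) ∂m := by
    rw [ident_lintegral_m hμm hμ1 m _ ident_meas4]
    refine lintegral_congr fun p => ?_
    exact ident_lconst (hμ1 p.1.1) (∑' y, (p.1.2).indicator 1 s(p.2, y))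
  have hfin2 : ∫⁻ p, ∑' y, (p.1.2.2).indicator 1 s(p.2, y) ∂(idm μ m) ≠ ∞ := by
    rw [e4]; exact hfin
  have hsub : ∀ᵐ p ∂(idm μ m), p.1.2.1 ⊆ p.1.2.2 :=
    ident_ae_m hμm hμ1 m ident_measurableSet_sub
      (Eventually.of_forall fun p => Eventually.of_forall fun F => Set.inter_subset_right)
  have hinj : ∀ᵐ p ∂(idm μ m), Good p.1 := by
    refine ident_ae_m hμm hμ1 m (P := fun p => Good p.1)
      (measurable_fst ident_measurableSet_good) ?_
    filter_upwards [hg] with p hp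
    filter_upwards [ident_unique hp (hμF _ hp)] with F hF h hh hv
    refine hF h hh fun x y hxy => hv x y fun hc => ?_
    exact hc.2 ⟨hxy, hc.1⟩
  obtain ⟨k1, k2⟩ := xval_ident hm2 hsub hinj hfin2
  have e1 : ∫⁻ p, ∑' y, ENNReal.ofReal (xval p.1.1 ∅ ∅ s(p.2, y) -
      xval p.1.1 p.1.2.2 p.1.2.2 s(p.2, y)) ∂(idm μ m) = ∫⁻ p, ∑' y, ida p y ∂m := by
    rw [ident_lintegral_m hμm hμ1 m _ ident_meas1]
    refine lintegral_congr fun p => ?_
    exact ident_lconst (hμ1 p.1.1) (∑' y, ida p y)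
  have e2 : ∫⁻ p, ∑' y, (p.1.2.1).indicator 1 s(p.2, y) ∂(idm μ m) =
      ∫⁻ p, ∑' y, idb μ p y ∂m := by
    rw [ident_lintegral_m hμm hμ1 m _ ident_meas2]
    refine lintegral_congr fun p => ?_
    rw [lintegral_tsum]
    · rfl
    · intro y
      have h1 : MeasurableSet {F : Set (Sym2 ℕ) | s(p.2, y) ∈ F ∩ p.1.2} :=
        (ident_measurable_inter p.1.2) (measurableSet_mem _)
      have h2 : (fun F : Set (Sym2 ℕ) => ((F ∩ p.1.2).indicator 1 s(p.2, y) : ℝ≥0∞)) =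
          {F : Set (Sym2 ℕ) | s(p.2, y) ∈ F ∩ p.1.2}.indicator 1 := by
        funext F
        by_cases h : s(p.2, y) ∈ F ∩ p.1.2
        · rw [Set.indicator_of_mem h, Set.indicator_of_mem
            (show F ∈ {F : Set (Sym2 ℕ) | s(p.2, y) ∈ F ∩ p.1.2} from h)]; rfl
        · rw [Set.indicator_of_notMem h, Set.indicator_of_notMem
            (show F ∉ {F : Set (Sym2 ℕ) | s(p.2, y) ∈ F ∩ p.1.2} from h)]
      exact (h2 ▸ measurable_one.indicator h1 :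
        Measurable fun F : Set (Sym2 ℕ) =>
          ((F ∩ p.1.2).indicator 1 s(p.2, y) : ℝ≥0∞)).aemeasurable
  have e3 : ∫⁻ p, ∑' y, ENNReal.ofReal (xval p.1.1 p.1.2.1 p.1.2.2 s(p.2, y) -
      xval p.1.1 p.1.2.2 p.1.2.2 s(p.2, y)) ∂(idm μ m) = ∫⁻ p, ∑' y, idc μ p y ∂m := by
    rw [ident_lintegral_m hμm hμ1 m _ ident_meas3]
    refine lintegral_congr fun p => ?_
    rw [lintegral_tsum]
    · rfl
    · intro y
      have h1 : Measurable fun F : Set (Sym2 ℕ) => xval p.1.1 (F ∩ p.1.2) p.1.2 s(p.2, y) :=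
        ident_meas_xval measurable_const (ident_measurable_inter p.1.2) measurable_const _
      exact ((h1.sub_const (xval p.1.1 p.1.2 p.1.2 s(p.2, y))).ennreal_ofReal).aemeasurable
  rw [e1, e2, e3] at k1
  rw [e3] at k2
  refine ⟨k1, k2, ?_⟩
  refine ne_top_of_le_ne_top hfin (lintegral_mono fun p => ENNReal.tsum_le_tsum fun y => ?_)
  have := hμ1 p.1.1
  calc idb μ p y ≤ ∫⁻ _ : Set (Sym2 ℕ), (p.1.2).indicator 1 s(p.2, y) ∂(μ p.1.1) := by
        refine lintegral_mono fun F => ?_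
        exact Set.indicator_le_indicator_of_subset Set.inter_subset_right
          (fun _ => zero_le_one) _
    _ = _ := by rw [lintegral_const, measure_univ, mul_one]

include hμm hμ1 hμe hμF hm hg hfin in
theorem id_ae0 (hS : ∀ᵐ p ∂m, p.1.2 ⊆ p.1.1) :
    ∀ᵐ p ∂m, ∀ e ∈ p.1.1 \ p.1.2, IDp (μ p.1.1) p.1.1 p.1.2 e := by
  obtain ⟨k1, k2, k3⟩ := ident_key hμm hμ1 hμe hμF hm hg hfin
  have hle : ∀ᵐ p ∂m, ∀ y, idb μ p y + idc μ p y ≤ ida p y := by
    filter_upwards [hg, hS] with p hp hSp y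
    exact ident_term hp (hμF _ hp) hSp _
  have hma : Measurable fun p : (Set (Sym2 ℕ) × Set (Sym2 ℕ)) × ℕ => ∑' y, ida p y := by
    have h := ident_meas1
    have hφ : Measurable fun p : (Set (Sym2 ℕ) × Set (Sym2 ℕ)) × ℕ =>
        (((p.1.1, p.1.2, p.1.2), p.2) :
          (Set (Sym2 ℕ) × Set (Sym2 ℕ) × Set (Sym2 ℕ)) × ℕ) := by
      exact ((measurable_fst.comp measurable_fst).prodMk
        ((measurable_snd.comp measurable_fst).prodMk
          (measurable_snd.comp measurable_fst))).prodMk measurable_snd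
    exact h.comp hφ
  have hsum : ∀ p, ∑' y, (idb μ p y + idc μ p y) = ∑' y, idb μ p y + ∑' y, idc μ p y :=
    fun p => ENNReal.tsum_add
  have hle2 : (fun p => ∑' y, (idb μ p y + idc μ p y)) ≤ᵐ[m] fun p => ∑' y, ida p y := by
    filter_upwards [hle] with p hp
    exact ENNReal.tsum_le_tsum hp
  have hub : ∫⁻ p, ∑' y, idb μ p y ∂m + ∫⁻ p, ∑' y, idc μ p y ∂m ≤
      ∫⁻ p, ∑' y, (idb μ p y + idc μ p y) ∂m := by
    simp only [hsum]
    exact le_lintegral_add _ _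
  have hfin3 : ∫⁻ p, ∑' y, (idb μ p y + idc μ p y) ∂m ≠ ∞ := by
    have : ∫⁻ p, ∑' y, (idb μ p y + idc μ p y) ∂m ≤ ∫⁻ p, ∑' y, ida p y ∂m :=
      lintegral_mono_ae hle2
    exact ne_top_of_le_ne_top (ENNReal.add_ne_top.mpr ⟨k3, k2⟩) (this.trans k1)
  have heq := ae_eq_of_ae_le_of_lintegral_le hle2 hfin3 hma.aemeasurable (k1.trans hub)
  have hfa : ∫⁻ p, ∑' y, ida p y ∂m ≠ ∞ :=
    ne_top_of_le_ne_top (ENNReal.add_ne_top.mpr ⟨k3, k2⟩) k1
  have hlt := ae_lt_top hma hfa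
  have hroot : ∀ᵐ p ∂m, ∀ y, s(p.2, y) ∈ p.1.1 \ p.1.2 → Tot μ p.1.1 p.1.2 s(p.2, y) := by
    filter_upwards [hg, hle, heq, hlt] with p hp h1 h2 h3 y hy
    have h4 : idb μ p y + idc μ p y = ida p y :=
      ident_tsum_eq h1 h2 (by rw [h2]; exact h3.ne) y
    exact ident_term_eq hp (hμF _ hp) hy h4
  filter_upwards [hg, ident_root hμm hμ1 hμe hm hroot] with p hp h1 e he
  exact ident_IDp hp (hμF _ hp) he (h1 e he)

end

theorem id_ae {μ : Set (Sym2 ℕ) → Measure (Set (Sym2 ℕ))} (hμm : Measurable μ)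
    (hμ1 : ∀ s, IsProbabilityMeasure (μ s))
    (hμe : ∀ (σ : Equiv.Perm ℕ) (s : Set (Sym2 ℕ)), μ (act σ s) = (μ s).map (act σ))
    (hμF : ∀ s, IsGraph s → IsFUSF s (μ s))
    {m : Measure ((Set (Sym2 ℕ) × Set (Sym2 ℕ)) × ℕ)} [IsProbabilityMeasure m] (hm : MTP m)
    (hg : ∀ᵐ p ∂m, IsGraph p.1.1) (hS : ∀ᵐ p ∂m, p.1.2 ⊆ p.1.1)
    (hfin : ∫⁻ p, ∑' y, (p.1.2).indicator 1 s(p.2, y) ∂m ≠ ∞) :
    ∀ᵐ p ∂m, ∀ e ∈ p.1.1 \ p.1.2, IDp (μ p.1.1) p.1.1 p.1.2 e :=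
  id_ae0 hμm hμ1 hμe hμF hm hg hfin hS

end Vale.Agent.H15.F
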