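import Vale.Agent.H15.F.Lip
import Vale.Agent.H15.F.Mtp
import Vale.Agent.H15.F.Coup
import Vale.Agent.H15.F.FusfEx
import Vale.Agent.H15.F.FusfD
import Vale.Agent.H15.F.Ident

open MeasureTheory Filter Topology
open scoped ENNReal

namespace Vale.Agent.H15.F

attribute [local irreducible] xval

/-! ### the action -/

theorem pic_map_symm (σ : Equiv.Perm ℕ) (e : Sym2 ℕ) :
    Sym2.map σ (Sym2.map σ.symm e) = e := by
  rw [Sym2.map_map]; simp

theorem pic_symm_map (σ : Equiv.Perm ℕ) (e : Sym2 ℕ) :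
    Sym2.map σ.symm (Sym2.map σ e) = e := by
  rw [Sym2.map_map]; simp

theorem mem_act {σ : Equiv.Perm ℕ} {s : Set (Sym2 ℕ)} {e : Sym2 ℕ} :
    e ∈ act σ s ↔ Sym2.map σ.symm e ∈ s := by
  show e ∈ Sym2.map σ '' s ↔ _
  constructor
  · rintro ⟨g, hg, rfl⟩
    rwa [pic_symm_map]
  · intro h
    exact ⟨_, h, pic_map_symm σ e⟩

theorem act_fun_apply {M : Type*} (σ : Equiv.Perm ℕ) (u : Sym2 ℕ → M) (e : Sym2 ℕ) :
    act σ u e = u (Sym2.map σ.symm e) := rfl

theorem act_inter (σ : Equiv.Perm ℕ) (A B : Set (Sym2 ℕ)) :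
    act σ (A ∩ B) = act σ A ∩ act σ B := by
  ext e; simp only [mem_act, Set.mem_inter_iff]

theorem dg_act (σ : Equiv.Perm ℕ) (s : Set (Sym2 ℕ)) (x : ℕ) :
    dg (act σ s) x = dg s (σ.symm x) := by
  unfold dg
  rw [← σ.tsum_eq (fun y => (act σ s).indicator (1 : Sym2 ℕ → ℝ≥0∞) s(x, y))]
  refine tsum_congr fun y => ?_
  by_cases h : s(σ.symm x, y) ∈ s
  · rw [Set.indicator_of_mem h, Set.indicator_of_mem]
    · rfl
    · rw [mem_act]; simpa using h
  · rw [Set.indicator_of_notMem h, Set.indicator_of_notMem]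
    rw [mem_act]; simpa using h

theorem De_act (σ : Equiv.Perm ℕ) (s : Set (Sym2 ℕ)) (e : Sym2 ℕ) :
    De (act σ s) e = De s (Sym2.map σ.symm e) := by
  induction e using Sym2.ind with
  | _ x y => simp [De, dg_act]

theorem clk_act (σ : Equiv.Perm ℕ) (s : Set (Sym2 ℕ)) (u : Sym2 ℕ → ℝ) (e : Sym2 ℕ) :
    clk (act σ s) (act σ u) e = clk s u (Sym2.map σ.symm e) := by
  simp only [clk, De_act, act_fun_apply]

theorem past_act (σ : Equiv.Perm ℕ) (s : Set (Sym2 ℕ)) (u : Sym2 ℕ → ℝ) (e : Sym2 ℕ) :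
    past (act σ s) (clk (act σ s) (act σ u)) e =
      act σ (past s (clk s u) (Sym2.map σ.symm e)) := by
  ext g
  simp only [past, mem_act, clk_act, Set.mem_ofPred_eq]

theorem Sr_act (σ : Equiv.Perm ℕ) (s : Set (Sym2 ℕ)) (u : Sym2 ℕ → ℝ) (r : ℝ≥0∞) :
    Sr (act σ s) (act σ u) r = act σ (Sr s u r) := by
  ext g
  simp only [Sr, mem_act, clk_act, Set.mem_ofPred_eq]

theorem xval_act' (σ : Equiv.Perm ℕ) (s A S : Set (Sym2 ℕ)) (e : Sym2 ℕ) :
    xval (act σ s) (act σ A) (act σ S) e = xval s A S (Sym2.map σ.symm e) := by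
  rw [← xval_act σ s A S (Sym2.map σ.symm e), pic_map_symm]

theorem Phi_act (n : ℕ) (σ : Equiv.Perm ℕ) (s : Set (Sym2 ℕ)) (u v : Sym2 ℕ → ℝ) :
    Phi n (act σ s) (act σ u) (act σ v) = act σ (Phi n s u v) := by
  induction n with
  | zero => ext e; simp [Phi, mem_act]
  | succ n ih =>
    ext e
    simp only [Phi, mem_act, Set.mem_ofPred_eq, past_act, ih, act_fun_apply]
    rw [← act_inter, xval_act']

theorem Vl_act (σ : Equiv.Perm ℕ) (s : Set (Sym2 ℕ)) (u : Sym2 ℕ → ℝ) (F : Set (Sym2 ℕ))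
    (W : Sym2 ℕ → ℝ) :
    Vl (act σ s) (act σ u) (act σ F) (act σ W) = act σ (Vl s u F W) := by
  funext e
  rw [act_fun_apply]
  simp only [Vl, Vlab, past_act, ← act_inter, xval_act', act_fun_apply]
  by_cases h : Sym2.map σ.symm e ∈ F
  · rw [if_pos h, if_pos (mem_act.mpr h)]
  · rw [if_neg h, if_neg (fun h' => h (mem_act.mp h'))]

/-! ### locality -/

theorem Phi_local (n : ℕ) (s : Set (Sym2 ℕ)) (u v u' v' : Sym2 ℕ → ℝ) (P : Set (Sym2 ℕ))
    (h1 : ∀ g ∈ P, past s (clk s u) g = past s (clk s u') g)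
    (h2 : ∀ g ∈ P, past s (clk s u) g ⊆ P) (hv : ∀ g ∈ P, v g = v' g) :
    Phi n s u v ∩ P = Phi n s u' v' ∩ P := by
  induction n with
  | zero => simp [Phi]
  | succ n ih =>
    ext g
    simp only [Set.mem_inter_iff]
    refine and_congr_left fun hg => ?_
    simp only [Phi, Set.mem_ofPred_eq]
    refine and_congr_right fun _ => ?_
    have e1 : Phi n s u v ∩ past s (clk s u) g = Phi n s u' v' ∩ past s (clk s u') g := by
      rw [← h1 g hg, ← Set.inter_eq_right.mpr (h2 g hg), ← Set.inter_assoc, ih, Set.inter_assoc]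
    rw [e1, h1 g hg, hv g hg]

theorem Vl_local (s : Set (Sym2 ℕ)) (u u' : Sym2 ℕ → ℝ) (F F' : Set (Sym2 ℕ))
    (W W' : Sym2 ℕ → ℝ) (g : Sym2 ℕ) (h1 : past s (clk s u) g = past s (clk s u') g)
    (h2 : F ∩ past s (clk s u) g = F' ∩ past s (clk s u) g) (h3 : g ∈ F ↔ g ∈ F')
    (h4 : W g = W' g) : Vl s u F W g = Vl s u' F' W' g := by
  simp only [Vl, Vlab]
  rw [← h1, h2, h4]
  by_cases hg : g ∈ F
  · rw [if_pos hg, if_pos (h3.mp hg)]
  · rw [if_neg hg, if_neg (fun h => hg (h3.mpr h))]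

theorem past_subset (s : Set (Sym2 ℕ)) (τ : Sym2 ℕ → ℝ≥0∞) (e : Sym2 ℕ) : past s τ e ⊆ s :=
  fun _ hg => hg.1

theorem past_trans (s : Set (Sym2 ℕ)) (τ : Sym2 ℕ → ℝ≥0∞) (e g : Sym2 ℕ) (h : g ∈ past s τ e) :
    past s τ g ⊆ past s τ e := fun _ hk => ⟨hk.1, hk.2.trans h.2⟩

theorem notMem_past (s : Set (Sym2 ℕ)) (τ : Sym2 ℕ → ℝ≥0∞) (e : Sym2 ℕ) : e ∉ past s τ e :=
  fun h => lt_irrefl _ h.2

theorem Phi_subset (n : ℕ) (s : Set (Sym2 ℕ)) (u v : Sym2 ℕ → ℝ) : Phi n s u v ⊆ s := by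
  cases n with
  | zero => simp [Phi]
  | succ n => exact fun e he => he.1

/-! ### measurability -/

theorem meas_mem {α : Type*} [MeasurableSpace α] {f : α → Set (Sym2 ℕ)} (hf : Measurable f)
    (g : Sym2 ℕ) : MeasurableSet {a | g ∈ f a} :=
  (measurable_set_iff.mp hf g).setOf

theorem meas_set {α : Type*} [MeasurableSpace α] {f : α → Set (Sym2 ℕ)}
    (h : ∀ g, MeasurableSet {a | g ∈ f a}) : Measurable f :=
  measurable_set_iff.mpr fun g => measurableSet_setOfPred.mp (h g)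

theorem meas_inter {α : Type*} [MeasurableSpace α] {f f' : α → Set (Sym2 ℕ)}
    (hf : Measurable f) (hf' : Measurable f') : Measurable fun a => f a ∩ f' a :=
  meas_set fun g => (meas_mem hf g).inter (meas_mem hf' g)

theorem meas_dg (x : ℕ) : Measurable fun s : Set (Sym2 ℕ) => dg s x := by
  unfold dg
  refine Measurable.ennreal_tsum fun y => ?_
  have : (fun s : Set (Sym2 ℕ) => s.indicator (1 : Sym2 ℕ → ℝ≥0∞) s(x, y)) =
      Set.indicator {s | s(x, y) ∈ s} 1 := by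
    funext s
    by_cases h : s(x, y) ∈ s
    · rw [Set.indicator_of_mem h, Set.indicator_of_mem (by exact h)]; rfl
    · rw [Set.indicator_of_notMem h, Set.indicator_of_notMem (by exact h)]
  rw [this]
  exact measurable_one.indicator (meas_mem measurable_id _)

theorem meas_De (e : Sym2 ℕ) : Measurable fun s : Set (Sym2 ℕ) => De s e := by
  induction e using Sym2.ind with
  | _ x y => exact (meas_dg x).max (meas_dg y)

theorem meas_clk (e : Sym2 ℕ) :
    Measurable fun q : Set (Sym2 ℕ) × (Sym2 ℕ → ℝ) => clk q.1 q.2 e := by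
  unfold clk
  exact (ENNReal.measurable_ofReal.comp ((measurable_pi_apply e).comp measurable_snd)).mul
    ((meas_De e).comp measurable_fst)

theorem meas_past (e : Sym2 ℕ) :
    Measurable fun q : Set (Sym2 ℕ) × (Sym2 ℕ → ℝ) => past q.1 (clk q.1 q.2) e := by
  refine meas_set fun g => ?_
  exact (meas_mem measurable_fst g).inter (measurableSet_lt (meas_clk g) (meas_clk e))

theorem meas_Sr : Measurable fun q : (Set (Sym2 ℕ) × (Sym2 ℕ → ℝ)) × ℝ≥0∞ =>
    Sr q.1.1 q.1.2 q.2 := by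
  refine meas_set fun g => ?_
  exact (meas_mem (measurable_fst.comp measurable_fst) g).inter
    (measurableSet_lt ((meas_clk g).comp measurable_fst) measurable_snd)

theorem meas_xval {α : Type*} [MeasurableSpace α] {f g h : α → Set (Sym2 ℕ)}
    (hf : Measurable f) (hg : Measurable g) (hh : Measurable h) (e : Sym2 ℕ) :
    Measurable fun a => xval (f a) (g a) (h a) e :=
  Measurable.comp (g := fun q : Set (Sym2 ℕ) × Set (Sym2 ℕ) × Set (Sym2 ℕ) =>
    xval q.1 q.2.1 q.2.2 e) (f := fun a => (f a, g a, h a)) (measurable_xval e)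
    (hf.prodMk (hg.prodMk hh))

theorem Phi_measurable (n : ℕ) : Measurable
    fun q : Set (Sym2 ℕ) × (Sym2 ℕ → ℝ) × (Sym2 ℕ → ℝ) => Phi n q.1 q.2.1 q.2.2 := by
  induction n with
  | zero => exact measurable_const
  | succ n ih =>
    refine meas_set fun e => ?_
    have hp : Measurable fun q : Set (Sym2 ℕ) × (Sym2 ℕ → ℝ) × (Sym2 ℕ → ℝ) =>
        past q.1 (clk q.1 q.2.1) e :=
      (meas_past e).comp (measurable_fst.prodMk (measurable_fst.comp measurable_snd))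
    exact (meas_mem measurable_fst e).inter (measurableSet_lt
      ((measurable_pi_apply e).comp (measurable_snd.comp measurable_snd))
      (meas_xval measurable_fst (meas_inter ih hp) hp e))

theorem Vl_measurable : Measurable
    fun q : (Set (Sym2 ℕ) × (Sym2 ℕ → ℝ)) × (Set (Sym2 ℕ) × (Sym2 ℕ → ℝ)) =>
      Vl q.1.1 q.1.2 q.2.1 q.2.2 := by
  refine measurable_pi_lambda _ fun e => ?_
  have hF : Measurable fun q : (Set (Sym2 ℕ) × (Sym2 ℕ → ℝ)) × (Set (Sym2 ℕ) × (Sym2 ℕ → ℝ)) =>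
      q.2.1 := measurable_fst.comp measurable_snd
  have hs : Measurable fun q : (Set (Sym2 ℕ) × (Sym2 ℕ → ℝ)) × (Set (Sym2 ℕ) × (Sym2 ℕ → ℝ)) =>
      q.1.1 := measurable_fst.comp measurable_fst
  have hp : Measurable fun q : (Set (Sym2 ℕ) × (Sym2 ℕ → ℝ)) × (Set (Sym2 ℕ) × (Sym2 ℕ → ℝ)) =>
      past q.1.1 (clk q.1.1 q.1.2) e := (meas_past e).comp measurable_fst
  have hW : Measurable fun q : (Set (Sym2 ℕ) × (Sym2 ℕ → ℝ)) × (Set (Sym2 ℕ) × (Sym2 ℕ → ℝ)) =>
      q.2.2 e := (measurable_pi_apply e).comp (measurable_snd.comp measurable_snd)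
  have hx := meas_xval hs (meas_inter hF hp) hp e
  exact Measurable.ite (meas_mem hF e) (hW.mul hx) (hx.add ((measurable_const.sub hx).mul hW))

end Vale.Agent.H15.F
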