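import Vale.Agent.H15.F.Pic1

open MeasureTheory Filter Topology
open scoped ENNReal

namespace Vale.Agent.H15.F

attribute [local irreducible] xval

/-! ### i.i.d. labels: resampling one coordinate -/

theorem pic_meas_update (e : Sym2 ℕ) :
    Measurable fun p : (Sym2 ℕ → ℝ) × ℝ => Function.update p.1 e p.2 := by
  refine measurable_pi_lambda _ fun g => ?_
  by_cases h : g = e
  · subst h; simpa using measurable_snd
  · have : (fun c : (Sym2 ℕ → ℝ) × ℝ => Function.update c.1 e c.2 g) = fun c => c.1 g := by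
      funext c; rw [Function.update_of_ne h]
    rw [this]
    exact (measurable_pi_apply g).comp measurable_fst

theorem pic_update_law (ν : Measure ℝ) [IsProbabilityMeasure ν] (e : Sym2 ℕ) :
    ((Measure.infinitePi fun _ : Sym2 ℕ => ν).prod ν).map
      (fun p => Function.update p.1 e p.2) = Measure.infinitePi fun _ : Sym2 ℕ => ν := by
  classical
  have hm := pic_meas_update e
  refine Measure.eq_infinitePi _ fun I t ht => ?_
  rw [Measure.map_apply hm (.pi I.countable_toSet fun _ _ => ht _)]
  by_cases he : e ∈ I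
  · have : (fun p : (Sym2 ℕ → ℝ) × ℝ => Function.update p.1 e p.2) ⁻¹' (Set.pi I t) =
        (Set.pi (I.erase e) t) ×ˢ t e := by
      ext p
      simp only [Set.mem_preimage, Set.mem_pi, Finset.mem_coe, Set.mem_prod, Finset.mem_erase]
      constructor
      · intro h
        refine ⟨fun g hg => ?_, ?_⟩
        · have := h g hg.2; rwa [Function.update_of_ne hg.1] at this
        · have := h e he; rwa [Function.update_self] at this
      · rintro ⟨h1, h2⟩ g hg
        by_cases hge : g = e
        · subst hge; rwa [Function.update_self]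
        · rw [Function.update_of_ne hge]; exact h1 g ⟨hge, hg⟩
    rw [this, Measure.prod_prod, Measure.infinitePi_pi _ (fun i _ => ht i),
      Finset.prod_erase_mul _ _ he]
  · have : (fun p : (Sym2 ℕ → ℝ) × ℝ => Function.update p.1 e p.2) ⁻¹' (Set.pi I t) =
        (Set.pi I t) ×ˢ Set.univ := by
      ext p
      simp only [Set.mem_preimage, Set.mem_pi, Finset.mem_coe, Set.mem_prod, Set.mem_univ,
        and_true]
      refine forall_congr' fun g => forall_congr' fun hg => ?_
      have hge : g ≠ e := by rintro rfl; exact he hg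
      rw [Function.update_of_ne hge]
    rw [this, Measure.prod_prod, Measure.infinitePi_pi _ (fun i _ => ht i), measure_univ, mul_one]

instance isProb_exp1 : IsProbabilityMeasure (ProbabilityTheory.expMeasure 1) :=
  ProbabilityTheory.isProbabilityMeasure_expMeasure one_pos

instance isProb_expE : IsProbabilityMeasure expE := by unfold expE; infer_instance

instance isProb_lam : IsProbabilityMeasure lam := by
  constructor
  simp [lam]

instance isProb_lamE : IsProbabilityMeasure lamE := by unfold lamE; infer_instance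

theorem exp1_eq : ProbabilityTheory.expMeasure 1 =
    (volume : Measure ℝ).withDensity (ProbabilityTheory.exponentialPDF 1) := rfl

theorem exp1_lt (a : ℝ) (ha : 0 ≤ a) :
    ProbabilityTheory.expMeasure 1 {z | z < a} ≤ ENNReal.ofReal a := by
  have hb : {z : ℝ | z < a} = Set.Iio a := rfl
  rw [hb, exp1_eq, withDensity_apply _ measurableSet_Iio]
  calc ∫⁻ z in Set.Iio a, ProbabilityTheory.exponentialPDF 1 z
      ≤ ∫⁻ z in Set.Iio a, (Set.Ico 0 a).indicator 1 z := by
        refine setLIntegral_mono' measurableSet_Iio fun z hz => ?_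
        rw [ProbabilityTheory.exponentialPDF_eq]
        by_cases h : 0 ≤ z
        · rw [if_pos h, Set.indicator_of_mem (show z ∈ Set.Ico 0 a from ⟨h, hz⟩), Pi.one_apply]
          rw [← ENNReal.ofReal_one]
          refine ENNReal.ofReal_le_ofReal ?_
          have := Real.exp_le_one_iff.mpr (show -(1 * z) ≤ 0 by linarith)
          linarith
        · rw [if_neg h, ENNReal.ofReal_zero]; exact zero_le
    _ ≤ ∫⁻ z, (Set.Ico 0 a).indicator 1 z := setLIntegral_le_lintegral _ _
    _ = ENNReal.ofReal a := by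
        rw [lintegral_indicator_one measurableSet_Ico, Real.volume_Ico, sub_zero]

theorem exp1_nonpos : ProbabilityTheory.expMeasure 1 {z | z ≤ 0} = 0 := by
  have hb : {z : ℝ | z ≤ 0} = Set.Iic 0 := rfl
  rw [hb, exp1_eq, withDensity_apply _ measurableSet_Iic,
    ProbabilityTheory.lintegral_exponentialPDF_eq_antiDeriv one_pos]
  simp

theorem exp1_singleton (a : ℝ) : ProbabilityTheory.expMeasure 1 {a} = 0 := by
  rw [exp1_eq, withDensity_apply _ (measurableSet_singleton a)]
  simp

theorem expE_eval (e : Sym2 ℕ) {t : Set ℝ} (ht : MeasurableSet t) :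
    expE {u | u e ∈ t} = ProbabilityTheory.expMeasure 1 t := by
  have := Measure.infinitePi_map_eval (fun _ : Sym2 ℕ => ProbabilityTheory.expMeasure 1) e
  rw [← this, Measure.map_apply (measurable_pi_apply e) ht]
  rfl

theorem expE_pos : ∀ᵐ u ∂expE, ∀ e, 0 < u e := by
  rw [ae_all_iff]
  intro e
  rw [ae_iff]
  have := expE_eval e (t := {z | z ≤ 0}) (measurableSet_le measurable_id measurable_const)
  rw [exp1_nonpos] at this
  simpa using this

/-! ### degrees -/

theorem dg_eq {s : Set (Sym2 ℕ)} (hs : IsGraph s) (x : ℕ) :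
    dg s x = ((hs.2.2 x).toFinset.card : ℝ≥0∞) := by
  unfold dg
  rw [tsum_eq_sum (s := (hs.2.2 x).toFinset)]
  · rw [Finset.sum_congr rfl (g := fun _ => (1 : ℝ≥0∞))]
    · simp
    · intro y hy
      rw [Set.Finite.mem_toFinset] at hy
      rw [Set.indicator_of_mem (by exact hy)]; rfl
  · intro y hy
    rw [Set.Finite.mem_toFinset] at hy
    rw [Set.indicator_of_notMem (by exact hy)]

theorem dg_lt_top {s : Set (Sym2 ℕ)} (hs : IsGraph s) (x : ℕ) : dg s x < ∞ := by
  rw [dg_eq hs]; exact ENNReal.natCast_lt_top _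

theorem one_le_dg {s : Set (Sym2 ℕ)} {x y : ℕ} (h : s(x, y) ∈ s) : 1 ≤ dg s x := by
  have := ENNReal.le_tsum (f := fun y => s.indicator (1 : Sym2 ℕ → ℝ≥0∞) s(x, y)) y
  simp only [Set.indicator_of_mem h, Pi.one_apply] at this
  exact this

theorem De_lt_top {s : Set (Sym2 ℕ)} (hs : IsGraph s) (e : Sym2 ℕ) : De s e < ∞ := by
  induction e using Sym2.ind with
  | _ x y => exact max_lt (dg_lt_top hs x) (dg_lt_top hs y)

theorem one_le_De {s : Set (Sym2 ℕ)} {e : Sym2 ℕ} (h : e ∈ s) : 1 ≤ De s e := by
  induction e using Sym2.ind with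
  | _ x y => exact le_max_of_le_left (one_le_dg h)

theorem one_le_De_toReal {s : Set (Sym2 ℕ)} (hs : IsGraph s) {e : Sym2 ℕ} (h : e ∈ s) :
    1 ≤ (De s e).toReal := by
  have h1 := one_le_De h
  have := (ENNReal.toReal_le_toReal ENNReal.one_ne_top (De_lt_top hs e).ne).mpr h1
  simpa using this

theorem clk_eq {s : Set (Sym2 ℕ)} (hs : IsGraph s) {u : Sym2 ℕ → ℝ} {e : Sym2 ℕ}
    (hu : 0 ≤ u e) : clk s u e = ENNReal.ofReal (u e * (De s e).toReal) := by
  rw [clk, ENNReal.ofReal_mul hu, ENNReal.ofReal_toReal (De_lt_top hs e).ne]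

/-- the clocks are almost surely distinct -/
theorem clk_injOn {s : Set (Sym2 ℕ)} (hs : IsGraph s) :
    ∀ᵐ u ∂expE, Set.InjOn (clk s u) s := by
  have key : ∀ᵐ u ∂expE, ∀ e g : Sym2 ℕ, e ∈ s → e ≠ g →
      u e ≠ u g * (De s g).toReal / (De s e).toReal := by
    rw [ae_all_iff]; intro e
    rw [ae_all_iff]; intro g
    by_cases he : e ∈ s
    swap
    · exact Eventually.of_forall fun u h => absurd h he
    by_cases hne : e ≠ g
    swap
    · exact Eventually.of_forall fun u _ h => absurd h hne
    suffices h : ∀ᵐ u ∂expE, u e ≠ u g * (De s g).toReal / (De s e).toReal by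
      filter_upwards [h] with u hu _ _ using hu
    have hms : MeasurableSet {u : Sym2 ℕ → ℝ | u e = u g * (De s g).toReal / (De s e).toReal} :=
      measurableSet_eq_fun (measurable_pi_apply e)
        (((measurable_pi_apply g).mul_const _).div_const _)
    rw [ae_iff]
    simp only [ne_eq, not_not]
    have hup := pic_meas_update e
    unfold expE
    rw [← pic_update_law (ProbabilityTheory.expMeasure 1) e, Measure.map_apply hup hms,
      Measure.prod_apply (hup hms)]
    rw [lintegral_eq_zero_of_ae_eq_zero]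
    refine Eventually.of_forall fun u => ?_
    have : Prod.mk u ⁻¹' ((fun p : (Sym2 ℕ → ℝ) × ℝ => Function.update p.1 e p.2) ⁻¹'
        {u : Sym2 ℕ → ℝ | u e = u g * (De s g).toReal / (De s e).toReal}) ⊆
        {u g * (De s g).toReal / (De s e).toReal} := by
      intro z hz
      simp only [Set.mem_preimage, Set.mem_ofPred_eq, Function.update_self,
        Function.update_of_ne (Ne.symm hne)] at hz
      exact hz
    exact measure_mono_null this (exp1_singleton _)
  filter_upwards [key, expE_pos] with u hu hpos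
  intro e he g hg heg
  by_contra hne
  refine hu e g he hne ?_
  rw [clk_eq hs (hpos e).le, clk_eq hs (hpos g).le] at heg
  have hDe := one_le_De_toReal hs he
  have hDg := one_le_De_toReal hs hg
  have h2 := (ENNReal.ofReal_eq_ofReal_iff (by have := hpos e; positivity)
    (by have := hpos g; positivity)).mp heg
  rw [← h2]
  field_simp

/-- the density of the edges with early clocks -/
theorem Sr_density {s : Set (Sym2 ℕ)} (hs : IsGraph s) (x : ℕ) (t : ℝ) (ht : 0 ≤ t) :
    ∫⁻ u, ∑' y, (Sr s u (ENNReal.ofReal t)).indicator (1 : Sym2 ℕ → ℝ≥0∞) s(x, y) ∂expE ≤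
      ENNReal.ofReal t := by
  have hmeas : ∀ y, Measurable fun u : Sym2 ℕ → ℝ =>
      (Sr s u (ENNReal.ofReal t)).indicator (1 : Sym2 ℕ → ℝ≥0∞) s(x, y) := by
    intro y
    have h1 : Measurable fun u : Sym2 ℕ → ℝ => Sr s u (ENNReal.ofReal t) :=
      meas_Sr.comp ((measurable_const.prodMk measurable_id).prodMk measurable_const)
    have : (fun u : Sym2 ℕ → ℝ =>
      (Sr s u (ENNReal.ofReal t)).indicator (1 : Sym2 ℕ → ℝ≥0∞) s(x, y)) =
      Set.indicator {u | s(x, y) ∈ Sr s u (ENNReal.ofReal t)} 1 := by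
      funext u
      by_cases h : s(x, y) ∈ Sr s u (ENNReal.ofReal t)
      · rw [Set.indicator_of_mem h, Set.indicator_of_mem (by exact h)]; rfl
      · rw [Set.indicator_of_notMem h, Set.indicator_of_notMem (by exact h)]
    rw [this]
    exact measurable_one.indicator (meas_mem h1 _)
  rw [lintegral_tsum fun y => (hmeas y).aemeasurable]
  have hbound : ∀ y, ∫⁻ u, (Sr s u (ENNReal.ofReal t)).indicator (1 : Sym2 ℕ → ℝ≥0∞) s(x, y)
      ∂expE ≤ s.indicator (1 : Sym2 ℕ → ℝ≥0∞) s(x, y) * (ENNReal.ofReal t / dg s x) := by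
    intro y
    by_cases h : s(x, y) ∈ s
    swap
    · have : ∀ u, s(x, y) ∉ Sr s u (ENNReal.ofReal t) := fun u hu => h hu.1
      simp [this]
    rw [Set.indicator_of_mem h, Pi.one_apply, one_mul]
    have hD := one_le_De_toReal hs h
    have h1 : ∀ u, (Sr s u (ENNReal.ofReal t)).indicator (1 : Sym2 ℕ → ℝ≥0∞) s(x, y) ≤
        Set.indicator {u : Sym2 ℕ → ℝ | u s(x, y) < t / (De s s(x, y)).toReal}
          (1 : (Sym2 ℕ → ℝ) → ℝ≥0∞) u := by
      intro u
      by_cases h2 : s(x, y) ∈ Sr s u (ENNReal.ofReal t)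
      · rw [Set.indicator_of_mem h2, Set.indicator_of_mem]
        · rfl
        · simp only [Set.mem_ofPred_eq]
          have h3 := h2.2
          by_cases hu : 0 ≤ u s(x, y)
          · rw [clk_eq hs hu] at h3
            have h4 := ((ENNReal.ofReal_lt_ofReal_iff_of_nonneg (by positivity)).mp h3)
            rw [lt_div_iff₀ (by linarith)]
            exact h4
          · have : 0 ≤ t / (De s s(x, y)).toReal := by positivity
            linarith
      · rw [Set.indicator_of_notMem h2]; exact zero_le
    calc ∫⁻ u, (Sr s u (ENNReal.ofReal t)).indicator (1 : Sym2 ℕ → ℝ≥0∞) s(x, y) ∂expE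
        ≤ ∫⁻ u, Set.indicator {u : Sym2 ℕ → ℝ | u s(x, y) < t / (De s s(x, y)).toReal}
          (1 : (Sym2 ℕ → ℝ) → ℝ≥0∞) u ∂expE := lintegral_mono h1
      _ = ProbabilityTheory.expMeasure 1 {z | z < t / (De s s(x, y)).toReal} := by
          rw [lintegral_indicator_one]
          · exact expE_eval s(x, y) (t := {z | z < t / (De s s(x, y)).toReal})
              (measurableSet_lt measurable_id measurable_const)
          · exact measurableSet_lt (measurable_pi_apply _) measurable_const
      _ ≤ ENNReal.ofReal (t / (De s s(x, y)).toReal) := exp1_lt _ (by positivity)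
      _ = ENNReal.ofReal t / De s s(x, y) := by
          rw [ENNReal.ofReal_div_of_pos (by linarith), ENNReal.ofReal_toReal (De_lt_top hs _).ne]
      _ ≤ ENNReal.ofReal t / dg s x := by
          refine ENNReal.div_le_div_left ?_ _
          exact le_max_left _ _
  calc ∑' y, ∫⁻ u, (Sr s u (ENNReal.ofReal t)).indicator (1 : Sym2 ℕ → ℝ≥0∞) s(x, y) ∂expE
      ≤ ∑' y, s.indicator (1 : Sym2 ℕ → ℝ≥0∞) s(x, y) * (ENNReal.ofReal t / dg s x) :=
        ENNReal.tsum_le_tsum hbound
    _ = dg s x * (ENNReal.ofReal t / dg s x) := by rw [ENNReal.tsum_mul_right]; rfl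
    _ ≤ ENNReal.ofReal t := ENNReal.mul_div_le

end Vale.Agent.H15.F
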