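import Vale.Agent.H15.F.Pic2
import Vale.Agent.H15.F.Cyl

open MeasureTheory Filter Topology
open scoped ENNReal

namespace Vale.Agent.H15.F

attribute [local irreducible] xval

/-! ### measurability of the sampling identity -/

theorem IDp_iff (μ : Measure (Set (Sym2 ℕ))) [IsProbabilityMeasure μ] (s S : Set (Sym2 ℕ))
    (e : Sym2 ℕ) :
    IDp μ s S e ↔ ∀ A B : Finset (Sym2 ℕ),
      ∫⁻ F in {F | F ∩ S ∈ cyl A B}, ENNReal.ofReal (xval s (F ∩ S) S e) ∂μ =
        μ {F | F ∩ S ∈ cyl A B ∧ e ∈ F} := by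
  constructor
  · intro h A B
    exact h _ (measurableSet_cyl A B)
  · intro h C hC
    have hS : Measurable fun F : Set (Sym2 ℕ) => F ∩ S := meas_inter measurable_id measurable_const
    have hx : Measurable fun F : Set (Sym2 ℕ) => xval s (F ∩ S) S e :=
      meas_xval measurable_const hS measurable_const e
    have hxle : ∫⁻ F, ENNReal.ofReal (xval s (F ∩ S) S e) ∂μ ≠ ∞ := by
      have : ∫⁻ F, ENNReal.ofReal (xval s (F ∩ S) S e) ∂μ ≤ ∫⁻ _, 1 ∂μ := by
        refine lintegral_mono fun F => ?_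
        rw [← ENNReal.ofReal_one]
        exact ENNReal.ofReal_le_ofReal (xval_le_one _ _ _ _)
      refine ne_top_of_le_ne_top ?_ this
      simp
    let ν1 : Measure (Set (Sym2 ℕ)) :=
      (μ.withDensity fun F => ENNReal.ofReal (xval s (F ∩ S) S e)).map fun F => F ∩ S
    let ν2 : Measure (Set (Sym2 ℕ)) := (μ.restrict {F | e ∈ F}).map fun F => F ∩ S
    have f1 : ∀ C, MeasurableSet C → ν1 C =
        ∫⁻ F in {F | F ∩ S ∈ C}, ENNReal.ofReal (xval s (F ∩ S) S e) ∂μ := by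
      intro C hC
      rw [Measure.map_apply hS hC, withDensity_apply _ (hS hC)]
      rfl
    have f2 : ∀ C, MeasurableSet C → ν2 C = μ {F | F ∩ S ∈ C ∧ e ∈ F} := by
      intro C hC
      rw [Measure.map_apply hS hC, Measure.restrict_apply (hS hC)]
      rfl
    have hfin : IsFiniteMeasure ν1 := by
      constructor
      rw [f1 _ MeasurableSet.univ]
      simpa using hxle.lt_top
    have hEq : ν1 = ν2 := by
      refine ext_of_cyl fun A B => ?_
      rw [f1 _ (measurableSet_cyl A B), f2 _ (measurableSet_cyl A B)]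
      exact h A B
    rw [← f1 C hC, ← f2 C hC, hEq]

theorem measurableSet_IDp {μ : Set (Sym2 ℕ) → Measure (Set (Sym2 ℕ))} (hμm : Measurable μ)
    (hμ1 : ∀ s, IsProbabilityMeasure (μ s)) (e : Sym2 ℕ) :
    MeasurableSet {q : Set (Sym2 ℕ) × Set (Sym2 ℕ) | IDp (μ q.1) q.1 q.2 e} := by
  let κ : ProbabilityTheory.Kernel (Set (Sym2 ℕ) × Set (Sym2 ℕ)) (Set (Sym2 ℕ)) :=
    ⟨fun q => μ q.1, hμm.comp measurable_fst⟩
  have hκ : ProbabilityTheory.IsMarkovKernel κ := ⟨fun q => hμ1 q.1⟩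
  have : {q : Set (Sym2 ℕ) × Set (Sym2 ℕ) | IDp (μ q.1) q.1 q.2 e} =
      ⋂ A : Finset (Sym2 ℕ), ⋂ B : Finset (Sym2 ℕ), {q | ∫⁻ F,
        ({r : (Set (Sym2 ℕ) × Set (Sym2 ℕ)) × Set (Sym2 ℕ) | r.2 ∩ r.1.2 ∈ cyl A B}).indicator
          (fun r => ENNReal.ofReal (xval r.1.1 (r.2 ∩ r.1.2) r.1.2 e)) (q, F) ∂(κ q) =
        ∫⁻ F, ({r : (Set (Sym2 ℕ) × Set (Sym2 ℕ)) × Set (Sym2 ℕ) | r.2 ∩ r.1.2 ∈ cyl A B ∧
          e ∈ r.2}).indicator 1 (q, F) ∂(κ q)} := by
    ext q
    simp only [Set.mem_ofPred_eq, Set.mem_iInter]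
    rw [IDp_iff]
    refine forall_congr' fun A => forall_congr' fun B => ?_
    have hS : Measurable fun F : Set (Sym2 ℕ) => F ∩ q.2 :=
      meas_inter measurable_id measurable_const
    have e1 : ∫⁻ F, ({r : (Set (Sym2 ℕ) × Set (Sym2 ℕ)) × Set (Sym2 ℕ) | r.2 ∩ r.1.2 ∈
        cyl A B}).indicator (fun r => ENNReal.ofReal (xval r.1.1 (r.2 ∩ r.1.2) r.1.2 e)) (q, F)
          ∂(κ q) =
        ∫⁻ F in {F | F ∩ q.2 ∈ cyl A B}, ENNReal.ofReal (xval q.1 (F ∩ q.2) q.2 e) ∂(μ q.1) := by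
      rw [← lintegral_indicator (show MeasurableSet {F | F ∩ q.2 ∈ cyl A B} from
        hS (measurableSet_cyl A B))]
      rfl
    have e2 : ∫⁻ F, ({r : (Set (Sym2 ℕ) × Set (Sym2 ℕ)) × Set (Sym2 ℕ) | r.2 ∩ r.1.2 ∈
        cyl A B ∧ e ∈ r.2}).indicator 1 (q, F) ∂(κ q) =
        μ q.1 {F | F ∩ q.2 ∈ cyl A B ∧ e ∈ F} := by
      rw [← lintegral_indicator_one]
      · rfl
      · exact (hS (measurableSet_cyl A B)).inter (measurableSet_mem e)
    rw [e1, e2]
  rw [this]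
  refine MeasurableSet.iInter fun A => MeasurableSet.iInter fun B => ?_
  have m2 : Measurable fun r : (Set (Sym2 ℕ) × Set (Sym2 ℕ)) × Set (Sym2 ℕ) => r.2 ∩ r.1.2 :=
    meas_inter measurable_snd (measurable_snd.comp measurable_fst)
  have mx : Measurable fun r : (Set (Sym2 ℕ) × Set (Sym2 ℕ)) × Set (Sym2 ℕ) =>
      ENNReal.ofReal (xval r.1.1 (r.2 ∩ r.1.2) r.1.2 e) :=
    ENNReal.measurable_ofReal.comp (meas_xval (measurable_fst.comp measurable_fst) m2
      (measurable_snd.comp measurable_fst) e)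
  refine measurableSet_eq_fun ?_ ?_
  · exact Measurable.lintegral_kernel_prod_right' (mx.indicator (m2 (measurableSet_cyl A B)))
  · refine Measurable.lintegral_kernel_prod_right' (measurable_one.indicator ?_)
    exact (m2 (measurableSet_cyl A B)).inter (meas_mem measurable_snd e)

/-! ### resampling, in terms of clocks -/

theorem clk_lt_iff {s : Set (Sym2 ℕ)} (hs : IsGraph s) {u : Sym2 ℕ → ℝ} {e : Sym2 ℕ}
    (hu : 0 ≤ u e) (t : ℝ) :
    clk s u e < ENNReal.ofReal t ↔ u e * (De s e).toReal < t := by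
  rw [clk_eq hs hu]
  exact ENNReal.ofReal_lt_ofReal_iff_of_nonneg (mul_nonneg hu ENNReal.toReal_nonneg)

theorem resample' {s : Set (Sym2 ℕ)} (hs : IsGraph s) {e : Sym2 ℕ} (he : e ∈ s)
    (A : (Sym2 ℕ → ℝ) → ℝ → ℝ≥0∞) (hA : Measurable fun q : (Sym2 ℕ → ℝ) × ℝ => A q.1 q.2)
    (hloc : ∀ u u' r, 0 < r → (∀ g, g ≠ e → u g = u' g) → e ∉ Sr s u (ENNReal.ofReal r) →
      e ∉ Sr s u' (ENNReal.ofReal r) → A u r = A u' r) (t : ℝ) :
    ∫⁻ u in {u | e ∈ Sr s u (ENNReal.ofReal t)}, A u (u e * (De s e).toReal) ∂expE ≤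
      ∫⁻ r in Set.Ioo 0 t, ∫⁻ u in {u | e ∉ Sr s u (ENNReal.ofReal r)}, A u r ∂expE := by
  have hD := one_le_De_toReal hs he
  have key := resample (De s e).toReal hD e A hA (by
    intro u u' r hr hg h1 h2
    have hu : 0 ≤ u e := by
      by_contra hc
      push Not at hc
      have : u e * (De s e).toReal ≤ 0 := mul_nonpos_of_nonpos_of_nonneg hc.le (by linarith)
      linarith
    have hu' : 0 ≤ u' e := by
      by_contra hc
      push Not at hc
      have : u' e * (De s e).toReal ≤ 0 := mul_nonpos_of_nonpos_of_nonneg hc.le (by linarith)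
      linarith
    refine hloc u u' r hr hg ?_ ?_
    · intro h
      have := (clk_lt_iff hs hu r).mp h.2
      linarith
    · intro h
      have := (clk_lt_iff hs hu' r).mp h.2
      linarith) t
  have hset : {u : Sym2 ℕ → ℝ | e ∈ Sr s u (ENNReal.ofReal t)} =ᵐ[expE]
      {u | u e * (De s e).toReal < t} := by
    filter_upwards [expE_pos] with u hu
    refine propext ⟨fun h => ?_, fun h => ?_⟩
    · exact (clk_lt_iff hs (hu e).le t).mp h.2
    · exact ⟨he, (clk_lt_iff hs (hu e).le t).mpr h⟩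
  rw [setLIntegral_congr hset]
  refine key.trans (setLIntegral_mono' measurableSet_Ioo fun r hr => ?_)
  refine lintegral_mono_set fun u hu h => ?_
  simp only [Set.mem_ofPred_eq] at hu
  by_cases hu0 : 0 ≤ u e
  · have := (clk_lt_iff hs hu0 r).mp h.2
    linarith
  · push Not at hu0
    have : u e * (De s e).toReal ≤ 0 := mul_nonpos_of_nonpos_of_nonneg hu0.le (by linarith)
    have := hr.1
    linarith

end Vale.Agent.H15.F
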