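import Vale.Agent.H15.F.Pic3

open MeasureTheory Filter Topology
open scoped ENNReal

namespace Vale.Agent.H15.F

attribute [local irreducible] xval

/-- the properties of the kernel `s ↦ law of the free forest of s` -/
structure FK (μ : Set (Sym2 ℕ) → Measure (Set (Sym2 ℕ))) : Prop where
  meas : Measurable μ
  prob : ∀ s, IsProbabilityMeasure (μ s)
  act : ∀ (σ : Equiv.Perm ℕ) (s : Set (Sym2 ℕ)), μ (act σ s) = (μ s).map (act σ)
  fusf : ∀ s, IsGraph s → IsFUSF s (μ s)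

theorem mtp_of_unimodular {ρ : Measure (Set (Sym2 ℕ) × ℕ)} (hρ : IsUnimodular ρ) : MTP ρ := by
  intro f hf he
  refine hρ.2.2 f ?_ he
  have : (fun q : Set (Sym2 ℕ) × ℕ × ℕ => f q.1 q.2.1 q.2.2) =
      (fun q : (ℕ × ℕ) × Set (Sym2 ℕ) => f q.2 q.1.1 q.1.2) ∘ Prod.swap := rfl
  rw [this]
  refine Measurable.comp ?_ measurable_swap
  exact measurable_from_prod_countable_right fun q => hf q.1 q.2

theorem measurable_of_root {Ω : Type*} [MeasurableSpace Ω] {f : Ω × ℕ → ℝ≥0∞}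
    (h : ∀ x, Measurable fun ω => f (ω, x)) : Measurable f :=
  measurable_from_prod_countable_left h

theorem indic_eq {α : Type*} (f : α → Set (Sym2 ℕ)) (e : Sym2 ℕ) :
    (fun a => (f a).indicator (1 : Sym2 ℕ → ℝ≥0∞) e) = Set.indicator {a | e ∈ f a} 1 := by
  funext a
  by_cases h : e ∈ f a
  · rw [Set.indicator_of_mem h, Set.indicator_of_mem (by exact h)]; rfl
  · rw [Set.indicator_of_notMem h, Set.indicator_of_notMem (by exact h)]

theorem meas_indic {α : Type*} [MeasurableSpace α] {f : α → Set (Sym2 ℕ)} (hf : Measurable f)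
    (e : Sym2 ℕ) : Measurable fun a => (f a).indicator (1 : Sym2 ℕ → ℝ≥0∞) e := by
  rw [indic_eq]
  exact measurable_one.indicator (meas_mem hf e)

theorem past_eq {s : Set (Sym2 ℕ)} (hs : IsGraph s) {u : Sym2 ℕ → ℝ} {e : Sym2 ℕ}
    (hu : 0 ≤ u e) :
    past s (clk s u) e = Sr s u (ENNReal.ofReal (u e * (De s e).toReal)) := by
  rw [← clk_eq hs hu]; rfl

theorem isProb_extend {Ω Ω' : Type*} [MeasurableSpace Ω] [MeasurableSpace Ω']
    (m : Measure (Ω × ℕ)) [IsProbabilityMeasure m] {κ : Ω → Measure Ω'} (hκ : Measurable κ)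
    (h1 : ∀ ω, IsProbabilityMeasure (κ ω)) : IsProbabilityMeasure (extend m κ) := by
  constructor
  rw [← lintegral_one, lintegral_extend m hκ h1 _ measurable_const]
  simp

theorem meas_time (r : ℝ) : Measurable fun ω : Set (Sym2 ℕ) × (Sym2 ℕ → ℝ) =>
    (ω.1, Sr ω.1 ω.2 (ENNReal.ofReal r)) :=
  measurable_fst.prodMk (meas_Sr.comp (measurable_id.prodMk measurable_const))

theorem id_time {μ : Set (Sym2 ℕ) → Measure (Set (Sym2 ℕ))} (hμ : FK μ)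
    {ρ : Measure (Set (Sym2 ℕ) × ℕ)} (hρ : IsUnimodular ρ) (r : ℝ) (hr : 0 < r) :
    ∀ᵐ a ∂ρ, ∀ᵐ u ∂expE, ∀ e ∈ a.1 \ Sr a.1 u (ENNReal.ofReal r),
      IDp (μ a.1) a.1 (Sr a.1 u (ENNReal.ofReal r)) e := by
  have hprob : IsProbabilityMeasure ρ := hρ.1
  have hκ : Measurable fun _ : Set (Sym2 ℕ) => expE := measurable_const
  have mext : MTP (extend ρ fun _ : Set (Sym2 ℕ) => expE) :=
    (mtp_of_unimodular hρ).extend hκ (fun _ => isProb_expE) (fun σ => measurable_act_fun σ)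
      (fun σ ω => (infinitePi_act _ σ).symm)
  obtain ⟨φ, hφdef⟩ : ∃ φ : Set (Sym2 ℕ) × (Sym2 ℕ → ℝ) → Set (Sym2 ℕ) × Set (Sym2 ℕ),
      φ = fun ω => (ω.1, Sr ω.1 ω.2 (ENNReal.ofReal r)) := ⟨_, rfl⟩
  have hφ : Measurable φ := by rw [hφdef]; exact meas_time r
  have hφ2 : Measurable fun p : (Set (Sym2 ℕ) × (Sym2 ℕ → ℝ)) × ℕ => (φ p.1, p.2) :=
    (hφ.comp measurable_fst).prodMk measurable_snd
  have mm := mext.map φ hφ (fun σ ω => by
    rw [hφdef]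
    show (act σ ω.1, Sr (act σ ω.1) (act σ ω.2) _) = (act σ ω.1, act σ (Sr ω.1 ω.2 _))
    rw [Sr_act])
  have hp1 : IsProbabilityMeasure (extend ρ fun _ : Set (Sym2 ℕ) => expE) :=
    isProb_extend ρ hκ (fun _ => isProb_expE)
  have hp2 : IsProbabilityMeasure ((extend ρ fun _ : Set (Sym2 ℕ) => expE).map
      fun p => (φ p.1, p.2)) := Measure.isProbabilityMeasure_map hφ2.aemeasurable
  have hgr : ∀ᵐ p ∂(extend ρ fun _ : Set (Sym2 ℕ) => expE), IsGraph p.1.1 := by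
    refine ae_extend_of ρ hκ (fun _ => isProb_expE)
      ((measurable_fst.comp measurable_fst) measurableSet_isGraph) ?_
    filter_upwards [hρ.2.1] with a ha
    exact Eventually.of_forall fun _ => ha
  have hdens : ∫⁻ p, ∑' y, (p.1.2).indicator (1 : Sym2 ℕ → ℝ≥0∞) s(p.2, y)
      ∂((extend ρ fun _ : Set (Sym2 ℕ) => expE).map fun p => (φ p.1, p.2)) ≠ ∞ := by
    have hm : Measurable fun p : (Set (Sym2 ℕ) × Set (Sym2 ℕ)) × ℕ =>
        ∑' y, (p.1.2).indicator (1 : Sym2 ℕ → ℝ≥0∞) s(p.2, y) :=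
      measurable_of_root fun x => Measurable.ennreal_tsum fun y =>
        meas_indic (f := fun ω : Set (Sym2 ℕ) × Set (Sym2 ℕ) => ω.2) measurable_snd s(x, y)
    have e1 := lintegral_extend ρ hκ (fun _ => isProb_expE) _ (hm.comp hφ2)
    rw [lintegral_map hm hφ2]
    refine ne_top_of_le_ne_top (b := ENNReal.ofReal r) ENNReal.ofReal_ne_top ?_
    refine (le_of_eq e1).trans ?_
    calc ∫⁻ p, ∫⁻ ω', ((fun p : (Set (Sym2 ℕ) × Set (Sym2 ℕ)) × ℕ =>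
          ∑' y, (p.1.2).indicator (1 : Sym2 ℕ → ℝ≥0∞) s(p.2, y)) ∘
          fun p : (Set (Sym2 ℕ) × (Sym2 ℕ → ℝ)) × ℕ => (φ p.1, p.2)) ((p.1, ω'), p.2) ∂expE ∂ρ
        ≤ ∫⁻ _, ENNReal.ofReal r ∂ρ := by
          refine lintegral_mono_ae ?_
          filter_upwards [hρ.2.1] with a ha
          rw [hφdef]
          exact Sr_density ha a.2 r hr.le
      _ = ENNReal.ofReal r := by simp
  have hsub : MeasurableSet {p : (Set (Sym2 ℕ) × Set (Sym2 ℕ)) × ℕ | p.1.2 ⊆ p.1.1} := by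
    have : {p : (Set (Sym2 ℕ) × Set (Sym2 ℕ)) × ℕ | p.1.2 ⊆ p.1.1} =
        ⋂ e, ({p | e ∈ p.1.2}ᶜ ∪ {p | e ∈ p.1.1}) := by
      ext p; simp only [Set.mem_ofPred_eq, Set.mem_iInter, Set.mem_union, Set.mem_compl_iff,
        Set.subset_def]
      exact forall_congr' fun e => by tauto
    rw [this]
    exact MeasurableSet.iInter fun e =>
      (meas_mem (measurable_snd.comp measurable_fst) e).compl.union
        (meas_mem (measurable_fst.comp measurable_fst) e)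
  have hg1 : ∀ᵐ p ∂((extend ρ fun _ : Set (Sym2 ℕ) => expE).map fun p => (φ p.1, p.2)),
      IsGraph p.1.1 :=
    (ae_map_iff hφ2.aemeasurable ((measurable_fst.comp measurable_fst)
      measurableSet_isGraph)).mpr (by rw [hφdef]; exact hgr)
  have hg2 : ∀ᵐ p ∂((extend ρ fun _ : Set (Sym2 ℕ) => expE).map fun p => (φ p.1, p.2)),
      p.1.2 ⊆ p.1.1 :=
    (ae_map_iff hφ2.aemeasurable hsub).mpr
      (Eventually.of_forall fun p => by rw [hφdef]; exact fun g hg => hg.1)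
  have main := id_ae hμ.meas hμ.prob hμ.act hμ.fusf mm hg1 hg2 hdens
  have main2 := ae_of_ae_map hφ2.aemeasurable main
  have main3 := ae_extend ρ hκ (fun _ => isProb_expE) main2
  rw [hφdef] at main3
  exact main3

/-- indicator that the sampling identity fails at time `r` -/
noncomputable def Gb (μ : Set (Sym2 ℕ) → Measure (Set (Sym2 ℕ))) (e : Sym2 ℕ)
    (s : Set (Sym2 ℕ)) (u : Sym2 ℕ → ℝ) (r : ℝ) : ℝ≥0∞ :=
  ({q : Set (Sym2 ℕ) × Set (Sym2 ℕ) | IDp (μ q.1) q.1 q.2 e}ᶜ).indicator 1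
      (s, Sr s u (ENNReal.ofReal r))

theorem Gb_zero {μ : Set (Sym2 ℕ) → Measure (Set (Sym2 ℕ))} {e : Sym2 ℕ}
    {s : Set (Sym2 ℕ)} {u : Sym2 ℕ → ℝ} {r : ℝ} :
    Gb μ e s u r = 0 ↔ IDp (μ s) s (Sr s u (ENNReal.ofReal r)) e := by
  unfold Gb
  constructor
  · intro h
    by_contra hc
    rw [Set.indicator_of_mem (by exact hc)] at h
    exact one_ne_zero h
  · intro h
    exact Set.indicator_of_notMem (show (s, Sr s u (ENNReal.ofReal r)) ∉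
      {q : Set (Sym2 ℕ) × Set (Sym2 ℕ) | IDp (μ q.1) q.1 q.2 e}ᶜ from fun hn => hn h) _

theorem meas_Sr3 : Measurable fun q : (Set (Sym2 ℕ) × ℝ) × (Sym2 ℕ → ℝ) =>
    Sr q.1.1 q.2 (ENNReal.ofReal q.1.2) :=
  meas_Sr.comp (((measurable_fst.comp measurable_fst).prodMk measurable_snd).prodMk
    (ENNReal.measurable_ofReal.comp (measurable_snd.comp measurable_fst)))

theorem meas_Sr_u (s : Set (Sym2 ℕ)) (r : ℝ) : Measurable fun u : Sym2 ℕ → ℝ =>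
    Sr s u (ENNReal.ofReal r) :=
  meas_Sr3.comp (g := fun q : (Set (Sym2 ℕ) × ℝ) × (Sym2 ℕ → ℝ) =>
    Sr q.1.1 q.2 (ENNReal.ofReal q.1.2)) (f := fun u : Sym2 ℕ → ℝ => ((s, r), u))
    ((measurable_const (a := (s, r))).prodMk measurable_id)

theorem meas_Gb {μ : Set (Sym2 ℕ) → Measure (Set (Sym2 ℕ))} (hμ : FK μ) (e : Sym2 ℕ) :
    Measurable fun q : (Set (Sym2 ℕ) × ℝ) × (Sym2 ℕ → ℝ) => Gb μ e q.1.1 q.2 q.1.2 :=
  (measurable_one.indicator (measurableSet_IDp hμ.meas hμ.prob e).compl).comp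
    ((measurable_fst.comp measurable_fst).prodMk meas_Sr3)

/-- the same, cut off -/
noncomputable def Kb (μ : Set (Sym2 ℕ) → Measure (Set (Sym2 ℕ))) (e : Sym2 ℕ)
    (q : (Set (Sym2 ℕ) × ℝ) × (Sym2 ℕ → ℝ)) : ℝ≥0∞ :=
  ({q : (Set (Sym2 ℕ) × ℝ) × (Sym2 ℕ → ℝ) | e ∈ q.1.1 ∧
      e ∉ Sr q.1.1 q.2 (ENNReal.ofReal q.1.2)}).indicator (fun q => Gb μ e q.1.1 q.2 q.1.2) q

theorem meas_Kb {μ : Set (Sym2 ℕ) → Measure (Set (Sym2 ℕ))} (hμ : FK μ) (e : Sym2 ℕ) :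
    Measurable (Kb μ e) := (meas_Gb hμ e).indicator
    ((meas_mem (measurable_fst.comp measurable_fst) e).inter (meas_mem meas_Sr3 e).compl)

theorem Kb_pos {μ : Set (Sym2 ℕ) → Measure (Set (Sym2 ℕ))} {e : Sym2 ℕ}
    {s : Set (Sym2 ℕ)} {u : Sym2 ℕ → ℝ} {r : ℝ} (h : e ∈ s)
    (h' : e ∉ Sr s u (ENNReal.ofReal r)) : Kb μ e ((s, r), u) = Gb μ e s u r :=
  Set.indicator_of_mem (show ((s, r), u) ∈ {q : (Set (Sym2 ℕ) × ℝ) × (Sym2 ℕ → ℝ) |
    e ∈ q.1.1 ∧ e ∉ Sr q.1.1 q.2 (ENNReal.ofReal q.1.2)} from ⟨h, h'⟩) _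

theorem Kb_neg {μ : Set (Sym2 ℕ) → Measure (Set (Sym2 ℕ))} {e : Sym2 ℕ}
    {s : Set (Sym2 ℕ)} {u : Sym2 ℕ → ℝ} {r : ℝ}
    (h' : ¬ (e ∈ s ∧ e ∉ Sr s u (ENNReal.ofReal r))) : Kb μ e ((s, r), u) = 0 :=
  Set.indicator_of_notMem (show ((s, r), u) ∉ {q : (Set (Sym2 ℕ) × ℝ) × (Sym2 ℕ → ℝ) |
    e ∈ q.1.1 ∧ e ∉ Sr q.1.1 q.2 (ENNReal.ofReal q.1.2)} from h') _

theorem Kb_int {μ : Set (Sym2 ℕ) → Measure (Set (Sym2 ℕ))} (hμ : FK μ)
    {ρ : Measure (Set (Sym2 ℕ) × ℕ)} (hρ : IsUnimodular ρ) (e : Sym2 ℕ) (n : ℕ) :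
    ∀ᵐ a ∂ρ, ∫⁻ r in Set.Ioo (0 : ℝ) n, ∫⁻ u, Kb μ e ((a.1, r), u) ∂expE = 0 := by
  have hprob : IsProbabilityMeasure ρ := hρ.1
  have mH : Measurable fun b : Set (Sym2 ℕ) × ℝ => ∫⁻ u, Kb μ e (b, u) ∂expE :=
    (meas_Kb hμ e).lintegral_prod_right'
  have H0 : ∀ r : ℝ, 0 < r → ∀ᵐ a ∂ρ, ∫⁻ u, Kb μ e ((a.1, r), u) ∂expE = 0 := by
    intro r hr
    filter_upwards [id_time hμ hρ r hr] with a ha
    refine lintegral_eq_zero_of_ae_eq_zero ?_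
    filter_upwards [ha] with u hu
    show Kb μ e ((a.1, r), u) = 0
    by_cases hc : e ∈ a.1 ∧ e ∉ Sr a.1 u (ENNReal.ofReal r)
    · rw [Kb_pos hc.1 hc.2, Gb_zero]
      exact hu e hc
    · exact Kb_neg hc
  have hm : Measurable fun q : (Set (Sym2 ℕ) × ℕ) × ℝ => ∫⁻ u, Kb μ e ((q.1.1, q.2), u) ∂expE :=
    mH.comp ((measurable_fst.comp measurable_fst).prodMk measurable_snd)
  have hz : ∫⁻ a, ∫⁻ r in Set.Ioo (0 : ℝ) n, ∫⁻ u, Kb μ e ((a.1, r), u) ∂expE ∂volume ∂ρ = 0 := by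
    rw [lintegral_lintegral_swap hm.aemeasurable]
    refine (setLIntegral_congr_fun measurableSet_Ioo (g := fun _ => 0) fun r hr => ?_).trans
      (by simp)
    exact lintegral_eq_zero_of_ae_eq_zero (H0 r hr.1)
  rw [lintegral_eq_zero_iff hm.lintegral_prod_right'] at hz
  exact hz

theorem meas_Gb_u {μ : Set (Sym2 ℕ) → Measure (Set (Sym2 ℕ))} (hμ : FK μ) (e : Sym2 ℕ)
    (s : Set (Sym2 ℕ)) : Measurable fun q : (Sym2 ℕ → ℝ) × ℝ => Gb μ e s q.1 q.2 :=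
  (meas_Gb hμ e).comp (g := fun q : (Set (Sym2 ℕ) × ℝ) × (Sym2 ℕ → ℝ) =>
    Gb μ e q.1.1 q.2 q.1.2) (f := fun q : (Sym2 ℕ → ℝ) × ℝ => ((s, q.2), q.1))
    ((measurable_const.prodMk measurable_snd).prodMk measurable_fst)

theorem Gb_local {μ : Set (Sym2 ℕ) → Measure (Set (Sym2 ℕ))} (s : Set (Sym2 ℕ)) (e : Sym2 ℕ)
    (u u' : Sym2 ℕ → ℝ) (r : ℝ) (hg : ∀ g, g ≠ e → u g = u' g)
    (h1 : e ∉ Sr s u (ENNReal.ofReal r)) (h2 : e ∉ Sr s u' (ENNReal.ofReal r)) :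
    Gb μ e s u r = Gb μ e s u' r := by
  have : Sr s u (ENNReal.ofReal r) = Sr s u' (ENNReal.ofReal r) := by
    ext g
    by_cases hge : g = e
    · subst hge
      exact ⟨fun h => absurd h h1, fun h => absurd h h2⟩
    · simp only [Sr, Set.mem_ofPred_eq, clk, hg g hge]
  unfold Gb
  rw [this]

theorem Kb_slice {μ : Set (Sym2 ℕ) → Measure (Set (Sym2 ℕ))}
    {s : Set (Sym2 ℕ)} (e : Sym2 ℕ) (he : e ∈ s) (r : ℝ) :
    ∫⁻ u in {u | e ∉ Sr s u (ENNReal.ofReal r)}, Gb μ e s u r ∂expE =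
      ∫⁻ u, Kb μ e ((s, r), u) ∂expE := by
  have hmem : MeasurableSet {u | e ∉ Sr s u (ENNReal.ofReal r)} :=
    (meas_mem (meas_Sr_u s r) e).compl
  rw [← lintegral_indicator hmem]
  refine lintegral_congr fun u => ?_
  by_cases hc : e ∉ Sr s u (ENNReal.ofReal r)
  · rw [Set.indicator_of_mem (by exact hc), Kb_pos he hc]
  · rw [Set.indicator_of_notMem (by exact hc), Kb_neg (fun h => hc h.2)]

theorem id_past_step {μ : Set (Sym2 ℕ) → Measure (Set (Sym2 ℕ))} (hμ : FK μ)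
    {s : Set (Sym2 ℕ)} (hs : IsGraph s) (e : Sym2 ℕ) (he : e ∈ s) (t : ℝ)
    (ha : ∫⁻ r in Set.Ioo (0 : ℝ) t, ∫⁻ u, Kb μ e ((s, r), u) ∂expE = 0) :
    ∀ᵐ u ∂expE, e ∈ Sr s u (ENNReal.ofReal t) →
      Gb μ e s u (u e * (De s e).toReal) = 0 := by
  have hres := resample' hs he (Gb μ e s) (meas_Gb_u hμ e s)
    (fun u u' r _ hg h1 h2 => Gb_local s e u u' r hg h1 h2) t
  have hz : ∫⁻ r in Set.Ioo (0 : ℝ) t, ∫⁻ u in {u | e ∉ Sr s u (ENNReal.ofReal r)},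
      Gb μ e s u r ∂expE = 0 := by
    rw [← ha]
    exact lintegral_congr fun r => Kb_slice e he r
  rw [hz] at hres
  have hle := le_antisymm hres zero_le
  have mset : MeasurableSet {u | e ∈ Sr s u (ENNReal.ofReal t)} := meas_mem (meas_Sr_u s t) e
  have mfun : Measurable fun u : Sym2 ℕ → ℝ => Gb μ e s u (u e * (De s e).toReal) :=
    (meas_Gb_u hμ e s).comp (g := fun q : (Sym2 ℕ → ℝ) × ℝ => Gb μ e s q.1 q.2)
      (f := fun u : Sym2 ℕ → ℝ => (u, u e * (De s e).toReal))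
      (measurable_id.prodMk ((measurable_pi_apply e).mul_const _))
  rw [← lintegral_indicator mset, lintegral_eq_zero_iff (mfun.indicator mset)] at hle
  filter_upwards [hle] with u hu hmem
  rw [Pi.zero_apply, Set.indicator_of_mem (by exact hmem)] at hu
  exact hu

theorem id_past {μ : Set (Sym2 ℕ) → Measure (Set (Sym2 ℕ))} (hμ : FK μ)
    {ρ : Measure (Set (Sym2 ℕ) × ℕ)} (hρ : IsUnimodular ρ) :
    ∀ᵐ a ∂ρ, ∀ e ∈ a.1, ∀ᵐ u ∂expE,
      IDp (μ a.1) a.1 (past a.1 (clk a.1 u) e) e := by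
  suffices h : ∀ e : Sym2 ℕ, ∀ᵐ a ∂ρ, e ∈ a.1 → ∀ᵐ u ∂expE,
      IDp (μ a.1) a.1 (past a.1 (clk a.1 u) e) e by
    rw [← ae_all_iff] at h
    exact h
  intro e
  filter_upwards [ae_all_iff.mpr (Kb_int hμ hρ e), hρ.2.1] with a ha hs hea
  filter_upwards [ae_all_iff.mpr fun n : ℕ => id_past_step hμ hs e hea (n : ℝ) (ha n), expE_pos]
    with u hu hpos
  obtain ⟨n, hn⟩ := exists_nat_gt (u e * (De a.1 e).toReal)
  have hmem : e ∈ Sr a.1 u (ENNReal.ofReal n) := ⟨hea, (clk_lt_iff hs (hpos e).le n).mpr hn⟩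
  have h0 := hu n hmem
  rw [past_eq hs (hpos e).le]
  exact Gb_zero.mp h0

end Vale.Agent.H15.F
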