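import Vale.Agent.H15.F.Pic4

open MeasureTheory Filter Topology
open scoped ENNReal

namespace Vale.Agent.H15.F

attribute [local irreducible] xval

/-- graph and clocks -/
abbrev O1 := Set (Sym2 ℕ) × (Sym2 ℕ → ℝ)

/-- the full configuration `((s,u),(F,W))` -/
abbrev O2 := O1 × O1

/-- Picard iterate as a function of the full configuration -/
noncomputable def PP (n : ℕ) (ω : O2) : Set (Sym2 ℕ) :=
  Phi n ω.1.1 ω.1.2 (Vl ω.1.1 ω.1.2 ω.2.1 ω.2.2)

/-- edges with clock before `r`, as a function of the full configuration -/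
def SS (r : ℝ) (ω : O2) : Set (Sym2 ℕ) := Sr ω.1.1 ω.1.2 (ENNReal.ofReal r)

theorem meas_PP (n : ℕ) : Measurable (PP n) :=
  (Phi_measurable n).comp (g := fun q : Set (Sym2 ℕ) × (Sym2 ℕ → ℝ) × (Sym2 ℕ → ℝ) =>
      Phi n q.1 q.2.1 q.2.2)
    (f := fun ω : O2 => (ω.1.1, ω.1.2, Vl ω.1.1 ω.1.2 ω.2.1 ω.2.2))
    ((measurable_fst.comp measurable_fst).prodMk
      ((measurable_snd.comp measurable_fst).prodMk Vl_measurable))

theorem meas_SS : Measurable fun q : O2 × ℝ => SS q.2 q.1 :=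
  meas_Sr.comp (g := fun q : (Set (Sym2 ℕ) × (Sym2 ℕ → ℝ)) × ℝ≥0∞ => Sr q.1.1 q.1.2 q.2)
    (f := fun q : O2 × ℝ => (q.1.1, ENNReal.ofReal q.2))
    ((measurable_fst.comp measurable_fst).prodMk
      (ENNReal.measurable_ofReal.comp measurable_snd))

theorem meas_SS_r (r : ℝ) : Measurable (SS r) :=
  meas_SS.comp (g := fun q : O2 × ℝ => SS q.2 q.1) (f := fun ω : O2 => (ω, r))
    (measurable_id.prodMk measurable_const)

theorem PP_act (n : ℕ) (σ : Equiv.Perm ℕ) (ω : O2) : PP n (act σ ω) = act σ (PP n ω) := by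
  show Phi n (act σ ω.1.1) (act σ ω.1.2) (Vl (act σ ω.1.1) (act σ ω.1.2) (act σ ω.2.1)
    (act σ ω.2.2)) = _
  rw [Vl_act, Phi_act]
  rfl

theorem SS_act (r : ℝ) (σ : Equiv.Perm ℕ) (ω : O2) : SS r (act σ ω) = act σ (SS r ω) := by
  show Sr (act σ ω.1.1) (act σ ω.1.2) _ = _
  rw [Sr_act]
  rfl

/-- the kernel giving the forest and auxiliary uniform labels -/
noncomputable def kap (μ : Set (Sym2 ℕ) → Measure (Set (Sym2 ℕ))) (ω : O1) : Measure O1 :=
  (μ ω.1).prod lamE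

theorem meas_kap {μ : Set (Sym2 ℕ) → Measure (Set (Sym2 ℕ))} (hμ : FK μ) :
    Measurable (kap μ) := by
  let κ : ProbabilityTheory.Kernel O1 (Set (Sym2 ℕ)) :=
    ⟨fun q => μ q.1, hμ.meas.comp measurable_fst⟩
  have hκ : ProbabilityTheory.IsMarkovKernel κ := ⟨fun q => hμ.prob q.1⟩
  let η : ProbabilityTheory.Kernel O1 (Sym2 ℕ → ℝ) := ProbabilityTheory.Kernel.const _ lamE
  have : kap μ = fun ω => ProbabilityTheory.Kernel.prod κ η ω := by
    funext ω
    rw [ProbabilityTheory.Kernel.prod_apply]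
    rfl
  rw [this]
  exact (ProbabilityTheory.Kernel.prod κ η).measurable

theorem prob_kap {μ : Set (Sym2 ℕ) → Measure (Set (Sym2 ℕ))} (hμ : FK μ) (ω : O1) :
    IsProbabilityMeasure (kap μ ω) := by
  have := hμ.prob ω.1
  unfold kap
  infer_instance

theorem act_kap {μ : Set (Sym2 ℕ) → Measure (Set (Sym2 ℕ))} (hμ : FK μ) (σ : Equiv.Perm ℕ)
    (ω : O1) : kap μ (act σ ω) = (kap μ ω).map (act σ) := by
  have := hμ.prob ω.1
  show (μ (act σ ω.1)).prod lamE = ((μ ω.1).prod lamE).map (fun p => (act σ p.1, act σ p.2))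
  have h := Measure.map_prod_map (μ ω.1) lamE (measurable_act_set σ)
    (measurable_act_fun (M := ℝ) σ)
  have h2 : (lamE).map (act σ) = lamE := infinitePi_act _ σ
  rw [h2] at h
  rw [hμ.act]
  exact h

/-- law of graph, clocks and root -/
noncomputable def rho1 (ρ : Measure (Set (Sym2 ℕ) × ℕ)) : Measure (O1 × ℕ) :=
  extend ρ fun _ => expE

/-- law of the full configuration and the root -/
noncomputable def rho2 (μ : Set (Sym2 ℕ) → Measure (Set (Sym2 ℕ)))
    (ρ : Measure (Set (Sym2 ℕ) × ℕ)) : Measure (O2 × ℕ) := extend (rho1 ρ) (kap μ)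

theorem mtp_rho1 {ρ : Measure (Set (Sym2 ℕ) × ℕ)} (hρ : IsUnimodular ρ) : MTP (rho1 ρ) :=
  (mtp_of_unimodular hρ).extend measurable_const (fun _ => isProb_expE)
    (fun σ => measurable_act_fun σ) (fun σ ω => (infinitePi_act _ σ).symm)

theorem mtp_rho2 {μ : Set (Sym2 ℕ) → Measure (Set (Sym2 ℕ))} (hμ : FK μ)
    {ρ : Measure (Set (Sym2 ℕ) × ℕ)} (hρ : IsUnimodular ρ) : MTP (rho2 μ ρ) :=
  (mtp_rho1 hρ).extend (meas_kap hμ) (prob_kap hμ)
    (fun σ => measurable_act_prod σ (measurable_act_set σ) (measurable_act_fun σ))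
    (fun σ ω => act_kap hμ σ ω)

theorem lintegral_rho2 {μ : Set (Sym2 ℕ) → Measure (Set (Sym2 ℕ))} (hμ : FK μ)
    (ρ : Measure (Set (Sym2 ℕ) × ℕ)) (f : O2 × ℕ → ℝ≥0∞) (hf : Measurable f) :
    ∫⁻ q, f q ∂(rho2 μ ρ) =
      ∫⁻ a, ∫⁻ u, ∫⁻ p, f (((a.1, u), p), a.2) ∂((μ a.1).prod lamE) ∂expE ∂ρ := by
  unfold rho2
  rw [lintegral_extend _ (meas_kap hμ) (prob_kap hμ) f hf]
  unfold rho1
  rw [lintegral_extend _ measurable_const (fun _ => isProb_expE)]
  · rfl
  · let κ : ProbabilityTheory.Kernel (O1 × ℕ) O1 :=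
      ⟨fun q => kap μ q.1, (meas_kap hμ).comp measurable_fst⟩
    have hκ : ProbabilityTheory.IsMarkovKernel κ := ⟨fun q => prob_kap hμ q.1⟩
    exact Measurable.lintegral_kernel_prod_right' (κ := κ)
      (f := fun r : (O1 × ℕ) × O1 => f ((r.1.1, r.2), r.1.2))
      (hf.comp (((measurable_fst.comp measurable_fst).prodMk measurable_snd).prodMk
        (measurable_snd.comp measurable_fst)))

/-- the mismatch count at the root, before time `t` -/
noncomputable def Jn (n : ℕ) (t : ℝ) (q : O2 × ℕ) : ℝ≥0∞ :=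
  ∑' y, (SS t q.1 ∩ symmDiff (PP n q.1) q.1.2.1).indicator (1 : Sym2 ℕ → ℝ≥0∞) s(q.2, y)

theorem meas_symmDiff {α : Type*} [MeasurableSpace α] {f f' : α → Set (Sym2 ℕ)}
    (hf : Measurable f) (hf' : Measurable f') : Measurable fun a => symmDiff (f a) (f' a) := by
  refine meas_set fun g => ?_
  have : {a | g ∈ symmDiff (f a) (f' a)} = symmDiff {a | g ∈ f a} {a | g ∈ f' a} := by
    ext a; simp [Set.mem_symmDiff]
  rw [this]
  exact (meas_mem hf g).symmDiff (meas_mem hf' g)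

theorem meas_Jn (n : ℕ) : Measurable fun q : (O2 × ℕ) × ℝ => Jn n q.2 q.1 := by
  have h : ∀ x : ℕ, Measurable fun q : O2 × ℝ => Jn n q.2 (q.1, x) := by
    intro x
    unfold Jn
    refine Measurable.ennreal_tsum fun y => ?_
    exact meas_indic (f := fun q : O2 × ℝ => SS q.2 q.1 ∩ symmDiff (PP n q.1) q.1.2.1)
      (meas_inter meas_SS (meas_symmDiff ((meas_PP n).comp measurable_fst)
        ((measurable_fst.comp measurable_snd).comp measurable_fst))) s(x, y)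
  have h2 : Measurable fun q : (O2 × ℝ) × ℕ => Jn n q.1.2 (q.1.1, q.2) :=
    measurable_from_prod_countable_left h
  exact h2.comp (g := fun q : (O2 × ℝ) × ℕ => Jn n q.1.2 (q.1.1, q.2))
    (f := fun q : (O2 × ℕ) × ℝ => ((q.1.1, q.2), q.1.2))
    (((measurable_fst.comp measurable_fst).prodMk measurable_snd).prodMk
      (measurable_snd.comp measurable_fst))

theorem meas_Jn_t (n : ℕ) (t : ℝ) : Measurable (Jn n t) :=
  (meas_Jn n).comp (g := fun q : (O2 × ℕ) × ℝ => Jn n q.2 q.1) (f := fun q : O2 × ℕ => (q, t))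
    (measurable_id.prodMk measurable_const)

/-- mismatch density -/
noncomputable def Dn (μ : Set (Sym2 ℕ) → Measure (Set (Sym2 ℕ)))
    (ρ : Measure (Set (Sym2 ℕ) × ℕ)) (n : ℕ) (t : ℝ) : ℝ≥0∞ := ∫⁻ q, Jn n t q ∂(rho2 μ ρ)

theorem Dn_zero {μ : Set (Sym2 ℕ) → Measure (Set (Sym2 ℕ))} (hμ : FK μ)
    {ρ : Measure (Set (Sym2 ℕ) × ℕ)} (hρ : IsUnimodular ρ) (n : ℕ) (t : ℝ) (ht : 0 ≤ t) :
    Dn μ ρ n t ≤ ENNReal.ofReal t := by
  have hprob : IsProbabilityMeasure ρ := hρ.1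
  unfold Dn
  rw [lintegral_rho2 hμ ρ _ (meas_Jn_t n t)]
  calc ∫⁻ a, ∫⁻ u, ∫⁻ p, Jn n t (((a.1, u), p), a.2) ∂((μ a.1).prod lamE) ∂expE ∂ρ
      ≤ ∫⁻ a, ∫⁻ u, ∑' y, (Sr a.1 u (ENNReal.ofReal t)).indicator (1 : Sym2 ℕ → ℝ≥0∞) s(a.2, y)
          ∂expE ∂ρ := by
        refine lintegral_mono fun a => lintegral_mono fun u => ?_
        have := hμ.prob a.1
        calc ∫⁻ p, Jn n t (((a.1, u), p), a.2) ∂((μ a.1).prod lamE)
            ≤ ∫⁻ _, ∑' y, (Sr a.1 u (ENNReal.ofReal t)).indicator (1 : Sym2 ℕ → ℝ≥0∞) s(a.2, y)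
              ∂((μ a.1).prod lamE) := by
              refine lintegral_mono fun p => ENNReal.tsum_le_tsum fun y => ?_
              exact Set.indicator_le_indicator_of_subset Set.inter_subset_left
                (fun _ => zero_le) _
          _ = _ := by simp
    _ ≤ ∫⁻ _, ENNReal.ofReal t ∂ρ := by
        refine lintegral_mono_ae ?_
        filter_upwards [hρ.2.1] with a ha
        exact Sr_density ha a.2 t ht
    _ = ENNReal.ofReal t := by simp

end Vale.Agent.H15.F
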