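import Vale.Agent.H15.F.Pic5

open MeasureTheory Filter Topology
open scoped ENNReal

namespace Vale.Agent.H15.F

attribute [local irreducible] xval

theorem meas_int_kap {X : Type*} [MeasurableSpace X] {μ : Set (Sym2 ℕ) → Measure (Set (Sym2 ℕ))}
    (hμ : FK μ) {g : X → O1} (hg : Measurable g) {f : X × O1 → ℝ≥0∞} (hf : Measurable f) :
    Measurable fun x => ∫⁻ p, f (x, p) ∂(kap μ (g x)) := by
  let κ : ProbabilityTheory.Kernel X O1 := ⟨fun x => kap μ (g x), (meas_kap hμ).comp hg⟩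
  have hκ : ProbabilityTheory.IsMarkovKernel κ := ⟨fun x => prob_kap hμ (g x)⟩
  exact Measurable.lintegral_kernel_prod_right' (κ := κ) hf

/-- difference of conditional probabilities -/
noncomputable def Xn (n : ℕ) (e : Sym2 ℕ) (ω : O2) (r : ℝ) : ℝ≥0∞ :=
  ENNReal.ofReal |xval ω.1.1 (PP n ω ∩ SS r ω) (SS r ω) e -
    xval ω.1.1 (ω.2.1 ∩ SS r ω) (SS r ω) e|

theorem meas_Xn (n : ℕ) (e : Sym2 ℕ) : Measurable fun q : O2 × ℝ => Xn n e q.1 q.2 := by
  have h1 : Measurable fun q : O2 × ℝ => q.1.1.1 :=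
    (measurable_fst.comp measurable_fst).comp measurable_fst
  have h2 : Measurable fun q : O2 × ℝ => q.1.2.1 :=
    (measurable_fst.comp measurable_snd).comp measurable_fst
  have h3 : Measurable fun q : O2 × ℝ => PP n q.1 := (meas_PP n).comp measurable_fst
  exact ENNReal.measurable_ofReal.comp (measurable_abs.comp
    ((meas_xval h1 (meas_inter h3 meas_SS) meas_SS e).sub
      (meas_xval h1 (meas_inter h2 meas_SS) meas_SS e)))

/-- averaged over forest and auxiliary labels -/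
noncomputable def An (μ : Set (Sym2 ℕ) → Measure (Set (Sym2 ℕ))) (n : ℕ) (e : Sym2 ℕ)
    (s : Set (Sym2 ℕ)) (u : Sym2 ℕ → ℝ) (r : ℝ) : ℝ≥0∞ :=
  ∫⁻ p, Xn n e ((s, u), p) r ∂(kap μ (s, u))

theorem meas_An {μ : Set (Sym2 ℕ) → Measure (Set (Sym2 ℕ))} (hμ : FK μ) (n : ℕ) (e : Sym2 ℕ) :
    Measurable fun q : (Set (Sym2 ℕ) × ℝ) × (Sym2 ℕ → ℝ) => An μ n e q.1.1 q.2 q.1.2 := by
  refine meas_int_kap hμ (X := (Set (Sym2 ℕ) × ℝ) × (Sym2 ℕ → ℝ))
    (g := fun q => (q.1.1, q.2)) ((measurable_fst.comp measurable_fst).prodMk measurable_snd)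
    (f := fun r => Xn n e ((r.1.1.1, r.1.2), r.2) r.1.1.2) ?_
  exact (meas_Xn n e).comp (g := fun q : O2 × ℝ => Xn n e q.1 q.2)
    (f := fun r : ((Set (Sym2 ℕ) × ℝ) × (Sym2 ℕ → ℝ)) × O1 =>
      (((r.1.1.1, r.1.2), r.2), r.1.1.2)) (by fun_prop)

theorem meas_An_u {μ : Set (Sym2 ℕ) → Measure (Set (Sym2 ℕ))} (hμ : FK μ) (n : ℕ) (e : Sym2 ℕ)
    (s : Set (Sym2 ℕ)) : Measurable fun q : (Sym2 ℕ → ℝ) × ℝ => An μ n e s q.1 q.2 :=
  (meas_An hμ n e).comp (g := fun q : (Set (Sym2 ℕ) × ℝ) × (Sym2 ℕ → ℝ) =>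
    An μ n e q.1.1 q.2 q.1.2) (f := fun q : (Sym2 ℕ → ℝ) × ℝ => ((s, q.2), q.1))
    ((measurable_const.prodMk measurable_snd).prodMk measurable_fst)

theorem Sr_congr {s : Set (Sym2 ℕ)} {e : Sym2 ℕ} {u u' : Sym2 ℕ → ℝ} {r : ℝ}
    (hg : ∀ g, g ≠ e → u g = u' g) (h1 : e ∉ Sr s u (ENNReal.ofReal r))
    (h2 : e ∉ Sr s u' (ENNReal.ofReal r)) :
    Sr s u (ENNReal.ofReal r) = Sr s u' (ENNReal.ofReal r) := by
  ext g
  by_cases hge : g = e
  · subst hge
    exact ⟨fun h => absurd h h1, fun h => absurd h h2⟩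
  · simp only [Sr, Set.mem_ofPred_eq, clk, hg g hge]

theorem past_congr {s : Set (Sym2 ℕ)} {e : Sym2 ℕ} (he : e ∈ s) {u u' : Sym2 ℕ → ℝ} {r : ℝ}
    (hg : ∀ g, g ≠ e → u g = u' g) (h1 : e ∉ Sr s u (ENNReal.ofReal r))
    (h2 : e ∉ Sr s u' (ENNReal.ofReal r)) (g : Sym2 ℕ) (hgS : g ∈ Sr s u (ENNReal.ofReal r)) :
    past s (clk s u) g = past s (clk s u') g := by
  have hge : g ≠ e := by rintro rfl; exact h1 hgS
  have hcg : clk s u g = clk s u' g := by simp only [clk, hg g hge]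
  ext k
  by_cases hke : k = e
  · subst hke
    constructor
    · intro hk
      exact absurd ⟨he, hk.2.trans hgS.2⟩ h1
    · intro hk
      refine absurd ⟨he, hk.2.trans ?_⟩ h2
      rw [← hcg]; exact hgS.2
  · simp only [past, Set.mem_ofPred_eq, hcg]
    simp only [clk, hg k hke]

theorem past_subset_Sr {s : Set (Sym2 ℕ)} {u : Sym2 ℕ → ℝ} {r : ℝ≥0∞} {g : Sym2 ℕ}
    (hg : g ∈ Sr s u r) : past s (clk s u) g ⊆ Sr s u r := fun _ hk => ⟨hk.1, hk.2.trans hg.2⟩

theorem PP_local {s : Set (Sym2 ℕ)} {e : Sym2 ℕ} (he : e ∈ s) {u u' : Sym2 ℕ → ℝ} {r : ℝ}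
    (hg : ∀ g, g ≠ e → u g = u' g) (h1 : e ∉ Sr s u (ENNReal.ofReal r))
    (h2 : e ∉ Sr s u' (ENNReal.ofReal r)) (n : ℕ) (p : O1) :
    PP n ((s, u), p) ∩ Sr s u (ENNReal.ofReal r) =
      PP n ((s, u'), p) ∩ Sr s u (ENNReal.ofReal r) := by
  refine Phi_local n s u _ u' _ _ (fun g hgS => past_congr he hg h1 h2 g hgS)
    (fun g hgS => past_subset_Sr hgS) (fun g hgS => ?_)
  exact Vl_local s u u' p.1 p.1 p.2 p.2 g (past_congr he hg h1 h2 g hgS) rfl Iff.rfl rfl

theorem An_local {μ : Set (Sym2 ℕ) → Measure (Set (Sym2 ℕ))} {s : Set (Sym2 ℕ)} {e : Sym2 ℕ}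
    (he : e ∈ s) {u u' : Sym2 ℕ → ℝ} {r : ℝ} (hg : ∀ g, g ≠ e → u g = u' g)
    (h1 : e ∉ Sr s u (ENNReal.ofReal r)) (h2 : e ∉ Sr s u' (ENNReal.ofReal r)) (n : ℕ) :
    An μ n e s u r = An μ n e s u' r := by
  unfold An
  refine lintegral_congr fun p => ?_
  unfold Xn SS
  show ENNReal.ofReal |xval s (PP n ((s, u), p) ∩ Sr s u (ENNReal.ofReal r))
      (Sr s u (ENNReal.ofReal r)) e - xval s (p.1 ∩ Sr s u (ENNReal.ofReal r))
      (Sr s u (ENNReal.ofReal r)) e| = ENNReal.ofReal |xval s (PP n ((s, u'), p) ∩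
      Sr s u' (ENNReal.ofReal r)) (Sr s u' (ENNReal.ofReal r)) e -
      xval s (p.1 ∩ Sr s u' (ENNReal.ofReal r)) (Sr s u' (ENNReal.ofReal r)) e|
  rw [PP_local he hg h1 h2 n p, ← Sr_congr hg h1 h2]

/-- mismatch probability at an edge -/
theorem mismatch_eq {μ : Set (Sym2 ℕ) → Measure (Set (Sym2 ℕ))} (hμ : FK μ)
    {s : Set (Sym2 ℕ)} (hs : IsGraph s) {e : Sym2 ℕ} (he : e ∈ s) {u : Sym2 ℕ → ℝ}
    (hu : 0 ≤ u e) (hid : IDp (μ s) s (past s (clk s u) e) e) (n : ℕ) :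
    (kap μ (s, u)) {p | e ∈ symmDiff (PP (n + 1) ((s, u), p)) p.1} =
      An μ n e s u (u e * (De s e).toReal) := by
  have hp := hμ.prob s
  have hpe := past_eq hs hu
  have key := coupling_mismatch s (clk s u) (μ s)
    (fun g A => xval s A (past s (clk s u) g) g)
    (fun g => meas_xval measurable_const measurable_id measurable_const g)
    (fun g A => xval_nonneg _ _ _ _) (fun g A => xval_le_one _ _ _ _) e he hid
    (fun p => xval s (PP n ((s, u), p) ∩ past s (clk s u) e) (past s (clk s u) e) e)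
    (meas_xval measurable_const (meas_inter ((meas_PP n).comp
      ((measurable_const (a := (s, u))).prodMk measurable_id)) measurable_const)
      measurable_const e)
    (fun p => xval_nonneg _ _ _ _) (fun p => xval_le_one _ _ _ _)
    (by
      intro F F' W W' hF hW
      have : PP n ((s, u), (F, W)) ∩ past s (clk s u) e =
          PP n ((s, u), (F', W')) ∩ past s (clk s u) e := by
        refine Phi_local n s u _ u _ _ (fun g _ => rfl)
          (fun g hg => past_trans _ _ _ _ hg) (fun g hg => ?_)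
        refine Vl_local s u u F F' W W' g rfl ?_ ?_ (hW g hg)
        · have h1 := past_trans s (clk s u) e g hg
          rw [← Set.inter_eq_right.mpr h1, ← Set.inter_assoc, hF, Set.inter_assoc]
        · constructor
          · intro h
            have : g ∈ F ∩ past s (clk s u) e := ⟨h, hg⟩
            rw [hF] at this
            exact this.1
          · intro h
            have : g ∈ F' ∩ past s (clk s u) e := ⟨h, hg⟩
            rw [← hF] at this
            exact this.1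
      simp only [this])
  have hset : {p : O1 | e ∈ symmDiff (PP (n + 1) ((s, u), p)) p.1} =
      {p : O1 | ¬ (e ∈ p.1 ↔ Vlab (fun g A => xval s A (past s (clk s u) g) g)
        (past s (clk s u)) p.1 p.2 e <
        xval s (PP n ((s, u), p) ∩ past s (clk s u) e) (past s (clk s u) e) e)} := by
    ext p
    simp only [Set.mem_ofPred_eq, Set.mem_symmDiff]
    have h1 : e ∈ PP (n + 1) ((s, u), p) ↔ Vlab (fun g A => xval s A (past s (clk s u) g) g)
        (past s (clk s u)) p.1 p.2 e <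
        xval s (PP n ((s, u), p) ∩ past s (clk s u) e) (past s (clk s u) e) e :=
      ⟨fun h => h.2, fun h => ⟨he, h⟩⟩
    rw [h1]
    tauto
  rw [hset]
  refine key.trans ?_
  unfold An
  refine lintegral_congr fun p => ?_
  unfold Xn SS
  show _ = ENNReal.ofReal |xval s (PP n ((s, u), p) ∩ Sr s u _) (Sr s u _) e -
    xval s (p.1 ∩ Sr s u _) (Sr s u _) e|
  rw [← hpe]

end Vale.Agent.H15.F
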