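import Vale.Agent.H15.F.Pic6

open MeasureTheory Filter Topology
open scoped ENNReal

namespace Vale.Agent.H15.F

attribute [local irreducible] xval

/-- mismatch set before time `t` -/
noncomputable def MM (n : ℕ) (t : ℝ) (ω : O2) : Set (Sym2 ℕ) :=
  SS t ω ∩ symmDiff (PP n ω) ω.2.1

theorem meas_MM (n : ℕ) (t : ℝ) : Measurable (MM n t) :=
  meas_inter (meas_SS_r t) (meas_symmDiff (meas_PP n) (measurable_fst.comp measurable_snd))

theorem meas_pair (s : Set (Sym2 ℕ)) (u : Sym2 ℕ → ℝ) :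
    Measurable fun p : O1 => (((s, u), p) : O2) :=
  (measurable_const (a := (s, u))).prodMk measurable_id

theorem edge_step {μ : Set (Sym2 ℕ) → Measure (Set (Sym2 ℕ))} (hμ : FK μ)
    {s : Set (Sym2 ℕ)} (hs : IsGraph s) (e : Sym2 ℕ)
    (hid : e ∈ s → ∀ᵐ u ∂expE, IDp (μ s) s (past s (clk s u) e) e) (n : ℕ) (t : ℝ) :
    ∫⁻ u, ∫⁻ p, (MM (n + 1) t ((s, u), p)).indicator (1 : Sym2 ℕ → ℝ≥0∞) e ∂(kap μ (s, u)) ∂expE ≤
      ∫⁻ r in Set.Ioo 0 t, ∫⁻ u, An μ n e s u r ∂expE := by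
  by_cases he : e ∈ s
  swap
  · have : ∀ u p, (MM (n + 1) t ((s, u), p)).indicator (1 : Sym2 ℕ → ℝ≥0∞) e = 0 := by
      intro u p
      exact Set.indicator_of_notMem (fun h => he h.1.1) _
    simp [this]
  have hmset : MeasurableSet {u | e ∈ Sr s u (ENNReal.ofReal t)} := meas_mem (meas_Sr_u s t) e
  calc ∫⁻ u, ∫⁻ p, (MM (n + 1) t ((s, u), p)).indicator (1 : Sym2 ℕ → ℝ≥0∞) e
        ∂(kap μ (s, u)) ∂expE
      = ∫⁻ u, ({u | e ∈ Sr s u (ENNReal.ofReal t)} : Set (Sym2 ℕ → ℝ)).indicator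
          (fun u => An μ n e s u (u e * (De s e).toReal)) u ∂expE := by
        refine lintegral_congr_ae ?_
        filter_upwards [hid he, expE_pos] with u hu hpos
        by_cases hmem : e ∈ Sr s u (ENNReal.ofReal t)
        · rw [Set.indicator_of_mem (by exact hmem), ← mismatch_eq hμ hs he (hpos e).le hu n,
            ← lintegral_indicator_one]
          · refine lintegral_congr fun p => ?_
            by_cases hp : e ∈ symmDiff (PP (n + 1) ((s, u), p)) p.1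
            · rw [Set.indicator_of_mem (show e ∈ MM (n + 1) t ((s, u), p) from ⟨hmem, hp⟩),
                Set.indicator_of_mem (by exact hp)]
              rfl
            · rw [Set.indicator_of_notMem (show e ∉ MM (n + 1) t ((s, u), p) from fun h => hp h.2),
                Set.indicator_of_notMem (by exact hp)]
          · exact meas_mem (f := fun p : O1 => symmDiff (PP (n + 1) ((s, u), p)) p.1)
              (meas_symmDiff ((meas_PP (n + 1)).comp (meas_pair s u)) measurable_fst) e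
        · rw [Set.indicator_of_notMem (by exact hmem)]
          refine (lintegral_congr fun p => ?_).trans lintegral_zero
          exact Set.indicator_of_notMem (fun h => hmem h.1) _
    _ = ∫⁻ u in {u | e ∈ Sr s u (ENNReal.ofReal t)}, An μ n e s u (u e * (De s e).toReal)
          ∂expE := lintegral_indicator hmset _
    _ ≤ ∫⁻ r in Set.Ioo 0 t, ∫⁻ u in {u | e ∉ Sr s u (ENNReal.ofReal r)}, An μ n e s u r ∂expE :=
        resample' hs he (An μ n e s) (meas_An_u hμ n e s)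
          (fun u u' r _ hg h1 h2 => An_local he hg h1 h2 n) t
    _ ≤ ∫⁻ r in Set.Ioo 0 t, ∫⁻ u, An μ n e s u r ∂expE :=
        lintegral_mono fun r => setLIntegral_le_lintegral _ _

/-- total difference at the root -/
noncomputable def Xs (n : ℕ) (q : O2 × ℕ) (r : ℝ) : ℝ≥0∞ := ∑' y, Xn n s(q.2, y) q.1 r

theorem meas_Xs (n : ℕ) : Measurable fun q : (O2 × ℕ) × ℝ => Xs n q.1 q.2 := by
  have h : ∀ x : ℕ, Measurable fun q : O2 × ℝ => Xs n (q.1, x) q.2 := fun x =>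
    Measurable.ennreal_tsum fun y => meas_Xn n s(x, y)
  have h2 : Measurable fun q : (O2 × ℝ) × ℕ => Xs n (q.1.1, q.2) q.1.2 :=
    measurable_from_prod_countable_left h
  exact h2.comp (g := fun q : (O2 × ℝ) × ℕ => Xs n (q.1.1, q.2) q.1.2)
    (f := fun q : (O2 × ℕ) × ℝ => ((q.1.1, q.2), q.1.2))
    (((measurable_fst.comp measurable_fst).prodMk measurable_snd).prodMk
      (measurable_snd.comp measurable_fst))

theorem lip_step {μ : Set (Sym2 ℕ) → Measure (Set (Sym2 ℕ))} (hμ : FK μ)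
    {ρ : Measure (Set (Sym2 ℕ) × ℕ)} (hρ : IsUnimodular ρ) (n : ℕ) (r : ℝ) :
    ∫⁻ q, Xs n q r ∂(rho2 μ ρ) ≤ Dn μ ρ n r := by
  obtain ⟨φ, hφdef⟩ : ∃ φ : O2 → Set (Sym2 ℕ) × Set (Sym2 ℕ) × Set (Sym2 ℕ) × Set (Sym2 ℕ),
      φ = fun ω => (ω.1.1, PP n ω ∩ SS r ω, ω.2.1 ∩ SS r ω, SS r ω) := ⟨_, rfl⟩
  have hφ : Measurable φ := by
    rw [hφdef]
    exact (measurable_fst.comp measurable_fst).prodMk
      ((meas_inter (meas_PP n) (meas_SS_r r)).prodMk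
      ((meas_inter (measurable_fst.comp measurable_snd) (meas_SS_r r)).prodMk (meas_SS_r r)))
  have hact : ∀ (σ : Equiv.Perm ℕ) (ω : O2), φ (act σ ω) = act σ (φ ω) := by
    intro σ ω
    rw [hφdef]
    show (act σ ω.1.1, PP n (act σ ω) ∩ SS r (act σ ω), act σ ω.2.1 ∩ SS r (act σ ω),
      SS r (act σ ω)) = (act σ ω.1.1, act σ (PP n ω ∩ SS r ω), act σ (ω.2.1 ∩ SS r ω),
      act σ (SS r ω))
    rw [PP_act, SS_act, act_inter, act_inter]
  have hφ2 : Measurable fun p : O2 × ℕ => (φ p.1, p.2) :=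
    (hφ.comp measurable_fst).prodMk measurable_snd
  have hm := (mtp_rho2 hμ hρ).map φ hφ hact
  have key := xval_lip hm
  have m1 : Measurable fun p : (Set (Sym2 ℕ) × Set (Sym2 ℕ) × Set (Sym2 ℕ) × Set (Sym2 ℕ)) × ℕ =>
      ∑' y, ENNReal.ofReal |xval p.1.1 p.1.2.1 p.1.2.2.2 s(p.2, y) -
        xval p.1.1 p.1.2.2.1 p.1.2.2.2 s(p.2, y)| :=
    measurable_of_root fun x => Measurable.ennreal_tsum fun y =>
      ENNReal.measurable_ofReal.comp (measurable_abs.comp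
        ((meas_xval
          (f := fun ω : Set (Sym2 ℕ) × Set (Sym2 ℕ) × Set (Sym2 ℕ) × Set (Sym2 ℕ) => ω.1)
          (g := fun ω => ω.2.1) (h := fun ω => ω.2.2.2) (by fun_prop) (by fun_prop)
          (by fun_prop) s(x, y)).sub
        (meas_xval
          (f := fun ω : Set (Sym2 ℕ) × Set (Sym2 ℕ) × Set (Sym2 ℕ) × Set (Sym2 ℕ) => ω.1)
          (g := fun ω => ω.2.2.1) (h := fun ω => ω.2.2.2) (by fun_prop) (by fun_prop)
          (by fun_prop) s(x, y))))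
  have m2 : Measurable fun p : (Set (Sym2 ℕ) × Set (Sym2 ℕ) × Set (Sym2 ℕ) × Set (Sym2 ℕ)) × ℕ =>
      ∑' y, (symmDiff p.1.2.1 p.1.2.2.1).indicator (1 : Sym2 ℕ → ℝ≥0∞) s(p.2, y) :=
    measurable_of_root fun x => Measurable.ennreal_tsum fun y =>
      meas_indic (f := fun ω : Set (Sym2 ℕ) × Set (Sym2 ℕ) × Set (Sym2 ℕ) × Set (Sym2 ℕ) =>
        symmDiff ω.2.1 ω.2.2.1) (meas_symmDiff (by fun_prop) (by fun_prop)) s(x, y)
  rw [lintegral_map m1 hφ2, lintegral_map m2 hφ2] at key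
  have e1 : ∀ q : O2 × ℕ, Xs n q r = ∑' y, ENNReal.ofReal
      |xval (φ q.1).1 (φ q.1).2.1 (φ q.1).2.2.2 s(q.2, y) -
        xval (φ q.1).1 (φ q.1).2.2.1 (φ q.1).2.2.2 s(q.2, y)| := by
    intro q; rw [hφdef]; rfl
  have e2 : ∀ q : O2 × ℕ, Jn n r q = ∑' y, (symmDiff (φ q.1).2.1 (φ q.1).2.2.1).indicator
      (1 : Sym2 ℕ → ℝ≥0∞) s(q.2, y) := by
    intro q; rw [hφdef]
    have : symmDiff (PP n q.1 ∩ SS r q.1) (q.1.2.1 ∩ SS r q.1) =
        SS r q.1 ∩ symmDiff (PP n q.1) q.1.2.1 := by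
      ext g; simp only [Set.mem_symmDiff, Set.mem_inter_iff]; tauto
    show Jn n r q = ∑' y, (symmDiff (PP n q.1 ∩ SS r q.1) (q.1.2.1 ∩ SS r q.1)).indicator
      (1 : Sym2 ℕ → ℝ≥0∞) s(q.2, y)
    rw [this]; rfl
  unfold Dn
  rw [lintegral_congr e1, lintegral_congr e2]
  exact key

theorem Dn_step {μ : Set (Sym2 ℕ) → Measure (Set (Sym2 ℕ))} (hμ : FK μ)
    {ρ : Measure (Set (Sym2 ℕ) × ℕ)} (hρ : IsUnimodular ρ) (n : ℕ) (t : ℝ) :
    Dn μ ρ (n + 1) t ≤ ∫⁻ r in Set.Ioo 0 t, Dn μ ρ n r := by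
  have hprob : IsProbabilityMeasure ρ := hρ.1
  have mXs : ∀ s : Set (Sym2 ℕ), ∀ u : Sym2 ℕ → ℝ, ∀ r : ℝ, ∀ y : ℕ, ∀ x : ℕ,
      Measurable fun p : O1 => Xn n s(x, y) ((s, u), p) r := fun s u r y x =>
    (meas_Xn n s(x, y)).comp (g := fun q : O2 × ℝ => Xn n s(x, y) q.1 q.2)
      (f := fun p : O1 => (((s, u), p), r)) ((meas_pair s u).prodMk measurable_const)
  -- left side
  have hL : Dn μ ρ (n + 1) t = ∫⁻ a, ∑' y, ∫⁻ u, ∫⁻ p, (MM (n + 1) t ((a.1, u), p)).indicator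
      (1 : Sym2 ℕ → ℝ≥0∞) s(a.2, y) ∂(kap μ (a.1, u)) ∂expE ∂ρ := by
    unfold Dn
    rw [lintegral_rho2 hμ ρ _ (meas_Jn_t (n + 1) t)]
    refine lintegral_congr fun a => ?_
    have h1 : ∀ u, ∫⁻ p, Jn (n + 1) t (((a.1, u), p), a.2) ∂((μ a.1).prod lamE) =
        ∑' y, ∫⁻ p, (MM (n + 1) t ((a.1, u), p)).indicator (1 : Sym2 ℕ → ℝ≥0∞) s(a.2, y)
          ∂(kap μ (a.1, u)) := by
      intro u
      rw [← lintegral_tsum]
      · rfl
      · intro y
        exact (meas_indic ((meas_MM (n + 1) t).comp (meas_pair a.1 u)) _).aemeasurable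
    rw [lintegral_congr h1, lintegral_tsum]
    intro y
    refine Measurable.aemeasurable ?_
    exact meas_int_kap hμ (X := Sym2 ℕ → ℝ) (g := fun u => (a.1, u))
      ((measurable_const (a := a.1)).prodMk measurable_id)
      (f := fun q : (Sym2 ℕ → ℝ) × O1 => (MM (n + 1) t ((a.1, q.1), q.2)).indicator
        (1 : Sym2 ℕ → ℝ≥0∞) s(a.2, y))
      (meas_indic (f := fun q : (Sym2 ℕ → ℝ) × O1 => MM (n + 1) t ((a.1, q.1), q.2))
        ((meas_MM (n + 1) t).comp (((measurable_const (a := a.1)).prodMk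
          measurable_fst).prodMk measurable_snd)) _)
  rw [hL]
  -- the integrated field
  have hXint : ∀ (a : Set (Sym2 ℕ) × ℕ) (r : ℝ), ∑' y, ∫⁻ u, An μ n s(a.2, y) a.1 u r ∂expE =
      ∫⁻ u, ∫⁻ p, Xs n (((a.1, u), p), a.2) r ∂(kap μ (a.1, u)) ∂expE := by
    intro a r
    rw [← lintegral_tsum]
    · refine lintegral_congr fun u => ?_
      unfold An Xs
      rw [← lintegral_tsum]
      intro y
      exact (mXs a.1 u r y a.2).aemeasurable
    · intro y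
      refine Measurable.aemeasurable ?_
      exact (meas_An_u hμ n s(a.2, y) a.1).comp
        (g := fun q : (Sym2 ℕ → ℝ) × ℝ => An μ n s(a.2, y) a.1 q.1 q.2)
        (f := fun u : Sym2 ℕ → ℝ => (u, r)) (measurable_id.prodMk measurable_const)
  have mAn2 : ∀ (a : Set (Sym2 ℕ) × ℕ) (y : ℕ), Measurable fun r : ℝ =>
      ∫⁻ u, An μ n s(a.2, y) a.1 u r ∂expE := by
    intro a y
    have h : Measurable fun q : ℝ × (Sym2 ℕ → ℝ) => An μ n s(a.2, y) a.1 q.2 q.1 :=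
      (meas_An_u hμ n s(a.2, y) a.1).comp
        (g := fun q : (Sym2 ℕ → ℝ) × ℝ => An μ n s(a.2, y) a.1 q.1 q.2)
        (f := fun q : ℝ × (Sym2 ℕ → ℝ) => (q.2, q.1)) measurable_swap
    exact h.lintegral_prod_right'
  have mR : Measurable fun q : (Set (Sym2 ℕ) × ℕ) × ℝ =>
      ∫⁻ u, ∫⁻ p, Xs n (((q.1.1, u), p), q.1.2) q.2 ∂(kap μ (q.1.1, u)) ∂expE := by
    have h : Measurable fun w : ((Set (Sym2 ℕ) × ℕ) × ℝ) × (Sym2 ℕ → ℝ) =>
        ∫⁻ p, Xs n (((w.1.1.1, w.2), p), w.1.1.2) w.1.2 ∂(kap μ (w.1.1.1, w.2)) := by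
      refine meas_int_kap hμ (X := ((Set (Sym2 ℕ) × ℕ) × ℝ) × (Sym2 ℕ → ℝ))
        (g := fun w => (w.1.1.1, w.2)) (by fun_prop)
        (f := fun w => Xs n (((w.1.1.1.1, w.1.2), w.2), w.1.1.1.2) w.1.1.2) ?_
      exact (meas_Xs n).comp (g := fun q : (O2 × ℕ) × ℝ => Xs n q.1 q.2)
        (f := fun w : (((Set (Sym2 ℕ) × ℕ) × ℝ) × (Sym2 ℕ → ℝ)) × O1 =>
          ((((w.1.1.1.1, w.1.2), w.2), w.1.1.1.2), w.1.1.2)) (by fun_prop)
    exact h.lintegral_prod_right'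
  calc ∫⁻ a, ∑' y, ∫⁻ u, ∫⁻ p, (MM (n + 1) t ((a.1, u), p)).indicator
        (1 : Sym2 ℕ → ℝ≥0∞) s(a.2, y) ∂(kap μ (a.1, u)) ∂expE ∂ρ
      ≤ ∫⁻ a, ∑' y, ∫⁻ r in Set.Ioo 0 t, ∫⁻ u, An μ n s(a.2, y) a.1 u r ∂expE ∂volume ∂ρ := by
        refine lintegral_mono_ae ?_
        filter_upwards [hρ.2.1, id_past hμ hρ] with a hs hid
        exact ENNReal.tsum_le_tsum fun y => edge_step hμ hs _ (fun h => hid _ h) n t
    _ = ∫⁻ a, ∫⁻ r in Set.Ioo 0 t, ∫⁻ u, ∫⁻ p, Xs n (((a.1, u), p), a.2) r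
          ∂(kap μ (a.1, u)) ∂expE ∂volume ∂ρ := by
        refine lintegral_congr fun a => ?_
        rw [← lintegral_tsum fun y => (mAn2 a y).aemeasurable]
        exact lintegral_congr fun r => hXint a r
    _ = ∫⁻ r in Set.Ioo 0 t, ∫⁻ a, ∫⁻ u, ∫⁻ p, Xs n (((a.1, u), p), a.2) r
          ∂(kap μ (a.1, u)) ∂expE ∂ρ := lintegral_lintegral_swap mR.aemeasurable
    _ = ∫⁻ r in Set.Ioo 0 t, ∫⁻ q, Xs n q r ∂(rho2 μ ρ) := by
        refine lintegral_congr fun r => ?_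
        rw [lintegral_rho2 hμ ρ (fun q => Xs n q r) ((meas_Xs n).comp
          (g := fun q : (O2 × ℕ) × ℝ => Xs n q.1 q.2) (f := fun q : O2 × ℕ => (q, r))
          (measurable_id.prodMk measurable_const))]
        rfl
    _ ≤ ∫⁻ r in Set.Ioo 0 t, Dn μ ρ n r := lintegral_mono fun r => lip_step hμ hρ n r

end Vale.Agent.H15.F
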