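import Vale.Agent.H15.F.Pic7

open MeasureTheory Filter Topology
open scoped ENNReal

namespace Vale.Agent.H15.F

attribute [local irreducible] xval

theorem lint_pow (n : ℕ) (t : ℝ) (ht : 0 ≤ t) :
    ∫⁻ r in Set.Ioo 0 t, ENNReal.ofReal (r ^ (n + 1) / (n + 1).factorial) =
      ENNReal.ofReal (t ^ (n + 2) / (n + 2).factorial) := by
  have h1 : IntegrableOn (fun r : ℝ => r ^ (n + 1) / (n + 1).factorial) (Set.Ioo 0 t) :=
    (((continuous_id.pow _).div_const _).integrableOn_Icc (a := 0) (b := t)).mono_set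
      Set.Ioo_subset_Icc_self
  rw [← ofReal_integral_eq_lintegral_ofReal h1]
  · congr 1
    rw [← integral_Ioc_eq_integral_Ioo, ← intervalIntegral.integral_of_le ht,
      intervalIntegral.integral_div, integral_pow]
    rw [Nat.factorial_succ (n + 1)]
    push_cast
    rw [div_div]
    congr 1
    · ring
  · rw [EventuallyLE, ae_restrict_iff' measurableSet_Ioo]
    refine Eventually.of_forall fun r hr => ?_
    have := hr.1
    simp only [Pi.zero_apply]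
    positivity

theorem Dn_bound {μ : Set (Sym2 ℕ) → Measure (Set (Sym2 ℕ))} (hμ : FK μ)
    {ρ : Measure (Set (Sym2 ℕ) × ℕ)} (hρ : IsUnimodular ρ) (n : ℕ) (t : ℝ) (ht : 0 ≤ t) :
    Dn μ ρ n t ≤ ENNReal.ofReal (t ^ (n + 1) / (n + 1).factorial) := by
  induction n generalizing t with
  | zero => simpa using Dn_zero hμ hρ 0 t ht
  | succ n ih =>
    refine (Dn_step hμ hρ n t).trans ?_
    rw [← lint_pow n t ht]
    refine setLIntegral_mono' measurableSet_Ioo fun r hr => ih r hr.1.le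

theorem ae_mismatch {μ : Set (Sym2 ℕ) → Measure (Set (Sym2 ℕ))} (hμ : FK μ)
    {ρ : Measure (Set (Sym2 ℕ) × ℕ)} (hρ : IsUnimodular ρ) :
    ∀ᵐ q ∂(rho2 μ ρ), ∀ k : ℕ, ∀ y : ℕ, ∃ N : ℕ, ∀ n, N ≤ n → s(q.2, y) ∉ MM n k q.1 := by
  rw [ae_all_iff]
  intro k
  have hsum : ∫⁻ q, ∑' n, Jn n k q ∂(rho2 μ ρ) < ∞ := by
    rw [lintegral_tsum fun n => (meas_Jn_t n k).aemeasurable]
    calc ∑' n, ∫⁻ q, Jn n k q ∂(rho2 μ ρ)
        ≤ ∑' n : ℕ, ENNReal.ofReal ((k : ℝ) ^ (n + 1) / (n + 1).factorial) :=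
          ENNReal.tsum_le_tsum fun n => Dn_bound hμ hρ n k (Nat.cast_nonneg k)
      _ = ENNReal.ofReal (∑' n : ℕ, (k : ℝ) ^ (n + 1) / (n + 1).factorial) := by
          rw [ENNReal.ofReal_tsum_of_nonneg (fun n => by positivity)]
          exact (summable_nat_add_iff 1).mpr (Real.summable_pow_div_factorial k)
      _ < ∞ := ENNReal.ofReal_lt_top
  have hm : Measurable fun q : O2 × ℕ => ∑' n, Jn n k q :=
    Measurable.ennreal_tsum fun n => meas_Jn_t n k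
  filter_upwards [ae_lt_top hm hsum.ne] with q hq
  intro y
  have h1 : ∑' n, (MM n k q.1).indicator (1 : Sym2 ℕ → ℝ≥0∞) s(q.2, y) < ∞ := by
    refine lt_of_le_of_lt (ENNReal.tsum_le_tsum fun n => ?_) hq
    exact ENNReal.le_tsum (f := fun y => (MM n k q.1).indicator (1 : Sym2 ℕ → ℝ≥0∞) s(q.2, y)) y
  have h2 := ENNReal.tendsto_cofinite_zero_of_tsum_ne_top h1.ne
  rw [Nat.cofinite_eq_atTop] at h2
  have h3 := (ENNReal.tendsto_nhds_zero.mp h2) (1 / 2) (by simp)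
  rw [eventually_atTop] at h3
  obtain ⟨N, hN⟩ := h3
  refine ⟨N, fun n hn hmem => ?_⟩
  have := hN n hn
  rw [Set.indicator_of_mem hmem, Pi.one_apply] at this
  norm_num at this

theorem MM_act (n : ℕ) (t : ℝ) (σ : Equiv.Perm ℕ) (ω : O2) :
    MM n t (act σ ω) = act σ (MM n t ω) := by
  unfold MM
  rw [SS_act, PP_act, act_inter]
  congr 1
  ext e
  show e ∈ symmDiff (act σ (PP n ω)) (act σ ω.2.1) ↔ _
  simp only [mem_act, Set.mem_symmDiff]

theorem ae_mismatch_all {μ : Set (Sym2 ℕ) → Measure (Set (Sym2 ℕ))} (hμ : FK μ)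
    {ρ : Measure (Set (Sym2 ℕ) × ℕ)} (hρ : IsUnimodular ρ) :
    ∀ᵐ q ∂(rho2 μ ρ), ∀ x : ℕ, ∀ k : ℕ, ∀ y : ℕ, ∃ N : ℕ, ∀ n, N ≤ n → s(x, y) ∉ MM n k q.1 := by
  refine MTP.root (mtp_rho2 hμ hρ)
    (fun ω x => ∀ k : ℕ, ∀ y : ℕ, ∃ N : ℕ, ∀ n, N ≤ n → s(x, y) ∉ MM n k ω) ?_ ?_
    (ae_mismatch hμ hρ)
  · intro x
    have : {ω : O2 | ∀ k : ℕ, ∀ y : ℕ, ∃ N : ℕ, ∀ n, N ≤ n → s(x, y) ∉ MM n k ω} =
        ⋂ k : ℕ, ⋂ y : ℕ, ⋃ N : ℕ, ⋂ n : ℕ, ⋂ _ : N ≤ n, {ω | s(x, y) ∈ MM n k ω}ᶜ := by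
      ext ω; simp
    rw [this]
    exact MeasurableSet.iInter fun k => MeasurableSet.iInter fun y => MeasurableSet.iUnion fun N =>
      MeasurableSet.iInter fun n => MeasurableSet.iInter fun _ => (meas_mem (meas_MM n k) _).compl
  · intro σ ω x
    constructor
    · intro h k y
      obtain ⟨N, hN⟩ := h k (σ y)
      refine ⟨N, fun n hn hmem => hN n hn ?_⟩
      rw [MM_act, mem_act]
      simpa using hmem
    · intro h k y
      obtain ⟨N, hN⟩ := h k (σ.symm y)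
      refine ⟨N, fun n hn hmem => hN n hn ?_⟩
      rw [MM_act, mem_act] at hmem
      simpa using hmem

/-- the limiting factor map -/
def PhiLim (s : Set (Sym2 ℕ)) (u v : Sym2 ℕ → ℝ) : Set (Sym2 ℕ) :=
  {e | ∃ N : ℕ, ∀ n, N ≤ n → e ∈ Phi n s u v}

theorem PhiLim_measurable : Measurable
    fun q : Set (Sym2 ℕ) × (Sym2 ℕ → ℝ) × (Sym2 ℕ → ℝ) => PhiLim q.1 q.2.1 q.2.2 := by
  refine meas_set fun e => ?_
  have : {q : Set (Sym2 ℕ) × (Sym2 ℕ → ℝ) × (Sym2 ℕ → ℝ) | e ∈ PhiLim q.1 q.2.1 q.2.2} =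
      ⋃ N : ℕ, ⋂ n : ℕ, ⋂ _ : N ≤ n, {q | e ∈ Phi n q.1 q.2.1 q.2.2} := by
    ext q; simp [PhiLim]
  rw [this]
  exact MeasurableSet.iUnion fun N => MeasurableSet.iInter fun n => MeasurableSet.iInter fun _ =>
    meas_mem (Phi_measurable n) e

theorem PhiLim_act (σ : Equiv.Perm ℕ) (s : Set (Sym2 ℕ)) (u v : Sym2 ℕ → ℝ) :
    PhiLim (act σ s) (act σ u) (act σ v) = act σ (PhiLim s u v) := by
  ext e
  simp only [PhiLim, mem_act, Set.mem_ofPred_eq, Phi_act]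

theorem PhiLim_local (s : Set (Sym2 ℕ)) (u v u' v' : Sym2 ℕ → ℝ) (hu : ∀ e ∈ s, u e = u' e)
    (hv : ∀ e ∈ s, v e = v' e) : PhiLim s u v = PhiLim s u' v' := by
  have hp : ∀ g ∈ s, past s (clk s u) g = past s (clk s u') g := by
    intro g hg
    ext k
    simp only [past, Set.mem_ofPred_eq]
    refine and_congr_right fun hk => ?_
    simp only [clk, hu k hk, hu g hg]
  have h : ∀ n, Phi n s u v = Phi n s u' v' := by
    intro n
    have := Phi_local n s u v u' v' s hp (fun g _ => past_subset s _ g) hv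
    rwa [Set.inter_eq_left.mpr (Phi_subset n s u v),
      Set.inter_eq_left.mpr (Phi_subset n s u' v')] at this
  unfold PhiLim
  simp only [h]

theorem ae_fixed {μ : Set (Sym2 ℕ) → Measure (Set (Sym2 ℕ))} (hμ : FK μ)
    {ρ : Measure (Set (Sym2 ℕ) × ℕ)} (hρ : IsUnimodular ρ) :
    ∀ᵐ a ∂ρ, ∀ᵐ u ∂expE, ∀ᵐ p ∂(kap μ (a.1, u)), p.1 = PhiLim a.1 u (Vl a.1 u p.1 p.2) := by
  have h1 := ae_extend (rho1 ρ) (meas_kap hμ) (prob_kap hμ) (ae_mismatch_all hμ hρ)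
  have h2 := ae_extend ρ (measurable_const (a := expE)) (fun _ => isProb_expE) h1
  filter_upwards [h2, hρ.2.1] with a ha hs
  filter_upwards [ha, expE_pos] with u hu hpos
  have hF : ∀ᵐ p ∂(kap μ (a.1, u)), p.1 ⊆ a.1 := by
    have hp := hμ.prob a.1
    have := fusf_subset hs (hμ.fusf a.1 hs)
    have hq : Measure.QuasiMeasurePreserving Prod.fst ((μ a.1).prod lamE) (μ a.1) :=
      Measure.quasiMeasurePreserving_fst
    exact hq.ae this
  filter_upwards [hu, hF] with p hp hF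
  ext e
  by_cases he : e ∈ a.1
  · obtain ⟨k, hk⟩ := exists_nat_gt (u e * (De a.1 e).toReal)
    have hmem : e ∈ SS k ((a.1, u), p) := ⟨he, (clk_lt_iff hs (hpos e).le k).mpr hk⟩
    obtain ⟨N, hN⟩ : ∃ N : ℕ, ∀ n, N ≤ n → e ∉ MM n k ((a.1, u), p) := by
      induction e using Sym2.ind with
      | _ x y => exact hp x k y
    have hiff : ∀ n, N ≤ n → (e ∈ PP n ((a.1, u), p) ↔ e ∈ p.1) := by
      intro n hn
      have := hN n hn
      unfold MM at this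
      rw [Set.mem_inter_iff, not_and] at this
      have h3 := this hmem
      rw [Set.mem_symmDiff] at h3
      have h4 : e ∈ (((a.1, u), p) : O2).2.1 ↔ e ∈ p.1 := Iff.rfl
      rw [h4] at h3
      tauto
    constructor
    · intro heF
      exact ⟨N, fun n hn => (hiff n hn).mpr heF⟩
    · rintro ⟨M, hM⟩
      exact (hiff (max N M) (le_max_left _ _)).mp (hM _ (le_max_right _ _))
  · constructor
    · intro h; exact absurd (hF h) he
    · rintro ⟨M, hM⟩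
      exact absurd (Phi_subset M _ _ _ (hM M le_rfl)) he

theorem edge_factor {ρ : Measure (Set (Sym2 ℕ) × ℕ)} (hρ : IsUnimodular ρ) :
    ∃ Φ : Set (Sym2 ℕ) → (Sym2 ℕ → ℝ) → (Sym2 ℕ → ℝ) → Set (Sym2 ℕ),
      Measurable (fun q : Set (Sym2 ℕ) × (Sym2 ℕ → ℝ) × (Sym2 ℕ → ℝ) => Φ q.1 q.2.1 q.2.2) ∧
      (∀ (σ : Equiv.Perm ℕ) (s : Set (Sym2 ℕ)) (u v : Sym2 ℕ → ℝ),
        Φ (act σ s) (act σ u) (act σ v) = act σ (Φ s u v)) ∧
      (∀ (s : Set (Sym2 ℕ)) (u v u' v' : Sym2 ℕ → ℝ), (∀ e ∈ s, u e = u' e) →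
        (∀ e ∈ s, v e = v' e) → Φ s u v = Φ s u' v') ∧
      ∀ᵐ p ∂ρ, IsFUSF p.1 ((expE.prod lamE).map fun q => Φ p.1 q.1 q.2) := by
  obtain ⟨μ, h1, h2, h3, h4⟩ := exists_fusf
  have hμ : FK μ := ⟨h1, h2, h3, h4⟩
  refine ⟨PhiLim, PhiLim_measurable, PhiLim_act, PhiLim_local, ?_⟩
  filter_upwards [ae_fixed hμ hρ, id_past hμ hρ, hρ.2.1] with a ha hid hs
  have hprob := hμ.prob a.1
  have hid' : ∀ᵐ u ∂expE, ∀ e, e ∈ a.1 → IDp (μ a.1) a.1 (past a.1 (clk a.1 u) e) e := by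
    rw [ae_all_iff]
    intro e
    by_cases he : e ∈ a.1
    · filter_upwards [hid e he] with u hu _ using hu
    · exact Eventually.of_forall fun u h => absurd h he
  have mP : Measurable fun q : (Sym2 ℕ → ℝ) × (Sym2 ℕ → ℝ) => PhiLim a.1 q.1 q.2 :=
    PhiLim_measurable.comp (g := fun q : Set (Sym2 ℕ) × (Sym2 ℕ → ℝ) × (Sym2 ℕ → ℝ) =>
      PhiLim q.1 q.2.1 q.2.2) (f := fun q : (Sym2 ℕ → ℝ) × (Sym2 ℕ → ℝ) => (a.1, q))
      (measurable_const.prodMk measurable_id)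
  have hlaw : (expE.prod lamE).map (fun q => PhiLim a.1 q.1 q.2) = μ a.1 := by
    refine Measure.ext fun C hC => ?_
    rw [Measure.map_apply mP hC, Measure.prod_apply (mP hC)]
    have : ∀ᵐ u ∂expE, lamE (Prod.mk u ⁻¹' ((fun q : (Sym2 ℕ → ℝ) × (Sym2 ℕ → ℝ) =>
        PhiLim a.1 q.1 q.2) ⁻¹' C)) = μ a.1 C := by
      filter_upwards [ha, hid', clk_injOn hs] with u hu hidu hinj
      have hc := coupling_law a.1 (clk a.1 u) hinj (μ a.1) (fusf_subset hs (hμ.fusf a.1 hs))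
        (fun g A => xval a.1 A (past a.1 (clk a.1 u) g) g)
        (fun g => meas_xval measurable_const measurable_id measurable_const g)
        (fun g A => xval_nonneg _ _ _ _) (fun g A => xval_le_one _ _ _ _)
        (fun g hg A => xval_eq_zero _ _ _ _ (Or.inr (Or.inl hg)))
        (fun g hg => hidu g hg)
      have mu1 : Measurable fun v : Sym2 ℕ → ℝ => PhiLim a.1 u v :=
        mP.comp (g := fun q : (Sym2 ℕ → ℝ) × (Sym2 ℕ → ℝ) => PhiLim a.1 q.1 q.2)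
          (f := fun v => (u, v)) (measurable_const.prodMk measurable_id)
      have mV : Measurable fun p : O1 => Vl a.1 u p.1 p.2 :=
        Vl_measurable.comp (g := fun q : O1 × O1 => Vl q.1.1 q.1.2 q.2.1 q.2.2)
          (f := fun p : O1 => (((a.1, u), p) : O2)) (meas_pair a.1 u)
      show lamE ((fun v : Sym2 ℕ → ℝ => PhiLim a.1 u v) ⁻¹' C) = μ a.1 C
      conv_lhs => rw [← hc]
      have hc2 : ((μ a.1).prod lamE).map (fun p => Vlab (fun g A => xval a.1 A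
          (past a.1 (clk a.1 u) g) g) (past a.1 (clk a.1 u)) p.1 p.2)
          ((fun v : Sym2 ℕ → ℝ => PhiLim a.1 u v) ⁻¹' C) =
          (kap μ (a.1, u)) {p : O1 | PhiLim a.1 u (Vl a.1 u p.1 p.2) ∈ C} :=
        Measure.map_apply mV (mu1 hC)
      rw [hc2]
      have hae : {p : O1 | PhiLim a.1 u (Vl a.1 u p.1 p.2) ∈ C} =ᵐ[kap μ (a.1, u)]
          {p : O1 | p.1 ∈ C} := by
        filter_upwards [hu] with p hp
        refine propext ?_
        show PhiLim a.1 u (Vl a.1 u p.1 p.2) ∈ C ↔ p.1 ∈ C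
        rw [← hp]
      rw [measure_congr hae]
      have : {p : O1 | p.1 ∈ C} = C ×ˢ (Set.univ : Set (Sym2 ℕ → ℝ)) := by
        ext p; simp
      rw [this]
      unfold kap
      rw [Measure.prod_prod, measure_univ, mul_one]
    rw [lintegral_congr_ae this]
    simp
  rw [hlaw]
  exact hμ.fusf a.1 hs

end Vale.Agent.H15.F
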